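import Crest.Agent.R34.Defs2

/-!
# Row 34, task A1: degrees and few hits in stage A.
-/

set_option autoImplicit false

open Finset Classical

namespace Crest.Agent.R34

/-- numerical estimate: `C^n / n! ≤ 1 / (16 q^2)` for `n = (log₂ q)^2` and `q` large. -/
theorem a1_numeric (C : ℝ) (hC : 0 ≤ C) : ∃ q₀ : ℕ, ∀ q : ℕ, q₀ ≤ q →
    2 ≤ q ∧ 1 ≤ lg q ∧ C ^ (lg q) / (lg q).factorial * (q : ℝ) ^ 2 ≤ 1 / 16 := by
  have h1 := FloorSemiring.tendsto_pow_div_factorial_atTop (4 * C)
  have h2 : ∀ᶠ n : ℕ in Filter.atTop, (4 * C) ^ n / (n.factorial : ℝ) ≤ 1 / 16 :=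
    (h1.eventually (ge_mem_nhds (by norm_num : (0 : ℝ) < 1 / 16)))
  obtain ⟨n₀, hn₀⟩ := Filter.eventually_atTop.mp h2
  refine ⟨2 ^ (n₀ + 2), fun q hq => ?_⟩
  have hq4 : 4 ≤ q := by
    refine le_trans ?_ hq
    rw [pow_add]
    have : 1 ≤ 2 ^ n₀ := Nat.one_le_two_pow
    omega
  have hlog : n₀ + 2 ≤ Nat.log 2 q := by
    apply Nat.le_log_of_pow_le (by norm_num) hq
  have hl : Nat.log 2 q + 1 ≤ lg q := by
    unfold lg
    nlinarith
  have hn : n₀ ≤ lg q := by omega
  refine ⟨by omega, by omega, ?_⟩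
  have h3 := hn₀ (lg q) hn
  have h4 : q < 2 ^ (Nat.log 2 q + 1) := Nat.lt_pow_succ_log_self (by norm_num) q
  have h5 : q ≤ 2 ^ lg q := le_trans h4.le (Nat.pow_le_pow_right (by norm_num) hl)
  have h6 : (q : ℝ) ^ 2 ≤ 4 ^ lg q := by
    have : (q : ℝ) ≤ 2 ^ lg q := by exact_mod_cast h5
    calc (q : ℝ) ^ 2 ≤ (2 ^ lg q) ^ 2 := by gcongr
      _ = 4 ^ lg q := by rw [← pow_mul, mul_comm, pow_mul]; norm_num
  calc C ^ (lg q) / (lg q).factorial * (q : ℝ) ^ 2
      ≤ C ^ (lg q) / (lg q).factorial * 4 ^ lg q := by gcongr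
    _ = (4 * C) ^ lg q / ((lg q).factorial : ℝ) := by rw [mul_pow]; ring
    _ ≤ 1 / 16 := h3

section
variable {F : Type} [Field F] [Fintype F]

/-- hit predicate: `L` passes through the point of part `i` with value `x`. -/
def a1I (L : Ln F) (i : Option F) (x : F) : Prop := ev L i = x

/-- avoiding predicate -/
def a1B (z : Pt F) (L : Ln F) (i : Option F) (x : F) : Prop := i ≠ z.1 → ev L i ≠ x

/-- lines through `z` avoiding the other points of `X` -/
noncomputable def a1A (z : Pt F) (X : Option F → F) : Finset (Ln F) :=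
  univ.filter (fun L : Ln F => On z L ∧ ∀ i, a1B z L i (X i))

/-- number of lines through `z` avoiding the other points of `X` -/
noncomputable def a1f (z : Pt F) (X : Option F → F) : ℝ := ((a1A z X).card : ℝ)

omit [Fintype F] in
theorem a1_exists_ne (i : Option F) : ∃ m : Option F, i ≠ m := by
  cases i with
  | none => exact ⟨some 0, by simp⟩
  | some t => exact ⟨none, by simp⟩

theorem a1_card_lines (z : Pt F) :
    (univ.filter (fun L : Ln F => On z L)).card = Fintype.card F := by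
  obtain ⟨m, hm⟩ := a1_exists_ne z.1
  have h1 : (univ.filter (fun L : Ln F => On z L)) = univ.image (fun x : F => join z (m, x)) := by
    ext L
    rw [Finset.mem_filter, Finset.mem_image]
    constructor
    · rintro ⟨_, h⟩
      exact ⟨ev L m, Finset.mem_univ _, join_eq (z' := (m, ev L m)) hm h (On_ev L m)⟩
    · rintro ⟨x, _, rfl⟩
      exact ⟨Finset.mem_univ _, On_join_left (z' := (m, x)) hm⟩
  rw [h1, Finset.card_image_of_injective _ ?_, Finset.card_univ]
  intro x x' hx
  have e1 : ev (join z (m, x)) m = x := On_join_right (z' := (m, x)) hm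
  have e2 : ev (join z (m, x')) m = x' := On_join_right (z' := (m, x')) hm
  simp only at hx
  rw [hx] at e1
  exact e1.symm.trans e2

theorem a1_ex (z : Pt F) :
    ex (spA F) (a1f z) =
      (Fintype.card F : ℝ) * (1 - 1 / (Fintype.card F : ℝ)) ^ (Fintype.card F) := by
  have hq : (0 : ℝ) < Fintype.card F := by exact_mod_cast Fintype.card_pos
  unfold ex
  have h1 : ∀ ω : Option F → F, a1f z ω =
      ∑ L ∈ univ.filter (fun L : Ln F => On z L), if (∀ i, a1B z L i (ω i)) then (1 : ℝ) else 0 := by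
    intro ω
    unfold a1f a1A
    rw [← Finset.filter_filter, Finset.card_filter]
    push_cast
    rfl
  simp_rw [h1]
  rw [Finset.sum_comm, Finset.sum_div]
  have h2 : ∀ L ∈ univ.filter (fun L : Ln F => On z L),
      (∑ ω ∈ sp (spA F), if (∀ i, a1B z L i (ω i)) then (1 : ℝ) else 0) / (sp (spA F)).card =
        (1 - 1 / (Fintype.card F : ℝ)) ^ (Fintype.card F) := by
    intro L _
    have h3 : (∑ ω ∈ sp (spA F), if (∀ i, a1B z L i (ω i)) then (1 : ℝ) else 0) /
        (sp (spA F)).card = pr (spA F) (fun ω => ∀ i, a1B z L i (ω i)) := by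
      unfold pr
      rw [Finset.card_filter]
      push_cast
      rfl
    rw [h3, pr_pi]
    rw [← Finset.mul_prod_erase univ _ (Finset.mem_univ z.1)]
    have h4 : ((((spA F z.1).filter (a1B z L z.1)).card : ℝ) / (spA F z.1).card) = 1 := by
      have : (spA F z.1).filter (a1B z L z.1) = spA F z.1 := by
        apply Finset.filter_true_of_mem
        intro x _ h
        exact absurd rfl h
      rw [this]
      apply div_self
      have : (spA F z.1).card = Fintype.card F := Finset.card_univ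
      rw [this]
      exact hq.ne'
    rw [h4, one_mul]
    have h5 : ∀ i ∈ (univ : Finset (Option F)).erase z.1,
        ((((spA F i).filter (a1B z L i)).card : ℝ) / (spA F i).card) =
          1 - 1 / (Fintype.card F : ℝ) := by
      intro i hi
      have hi' : i ≠ z.1 := Finset.ne_of_mem_erase hi
      have h6 : (spA F i).filter (a1B z L i) = (univ : Finset F).erase (ev L i) := by
        ext x
        rw [Finset.mem_filter, Finset.mem_erase]
        unfold a1B
        constructor
        · rintro ⟨h7, h8⟩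
          exact ⟨(h8 hi').symm, Finset.mem_univ _⟩
        · rintro ⟨h7, _⟩
          exact ⟨Finset.mem_univ _, fun _ => h7.symm⟩
      rw [h6, Finset.card_erase_of_mem (Finset.mem_univ _), Finset.card_univ]
      rw [Nat.cast_sub Fintype.card_pos]
      field_simp
      simp
    rw [Finset.prod_congr rfl h5, Finset.prod_const, Finset.card_erase_of_mem (Finset.mem_univ _),
      Finset.card_univ, Fintype.card_option]
    simp
  rw [Finset.sum_congr rfl h2, Finset.sum_const, a1_card_lines, nsmul_eq_mul]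

theorem a1_diff_aux (z : Pt F) (ω ω' : Option F → F) (m : Option F)
    (h : ∀ m', m' ≠ m → ω m' = ω' m') : a1f z ω ≤ a1f z ω' + 1 := by
  have h1 : a1A z ω \ a1A z ω' ⊆ {join z (m, ω' m)} := by
    intro L hL
    rw [Finset.mem_sdiff] at hL
    unfold a1A at hL
    rw [Finset.mem_filter, Finset.mem_filter] at hL
    obtain ⟨⟨_, hz, h2⟩, h3⟩ := hL
    have h4 : ¬ ∀ i, a1B z L i (ω' i) := fun h5 => h3 ⟨Finset.mem_univ _, hz, h5⟩
    push Not at h4
    obtain ⟨i, hi⟩ := h4
    unfold a1B at hi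
    push Not at hi
    obtain ⟨hi1, hi2⟩ := hi
    have h5 : i = m := by
      by_contra h6
      exact h2 i hi1 (by rw [h i h6]; exact hi2)
    subst h5
    rw [Finset.mem_singleton]
    exact (join_eq (z' := (i, ω' i)) (fun h7 => hi1 h7.symm) hz hi2).symm
  have h2 : (a1A z ω).card ≤ (a1A z ω').card + 1 := by
    have h3 : a1A z ω ⊆ a1A z ω' ∪ (a1A z ω \ a1A z ω') := by
      intro L hL
      rw [Finset.mem_union, Finset.mem_sdiff]
      tauto
    calc (a1A z ω).card ≤ (a1A z ω' ∪ (a1A z ω \ a1A z ω')).card := Finset.card_le_card h3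
      _ ≤ (a1A z ω').card + (a1A z ω \ a1A z ω').card := Finset.card_union_le _ _
      _ ≤ (a1A z ω').card + 1 := by
        have := Finset.card_le_card h1
        rw [Finset.card_singleton] at this
        omega
  unfold a1f
  exact_mod_cast h2

theorem a1_diff (z : Pt F) (ω ω' : Option F → F) (m : Option F)
    (h : ∀ m', m' ≠ m → ω m' = ω' m') : |a1f z ω - a1f z ω'| ≤ 1 := by
  rw [abs_le]
  have h1 := a1_diff_aux z ω ω' m h
  have h2 := a1_diff_aux z ω' ω m (fun m' hm' => (h m' hm').symm)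
  constructor <;> linarith

end

/-- the probability that a line has `s` hits -/
theorem a1_hits (h : FewHits) {F : Type} [Field F] [Fintype F] (L : Ln F) (s : ℕ) :
    pr (spA F) (fun X => s ≤ (univ.filter (fun i => a1I L i (X i))).card) ≤
      2 ^ s / s.factorial := by
  have hq : (0 : ℝ) < Fintype.card F := by exact_mod_cast Fintype.card_pos
  have hq1 : (1 : ℝ) ≤ Fintype.card F := by exact_mod_cast Fintype.card_pos
  refine le_trans (h _ _ (spA F) (a1I L) s) ?_
  have hterm : ∀ i ∈ (univ : Finset (Option F)),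
      (((spA F i).filter (a1I L i)).card : ℝ) / (spA F i).card ≤ 1 / Fintype.card F := by
    intro i _
    have h3 : ((spA F i).filter (a1I L i)).card ≤ 1 := by
      rw [Finset.card_le_one]
      intro x hx x' hx'
      rw [Finset.mem_filter] at hx hx'
      exact hx.2.symm.trans hx'.2
    have h4 : (spA F i).card = Fintype.card F := Finset.card_univ
    have h3' : (((spA F i).filter (a1I L i)).card : ℝ) ≤ 1 := by exact_mod_cast h3
    rw [h4]
    gcongr
  have hsum : (∑ i, (((spA F i).filter (a1I L i)).card : ℝ) / (spA F i).card) ≤ 2 := by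
    refine le_trans (Finset.sum_le_card_nsmul _ _ _ hterm) ?_
    rw [nsmul_eq_mul, Finset.card_univ, Fintype.card_option]
    push_cast
    rw [mul_one_div, div_le_iff₀ hq]
    linarith
  have hsum0 : 0 ≤ (∑ i, (((spA F i).filter (a1I L i)).card : ℝ) / (spA F i).card) :=
    Finset.sum_nonneg (fun i _ => by positivity)
  exact div_le_div_of_nonneg_right (pow_le_pow_left₀ hsum0 hsum s) (Nat.cast_nonneg _)

theorem taskAfew (h : FewHits) : TaskAfew := by
  obtain ⟨q₀, hq₀⟩ := a1_numeric 2 (by norm_num)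
  refine ⟨q₀, ?_⟩
  intro F _ _ hqF
  obtain ⟨hq2, hn1, hnum⟩ := hq₀ (Fintype.card F) hqF
  have hq : (0 : ℝ) < Fintype.card F := by exact_mod_cast Fintype.card_pos
  have hq1 : (1 : ℝ) ≤ Fintype.card F := by exact_mod_cast Fintype.card_pos
  have h1 : pr (spA F) (fun X => ¬ PAfew X) ≤ pr (spA F) (fun X => ∃ L ∈ (univ : Finset (Ln F)),
      lg (Fintype.card F) ≤ (univ.filter (fun i => a1I L i (X i))).card) := by
    apply pr_mono
    intro X _ hX
    unfold PAfew at hX
    push Not at hX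
    obtain ⟨L, hL⟩ := hX
    refine ⟨L, Finset.mem_univ _, le_trans hL.le (le_of_eq ?_)⟩
    congr 1
  refine le_trans h1 (le_trans (pr_exists_le _ _ _) ?_)
  have h2 : ∀ L ∈ (univ : Finset (Ln F)), pr (spA F)
      (fun X => lg (Fintype.card F) ≤ (univ.filter (fun i => a1I L i (X i))).card) ≤
      2 ^ lg (Fintype.card F) / (lg (Fintype.card F)).factorial :=
    fun L _ => a1_hits h L _
  refine le_trans (Finset.sum_le_card_nsmul _ _ _ h2) ?_
  rw [nsmul_eq_mul, Finset.card_univ, Fintype.card_prod]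
  push_cast
  calc (Fintype.card F : ℝ) * Fintype.card F *
        (2 ^ lg (Fintype.card F) / (lg (Fintype.card F)).factorial)
      = 2 ^ lg (Fintype.card F) / (lg (Fintype.card F)).factorial * (Fintype.card F : ℝ) ^ 2 := by
        ring
    _ ≤ 1 / 16 := hnum
    _ ≤ 1 / 8 := by norm_num

/-- numerical estimate for the degree task -/
theorem a1_numeric2 (q : ℕ) (hq : 8 ≤ q) :
    ((q : ℝ) + 1) * q * (2 * Real.exp (- ((lg q : ℝ) * √q) ^ 2 / (2 * ((q : ℝ) + 1)))) ≤ 1 / 8 := by
  obtain ⟨l, hl⟩ : ∃ l, l = Nat.log 2 q := ⟨_, rfl⟩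
  have hl3 : 3 ≤ l := by
    rw [hl]
    exact Nat.le_log_of_pow_le (by norm_num) (by norm_num; exact hq)
  have hlg : lg q = l ^ 2 := by rw [hl]; rfl
  have h4 : q < 2 ^ (l + 1) := by rw [hl]; exact Nat.lt_pow_succ_log_self (by norm_num) q
  have hqpos : (0 : ℝ) < q := by
    have : 0 < q := by omega
    exact_mod_cast this
  have hq1 : (1 : ℝ) ≤ q := by
    have : 1 ≤ q := by omega
    exact_mod_cast this
  have h5 : - ((lg q : ℝ) * √q) ^ 2 / (2 * ((q : ℝ) + 1)) ≤ - (2 * (l : ℝ) + 6) := by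
    rw [mul_pow, Real.sq_sqrt hqpos.le, hlg]
    push_cast
    rw [neg_div, neg_le_neg_iff, le_div_iff₀ (by positivity)]
    have hl3' : (3 : ℝ) ≤ l := by exact_mod_cast hl3
    have h6 : 4 * (2 * (l : ℝ) + 6) ≤ ((l : ℝ) ^ 2) ^ 2 := by
      have e1 : (0 : ℝ) ≤ (l : ℝ) - 3 := by linarith
      nlinarith [mul_nonneg e1 e1, mul_nonneg (mul_nonneg e1 e1) e1,
        mul_nonneg (mul_nonneg (mul_nonneg e1 e1) e1) e1]
    calc (2 * (l : ℝ) + 6) * (2 * ((q : ℝ) + 1)) ≤ (2 * (l : ℝ) + 6) * (4 * q) :=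
          mul_le_mul_of_nonneg_left (by linarith) (by positivity)
      _ = (4 * (2 * (l : ℝ) + 6)) * q := by ring
      _ ≤ ((l : ℝ) ^ 2) ^ 2 * q := by gcongr
  have h7 : Real.exp (- ((lg q : ℝ) * √q) ^ 2 / (2 * ((q : ℝ) + 1))) ≤
      Real.exp (- (2 * (l : ℝ) + 6)) := Real.exp_le_exp.mpr h5
  have h8 : Real.exp (- (2 * (l : ℝ) + 6)) ≤ 1 / 2 ^ (2 * l + 6) := by
    rw [Real.exp_neg, one_div]
    apply inv_anti₀ (by positivity)
    have e1 : (2 : ℝ) ≤ Real.exp 1 := by
      have := Real.add_one_le_exp (1 : ℝ)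
      linarith
    calc (2 : ℝ) ^ (2 * l + 6) ≤ Real.exp 1 ^ (2 * l + 6) := by gcongr
      _ = Real.exp (2 * (l : ℝ) + 6) := by
        rw [← Real.exp_nat_mul]
        push_cast
        ring_nf
  have h9 : ((q : ℝ) + 1) * q ≤ 2 ^ (l + 1) * 2 ^ (l + 1) := by
    have e1 : (q : ℝ) + 1 ≤ 2 ^ (l + 1) := by exact_mod_cast h4
    have e2 : (q : ℝ) ≤ 2 ^ (l + 1) := by linarith
    gcongr
  calc ((q : ℝ) + 1) * q * (2 * Real.exp (- ((lg q : ℝ) * √q) ^ 2 / (2 * ((q : ℝ) + 1))))
      ≤ (2 ^ (l + 1) * 2 ^ (l + 1)) * (2 * (1 / 2 ^ (2 * l + 6))) := by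
        gcongr
        exact h7.trans h8
    _ = 1 / 8 := by
        have e3 : (2 : ℝ) ^ (2 * l + 6) = (2 ^ (l + 1) * 2 ^ (l + 1)) * 16 := by ring
        rw [e3]
        field_simp
        norm_num

theorem taskAdeg (h : McDiarmid) : TaskAdeg := by
  refine ⟨8, ?_⟩
  intro F _ _ hqF
  have hq : (0 : ℝ) < Fintype.card F := by exact_mod_cast Fintype.card_pos
  have h1 : pr (spA F) (fun X => ¬ PAdeg X) ≤ pr (spA F) (fun X => ∃ z ∈ (univ : Finset (Pt F)),
      (lg (Fintype.card F) : ℝ) * √(Fintype.card F) ≤ |a1f z X - ex (spA F) (a1f z)|) := by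
    apply pr_mono
    intro X _ hX
    unfold PAdeg at hX
    push Not at hX
    obtain ⟨z, hz1, hz2⟩ := hX
    refine ⟨z, Finset.mem_univ _, ?_⟩
    rw [a1_ex]
    refine le_trans hz2.le (le_of_eq ?_)
    have h2 : (univ.filter (fun L : Ln F => On z L ∧ ∀ i, ev L i ≠ X i)) = a1A z X := by
      unfold a1A
      ext L
      rw [Finset.mem_filter, Finset.mem_filter]
      unfold a1B
      constructor
      · rintro ⟨h3, h4, h5⟩
        exact ⟨h3, h4, fun i _ => h5 i⟩
      · rintro ⟨h3, h4, h5⟩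
        refine ⟨h3, h4, fun i => ?_⟩
        by_cases h6 : i = z.1
        · subst h6
          have h7 : ev L z.1 = z.2 := h4
          rw [h7]
          exact hz1
        · exact h5 i h6
    rw [h2]
    rfl
  refine le_trans h1 (le_trans (pr_exists_le _ _ _) ?_)
  have h2 : ∀ z ∈ (univ : Finset (Pt F)), pr (spA F)
      (fun X => (lg (Fintype.card F) : ℝ) * √(Fintype.card F) ≤
        |a1f z X - ex (spA F) (a1f z)|) ≤
      2 * Real.exp (- ((lg (Fintype.card F) : ℝ) * √(Fintype.card F)) ^ 2 /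
        (2 * ((Fintype.card F : ℝ) + 1))) := by
    intro z _
    refine h _ _ (spA F) ?_ (a1f z) (fun _ => 1) ?_ _ _ (by positivity) (by positivity) ?_
    · intro m
      exact Finset.univ_nonempty
    · intro ω ω' _ _ m hm
      exact a1_diff z ω ω' m hm
    · simp [Fintype.card_option]
  refine le_trans (Finset.sum_le_card_nsmul _ _ _ h2) ?_
  rw [nsmul_eq_mul, Finset.card_univ, Fintype.card_prod, Fintype.card_option]
  push_cast
  exact a1_numeric2 _ hqF

end Crest.Agent.R34
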