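import Crest.Agent.R34.Defs2

/-!
# Row 34, task A2: the property `PAgood` of stage A from `GoodLower`.
-/

set_option autoImplicit false

open Finset Classical

namespace Crest.Agent.R34

namespace A2

theorem eventually_le (n : ℕ) (C c δ : ℝ) (hc : 0 < c) (hδ : 0 < δ) : ∃ q₀ : ℕ, ∀ q : ℕ, q₀ ≤ q →
    C * (q : ℝ) ^ n * Real.exp (-c * q) ≤ δ := by
  have h1 := Real.tendsto_pow_mul_exp_neg_atTop_nhds_zero n
  have h2 : Filter.Tendsto (fun q : ℕ => c * (q : ℝ)) Filter.atTop Filter.atTop :=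
    Filter.Tendsto.const_mul_atTop hc tendsto_natCast_atTop_atTop
  have h3 := (h1.comp h2).const_mul (C / c ^ n)
  rw [mul_zero] at h3
  have h4 := h3.eventually (gt_mem_nhds hδ)
  obtain ⟨q₀, hq₀⟩ := Filter.eventually_atTop.1 h4
  refine ⟨q₀, fun q hq => ?_⟩
  have h5 := hq₀ q hq
  simp only [Function.comp_apply] at h5
  have h6 : C * (q : ℝ) ^ n * Real.exp (-c * q) =
      C / c ^ n * ((c * q) ^ n * Real.exp (-(c * q))) := by
    rw [neg_mul, mul_pow]
    field_simp
  rw [h6]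
  exact h5.le

variable {F : Type} [Field F] [Fintype F]

/-- the tests -/
noncomputable def Tst {R : ℕ} (i : Option F) (ξ : F) (J : Fin 2 → Fin R → Pt F) :
    Finset (Ln F) :=
  univ.filter (fun L : Ln F => ev L i = ξ ∧ ∀ k j, ¬ On (J k j) L)

theorem mem_Tst {R : ℕ} {i : Option F} {ξ : F} {J : Fin 2 → Fin R → Pt F} {L : Ln F} :
    L ∈ Tst i ξ J ↔ ev L i = ξ ∧ ∀ k j, ¬ On (J k j) L := by
  simp [Tst]

/-- the lines through a point -/
theorem card_through (i : Option F) (ξ : F) :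
    (univ.filter (fun L : Ln F => ev L i = ξ)).card = Fintype.card F := by
  rw [← Finset.card_univ (α := F)]
  cases i with
  | none =>
    refine Finset.card_nbij' (fun L => L.2) (fun y => (ξ, y)) ?_ ?_ ?_ ?_
    · intro L _
      exact Finset.mem_coe.2 (Finset.mem_univ _)
    · intro y _
      exact Finset.mem_coe.2 (Finset.mem_filter.2 ⟨Finset.mem_univ _, rfl⟩)
    · rintro ⟨a, b⟩ h
      have h' : a = ξ := (Finset.mem_filter.1 (Finset.mem_coe.1 h)).2
      simp [h']
    · intro y _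
      rfl
  | some t =>
    refine Finset.card_nbij' (fun L => L.1) (fun y => (y, ξ - y * t)) ?_ ?_ ?_ ?_
    · intro L _
      exact Finset.mem_coe.2 (Finset.mem_univ _)
    · intro y _
      exact Finset.mem_coe.2 (Finset.mem_filter.2 ⟨Finset.mem_univ _, by simp [ev]⟩)
    · rintro ⟨a, b⟩ h
      have h' : a * t + b = ξ := (Finset.mem_filter.1 (Finset.mem_coe.1 h)).2
      simp [← h']
    · intro y _
      rfl

theorem card_Tst_le {R : ℕ} (i : Option F) (ξ : F) (J : Fin 2 → Fin R → Pt F) :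
    (Tst i ξ J).card ≤ Fintype.card F := by
  rw [← card_through i ξ]
  apply Finset.card_le_card
  intro L hL
  rw [mem_Tst] at hL
  simp [hL.1]

theorem le_card_Tst {R : ℕ} (i : Option F) (ξ : F) (J : Fin 2 → Fin R → Pt F)
    (hJ : ∀ k j, (J k j).1 ≠ i) :
    Fintype.card F ≤ (Tst i ξ J).card + 2 * R := by
  have h1 : (univ.filter (fun L : Ln F => ev L i = ξ)) ⊆ Tst i ξ J ∪
      (univ : Finset (Fin 2 × Fin R)).biUnion (fun a =>
        univ.filter (fun L : Ln F => ev L i = ξ ∧ On (J a.1 a.2) L)) := by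
    intro L hL
    simp only [Finset.mem_filter, Finset.mem_univ, true_and] at hL
    by_cases h : ∀ k j, ¬ On (J k j) L
    · exact Finset.mem_union_left _ (mem_Tst.2 ⟨hL, h⟩)
    · push Not at h
      obtain ⟨k, j, hkj⟩ := h
      apply Finset.mem_union_right
      simp only [Finset.mem_biUnion, Finset.mem_univ, true_and, Finset.mem_filter]
      exact ⟨(k, j), hL, hkj⟩
  have h2 : ((univ : Finset (Fin 2 × Fin R)).biUnion (fun a =>
        univ.filter (fun L : Ln F => ev L i = ξ ∧ On (J a.1 a.2) L))).card ≤ 2 * R := by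
    refine (Finset.card_biUnion_le_card_mul _ _ 1 ?_).trans (by simp)
    intro a _
    rw [Finset.card_le_one]
    intro L hL L' hL'
    simp only [Finset.mem_filter, Finset.mem_univ, true_and] at hL hL'
    exact On_unique (z := (i, ξ)) (z' := J a.1 a.2) (fun h => hJ _ _ h.symm) hL.1 hL.2 hL'.1 hL'.2
  have h3 := (Finset.card_le_card h1).trans (Finset.card_union_le _ _)
  rw [card_through] at h3
  omega

/-- the value of the own line -/
noncomputable def oval {R : ℕ} (J : Fin 2 → Fin R → Pt F) (j' : Fin R) (k : Fin 2) (j : Fin R)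
    (L : Ln F) (i' : Option F) : F := ev (own (J k j) (J k j').1 L) i'

/-- the elementary bad events -/
def Bad1 {R : ℕ} (J : Fin 2 → Fin R → Pt F) (j' : Fin R) (o : Option (Fin 2 × Fin R))
    (i' : Option F) (L : Ln F) (w : F) : Prop :=
  match o with
  | none => ev L i' = w
  | some a => a.2 ≠ j' ∧ i' ≠ (J a.1 a.2).1 ∧ oval J j' a.1 a.2 L i' = w

/-- bad events -/
def Bad {R : ℕ} (i : Option F) (J : Fin 2 → Fin R → Pt F) (j' : Fin R)
    (i' : Option F) (L : Ln F) (w : F) : Prop :=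
  i' ≠ i ∧ ∃ o, Bad1 J j' o i' L w

theorem card_bad1_w {R : ℕ} (J : Fin 2 → Fin R → Pt F) (j' : Fin R)
    (o : Option (Fin 2 × Fin R)) (i' : Option F) (L : Ln F) :
    ((univ : Finset F).filter (fun w => Bad1 J j' o i' L w)).card ≤ 1 := by
  rw [Finset.card_le_one]
  intro w hw w' hw'
  rw [Finset.mem_filter] at hw hw'
  cases o with
  | none => exact (hw.2 : ev L i' = w).symm.trans (hw'.2 : ev L i' = w')
  | some a => exact hw.2.2.2.symm.trans hw'.2.2.2

theorem card_bad_w {R : ℕ} (i : Option F) (J : Fin 2 → Fin R → Pt F) (j' : Fin R)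
    (i' : Option F) (L : Ln F) :
    ((univ : Finset F).filter (fun w => Bad i J j' i' L w)).card ≤ 2 * R + 1 := by
  have h1 : ((univ : Finset F).filter (fun w => Bad i J j' i' L w)) ⊆
      (univ : Finset (Option (Fin 2 × Fin R))).biUnion (fun o =>
        (univ : Finset F).filter (fun w => Bad1 J j' o i' L w)) := by
    intro w hw
    rw [Finset.mem_filter] at hw
    obtain ⟨-, -, o, ho⟩ := hw
    rw [Finset.mem_biUnion]
    exact ⟨o, Finset.mem_univ _, Finset.mem_filter.2 ⟨Finset.mem_univ _, ho⟩⟩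
  refine (Finset.card_le_card h1).trans ?_
  refine (Finset.card_biUnion_le_card_mul _ _ 1 fun o _ => card_bad1_w J j' o i' L).trans ?_
  simp

theorem card_bad1_L {R : ℕ} {i : Option F} {ξ : F} {J : Fin 2 → Fin R → Pt F} {j' : Fin R}
    (hJ : ∀ k j, (J k j).1 ≠ i) (hJ' : ∀ k j, j ≠ j' → (J k j).1 ≠ (J k j').1)
    (o : Option (Fin 2 × Fin R)) {i' : Option F} (hi' : i' ≠ i) (w : F) :
    ((Tst i ξ J).filter (fun L => Bad1 J j' o i' L w)).card ≤ 1 := by
  rw [Finset.card_le_one]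
  intro L hL L' hL'
  rw [Finset.mem_filter, mem_Tst] at hL hL'
  obtain ⟨⟨h1, -⟩, h2⟩ := hL
  obtain ⟨⟨h1', -⟩, h2'⟩ := hL'
  cases o with
  | none =>
    exact On_unique (z := (i, ξ)) (z' := (i', w)) (fun h => hi' h.symm) h1 h2 h1' h2'
  | some a =>
    obtain ⟨h3, h4, h5⟩ := h2
    obtain ⟨-, -, h5'⟩ := h2'
    have hp := hJ' a.1 a.2 h3
    have ho : own (J a.1 a.2) (J a.1 j').1 L = own (J a.1 a.2) (J a.1 j').1 L' := by
      refine On_unique (z := J a.1 a.2) (z' := (i', w)) (fun h => h4 h.symm) ?_ h5 ?_ h5'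
      · exact On_join_left hp
      · exact On_join_left hp
    have e1 : ev (own (J a.1 a.2) (J a.1 j').1 L) (J a.1 j').1 = ev L (J a.1 j').1 :=
      On_join_right (z := J a.1 a.2) (z' := ((J a.1 j').1, ev L (J a.1 j').1)) hp
    have e2 : ev (own (J a.1 a.2) (J a.1 j').1 L') (J a.1 j').1 = ev L' (J a.1 j').1 :=
      On_join_right (z := J a.1 a.2) (z' := ((J a.1 j').1, ev L' (J a.1 j').1)) hp
    refine On_unique (z := (i, ξ)) (z' := ((J a.1 j').1, ev L (J a.1 j').1))
      (fun h => hJ a.1 j' h.symm) h1 rfl h1' ?_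
    show ev L' (J a.1 j').1 = ev L (J a.1 j').1
    rw [← e1, ← e2, ho]

theorem card_bad_L {R : ℕ} {i : Option F} {ξ : F} {J : Fin 2 → Fin R → Pt F} {j' : Fin R}
    (hJ : ∀ k j, (J k j).1 ≠ i) (hJ' : ∀ k j, j ≠ j' → (J k j).1 ≠ (J k j').1)
    (i' : Option F) (w : F) :
    ((Tst i ξ J).filter (fun L => Bad i J j' i' L w)).card ≤ 2 * R + 1 := by
  by_cases hi' : i' = i
  · have : (Tst i ξ J).filter (fun L => Bad i J j' i' L w) = ∅ := by
      apply Finset.filter_false_of_mem
      intro L _ h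
      exact h.1 hi'
    rw [this]
    simp
  have h1 : ((Tst i ξ J).filter (fun L => Bad i J j' i' L w)) ⊆
      (univ : Finset (Option (Fin 2 × Fin R))).biUnion (fun o =>
        (Tst i ξ J).filter (fun L => Bad1 J j' o i' L w)) := by
    intro L hL
    rw [Finset.mem_filter] at hL
    obtain ⟨hLT, -, o, ho⟩ := hL
    rw [Finset.mem_biUnion]
    exact ⟨o, Finset.mem_univ _, Finset.mem_filter.2 ⟨hLT, ho⟩⟩
  refine (Finset.card_le_card h1).trans ?_
  refine (Finset.card_biUnion_le_card_mul _ _ 1 fun o _ => card_bad1_L hJ hJ' o hi' w).trans ?_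
  simp

end A2

theorem taskAgood (hGL : GoodLower) : TaskAgood := by
  intro R
  obtain ⟨c₁, hc₁, q₁, hq₁⟩ := hGL (2 * R + 1) (1 / 2) 2 (by norm_num) (by norm_num)
  obtain ⟨q₂, hq₂⟩ := A2.eventually_le (4 * R + 2) (2 * 4 ^ R * R) c₁ (1 / 8) hc₁ (by norm_num)
  refine ⟨c₁, hc₁, max (max q₁ q₂) (4 * R + 1), ?_⟩
  intro F _ _ hq
  set q : ℕ := Fintype.card F with hqdef
  have hqa : q₁ ≤ q := le_trans (le_max_left _ _) (le_trans (le_max_left _ _) hq)
  have hqb : q₂ ≤ q := le_trans (le_max_right _ _) (le_trans (le_max_left _ _) hq)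
  have hqc : 4 * R + 1 ≤ q := le_trans (le_max_right _ _) hq
  have hqr : (1 : ℝ) ≤ q := by
    have : 1 ≤ q := by omega
    exact_mod_cast this
  let S : Finset (Option F × F × (Fin 2 → Fin R → Pt F) × Fin R) := univ.filter (fun a =>
    (∀ k j, (a.2.2.1 k j).1 ≠ a.1) ∧ ∀ k j, j ≠ a.2.2.2 →
      (a.2.2.1 k j).1 ≠ (a.2.2.1 k a.2.2.2).1)
  have key : ∀ a ∈ S, pr (spA F) (fun X => (((A2.Tst a.1 a.2.1 a.2.2.1).filter
      (fun L => ∀ i', ¬ A2.Bad a.1 a.2.2.1 a.2.2.2 i' L (X i'))).card : ℝ) < c₁ * q) ≤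
        Real.exp (-c₁ * q) := by
    intro a ha
    rw [Finset.mem_filter] at ha
    obtain ⟨-, hJ, hJ'⟩ := ha
    refine hq₁ q hqa (Option F) F (Ln F) (spA F) (A2.Tst a.1 a.2.1 a.2.2.1)
      (fun i' L w => A2.Bad a.1 a.2.2.1 a.2.2.2 i' L w) ?_ ?_ ?_ ?_ ?_ ?_
    · rw [Fintype.card_option]
      push_cast
      linarith
    · intro m
      show 1 / 2 * (q : ℝ) ≤ ((univ : Finset F).card : ℝ)
      rw [Finset.card_univ]
      linarith
    · have h1 := A2.le_card_Tst a.1 a.2.1 a.2.2.1 hJ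
      have h2 : (q : ℝ) ≤ (A2.Tst a.1 a.2.1 a.2.2.1).card + 2 * R := by exact_mod_cast h1
      have h3 : (4 * R + 1 : ℝ) ≤ q := by exact_mod_cast hqc
      linarith
    · have h1 := A2.card_Tst_le a.1 a.2.1 a.2.2.1
      have h2 : ((A2.Tst a.1 a.2.1 a.2.2.1).card : ℝ) ≤ q := by exact_mod_cast h1
      linarith
    · intro i' L _
      exact A2.card_bad_w a.1 a.2.2.1 a.2.2.2 i' L
    · intro i' w _
      exact A2.card_bad_L hJ hJ' i' w
  have hcardS : (S.card : ℝ) ≤ (2 * 4 ^ R * R) * (q : ℝ) ^ (4 * R + 2) := by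
    have h1 : S.card ≤ Fintype.card (Option F × F × (Fin 2 → Fin R → Pt F) × Fin R) :=
      Finset.card_le_univ _
    have h2 : Fintype.card (Option F × F × (Fin 2 → Fin R → Pt F) × Fin R) =
        (q + 1) * (q * ((((q + 1) * q) ^ R) ^ 2 * R)) := by
      rw [Fintype.card_prod, Fintype.card_prod, Fintype.card_prod, Fintype.card_option,
        Fintype.card_fun, Fintype.card_fun, Fintype.card_prod, Fintype.card_option,
        Fintype.card_fin, Fintype.card_fin]
    have h3 : (S.card : ℝ) ≤ ((q : ℝ) + 1) * (q * ((((q + 1) * q) ^ R) ^ 2 * R)) := by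
      rw [h2] at h1
      exact_mod_cast h1
    have h4 : ((q : ℝ) + 1) * (q * ((((q + 1) * q) ^ R) ^ 2 * R)) ≤
        (2 * q) * (q * ((((2 * q) * q) ^ R) ^ 2 * R)) := by
      gcongr
      · linarith
      · linarith
    have h5 : (2 * (q : ℝ)) * (q * ((((2 * q) * q) ^ R) ^ 2 * R)) =
        (2 * 4 ^ R * R) * (q : ℝ) ^ (4 * R + 2) := by
      rw [show ((2 * (q : ℝ)) * q) = 2 * q ^ 2 by ring, mul_pow, mul_pow, ← pow_mul, ← pow_mul,
        ← pow_mul, show (4 : ℝ) = 2 ^ 2 by norm_num, ← pow_mul, pow_add,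
        show 2 * (R * 2) = 4 * R by ring, mul_comm R 2]
      ring
    linarith
  have hsub : pr (spA F) (fun X => ¬ PAgood X R c₁) ≤
      pr (spA F) (fun X => ∃ a ∈ S, (((A2.Tst a.1 a.2.1 a.2.2.1).filter
      (fun L => ∀ i', ¬ A2.Bad a.1 a.2.2.1 a.2.2.2 i' L (X i'))).card : ℝ) < c₁ * q) := by
    apply pr_mono
    intro X _ hX
    unfold PAgood at hX
    push Not at hX
    obtain ⟨i, J, j', hJ, hJ', hlt⟩ := hX
    refine ⟨(i, X i, J, j'), ?_, ?_⟩
    · simp only [S, Finset.mem_filter, Finset.mem_univ, true_and]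
      exact ⟨hJ, hJ'⟩
    · refine lt_of_le_of_lt ?_ hlt
      have h1 : ((A2.Tst i (X i) J).filter (fun L => ∀ i', ¬ A2.Bad i J j' i' L (X i'))) ⊆
          (univ.filter (fun L : Ln F => ev L i = X i ∧ (∀ i', i' ≠ i → ev L i' ≠ X i') ∧
      (∀ k j, ¬ On (J k j) L) ∧ ∀ k j, j ≠ j' → ∀ i', i' ≠ (J k j).1 →
        ev (own (J k j) (J k j').1 L) i' ≠ X i')) := by
        intro L hL
        rw [Finset.mem_filter, A2.mem_Tst] at hL
        obtain ⟨⟨h1, h2⟩, h3⟩ := hL
        rw [Finset.mem_filter]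
        refine ⟨Finset.mem_univ _, h1, ?_, h2, ?_⟩
        · intro i' hi' h
          exact h3 i' ⟨hi', none, h⟩
        · intro k j hj i' hi' h
          by_cases hii : i' = i
          · subst hii
            have hp := hJ' k j hj
            have e1 : ev (own (J k j) (J k j').1 L) (J k j').1 = ev L (J k j').1 :=
              On_join_right (z := J k j) (z' := ((J k j').1, ev L (J k j').1)) hp
            have e2 : own (J k j) (J k j').1 L = L :=
              On_unique (z := (i', X i')) (z' := ((J k j').1, ev L (J k j').1))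
                (fun h => hJ k j' h.symm) h e1 h1 rfl
            apply h2 k j
            have e3 : On (J k j) (own (J k j) (J k j').1 L) := On_join_left hp
            rwa [e2] at e3
          · exact h3 i' ⟨hii, some (k, j), hj, hi', h⟩
      exact_mod_cast Finset.card_le_card h1
  refine hsub.trans ?_
  refine (pr_exists_le _ S _).trans ?_
  refine (Finset.sum_le_sum key).trans ?_
  rw [Finset.sum_const, nsmul_eq_mul]
  refine le_trans ?_ (hq₂ q hqb)
  exact mul_le_mul_of_nonneg_right hcardS (Real.exp_nonneg _)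

end Crest.Agent.R34
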