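import Crest.Agent.R34.Defs2

/-!
# Row 34, task A3: the witness conditions of stages A and C.
-/

set_option autoImplicit false

open Finset Classical

namespace Crest.Agent.R34.A3

open Crest.Agent.R34

/-- counting multiple hits -/
theorem mult_bound {M β τ : Type} [Fintype M] (Φ : M → Finset β) (H : Finset τ)
    (hit : M → β → τ → Prop)
    (huniq : ∀ m w m' w' e e', e ∈ H → e' ∈ H → e ≠ e' → w ∈ Φ m → w' ∈ Φ m' → hit m w e →
      hit m w e' → hit m' w' e → hit m' w' e' → m = m' ∧ w = w') :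
    (∑ m, ((Φ m).filter (fun w => ∃ e ∈ H, ∃ e' ∈ H, e ≠ e' ∧ hit m w e ∧ hit m w e')).card) ≤
      H.card * H.card := by
  let S : M → Finset β := fun m =>
    (Φ m).filter (fun w => ∃ e ∈ H, ∃ e' ∈ H, e ≠ e' ∧ hit m w e ∧ hit m w e')
  have hS : ∀ x : (_ : M) × β, x ∈ (univ : Finset M).sigma S →
      ∃ y : τ × τ, y ∈ H ×ˢ H ∧ x.2 ∈ Φ x.1 ∧ y.1 ≠ y.2 ∧ hit x.1 x.2 y.1 ∧ hit x.1 x.2 y.2 := by
    intro x hx
    rw [Finset.mem_sigma] at hx
    have h2 := hx.2
    rw [Finset.mem_filter] at h2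
    obtain ⟨h3, e, he, e', he', h4, h5, h6⟩ := h2
    exact ⟨(e, e'), Finset.mem_product.mpr ⟨he, he'⟩, h3, h4, h5, h6⟩
  have h0 : (∑ m, (S m).card) = ((univ : Finset M).sigma S).card := by
    rw [Finset.card_sigma]
  rw [h0, ← Finset.card_product]
  by_cases hne : ((univ : Finset M).sigma S).Nonempty
  · obtain ⟨x₀, hx₀⟩ := hne
    obtain ⟨y₀, _⟩ := hS x₀ hx₀
    let g : (_ : M) × β → τ × τ := fun x =>
      if h : x ∈ (univ : Finset M).sigma S then (hS x h).choose else y₀
    have hg : ∀ x (h : x ∈ (univ : Finset M).sigma S), g x = (hS x h).choose := by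
      intro x h
      exact dif_pos h
    apply Finset.card_le_card_of_injOn g
    · intro x hx
      rw [Finset.mem_coe] at hx
      rw [hg x hx]
      exact (hS x hx).choose_spec.1
    · intro x hx x' hx' hxx'
      rw [Finset.mem_coe] at hx hx'
      rw [hg x hx, hg x' hx'] at hxx'
      obtain ⟨e1, e2, e3, e4, e5⟩ := (hS x hx).choose_spec
      obtain ⟨f1, f2, f3, f4, f5⟩ := (hS x' hx').choose_spec
      rw [← hxx'] at f4 f5
      rw [Finset.mem_product] at e1
      obtain ⟨g1, g2⟩ := huniq x.1 x.2 x'.1 x'.2 _ _ e1.1 e1.2 e3 e2 f2 e4 e5 f4 f5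
      ext1
      · exact g1
      · exact heq_of_eq g2
  · rw [Finset.not_nonempty_iff_eq_empty] at hne
    rw [hne]
    simp

/-- numerical estimate for the union bound -/
theorem numeric (q : ℕ) (hq : 16 ≤ q) :
    ((((q : ℝ) + 1) * q) ^ lg q) * ((((q : ℝ) + 1) * q) ^ lg q) *
      (q : ℝ) ^ (- (6 * lg q : ℝ)) ≤ 1 / 8 := by
  have hn : 1 ≤ lg q := by
    have : 4 ≤ Nat.log 2 q := Nat.le_log_of_pow_le (by norm_num) (by norm_num; exact hq)
    unfold lg
    nlinarith
  obtain ⟨n, hndef⟩ : ∃ n, n = lg q := ⟨_, rfl⟩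
  rw [← hndef] at hn ⊢
  have hq16 : (16 : ℝ) ≤ q := by exact_mod_cast hq
  have hq0 : (0 : ℝ) < q := by linarith
  have h1 : (q : ℝ) ^ (- (6 * n : ℝ)) = ((q : ℝ) ^ (6 * n))⁻¹ := by
    rw [Real.rpow_neg hq0.le]
    congr 1
    rw [← Real.rpow_natCast]
    push_cast
    rfl
  rw [h1, ← div_eq_mul_inv, div_le_iff₀ (by positivity)]
  have h2 : ((((q : ℝ) + 1) * q) ^ n) * ((((q : ℝ) + 1) * q) ^ n) ≤ (q : ℝ) ^ (5 * n) := by
    calc ((((q : ℝ) + 1) * q) ^ n) * ((((q : ℝ) + 1) * q) ^ n)
        ≤ (((2 * q : ℝ) * q) ^ n) * (((2 * q : ℝ) * q) ^ n) := by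
          gcongr <;> linarith
      _ = (4 : ℝ) ^ n * (q : ℝ) ^ (4 * n) := by
          rw [← mul_pow, pow_mul, ← mul_pow]
          congr 1
          ring
      _ ≤ (q : ℝ) ^ n * (q : ℝ) ^ (4 * n) := by
          gcongr
          linarith
      _ = (q : ℝ) ^ (5 * n) := by
          rw [← pow_add]
          congr 1
          ring
  refine h2.trans ?_
  have h3 : (q : ℝ) ^ (6 * n) = (q : ℝ) ^ n * (q : ℝ) ^ (5 * n) := by
    rw [← pow_add]
    congr 1
    ring
  rw [h3]
  have h4 : (8 : ℝ) ≤ (q : ℝ) ^ n := by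
    calc (8 : ℝ) ≤ (q : ℝ) ^ 1 := by linarith
      _ ≤ (q : ℝ) ^ n := pow_le_pow_right₀ (by linarith) hn
  have h5 : (0 : ℝ) ≤ (q : ℝ) ^ (5 * n) := by positivity
  nlinarith

section
variable {F : Type} [Field F] [Fintype F]

/-- hit relation of stage A -/
def hitA {n : ℕ} (z z' : Fin n → Pt F) (m : Option F) (w : F) (e : Fin n × Fin n) : Prop :=
  ev (join (z e.1) (z' e.2)) m = w

/-- hit relation of stage C -/
def hitC {R n : ℕ} (b : Option F → Fin 2 → Ln F) (z z' : Fin n → Pt F)
    (m : Option F × (Fin 2 × Fin R)) (p : Option F) (e : Fin n × Fin n) : Prop :=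
  ev (b m.1 m.2.1) p = ev (join (z e.1) (z' e.2)) p

/-- edges missing the X-points -/
noncomputable def US {n : ℕ} (X : Option F → F) (z z' : Fin n → Pt F) :
    Finset (Fin n × Fin n) :=
  univ.filter (fun e => ∀ i, ev (join (z e.1) (z' e.2)) i ≠ X i)

omit [Field F] in
theorem card_pairs (n : ℕ) (κ : Finset ((Fin n → Pt F) × (Fin n → Pt F))) :
    (κ.card : ℝ) ≤ ((((Fintype.card F : ℝ) + 1) * Fintype.card F) ^ n) *
      ((((Fintype.card F : ℝ) + 1) * Fintype.card F) ^ n) := by
  have h : κ.card ≤ (((Fintype.card F + 1) * Fintype.card F) ^ n) *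
      (((Fintype.card F + 1) * Fintype.card F) ^ n) := by
    refine le_trans (Finset.card_le_univ _) (le_of_eq ?_)
    rw [Fintype.card_prod, Fintype.card_fun, Fintype.card_prod, Fintype.card_option,
      Fintype.card_fin]
  exact_mod_cast h

end

end Crest.Agent.R34.A3

namespace Crest.Agent.R34

open A3

theorem taskAwit (h : WitnessAbs) : TaskAwit := by
  obtain ⟨c₁, hc₁, hc₁', q₁, hq₁⟩ := h 1 2 (by norm_num) (by norm_num)
  refine ⟨c₁, hc₁, max q₁ 16, ?_⟩
  intro F _ _ hqF
  have hF1 : q₁ ≤ Fintype.card F := le_trans (le_max_left _ _) hqF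
  have hF2 : 16 ≤ Fintype.card F := le_trans (le_max_right _ _) hqF
  have hq1 : (1 : ℝ) ≤ Fintype.card F := by exact_mod_cast Fintype.card_pos
  obtain ⟨n, hn⟩ : ∃ n, n = lg (Fintype.card F) := ⟨_, rfl⟩
  let κ : Finset ((Fin n → Pt F) × (Fin n → Pt F)) :=
    univ.filter (fun a => (∀ u v, (a.1 u).1 ≠ (a.2 v).1) ∧
      Function.Injective (fun e : Fin n × Fin n => join (a.1 e.1) (a.2 e.2)))
  let E : (Fin n → Pt F) × (Fin n → Pt F) → (Option F → F) → Prop :=
    fun a ω => ∃ H' ⊆ (univ : Finset (Fin n × Fin n)),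
      (1 - c₁) * (univ : Finset (Fin n × Fin n)).card ≤ (H'.card : ℝ) ∧
        ∃ ψ : Fin n × Fin n → Option F, Set.InjOn ψ H' ∧
          ∀ e ∈ H', hitA a.1 a.2 (ψ e) (ω (ψ e)) e
  have hcardU : (univ : Finset (Fin n × Fin n)).card = n ^ 2 := by
    rw [Finset.card_univ, Fintype.card_prod, Fintype.card_fin, sq]
  have hsub : pr (spA F) (fun X => ¬ PAwit X c₁) ≤ pr (spA F) (fun X => ∃ a ∈ κ, E a X) := by
    apply pr_mono
    intro X _ hX
    unfold PAwit at hX
    rw [← hn] at hX
    push Not at hX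
    obtain ⟨z, z', hzz, hinj, H, ψ, hψ, hH, hlt⟩ := hX
    refine ⟨(z, z'), ?_, H, Finset.subset_univ _, ?_, ψ, hψ, hH⟩
    · rw [Finset.mem_filter]
      exact ⟨Finset.mem_univ _, hzz, hinj⟩
    · rw [hcardU]
      push_cast
      exact hlt.le
  refine le_trans hsub (le_trans (pr_exists_le _ _ _) ?_)
  have h1 : ∀ a ∈ κ, pr (spA F) (E a) ≤
      (Fintype.card F : ℝ) ^ (- (6 * lg (Fintype.card F) : ℝ)) := by
    intro a ha
    rw [Finset.mem_filter] at ha
    obtain ⟨_, hzz, hinj⟩ := ha
    refine hq₁ (Fintype.card F) hF1 _ _ _ (spA F) univ (hitA a.1 a.2) ?_ ?_ ?_ ?_ ?_ ?_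
    · rw [Fintype.card_option]
      push_cast
      linarith
    · intro m
      have : (spA F m).card = Fintype.card F := Finset.card_univ
      rw [this]
      linarith
    · rw [hcardU, hn]
      push_cast
      linarith
    · rw [hcardU, hn]
    · intro m e _
      rw [Finset.card_le_one]
      intro w hw w' hw'
      rw [Finset.mem_filter] at hw hw'
      exact hw.2.symm.trans hw'.2
    · refine le_trans (mult_bound (spA F) univ (hitA a.1 a.2) ?_) ?_
      · intro m w m' w' e e' _ _ hee' _ _ h2 h3 h4 h5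
        have hne : join (a.1 e.1) (a.2 e.2) ≠ join (a.1 e'.1) (a.2 e'.2) := fun h6 => hee' (hinj h6)
        unfold hitA at h2 h3 h4 h5
        have e1 := (ev_eq_iff hne m).mp (h2.trans h3.symm)
        have e2 := (ev_eq_iff hne m').mp (h4.trans h5.symm)
        have e3 : m = m' := e1.trans e2.symm
        subst e3
        exact ⟨rfl, h2.symm.trans h4⟩
      · rw [hcardU, ← hn]
        apply le_of_eq
        ring
  refine le_trans (Finset.sum_le_card_nsmul _ _ _ h1) ?_
  rw [nsmul_eq_mul]
  refine le_trans ?_ (A3.numeric (Fintype.card F) hF2)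
  have h2 := card_pairs n κ
  rw [← hn]
  gcongr

theorem taskCwit (h : WitnessAbs) : TaskCwit := by
  intro R c hR hc
  have hR' : (1 : ℝ) ≤ R := by exact_mod_cast hR
  obtain ⟨c₁, hc₁, hc₁', q₁, hq₁⟩ := h c (4 * R) hc (by positivity)
  refine ⟨max q₁ 16, ?_⟩
  intro F _ _ hqF X b col hA hB
  have hF1 : q₁ ≤ Fintype.card F := le_trans (le_max_left _ _) hqF
  have hF2 : 16 ≤ Fintype.card F := le_trans (le_max_right _ _) hqF
  have hq1 : (1 : ℝ) ≤ Fintype.card F := by exact_mod_cast Fintype.card_pos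
  obtain ⟨n, hn⟩ : ∃ n, n = lg (Fintype.card F) := ⟨_, rfl⟩
  let κ : Finset ((Fin n → Pt F) × (Fin n → Pt F)) :=
    univ.filter (fun a => Function.Injective
      (fun e : Fin n × Fin n => join (a.1 e.1) (a.2 e.2)) ∧
      c * (n : ℝ) ^ 2 ≤ (US X a.1 a.2).card)
  let E : (Fin n → Pt F) × (Fin n → Pt F) →
      (Option F × (Fin 2 × Fin R) → Option F) → Prop :=
    fun a ω => ∃ H' ⊆ US X a.1 a.2,
      (1 - c₁) * (US X a.1 a.2).card ≤ (H'.card : ℝ) ∧
        ∃ ψ : Fin n × Fin n → Option F × (Fin 2 × Fin R), Set.InjOn ψ H' ∧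
          ∀ e ∈ H', hitC b a.1 a.2 (ψ e) (ω (ψ e)) e
  have hcardU : (univ : Finset (Fin n × Fin n)).card = n ^ 2 := by
    rw [Finset.card_univ, Fintype.card_prod, Fintype.card_fin, sq]
  have hsub : pr (spC b col) (fun ω => ¬ Qwit (Kset X b (unc ω))) ≤
      pr (spC b col) (fun ω => ∃ a ∈ κ, E a ω) := by
    apply pr_mono
    intro ω _ hnot
    by_contra hcon
    apply hnot
    -- the choice function
    let pt : Option F × (Fin 2 × Fin R) → Pt F := fun m => (ω m, ev (b m.1 m.2.1) (ω m))
    let φ : Ln F → Pt F := fun L =>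
      if h : ∃ i, ev L i = X i then (h.choose, X h.choose)
      else if h : ∃ m, On (pt m) L then pt h.choose else (none, 0)
    have hφ1 : ∀ L (h : ∃ i, ev L i = X i), φ L = (h.choose, X h.choose) := by
      intro L h
      exact dif_pos h
    have hφ2 : ∀ L (_ : ¬ ∃ i, ev L i = X i) (h' : ∃ m, On (pt m) L), φ L = pt h'.choose := by
      intro L h h'
      exact (dif_neg h).trans (dif_pos h')
    have hKX : ∀ i, (i, X i) ∈ Kset X b (unc ω) := by
      intro i
      unfold Kset
      rw [Finset.mem_filter]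
      exact ⟨Finset.mem_univ _, Or.inl rfl⟩
    have hKJ : ∀ m, pt m ∈ Kset X b (unc ω) := by
      intro m
      unfold Kset
      rw [Finset.mem_filter]
      exact ⟨Finset.mem_univ _, Or.inr ⟨m.1, m.2.1, m.2.2, rfl⟩⟩
    have hKm : ∀ L, (∃ κ ∈ Kset X b (unc ω), On κ L) → ¬ (∃ i, ev L i = X i) →
        ∃ m, On (pt m) L := by
      intro L hL hno
      obtain ⟨z, hz, hon⟩ := hL
      unfold Kset at hz
      rw [Finset.mem_filter] at hz
      rcases hz.2 with h1 | ⟨i, k, j, h1⟩
      · exact absurd ⟨z.1, by rw [← h1]; exact hon⟩ hno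
      · refine ⟨(i, (k, j)), ?_⟩
        rw [h1] at hon
        exact hon
    refine ⟨φ, ?_, ?_⟩
    · intro L hL
      by_cases h1 : ∃ i, ev L i = X i
      · rw [hφ1 L h1]
        exact ⟨hKX _, h1.choose_spec⟩
      · have h2 := hKm L hL h1
        rw [hφ2 L h1 h2]
        exact ⟨hKJ _, h2.choose_spec⟩
    · rw [← hn]
      intro z z' hzz _ _ hinj hhit hφinj
      apply hcon
      -- the set of edges hit by X
      let E0 : Finset (Fin n × Fin n) :=
        univ.filter (fun e => ∃ i, ev (join (z e.1) (z' e.2)) i = X i)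
      have hE0 : (E0.card : ℝ) ≤ (1 - c) * (n : ℝ) ^ 2 := by
        have h1 := hA.wit
        unfold PAwit at h1
        rw [← hn] at h1
        refine h1 z z' hzz hinj E0 (fun e => (φ (join (z e.1) (z' e.2))).1) ?_ ?_
        · intro e he e' he' hee'
          rw [Finset.mem_coe, Finset.mem_filter] at he he'
          apply hφinj
          simp only at hee' ⊢
          rw [hφ1 _ he.2, hφ1 _ he'.2] at hee' ⊢
          simp only at hee'
          rw [hee']
        · intro e he
          rw [Finset.mem_filter] at he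
          rw [hφ1 _ he.2]
          exact he.2.choose_spec
      have hU : US X z z' = univ \ E0 := by
        ext e
        unfold US
        rw [Finset.mem_filter, Finset.mem_sdiff, Finset.mem_filter]
        push Not
        simp
      have hUc : c * (n : ℝ) ^ 2 ≤ (US X z z').card := by
        have h1 : (US X z z').card + E0.card = n ^ 2 := by
          rw [hU, ← hcardU]
          exact Finset.card_sdiff_add_card_eq_card (Finset.subset_univ _)
        have h2 : ((US X z z').card : ℝ) + E0.card = (n : ℝ) ^ 2 := by exact_mod_cast h1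
        nlinarith
      refine ⟨(z, z'), ?_, US X z z', Finset.Subset.refl _, ?_, ?_⟩
      · rw [Finset.mem_filter]
        exact ⟨Finset.mem_univ _, hinj, hUc⟩
      · have h1 : (0 : ℝ) ≤ (US X z z').card := Nat.cast_nonneg _
        simp only
        nlinarith
      · have hex : ∀ e ∈ US X z z', ∃ m, φ (join (z e.1) (z' e.2)) = pt m ∧
            On (pt m) (join (z e.1) (z' e.2)) := by
          intro e he
          unfold US at he
          rw [Finset.mem_filter] at he
          have h1 : ¬ ∃ i, ev (join (z e.1) (z' e.2)) i = X i := by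
            rintro ⟨i, hi⟩
            exact he.2 i hi
          have h2 := hKm _ (hhit e.1 e.2) h1
          exact ⟨h2.choose, hφ2 _ h1 h2, h2.choose_spec⟩
        refine ⟨fun e => if h : e ∈ US X z z' then (hex e h).choose
          else (none, (0, ⟨0, hR⟩)), ?_, ?_⟩
        · intro e he e' he' hee'
          rw [Finset.mem_coe] at he he'
          simp only at hee'
          rw [dif_pos he, dif_pos he'] at hee'
          apply hφinj
          simp only
          rw [(hex e he).choose_spec.1, (hex e' he').choose_spec.1, hee']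
        · intro e he
          simp only
          rw [dif_pos he]
          have h1 : On (pt (hex e he).choose) (join (z e.1) (z' e.2)) :=
            (hex e he).choose_spec.2
          exact Eq.symm h1
  refine le_trans hsub (le_trans (pr_exists_le _ _ _) ?_)
  have h1 : ∀ a ∈ κ, pr (spC b col) (E a) ≤
      (Fintype.card F : ℝ) ^ (- (6 * lg (Fintype.card F) : ℝ)) := by
    intro a ha
    rw [Finset.mem_filter] at ha
    obtain ⟨_, hinj, hUc⟩ := ha
    have hUle : (US X a.1 a.2).card ≤ n ^ 2 := by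
      rw [← hcardU]
      exact Finset.card_le_univ _
    have hmiss : ∀ e ∈ US X a.1 a.2, ∀ i, ev (join (a.1 e.1) (a.2 e.2)) i ≠ X i := by
      intro e he
      unfold US at he
      rw [Finset.mem_filter] at he
      exact he.2
    refine hq₁ (Fintype.card F) hF1 _ _ _ (spC b col) (US X a.1 a.2) (hitC b a.1 a.2)
      ?_ ?_ ?_ ?_ ?_ ?_
    · rw [Fintype.card_prod, Fintype.card_prod, Fintype.card_option, Fintype.card_fin,
        Fintype.card_fin]
      push_cast
      nlinarith
    · intro m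
      exact hB.free m.1 m.2.1 m.2.2
    · rw [← hn]
      exact hUc
    · rw [← hn]
      exact hUle
    · intro m e he
      rw [Finset.card_le_one]
      intro p hp p' hp'
      rw [Finset.mem_filter] at hp hp'
      have hne : b m.1 m.2.1 ≠ join (a.1 e.1) (a.2 e.2) := by
        intro h2
        apply hmiss e he m.1
        rw [← h2]
        exact hB.base m.1 m.2.1
      exact ((ev_eq_iff hne p).mp hp.2).trans ((ev_eq_iff hne p').mp hp'.2).symm
    · refine le_trans (mult_bound (spC b col) (US X a.1 a.2) (hitC b a.1 a.2) ?_) ?_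
      · intro m p m' p' e e' _ _ hee' hp hp' h2 h3 h4 h5
        have hne : join (a.1 e.1) (a.2 e.2) ≠ join (a.1 e'.1) (a.2 e'.2) := fun h6 => hee' (hinj h6)
        unfold hitC at h2 h3 h4 h5
        have e1 := (ev_eq_iff hne p).mp (h2.symm.trans h3)
        have e2 := (ev_eq_iff hne p').mp (h4.symm.trans h5)
        have e3 : p = p' := e1.trans e2.symm
        subst e3
        refine ⟨?_, rfl⟩
        unfold spC Fr at hp hp'
        rw [Finset.mem_filter] at hp hp'
        obtain ⟨_, _, hcol, hfr⟩ := hp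
        obtain ⟨_, _, hcol', _⟩ := hp'
        have h6 : (m'.1, m'.2.1) = (m.1, m.2.1) := by
          by_contra h7
          exact hfr m'.1 m'.2.1 h7 (h4.trans h2.symm)
        have h8 : (m.2.1, m.2.2) = (m'.2.1, m'.2.2) := hcol.symm.trans hcol'
        obtain ⟨g1, g2⟩ := Prod.mk.inj h6
        obtain ⟨g3, g4⟩ := Prod.mk.inj h8
        ext1
        · exact g1.symm
        · ext1
          · exact g3
          · exact g4
      · rw [← hn]
        calc (US X a.1 a.2).card * (US X a.1 a.2).card ≤ n ^ 2 * n ^ 2 :=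
              Nat.mul_le_mul hUle hUle
          _ = n ^ 4 := by ring
  refine le_trans (Finset.sum_le_card_nsmul _ _ _ h1) ?_
  rw [nsmul_eq_mul]
  refine le_trans ?_ (A3.numeric (Fintype.card F) hF2)
  have h2 := card_pairs n κ
  rw [← hn]
  gcongr

end Crest.Agent.R34
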