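import Crest.Agent.R34.Defs2

/-! Row 34: assembly of the stages. -/

set_option autoImplicit false

open Finset Classical

namespace Crest.Agent.R34

section
variable {F : Type} [Field F] [Fintype F]

theorem PropA.mono {X : Option F → F} {R : ℕ} {c c' : ℝ} (h : PropA X R c) (hc : c' ≤ c) :
    PropA X R c' where
  deg := h.deg
  few := h.few
  good := fun i J j' h1 h2 => le_trans
    (mul_le_mul_of_nonneg_right hc (Nat.cast_nonneg _)) (h.good i J j' h1 h2)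
  wit := fun z z' h1 h2 H ψ h3 h4 => le_trans (h.wit z z' h1 h2 H ψ h3 h4)
    (mul_le_mul_of_nonneg_right (by linarith) (by positivity))

theorem PropB.mono {X : Option F → F} {R : ℕ} {c c' : ℝ} {b : Option F → Fin 2 → Ln F}
    {col : Option F → Fin 2 × Fin R} (h : PropB X c b col) (hc : c' ≤ c) :
    PropB X c' b col where
  base := h.base
  tan := h.tan
  ne := h.ne
  free := fun i k j => le_trans
    (mul_le_mul_of_nonneg_right hc (Nat.cast_nonneg _)) (h.free i k j)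

theorem Qwts.mono {K : Finset (Pt F)} {c c' : ℝ} (h : Qwts K c) (hc' : 0 < c') (hc : c' ≤ c) :
    Qwts K c' := by
  obtain ⟨w, D, h1, h2, h3⟩ := h
  exact ⟨w, D, le_trans (mul_le_mul_of_nonneg_right hc (Nat.cast_nonneg _)) h1,
    fun L => ⟨(h2 L).1, (h2 L).2.trans (one_div_le_one_div_of_le hc' hc)⟩, h3⟩

theorem Quasi.mono {K : Finset (Pt F)} {c c' : ℝ} (h : Quasi K c) (hc' : 0 < c') (hc : c' ≤ c) :
    Quasi K c' := ⟨h.few, h.wts.mono hc' hc, h.wit⟩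

theorem PropC.mono {X : Option F → F} {R : ℕ} {c c' : ℝ} {b : Option F → Fin 2 → Ln F}
    {col : Option F → Fin 2 × Fin R} {π : Option F → Fin 2 → Fin R → Option F}
    (h : PropC X c b col π) (hc' : 0 < c') (hc : c' ≤ c) :
    PropC X c' b col π where
  mem := h.mem
  quasi := h.quasi.mono hc' hc
  fewL := h.fewL
  good := fun i j' => le_trans
    (mul_le_mul_of_nonneg_right hc (Nat.cast_nonneg _)) (h.good i j')

theorem PAgood.mono {X : Option F → F} {R : ℕ} {c c' : ℝ} (h : PAgood X R c) (hc : c' ≤ c) :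
    PAgood X R c' := fun i J j' h1 h2 => le_trans
    (mul_le_mul_of_nonneg_right hc (Nat.cast_nonneg _)) (h i J j' h1 h2)

theorem PAwit.mono {X : Option F → F} {c c' : ℝ} (h : PAwit X c) (hc : c' ≤ c) :
    PAwit X c' := fun z z' h1 h2 H ψ h3 h4 => le_trans (h z z' h1 h2 H ψ h3 h4)
    (mul_le_mul_of_nonneg_right (by linarith) (by positivity))

end

theorem stageA_of (h1 : TaskAdeg) (h2 : TaskAfew) (h3 : TaskAgood) (h4 : TaskAwit) : StageA := by
  intro R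
  obtain ⟨q₁, h1⟩ := h1
  obtain ⟨q₂, h2⟩ := h2
  obtain ⟨c₃, hc₃, q₃, h3⟩ := h3 R
  obtain ⟨c₄, hc₄, q₄, h4⟩ := h4
  refine ⟨min c₃ c₄, lt_min hc₃ hc₄, max (max q₁ q₂) (max q₃ q₄), ?_⟩
  intro F _ _ hq
  have e1 := h1 F (le_trans (by simp) hq)
  have e2 := h2 F (le_trans (by simp) hq)
  have e3 := h3 F (le_trans (by simp) hq)
  have e4 := h4 F (le_trans (by simp) hq)
  have key : pr (spA F) (fun X => (¬ PAdeg X ∨ ¬ PAfew X) ∨ (¬ PAgood X R c₃ ∨ ¬ PAwit X c₄)) < 1 := by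
    have a1 := pr_or_le (spA F) (fun X => ¬ PAdeg X ∨ ¬ PAfew X) (fun X => ¬ PAgood X R c₃ ∨ ¬ PAwit X c₄)
    have a2 := pr_or_le (spA F) (fun X => ¬ PAdeg X) (fun X => ¬ PAfew X)
    have a3 := pr_or_le (spA F) (fun X => ¬ PAgood X R c₃) (fun X => ¬ PAwit X c₄)
    linarith
  obtain ⟨X, -, hX⟩ := exists_of_pr_lt (fun _ => univ_nonempty) key
  push Not at hX
  exact ⟨X, hX.1.1, hX.1.2, hX.2.1.mono (min_le_left _ _), hX.2.2.mono (min_le_right _ _)⟩

theorem stageC_of (h1 : TaskCfew) (h2 : TaskCwts) (h3 : TaskCwit) (h4 : TaskCgood) : StageC := by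
  intro R c hR hc
  obtain ⟨q₁, h1⟩ := h1 R c hR hc
  obtain ⟨c₂, hc₂, q₂, h2⟩ := h2 R c hR hc
  obtain ⟨q₃, h3⟩ := h3 R c hR hc
  obtain ⟨c₄, hc₄, q₄, h4⟩ := h4 R c hR hc
  refine ⟨min c₂ c₄, lt_min hc₂ hc₄, max (max q₁ q₂) (max q₃ q₄), ?_⟩
  intro F _ _ hq X b col hA hB
  have e1 := h1 F (le_trans (by simp) hq) X b col hA hB
  have e2 := h2 F (le_trans (by simp) hq) X b col hA hB
  have e3 := h3 F (le_trans (by simp) hq) X b col hA hB
  have e4 := h4 F (le_trans (by simp) hq) X b col hA hB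
  have key : pr (spC b col) (fun ω => (¬ (Qfew (Kset X b (unc ω)) ∧ PCfewL X b (unc ω)) ∨
      ¬ Qwts (Kset X b (unc ω)) c₂) ∨ (¬ Qwit (Kset X b (unc ω)) ∨
      ¬ ∀ i j', c₄ * Fintype.card F ≤ (GoodSet X b (unc ω) i j').card)) < 1 := by
    have a1 := pr_or_le (spC b col) (fun ω => (¬ (Qfew (Kset X b (unc ω)) ∧ PCfewL X b (unc ω)) ∨
      ¬ Qwts (Kset X b (unc ω)) c₂)) (fun ω => (¬ Qwit (Kset X b (unc ω)) ∨
      ¬ ∀ i j', c₄ * Fintype.card F ≤ (GoodSet X b (unc ω) i j').card))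
    have a2 := pr_or_le (spC b col) (fun ω => ¬ (Qfew (Kset X b (unc ω)) ∧ PCfewL X b (unc ω)))
      (fun ω => ¬ Qwts (Kset X b (unc ω)) c₂)
    have a3 := pr_or_le (spC b col) (fun ω => ¬ Qwit (Kset X b (unc ω)))
      (fun ω => ¬ ∀ i j', c₄ * Fintype.card F ≤ (GoodSet X b (unc ω) i j').card)
    linarith
  have hne : ∀ m, (spC b col m).Nonempty := by
    intro m
    have := hB.free m.1 m.2.1 m.2.2
    have hq' : (0 : ℝ) < Fintype.card F := by
      exact_mod_cast Fintype.card_pos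
    have h5 : (0 : ℝ) < (Fr b col m.1 m.2.1 m.2.2).card := lt_of_lt_of_le (by positivity) this
    exact Finset.card_pos.mp (by exact_mod_cast h5)
  obtain ⟨ω, hω, hX⟩ := exists_of_pr_lt hne key
  push Not at hX
  have b1 := hX.1.1
  have b2 := hX.1.2
  have b3 := hX.2.1
  have b4 := hX.2.2
  refine ⟨unc ω, ?_, ⟨b1.1, b2.mono (lt_min hc₂ hc₄) (min_le_left _ _), b3⟩, b1.2, ?_⟩
  · intro i k j
    exact hω (i, (k, j))
  · intro i j'
    exact le_trans (mul_le_mul_of_nonneg_right (min_le_right _ _) (Nat.cast_nonneg _)) (b4 i j')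

theorem coverThm_of (h1 : ExcessThm) (h2 : NonSpread) (h3 : SpreadThm) : CoverThm := by
  intro c hc
  obtain ⟨q₁, h1⟩ := h1 c hc
  obtain ⟨q₂, h2⟩ := h2 c hc
  obtain ⟨q₃, h3⟩ := h3 c hc
  refine ⟨max q₁ (max q₂ q₃), ?_⟩
  intro F _ _ p k hp hk hcard hq K hK S hS1 hS2 hS3
  have hS : IsCov K S := ⟨hS1, hS2, hS3⟩
  have e1 := h1 F (le_trans (by simp) hq) K S hK hS
  have e2 := h2 F (le_trans (by simp) hq) K S hK hS e1
  by_cases c1 : ∃ L : Ln F, (Fintype.card F : ℝ) ^ (9 / 10 : ℝ) < (S.filter (fun z => On z L)).card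
  · obtain ⟨L, hL⟩ := c1
    exact Or.inl ⟨L, e2.1 L hL⟩
  by_cases c2 : ∃ i : Option F,
      (Fintype.card F : ℝ) ^ (9 / 10 : ℝ) < (S.filter (fun z => z.1 = i)).card
  · obtain ⟨i, hi⟩ := c2
    exact Or.inr ⟨i, e2.2 i hi⟩
  push Not at c1 c2
  exact (h3 F p k hp hk hcard (le_trans (by simp) hq) K S hK hS e1 c1 c2).elim

theorem mainThm_of (hA : StageA) (hB : StageB) (hC : StageC) (hD : StageD) (hcov : CoverThm)
    (hH : HyperThm) : MainThm := by
  obtain ⟨cA, hcA, qA, hA⟩ := hA 10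
  obtain ⟨cB, hcB, qB, hB⟩ := hB 10 cA (by norm_num) hcA
  set c₁ := min cA cB with hc₁
  have hc₁p : 0 < c₁ := lt_min hcA hcB
  obtain ⟨cC, hcC, qC, hC⟩ := hC 10 c₁ (by norm_num) hc₁p
  set c₂ := min c₁ cC with hc₂
  have hc₂p : 0 < c₂ := lt_min hc₁p hcC
  obtain ⟨qD, hD⟩ := hD 10 c₂ (by norm_num) hc₂p
  obtain ⟨qE, hcov⟩ := hcov c₂ hc₂p
  refine ⟨max (max qA qB) (max qC (max qD qE)), ?_⟩
  intro F _ _ p k hp hk hcard hq
  obtain ⟨X, hX⟩ := hA F (le_trans (by simp) hq)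
  obtain ⟨b, col, hb⟩ := hB F (le_trans (by simp) hq) X hX
  obtain ⟨π, hπ⟩ := hC F (le_trans (by simp) hq) X b col (hX.mono (min_le_left _ _))
    (hb.mono (min_le_right _ _))
  have hπ' := hπ.mono hc₂p (min_le_right _ _)
  have hcv := hcov F p k hp hk hcard (le_trans (by simp) hq) _ hπ'.quasi
  obtain ⟨s⟩ := hD F (le_trans (by simp) hq) X b col π
    (hb.mono ((min_le_left _ _).trans (min_le_right _ _))) hπ' hcv
  exact hH F 10 (le_refl _) s

end Crest.Agent.R34
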