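import Crest.Agent.R34.Defs2

/-! Row 34: simple asymptotics of `lg` and counting of lines through a point. -/

set_option autoImplicit false

open Finset Classical

namespace Crest.Agent.R34.Asym

theorem lg_pow_le (k : ℕ) (δ η : ℝ) (hδ : 0 < δ) (hη : 0 < η) :
    ∃ q₀ : ℕ, ∀ q : ℕ, q₀ ≤ q → (lg q : ℝ) ^ k ≤ δ * (q : ℝ) ^ η := by
  have h1 := isLittleO_log_rpow_rpow_atTop (2 * k : ℝ) hη
  have h2 : (0 : ℝ) < δ * (Real.log 2) ^ (2 * k) := by
    have : 0 < Real.log 2 := Real.log_pos one_lt_two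
    positivity
  have h3 := (h1.def h2).and (Filter.eventually_ge_atTop (1 : ℝ))
  obtain ⟨x₀, hx₀⟩ := Filter.eventually_atTop.mp h3
  refine ⟨max 1 ⌈x₀⌉₊, ?_⟩
  intro q hq
  have hq1 : (1 : ℕ) ≤ q := le_trans (le_max_left _ _) hq
  have hq1' : (1 : ℝ) ≤ q := by exact_mod_cast hq1
  have hqx : x₀ ≤ q := le_trans (Nat.le_ceil _) (by exact_mod_cast le_trans (le_max_right _ _) hq)
  obtain ⟨h4, -⟩ := hx₀ q hqx
  have hlog : 0 ≤ Real.log q := Real.log_nonneg hq1'
  have h5 : ‖Real.log (q : ℝ) ^ (2 * k : ℝ)‖ = Real.log q ^ (2 * k) := by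
    rw [Real.norm_of_nonneg (Real.rpow_nonneg hlog _)]
    rw [← Real.rpow_natCast]
    push_cast
    rfl
  have h6 : ‖(q : ℝ) ^ η‖ = (q : ℝ) ^ η := Real.norm_of_nonneg (by positivity)
  rw [h5, h6] at h4
  have hl2 : 0 < Real.log 2 := Real.log_pos one_lt_two
  have h7 : (Nat.log 2 q : ℝ) ≤ Real.log q / Real.log 2 := by
    rw [le_div_iff₀ hl2, ← Real.log_pow]
    apply Real.log_le_log (by positivity)
    exact_mod_cast Nat.pow_log_le_self 2 (by omega)
  have h8 : (lg q : ℝ) ^ k ≤ (Real.log q / Real.log 2) ^ (2 * k) := by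
    unfold lg
    push_cast
    rw [← pow_mul]
    exact pow_le_pow_left₀ (Nat.cast_nonneg _) h7 _
  refine h8.trans ?_
  rw [div_pow, div_le_iff₀ (by positivity)]
  calc Real.log q ^ (2 * k) ≤ δ * Real.log 2 ^ (2 * k) * (q : ℝ) ^ η := h4
    _ = δ * (q : ℝ) ^ η * Real.log 2 ^ (2 * k) := by ring

/-- `lg q` is eventually at least any constant -/
theorem lg_ge (N : ℕ) : ∃ q₀ : ℕ, ∀ q : ℕ, q₀ ≤ q → N ≤ lg q := by
  refine ⟨2 ^ N, fun q hq => ?_⟩
  have h1 : N ≤ Nat.log 2 q := Nat.le_log_of_pow_le (by norm_num) hq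
  unfold lg
  calc N ≤ N ^ 2 := by nlinarith [Nat.zero_le N, Nat.le_self_pow (n := 2) (by norm_num) N]
    _ ≤ _ := Nat.pow_le_pow_left h1 2

section
variable {F : Type} [Field F] [Fintype F]

/-- a line through a point is determined by its value in any other part -/
theorem card_through (z : Pt F) : (univ.filter (fun L : Ln F => On z L)).card = Fintype.card F := by
  rw [← Finset.card_univ]
  -- choose another part
  obtain ⟨i, hi⟩ : ∃ i : Option F, z.1 ≠ i := by
    cases h : z.1 with
    | none => exact ⟨some 0, by simp⟩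
    | some t => exact ⟨none, by simp⟩
  apply Finset.card_bij (fun L _ => ev L i)
  · intro L _; exact Finset.mem_univ _
  · intro L hL L' hL' h
    simp only [Finset.mem_filter, Finset.mem_univ, true_and] at hL hL'
    exact On_unique (z := z) (z' := (i, ev L i)) hi hL rfl hL' (by
      show ev L' i = ev L i
      exact h.symm)
  · intro y _
    refine ⟨join z (i, y), ?_, ?_⟩
    · simp only [Finset.mem_filter, Finset.mem_univ, true_and]
      exact On_join_left (z := z) (z' := (i, y)) hi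
    · exact On_join_right (z := z) (z' := (i, y)) hi

theorem card_part (i : Option F) :
    (univ.filter (fun z : Pt F => z.1 = i)).card = Fintype.card F := by
  rw [← Finset.card_univ]
  apply Finset.card_bij (fun z _ => z.2)
  · intro L _; exact Finset.mem_univ _
  · intro z hz z' hz' h
    simp only [Finset.mem_filter, Finset.mem_univ, true_and] at hz hz'
    exact Prod.ext (hz.trans hz'.symm) h
  · intro y _
    exact ⟨(i, y), by simp, rfl⟩

end

end Crest.Agent.R34.Asym
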