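import Crest.Agent.R34.Defs2

/-!
# Row 34, task B1: stage B (base lines) from `GoodLower`.
-/

set_option autoImplicit false

open Finset Classical

namespace Crest.Agent.R34

namespace B1

/-! ### colouring of the parts -/

theorem exists_col {A : Type} [Fintype A] (R : ℕ) (hR : 1 ≤ R) :
    ∃ col : A → Fin 2 × Fin R, ∀ x, (Fintype.card A : ℝ) / (2 * R) - 1 ≤
      ((univ.filter (fun p => col p = x)).card : ℝ) := by
  have h2R : 0 < 2 * R := by omega
  have e := Fintype.equivFin A
  have f : Fin (2 * R) ≃ Fin 2 × Fin R := finProdFinEquiv.symm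
  refine ⟨fun a => f ⟨(e a : ℕ) % (2 * R), Nat.mod_lt _ h2R⟩, fun x => ?_⟩
  set r : Fin (2 * R) := f.symm x with hr
  set K : ℕ := Fintype.card A / (2 * R) with hK
  have hlt : ∀ t : Fin K, 2 * R * (t : ℕ) + (r : ℕ) < Fintype.card A := by
    intro t
    have h1 : 2 * R * ((t : ℕ) + 1) ≤ 2 * R * K := Nat.mul_le_mul_left _ t.2
    have h2 : 2 * R * K ≤ Fintype.card A := Nat.mul_div_le _ _
    have h3 := r.2
    nlinarith
  have hcard : K ≤ (univ.filter (fun p : A => f ⟨(e p : ℕ) % (2 * R), Nat.mod_lt _ h2R⟩ = x)).card := by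
    have h1 : (univ : Finset (Fin K)).card = K := by simp
    rw [← h1]
    refine Finset.card_le_card_of_injOn (fun t => e.symm ⟨2 * R * (t : ℕ) + (r : ℕ), hlt t⟩) ?_ ?_
    · intro t _
      simp only [Finset.coe_filter, Finset.mem_univ, true_and, Set.mem_ofPred_eq,
        Equiv.apply_symm_apply]
      rw [← Equiv.eq_symm_apply, ← hr]
      apply Fin.ext
      simp only [Nat.mul_add_mod]
      exact Nat.mod_eq_of_lt r.2
    · intro t _ t' _ h
      have h2 := e.symm.injective h
      simp only [Fin.mk.injEq, add_left_inj] at h2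
      exact Fin.ext (Nat.eq_of_mul_eq_mul_left h2R h2)
  have h3 : (Fintype.card A : ℝ) / (2 * R) - 1 ≤ K := by
    have h4 : Fintype.card A < 2 * R * (K + 1) := by
      rw [hK]
      exact Nat.lt_mul_div_succ _ h2R
    have h5 : (Fintype.card A : ℝ) < 2 * R * (K + 1) := by exact_mod_cast h4
    have h6 : (0 : ℝ) < 2 * R := by exact_mod_cast h2R
    rw [sub_le_iff_le_add, div_le_iff₀ h6]
    linarith
  refine h3.trans ?_
  exact_mod_cast hcard

/-! ### numerics -/

theorem eventually_lt (C c : ℝ) (hc : 0 < c) : ∃ q₀ : ℕ, ∀ q : ℕ, q₀ ≤ q →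
    C * (q : ℝ) ^ 3 * Real.exp (-c * q) < 1 := by
  have h1 := Real.tendsto_pow_mul_exp_neg_atTop_nhds_zero 3
  have h2 : Filter.Tendsto (fun q : ℕ => c * (q : ℝ)) Filter.atTop Filter.atTop :=
    Filter.Tendsto.const_mul_atTop hc tendsto_natCast_atTop_atTop
  have h3 := (h1.comp h2).const_mul (C / c ^ 3)
  rw [mul_zero] at h3
  have h4 := h3.eventually (gt_mem_nhds (show (0 : ℝ) < 1 by norm_num))
  obtain ⟨q₀, hq₀⟩ := Filter.eventually_atTop.1 h4
  refine ⟨q₀, fun q hq => ?_⟩
  have h5 := hq₀ q hq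
  simp only [Function.comp_apply] at h5
  have h6 : C * (q : ℝ) ^ 3 * Real.exp (-c * q) =
      C / c ^ 3 * ((c * q) ^ 3 * Real.exp (-(c * q))) := by
    rw [neg_mul]
    field_simp
  rw [h6]
  exact h5

/-! ### splitting a set in two -/

theorem exists_split {β : Type} (A : Finset β) :
    ∃ s : Fin 2 → Finset β, (∀ k, s k ⊆ A) ∧ Disjoint (s 0) (s 1) ∧
      ∀ k, ((A.card : ℝ) - 1) / 2 ≤ (s k).card := by
  obtain ⟨B, hB, hcard⟩ := Finset.exists_subset_card_eq (show A.card / 2 ≤ A.card from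
    Nat.div_le_self _ _)
  refine ⟨![B, A \ B], ?_, ?_, ?_⟩
  · intro k
    fin_cases k
    · exact hB
    · exact Finset.sdiff_subset
  · exact Finset.disjoint_sdiff
  · intro k
    fin_cases k
    · show ((A.card : ℝ) - 1) / 2 ≤ (B.card : ℝ)
      rw [hcard]
      have : A.card ≤ 2 * (A.card / 2) + 1 := by omega
      have h2 : (A.card : ℝ) ≤ 2 * ((A.card / 2 : ℕ) : ℝ) + 1 := by exact_mod_cast this
      linarith
    · show ((A.card : ℝ) - 1) / 2 ≤ ((A \ B).card : ℝ)
      rw [Finset.card_sdiff_of_subset hB, hcard]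
      have : A.card ≤ 2 * (A.card - A.card / 2) + 1 := by omega
      have h2 : (A.card : ℝ) ≤ 2 * ((A.card - A.card / 2 : ℕ) : ℝ) + 1 := by exact_mod_cast this
      linarith

variable {F : Type} [Field F] [Fintype F]

/-- tangent lines at `x_i` -/
noncomputable def Tan (X : Option F → F) (i : Option F) : Finset (Ln F) :=
  univ.filter (fun L : Ln F => ev L i = X i ∧ ∀ i', i' ≠ i → ev L i' ≠ X i')

theorem card_Tan {X : Option F → F} {R : ℕ} {c : ℝ} (hR : 1 ≤ R) (hq : R ≤ Fintype.card F)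
    (h : PAgood X R c) (i : Option F) : c * Fintype.card F ≤ (Tan X i).card := by
  have hcard : Fintype.card {p : Option F // p ≠ i} = Fintype.card F := by
    rw [Fintype.card_subtype_compl]
    simp
  obtain ⟨g⟩ : Nonempty (Fin R ↪ {p : Option F // p ≠ i}) := by
    apply Function.Embedding.nonempty_of_card_le
    rw [hcard, Fintype.card_fin]
    exact hq
  refine (h i (fun _ j => ((g j : Option F), 0)) ⟨0, hR⟩ ?_ ?_).trans ?_
  · intro k j
    exact (g j).2
  · intro k j hj h'
    exact hj (g.injective (Subtype.ext h'))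
  · have : (univ.filter (fun L : Ln F => ev L i = X i ∧ (∀ i', i' ≠ i → ev L i' ≠ X i') ∧
      (∀ (k : Fin 2) (j : Fin R), ¬ On (((g j : Option F), (0 : F)) : Pt F) L) ∧
        ∀ (k : Fin 2) (j : Fin R), j ≠ ⟨0, hR⟩ →
        ∀ i', i' ≠ (g j : Option F) →
        ev (own ((g j : Option F), 0) (g ⟨0, hR⟩ : Option F) L) i' ≠ X i')).card ≤
        (Tan X i).card := by
      apply Finset.card_le_card
      intro L hL
      simp only [Tan, Finset.mem_filter, Finset.mem_univ, true_and] at hL ⊢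
      exact ⟨hL.1, hL.2.1⟩
    exact_mod_cast this

/-- two lines of the two halves never agree on the tests -/
theorem bad_ne {X : Option F → F} {Φ : Option F × Fin 2 → Finset (Ln F)}
    (hΦ : ∀ m, Φ m ⊆ Tan X m.1) (hdisj : ∀ i, Disjoint (Φ (i, 0)) (Φ (i, 1)))
    {m m' : Option F × Fin 2} (hm : m' ≠ m) {l w : Ln F} (hl : l ∈ Φ m) (hw : w ∈ Φ m') :
    w ≠ l := by
  rintro rfl
  have h1 := hΦ _ hl
  have h2 := hΦ _ hw
  simp only [Tan, Finset.mem_filter, Finset.mem_univ, true_and] at h1 h2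
  obtain ⟨i, k⟩ := m
  obtain ⟨i', k'⟩ := m'
  by_cases hi : i' = i
  · subst hi
    have hk : k' ≠ k := fun h => hm (by rw [h])
    fin_cases k <;> fin_cases k'
    · exact hk rfl
    · exact Finset.disjoint_left.1 (hdisj i') hl hw
    · exact Finset.disjoint_left.1 (hdisj i') hw hl
    · exact hk rfl
  · exact h1.2 i' hi h2.1

/-- the tests -/
noncomputable def Tst {R : ℕ} (col : Option F → Fin 2 × Fin R) (m : Option F × Fin 2)
    (j : Fin R) : Finset (Option F) :=
  univ.filter (fun p => p ≠ m.1 ∧ col p = (m.2, j))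

omit [Field F] in
theorem mem_Tst {R : ℕ} {col : Option F → Fin 2 × Fin R} {m : Option F × Fin 2}
    {j : Fin R} {p : Option F} : p ∈ Tst col m j ↔ p ≠ m.1 ∧ col p = (m.2, j) := by
  simp [Tst]

/-- bad events -/
def Bad (m : Option F × Fin 2) (l : Ln F) (m' : Option F × Fin 2) (p : Option F) (w : Ln F) :
    Prop := m' ≠ m ∧ ev w p = ev l p

end B1

theorem stageB_of (hGL : GoodLower) : StageB := by
  intro R c hR hc
  have hR' : (0 : ℝ) < R := by exact_mod_cast hR
  set cc : ℝ := min (c / 4) (1 / (4 * R)) with hcc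
  have hccpos : 0 < cc := by
    rw [hcc]
    apply lt_min <;> positivity
  obtain ⟨c₁, hc₁, q₁, hq₁⟩ := hGL 1 cc 4 hccpos (by norm_num)
  obtain ⟨q₂, hq₂⟩ := B1.eventually_lt (4 * R) c₁ hc₁
  obtain ⟨q₃, hq₃⟩ := exists_nat_ge (max (4 / c) (16 * R))
  refine ⟨c₁, hc₁, max (max q₁ q₂) (max q₃ (max R 1)), ?_⟩
  intro F _ _ hq X hX
  set q : ℕ := Fintype.card F with hqdef
  have hqa : q₁ ≤ q := le_trans (le_max_left _ _) (le_trans (le_max_left _ _) hq)
  have hqb : q₂ ≤ q := le_trans (le_max_right _ _) (le_trans (le_max_left _ _) hq)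
  have hqc : q₃ ≤ q := le_trans (le_max_left _ _) (le_trans (le_max_right _ _) hq)
  have hqd : R ≤ q := le_trans (le_max_left _ _) (le_trans (le_max_right _ _)
    (le_trans (le_max_right _ _) hq))
  have hqe : 1 ≤ q := le_trans (le_max_right _ _) (le_trans (le_max_right _ _)
    (le_trans (le_max_right _ _) hq))
  have hqcr : max (4 / c) (16 * R) ≤ (q : ℝ) := hq₃.trans (by exact_mod_cast hqc)
  have hqc1 : 4 / c ≤ (q : ℝ) := (le_max_left _ _).trans hqcr
  have hqc2 : 16 * (R : ℝ) ≤ (q : ℝ) := (le_max_right _ _).trans hqcr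
  have hqr : (1 : ℝ) ≤ q := by exact_mod_cast hqe
  have hcq : 4 ≤ c * q := by
    rw [div_le_iff₀ hc] at hqc1
    linarith
  -- the sample space
  choose s hs hsd hsc using fun i => B1.exists_split (B1.Tan X i)
  set Φ : Option F × Fin 2 → Finset (Ln F) := fun m => s m.1 m.2 with hΦdef
  have hΦ : ∀ m, Φ m ⊆ B1.Tan X m.1 := fun m => hs m.1 m.2
  have hdisj : ∀ i, Disjoint (Φ (i, 0)) (Φ (i, 1)) := fun i => hsd i
  have hcardΦ : ∀ m, cc * q ≤ (Φ m).card := by
    intro m
    have h1 := hsc m.1 m.2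
    have h2 := B1.card_Tan hR hqd hX.good m.1
    have h3 : cc * q ≤ c / 4 * q := by
      apply mul_le_mul_of_nonneg_right (min_le_left _ _)
      linarith
    have h4 : ((Φ m).card : ℝ) = ((s m.1 m.2).card : ℝ) := rfl
    rw [h4]
    linarith
  have hne : ∀ m, (Φ m).Nonempty := by
    intro m
    rw [← Finset.card_pos]
    have h1 : (0 : ℝ) < (Φ m).card := lt_of_lt_of_le (by positivity) (hcardΦ m)
    exact_mod_cast h1
  -- the colouring
  obtain ⟨col, hcol⟩ := B1.exists_col (A := Option F) R hR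
  have hcardM : (Fintype.card (Option F × Fin 2) : ℝ) = 2 * (q + 1) := by
    rw [Fintype.card_prod, Fintype.card_option, Fintype.card_fin]
    push_cast
    ring
  -- tests
  set T : Option F × Fin 2 → Fin R → Finset (Option F) := B1.Tst col with hT
  have hTlow : ∀ m j, cc * q ≤ ((T m j).card : ℝ) := by
    intro m j
    have h1 := hcol (m.2, j)
    have h2 : (univ.filter (fun p => col p = (m.2, j))) ⊆ insert m.1 (T m j) := by
      intro p hp
      simp only [Finset.mem_filter, Finset.mem_univ, true_and] at hp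
      by_cases h : p = m.1
      · rw [h]
        exact Finset.mem_insert_self _ _
      · apply Finset.mem_insert_of_mem
        rw [hT, B1.mem_Tst]
        exact ⟨h, hp⟩
    have h3 := (Finset.card_le_card h2).trans (Finset.card_insert_le _ _)
    have h4 : ((univ.filter (fun p => col p = (m.2, j))).card : ℝ) ≤ (T m j).card + 1 := by
      exact_mod_cast h3
    have h5 : (Fintype.card (Option F) : ℝ) = q + 1 := by
      rw [Fintype.card_option]
      push_cast
      ring
    rw [h5] at h1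
    have h6 : cc * q ≤ 1 / (4 * R) * q := by
      apply mul_le_mul_of_nonneg_right (min_le_right _ _)
      linarith
    have h7 : ((q : ℝ) + 1) / (2 * R) = 2 * (1 / (4 * R) * q) + 1 / (2 * R) := by
      field_simp
      ring
    have h8 : 2 ≤ 1 / (4 * R) * (q : ℝ) := by
      rw [one_div, inv_mul_eq_div, le_div_iff₀ (by positivity)]
      linarith
    have h9 : (0 : ℝ) ≤ 1 / (2 * R) := by positivity
    linarith
  have hTup : ∀ m j, ((T m j).card : ℝ) ≤ 4 * q := by
    intro m j
    have h1 : (T m j).card ≤ Fintype.card (Option F) := Finset.card_le_univ _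
    have h5 : (Fintype.card (Option F) : ℝ) = q + 1 := by
      rw [Fintype.card_option]
      push_cast
      ring
    have h2 : ((T m j).card : ℝ) ≤ Fintype.card (Option F) := by exact_mod_cast h1
    linarith
  -- bad events
  have hbad1 : ∀ m, ∀ l ∈ Φ m, ∀ j, ∀ m', ∀ p ∈ T m j,
      ((Φ m').filter (fun w => B1.Bad m l m' p w)).card ≤ 1 := by
    intro m l hl j m' p hp
    rw [Finset.card_le_one]
    intro w hw w' hw'
    rw [Finset.mem_filter] at hw hw'
    simp only [B1.Bad] at hw hw'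
    rw [hT, B1.mem_Tst] at hp
    have ht := hΦ _ hw.1
    have ht' := hΦ _ hw'.1
    have htl := hΦ _ hl
    simp only [B1.Tan, Finset.mem_filter, Finset.mem_univ, true_and] at ht ht' htl
    have hpm : p ≠ m'.1 := by
      intro h
      by_cases hi : m'.1 = m.1
      · exact hp.1 (h.trans hi)
      · apply htl.2 m'.1 hi
        rw [← ht.1, ← h]
        exact hw.2.2.symm
    refine On_unique (z := (m'.1, X m'.1)) (z' := (p, ev l p)) (fun h => hpm h.symm) ?_ ?_ ?_ ?_
    · exact ht.1
    · exact hw.2.2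
    · exact ht'.1
    · exact hw'.2.2
  have hbad2 : ∀ m, ∀ l ∈ Φ m, ∀ j, ∀ m', ∀ w ∈ Φ m',
      ((T m j).filter (fun p => B1.Bad m l m' p w)).card ≤ 1 := by
    intro m l hl j m' w hw
    rw [Finset.card_le_one]
    intro p hp p' hp'
    rw [Finset.mem_filter] at hp hp'
    simp only [B1.Bad] at hp hp'
    have hwl : w ≠ l := B1.bad_ne hΦ hdisj hp.2.1 hl hw
    rw [(ev_eq_iff hwl p).1 hp.2.2, (ev_eq_iff hwl p').1 hp'.2.2]
  -- union bound
  let S : Finset ((Option F × Fin 2) × Ln F × Fin R) := univ.filter (fun a => a.2.1 ∈ Φ a.1)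
  have key : ∀ a ∈ S, pr Φ (fun ω => (((T a.1 a.2.2).filter
      (fun p => ∀ m', ¬ B1.Bad a.1 a.2.1 m' p (ω m'))).card : ℝ) < c₁ * q) ≤ Real.exp (-c₁ * q) := by
    intro a ha
    have hal : a.2.1 ∈ Φ a.1 := by
      simpa only [S, Finset.mem_filter, Finset.mem_univ, true_and] using ha
    refine hq₁ q hqa (Option F × Fin 2) (Ln F) (Option F) Φ (T a.1 a.2.2)
      (fun m' p w => B1.Bad a.1 a.2.1 m' p w) ?_ hcardΦ (hTlow _ _) (hTup _ _) ?_ ?_
    · rw [hcardM]
      linarith
    · intro m' p hp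
      exact hbad1 a.1 a.2.1 hal a.2.2 m' p hp
    · intro m' w hw
      exact hbad2 a.1 a.2.1 hal a.2.2 m' w hw
  have hcardS : (S.card : ℝ) ≤ 4 * R * (q : ℝ) ^ 3 := by
    have h1 : S.card ≤ Fintype.card ((Option F × Fin 2) × Ln F × Fin R) := Finset.card_le_univ _
    have h2 : (Fintype.card ((Option F × Fin 2) × Ln F × Fin R) : ℝ) =
        2 * (q + 1) * (q * q * R) := by
      rw [Fintype.card_prod]
      push_cast
      rw [hcardM]
      rw [Fintype.card_prod, Fintype.card_prod, Fintype.card_fin]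
      push_cast
      ring
    have h3 : (S.card : ℝ) ≤ 2 * (q + 1) * (q * q * R) := by
      rw [← h2]
      exact_mod_cast h1
    have h4 : (2 : ℝ) * (q + 1) * (q * q * R) ≤ 4 * R * (q : ℝ) ^ 3 := by
      have h5 : (0 : ℝ) ≤ q * q * R := by positivity
      nlinarith
    linarith
  have hfail : pr Φ (fun ω => ∃ a ∈ S, (((T a.1 a.2.2).filter
      (fun p => ∀ m', ¬ B1.Bad a.1 a.2.1 m' p (ω m'))).card : ℝ) < c₁ * q) < 1 := by
    refine lt_of_le_of_lt (pr_exists_le Φ S _) ?_
    refine lt_of_le_of_lt (Finset.sum_le_sum key) ?_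
    rw [Finset.sum_const, nsmul_eq_mul]
    refine lt_of_le_of_lt ?_ (hq₂ q hqb)
    exact mul_le_mul_of_nonneg_right hcardS (Real.exp_nonneg _)
  obtain ⟨ω, hω, hgood⟩ := exists_of_pr_lt hne hfail
  refine ⟨fun i k => ω (i, k), col, ?_, ?_, ?_, ?_⟩
  · intro i k
    have h := hΦ _ (hω (i, k))
    simp only [B1.Tan, Finset.mem_filter, Finset.mem_univ, true_and] at h
    exact h.1
  · intro i k i' hi'
    have h := hΦ _ (hω (i, k))
    simp only [B1.Tan, Finset.mem_filter, Finset.mem_univ, true_and] at h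
    exact h.2 i' hi'
  · intro i h
    have h0 := hω (i, 0)
    have h1 := hω (i, 1)
    rw [h] at h0
    exact Finset.disjoint_left.1 (hdisj i) h0 h1
  · intro i k j
    by_contra hcon
    push Not at hcon
    apply hgood
    refine ⟨((i, k), (ω (i, k), j)), ?_, ?_⟩
    · simp only [S, Finset.mem_filter, Finset.mem_univ, true_and]
      exact hω (i, k)
    · refine lt_of_le_of_lt ?_ hcon
      have h1 : ((T (i, k) j).filter (fun p => ∀ m', ¬ B1.Bad (i, k) (ω (i, k)) m' p (ω m'))) ⊆
          Fr (fun i k => ω (i, k)) col i k j := by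
        intro p hp
        rw [Finset.mem_filter, hT, B1.mem_Tst] at hp
        simp only [B1.Bad] at hp
        simp only [Fr, Finset.mem_filter, Finset.mem_univ, true_and]
        refine ⟨hp.1.1, hp.1.2, ?_⟩
        intro i' k' hne' heq
        exact hp.2 (i', k') ⟨hne', heq⟩
      exact_mod_cast Finset.card_le_card h1

end Crest.Agent.R34
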