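import Crest.Agent.R34.Defs2

/-!
# Row 34, task C1: few K-points in parts and on non-base lines.
-/

set_option autoImplicit false

open Finset Classical

namespace Crest.Agent.R34

/-- numerical estimate: `C^n / n! ≤ 1 / (16 q^2)` for `n = (log₂ q)^2` and `q` large. -/
theorem c1_numeric (C : ℝ) (hC : 0 ≤ C) : ∃ q₀ : ℕ, ∀ q : ℕ, q₀ ≤ q →
    2 ≤ q ∧ 1 ≤ lg q ∧ C ^ (lg q) / (lg q).factorial * (q : ℝ) ^ 2 ≤ 1 / 16 := by
  have h1 := FloorSemiring.tendsto_pow_div_factorial_atTop (4 * C)
  have h2 : ∀ᶠ n : ℕ in Filter.atTop, (4 * C) ^ n / (n.factorial : ℝ) ≤ 1 / 16 :=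
    (h1.eventually (ge_mem_nhds (by norm_num : (0 : ℝ) < 1 / 16)))
  obtain ⟨n₀, hn₀⟩ := Filter.eventually_atTop.mp h2
  refine ⟨2 ^ (n₀ + 2), fun q hq => ?_⟩
  have hq4 : 4 ≤ q := by
    refine le_trans ?_ hq
    rw [pow_add]
    have : 1 ≤ 2 ^ n₀ := Nat.one_le_two_pow
    omega
  have hlog : n₀ + 2 ≤ Nat.log 2 q := by
    apply Nat.le_log_of_pow_le (by norm_num) hq
  have hl : Nat.log 2 q + 1 ≤ lg q := by
    unfold lg
    nlinarith
  have hn : n₀ ≤ lg q := by omega
  refine ⟨by omega, by omega, ?_⟩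
  have h3 := hn₀ (lg q) hn
  have h4 : q < 2 ^ (Nat.log 2 q + 1) := Nat.lt_pow_succ_log_self (by norm_num) q
  have h5 : q ≤ 2 ^ lg q := le_trans h4.le (Nat.pow_le_pow_right (by norm_num) hl)
  have h6 : (q : ℝ) ^ 2 ≤ 4 ^ lg q := by
    have : (q : ℝ) ≤ 2 ^ lg q := by exact_mod_cast h5
    calc (q : ℝ) ^ 2 ≤ (2 ^ lg q) ^ 2 := by gcongr
      _ = 4 ^ lg q := by rw [← pow_mul, mul_comm, pow_mul]; norm_num
  calc C ^ (lg q) / (lg q).factorial * (q : ℝ) ^ 2
      ≤ C ^ (lg q) / (lg q).factorial * 4 ^ lg q := by gcongr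
    _ = (4 * C) ^ lg q / ((lg q).factorial : ℝ) := by rw [mul_pow]; ring
    _ ≤ 1 / 16 := h3

section
variable {F : Type} [Field F] [Fintype F]

/-- the probability of many hits for events with at most one bad value per coordinate. -/
theorem c1_hits (h : FewHits) {R : ℕ} {c : ℝ} (hc : 0 < c) {X : Option F → F}
    {b : Option F → Fin 2 → Ln F} {col : Option F → Fin 2 × Fin R} (hB : PropB X c b col)
    (I : Option F × (Fin 2 × Fin R) → Option F → Prop)
    (hI : ∀ m p p', I m p → I m p' → p = p') (s : ℕ) :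
    pr (spC b col) (fun ω => s ≤ (univ.filter (fun m => I m (ω m))).card) ≤
      (4 * R / c) ^ s / s.factorial := by
  refine le_trans (h _ _ (spC b col) I s) ?_
  have hq : (0 : ℝ) < Fintype.card F := by exact_mod_cast Fintype.card_pos
  have hq1 : (1 : ℝ) ≤ Fintype.card F := by exact_mod_cast Fintype.card_pos
  gcongr
  have hterm : ∀ m ∈ (univ : Finset (Option F × (Fin 2 × Fin R))),
      (((spC b col m).filter (I m)).card : ℝ) / (spC b col m).card ≤
        1 / (c * Fintype.card F) := by
    intro m _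
    have h1 : ((spC b col m).filter (I m)).card ≤ 1 := by
      rw [Finset.card_le_one]
      intro p hp p' hp'
      rw [Finset.mem_filter] at hp hp'
      exact hI m p p' hp.2 hp'.2
    have h2 : c * Fintype.card F ≤ (spC b col m).card := hB.free m.1 m.2.1 m.2.2
    have h3 : (((spC b col m).filter (I m)).card : ℝ) ≤ 1 := by exact_mod_cast h1
    gcongr
  refine le_trans (Finset.sum_le_card_nsmul _ _ _ hterm) ?_
  rw [nsmul_eq_mul]
  have hcard : ((univ : Finset (Option F × (Fin 2 × Fin R))).card : ℝ) =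
      ((Fintype.card F : ℝ) + 1) * (2 * R) := by
    rw [Finset.card_univ, Fintype.card_prod, Fintype.card_prod, Fintype.card_option,
      Fintype.card_fin, Fintype.card_fin]
    push_cast
    ring
  rw [hcard, mul_one_div, div_le_div_iff₀ (by positivity) hc]
  have hR : (0 : ℝ) ≤ R := Nat.cast_nonneg R
  have : (0 : ℝ) ≤ R * c * ((Fintype.card F : ℝ) - 1) :=
    mul_nonneg (mul_nonneg hR hc.le) (by linarith)
  nlinarith

/-- the number of K-points satisfying `P` is at most the number of X-points plus the number of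
J-indices. -/
theorem c1_card {R : ℕ} (X : Option F → F) (b : Option F → Fin 2 → Ln F)
    (ω : Option F × (Fin 2 × Fin R) → Option F) (P : Pt F → Prop) :
    ((Kset X b (unc ω)).filter P).card ≤ (univ.filter (fun i => P (i, X i))).card +
      (univ.filter (fun m : Option F × (Fin 2 × Fin R) =>
        P (ω m, ev (b m.1 m.2.1) (ω m)))).card := by
  have h1 : (Kset X b (unc ω)).filter P ⊆
      (univ.filter (fun i => P (i, X i))).image (fun i => (i, X i)) ∪
      (univ.filter (fun m : Option F × (Fin 2 × Fin R) =>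
        P (ω m, ev (b m.1 m.2.1) (ω m)))).image (fun m => (ω m, ev (b m.1 m.2.1) (ω m))) := by
    intro z hz
    rw [Finset.mem_filter] at hz
    obtain ⟨hz1, hz2⟩ := hz
    unfold Kset at hz1
    rw [Finset.mem_filter] at hz1
    rw [Finset.mem_union, Finset.mem_image, Finset.mem_image]
    rcases hz1.2 with h2 | ⟨i, k, j, h2⟩
    · left
      have h3 : z = (z.1, X z.1) := by
        ext1
        · rfl
        · exact h2
      refine ⟨z.1, ?_, h3.symm⟩
      rw [Finset.mem_filter]
      refine ⟨Finset.mem_univ _, ?_⟩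
      rw [← h3]
      exact hz2
    · right
      refine ⟨(i, (k, j)), ?_, ?_⟩
      · rw [Finset.mem_filter]
        refine ⟨Finset.mem_univ _, ?_⟩
        have h3 : z = (ω (i, (k, j)), ev (b i k) (ω (i, (k, j)))) := h2
        simp only
        rw [← h3]
        exact hz2
      · exact h2.symm
  refine le_trans (Finset.card_le_card h1) (le_trans (Finset.card_union_le _ _) ?_)
  exact Nat.add_le_add Finset.card_image_le Finset.card_image_le

end

/-- first bad event -/
def c1I1 {F : Type} {R : ℕ} (i : Option F) (_ : Option F × (Fin 2 × Fin R)) (p : Option F) :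
    Prop := p = i

/-- second bad event -/
def c1I2 {F : Type} [Field F] {R : ℕ} (b : Option F → Fin 2 → Ln F) (L : Ln F)
    (m : Option F × (Fin 2 × Fin R)) (p : Option F) : Prop := ev L p = ev (b m.1 m.2.1) p

theorem taskCfew (h : FewHits) : TaskCfew := by
  intro R c hR hc
  obtain ⟨q₀, hq₀⟩ := c1_numeric (4 * R / c) (by positivity)
  refine ⟨q₀, ?_⟩
  intro F _ _ hqF X b col hA hB
  obtain ⟨hq2, hn1, hnum⟩ := hq₀ (Fintype.card F) hqF
  obtain ⟨q, hqdef⟩ : ∃ q, q = Fintype.card F := ⟨_, rfl⟩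
  rw [← hqdef] at hq2 hn1 hnum
  obtain ⟨n, hndef⟩ : ∃ n, n = lg q := ⟨_, rfl⟩
  rw [← hndef] at hn1 hnum
  obtain ⟨ε, hε⟩ : ∃ ε : ℝ, ε = (4 * R / c) ^ n / n.factorial := ⟨_, rfl⟩
  rw [← hε] at hnum
  have hq2' : (2 : ℝ) ≤ q := by exact_mod_cast hq2
  have hε0 : 0 ≤ ε := by rw [hε]; positivity
  have hP1 : pr (spC b col) (fun ω => ∃ i ∈ (univ : Finset (Option F)),
      n ≤ (univ.filter (fun m => c1I1 (R := R) i m (ω m))).card) ≤ 1 / 16 := by
    refine le_trans (pr_exists_le _ _ _) ?_
    have h1 : ∀ i ∈ (univ : Finset (Option F)), pr (spC b col)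
        (fun ω => n ≤ (univ.filter (fun m => c1I1 (R := R) i m (ω m))).card) ≤ ε := by
      intro i _
      rw [hε]
      exact c1_hits h hc hB (c1I1 i) (fun m p p' hp hp' => Eq.trans hp (Eq.symm hp')) n
    refine le_trans (Finset.sum_le_card_nsmul _ _ _ h1) ?_
    rw [nsmul_eq_mul, Finset.card_univ, Fintype.card_option, ← hqdef]
    push_cast
    have : ((q : ℝ) + 1) ≤ (q : ℝ) ^ 2 := by nlinarith
    calc ((q : ℝ) + 1) * ε ≤ (q : ℝ) ^ 2 * ε := by gcongr
      _ ≤ 1 / 16 := by rw [mul_comm]; exact hnum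
  have hP2 : pr (spC b col) (fun ω => ∃ L ∈ univ.filter (fun L : Ln F => ∀ i k, L ≠ b i k),
      n ≤ (univ.filter (fun m => c1I2 b L m (ω m))).card) ≤ 1 / 16 := by
    refine le_trans (pr_exists_le _ _ _) ?_
    have h1 : ∀ L ∈ univ.filter (fun L : Ln F => ∀ i k, L ≠ b i k), pr (spC b col)
        (fun ω => n ≤ (univ.filter (fun m => c1I2 b L m (ω m))).card) ≤ ε := by
      intro L hL
      rw [Finset.mem_filter] at hL
      rw [hε]
      refine c1_hits h hc hB (c1I2 b L) (fun m p p' hp hp' => ?_) n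
      have e1 := (ev_eq_iff (hL.2 m.1 m.2.1) p).mp hp
      have e2 := (ev_eq_iff (hL.2 m.1 m.2.1) p').mp hp'
      exact e1.trans e2.symm
    refine le_trans (Finset.sum_le_card_nsmul _ _ _ h1) ?_
    rw [nsmul_eq_mul]
    have hcard : ((univ.filter (fun L : Ln F => ∀ i k, L ≠ b i k)).card : ℝ) ≤ (q : ℝ) ^ 2 := by
      have : (univ.filter (fun L : Ln F => ∀ i k, L ≠ b i k)).card ≤ q ^ 2 := by
        refine le_trans (Finset.card_filter_le _ _) ?_
        rw [Finset.card_univ, Fintype.card_prod, ← hqdef, sq]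
      exact_mod_cast this
    calc ((univ.filter (fun L : Ln F => ∀ i k, L ≠ b i k)).card : ℝ) * ε
        ≤ (q : ℝ) ^ 2 * ε := by gcongr
      _ ≤ 1 / 16 := by rw [mul_comm]; exact hnum
  have hsub : pr (spC b col) (fun ω => ¬ (Qfew (Kset X b (unc ω)) ∧ PCfewL X b (unc ω))) ≤
      pr (spC b col) (fun ω => (∃ i ∈ (univ : Finset (Option F)),
        n ≤ (univ.filter (fun m => c1I1 (R := R) i m (ω m))).card) ∨
        (∃ L ∈ univ.filter (fun L : Ln F => ∀ i k, L ≠ b i k),
          n ≤ (univ.filter (fun m => c1I2 b L m (ω m))).card)) := by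
    apply pr_mono
    intro ω _ hnot
    by_contra hcon
    push Not at hcon
    obtain ⟨hc1, hc2⟩ := hcon
    apply hnot
    constructor
    · intro i
      rw [← hqdef, ← hndef]
      have h1 := c1_card X b ω (fun z => z.1 = i)
      have h2 : (univ.filter (fun i' : Option F => i' = i)).card ≤ 1 := by
        rw [Finset.card_le_one]
        intro a ha a' ha'
        rw [Finset.mem_filter] at ha ha'
        exact ha.2.trans ha'.2.symm
      have h3 := hc1 i (Finset.mem_univ _)
      have h4 : (univ.filter (fun m => c1I1 (R := R) i m (ω m))).card =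
          (univ.filter (fun m : Option F × (Fin 2 × Fin R) => ω m = i)).card := by
        congr 1
        ext m
        rw [Finset.mem_filter, Finset.mem_filter]
        exact Iff.rfl
      rw [h4] at h3
      refine le_trans (le_trans (le_of_eq ?_) h1) ?_
      · congr 1
        ext z
        simp only [Finset.mem_filter]
      · simp only
        refine le_trans (Nat.add_le_add (le_trans (le_of_eq ?_) h2) (le_trans (le_of_eq ?_) h3.le)) ?_
        · congr 1
        · congr 1
        · omega
    · intro L hL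
      rw [← hqdef, ← hndef]
      have h1 := c1_card X b ω (fun z => On z L)
      have h2 : (univ.filter (fun i : Option F => On (i, X i) L)).card ≤ n := by
        have := hA.few L
        rw [← hqdef, ← hndef] at this
        refine le_trans (le_of_eq ?_) this
        congr 1
      have h3 := hc2 L (by rw [Finset.mem_filter]; exact ⟨Finset.mem_univ _, hL⟩)
      have h4 : (univ.filter (fun m => c1I2 b L m (ω m))).card =
          (univ.filter (fun m : Option F × (Fin 2 × Fin R) =>
            On (ω m, ev (b m.1 m.2.1) (ω m)) L)).card := by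
        congr 1
      rw [h4] at h3
      omega
  calc pr (spC b col) (fun ω => ¬ (Qfew (Kset X b (unc ω)) ∧ PCfewL X b (unc ω)))
      ≤ _ := hsub
    _ ≤ _ := pr_or_le _ _ _
    _ ≤ 1 / 16 + 1 / 16 := add_le_add hP1 hP2
    _ = 1 / 8 := by norm_num

end Crest.Agent.R34
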