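import Mathlib

/-!
# Row 34 (S0045, S0046): counterexamples to Ryser's conjecture.  Definitions and the list of
closed Props (one per task).  See table `r34_tasks` for the proofs.
-/

set_option autoImplicit false

open Finset Classical

namespace Crest.Agent.R34

/-! ## The truncated projective plane (transversal design / orthogonal array model) -/

/-- points: a part `i : Option F` and a value in `F`. -/
abbrev Pt (F : Type) := Option F × F
/-- lines (not through the deleted point): pairs `(a,b)`. -/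
abbrev Ln (F : Type) := F × F

section
variable {F : Type} [Field F]

/-- the value of the line `(a,b)` at part `i`. -/
def ev (L : Ln F) : Option F → F
  | none => L.1
  | some t => L.1 * t + L.2

/-- incidence. -/
def On (z : Pt F) (L : Ln F) : Prop := ev L z.1 = z.2

/-- The line through two points in different parts (junk otherwise). -/
noncomputable def join (z z' : Pt F) : Ln F :=
  match z.1, z'.1 with
  | none, none => (0, 0)
  | none, some t => (z.2, z'.2 - z.2 * t)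
  | some t, none => (z'.2, z.2 - z'.2 * t)
  | some t, some t' => ((z.2 - z'.2) / (t - t'), z.2 - (z.2 - z'.2) / (t - t') * t)

/-- The part where two distinct lines agree. -/
noncomputable def meet (L L' : Ln F) : Option F :=
  if L.1 = L'.1 then none else some ((L'.2 - L.2) / (L.1 - L'.1))

theorem ev_eq_iff {L L' : Ln F} (h : L ≠ L') (i : Option F) : ev L i = ev L' i ↔ i = meet L L' := by
  rcases L with ⟨a, b⟩
  rcases L' with ⟨a', b'⟩
  unfold meet
  cases i with
  | none =>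
    by_cases h1 : a = a'
    · simp [ev, h1]
    · simp [ev, h1]
  | some t =>
    by_cases h1 : a = a'
    · subst h1
      have h2 : b ≠ b' := by rintro rfl; exact h rfl
      simp [ev, h2]
    · have h3 : a - a' ≠ 0 := sub_ne_zero.mpr h1
      simp only [ev, h1, if_false, Option.some.injEq]
      rw [eq_div_iff h3]
      constructor
      · intro h4; linear_combination h4
      · intro h4; linear_combination h4

theorem On_join_left {z z' : Pt F} (h : z.1 ≠ z'.1) : On z (join z z') := by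
  rcases z with ⟨i, y⟩
  rcases z' with ⟨i', y'⟩
  cases i with
  | none =>
    cases i' with
    | none => exact absurd rfl h
    | some t => simp [On, join, ev]
  | some t =>
    cases i' with
    | none => simp [On, join, ev]
    | some t' =>
      simp [On, join, ev]

theorem On_join_right {z z' : Pt F} (h : z.1 ≠ z'.1) : On z' (join z z') := by
  rcases z with ⟨i, y⟩
  rcases z' with ⟨i', y'⟩
  cases i with
  | none =>
    cases i' with
    | none => exact absurd rfl h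
    | some t => simp [On, join, ev]
  | some t =>
    cases i' with
    | none => simp [On, join, ev]
    | some t' =>
      have h1 : t - t' ≠ 0 := by
        intro h2
        apply h
        simp only
        rw [sub_eq_zero.mp h2]
      simp only [On, join, ev]
      field_simp
      ring

/-- two distinct lines share at most one point -/
theorem On_unique {z z' : Pt F} {L L' : Ln F} (h : z.1 ≠ z'.1) (h1 : On z L) (h2 : On z' L)
    (h3 : On z L') (h4 : On z' L') : L = L' := by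
  by_contra h5
  have e1 := (ev_eq_iff h5 z.1).mp (by unfold On at *; rw [h1, h3])
  have e2 := (ev_eq_iff h5 z'.1).mp (by unfold On at *; rw [h2, h4])
  exact h (e1.trans e2.symm)

theorem join_eq {z z' : Pt F} {L : Ln F} (h : z.1 ≠ z'.1) (h1 : On z L) (h2 : On z' L) :
    join z z' = L :=
  On_unique h (On_join_left h) (On_join_right h) h1 h2

/-- a point on a line is determined by its part -/
theorem On_inj {z z' : Pt F} {L : Ln F} (h1 : On z L) (h2 : On z' L) (h : z.1 = z'.1) : z = z' := by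
  unfold On at *
  rcases z with ⟨i, y⟩
  rcases z' with ⟨i', y'⟩
  simp only at h h1 h2
  subst h
  rw [h1] at h2
  rw [h2]

theorem On_ev (L : Ln F) (i : Option F) : On (i, ev L i) L := rfl

end

/-- the polylogarithmic parameter -/
def lg (q : ℕ) : ℕ := (Nat.log 2 q) ^ 2

/-! ## The incidence theorem (tasks I1 - I4) -/

/-- Balog-Szemeredi-Gowers. -/
def BSG : Prop := ∃ C : ℕ, 0 < C ∧ ∀ (G : Type) [AddCommGroup G] (A B : Finset G)
  (E : Finset (G × G)) (N K : ℝ), 1 ≤ K → 0 < N → E ⊆ A ×ˢ B → (A.card : ℝ) ≤ N → (B.card : ℝ) ≤ N →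
  N ^ 2 ≤ K * E.card → ((E.image (fun e => e.1 + e.2)).card : ℝ) ≤ K * N →
  ∃ A' B' : Finset G, A' ⊆ A ∧ B' ⊆ B ∧ N ≤ C * K ^ C * A'.card ∧ N ≤ C * K ^ C * B'.card ∧
    (((A' ×ˢ B').image (fun e => e.1 + e.2)).card : ℝ) ≤ C * K ^ C * N

/-- No approximate subfields of size about `√q` in a field with `p^k` elements, `k` odd. -/
def FieldPart : Prop := ∃ ε : ℝ, 0 < ε ∧ ∃ q₀ : ℕ, ∀ (F : Type) [Field F] [Fintype F] (p k : ℕ),
  p.Prime → Odd k → Fintype.card F = p ^ k → q₀ ≤ Fintype.card F →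
  ∀ (A Λ : Finset F), (Fintype.card F : ℝ) ^ (1 / 2 - ε) ≤ A.card →
    (A.card : ℝ) ≤ (Fintype.card F : ℝ) ^ (1 / 2 + ε) →
    (Fintype.card F : ℝ) ^ (1 / 2 - ε) ≤ Λ.card → (0 : F) ∉ Λ →
    (∀ l ∈ Λ, (((A ×ˢ A).image (fun e => e.1 + l * e.2)).card : ℝ) ≤
      (Fintype.card F : ℝ) ^ ε * A.card) → False

/-- From many dilates with dense small partial sumsets to one set `A` with `|A+λA|` small. -/
def CommonSet : Prop := ∀ ε' : ℝ, 0 < ε' → ∃ ε : ℝ, 0 < ε ∧ ∃ q₀ : ℕ,
  ∀ (F : Type) [Field F] [Fintype F], q₀ ≤ Fintype.card F →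
  ∀ (A₁ A₂ Λ : Finset F), (A₁.card : ℝ) ≤ (Fintype.card F : ℝ) ^ (1 / 2 + ε) →
    (A₂.card : ℝ) ≤ (Fintype.card F : ℝ) ^ (1 / 2 + ε) →
    (Fintype.card F : ℝ) ^ (1 / 2 - ε) ≤ Λ.card → (0 : F) ∉ Λ →
    (∀ l ∈ Λ, ∃ E : Finset (F × F), E ⊆ A₁ ×ˢ A₂ ∧ (Fintype.card F : ℝ) ^ (1 - ε) ≤ E.card ∧
      ((E.image (fun e => e.1 + l * e.2)).card : ℝ) ≤ (Fintype.card F : ℝ) ^ (1 / 2 + ε)) →
    ∃ A Λ' : Finset F, (Fintype.card F : ℝ) ^ (1 / 2 - ε') ≤ A.card ∧
      (A.card : ℝ) ≤ (Fintype.card F : ℝ) ^ (1 / 2 + ε') ∧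
      (Fintype.card F : ℝ) ^ (1 / 2 - ε') ≤ Λ'.card ∧ (0 : F) ∉ Λ' ∧
      (∀ l ∈ Λ', (((A ×ˢ A).image (fun e => e.1 + l * e.2)).card : ℝ) ≤
        (Fintype.card F : ℝ) ^ ε' * A.card)

/-- The configuration of `CommonSet` cannot exist. -/
def NoConfig : Prop := ∃ ε : ℝ, 0 < ε ∧ ∃ q₀ : ℕ, ∀ (F : Type) [Field F] [Fintype F] (p k : ℕ),
  p.Prime → Odd k → Fintype.card F = p ^ k → q₀ ≤ Fintype.card F →
  ∀ (A₁ A₂ Λ : Finset F), (A₁.card : ℝ) ≤ (Fintype.card F : ℝ) ^ (1 / 2 + ε) →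
    (A₂.card : ℝ) ≤ (Fintype.card F : ℝ) ^ (1 / 2 + ε) →
    (Fintype.card F : ℝ) ^ (1 / 2 - ε) ≤ Λ.card → (0 : F) ∉ Λ →
    (∀ l ∈ Λ, ∃ E : Finset (F × F), E ⊆ A₁ ×ˢ A₂ ∧ (Fintype.card F : ℝ) ^ (1 - ε) ≤ E.card ∧
      ((E.image (fun e => e.1 + l * e.2)).card : ℝ) ≤ (Fintype.card F : ℝ) ^ (1 / 2 + ε)) → False

/-- The incidence theorem: spread sets have few pairs on `√q`-rich lines. -/
def INC : Prop := ∃ ε : ℝ, 0 < ε ∧ ∃ q₀ : ℕ, ∀ (F : Type) [Field F] [Fintype F] (p k : ℕ),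
  p.Prime → Odd k → Fintype.card F = p ^ k → q₀ ≤ Fintype.card F →
  ∀ (S : Finset (Pt F)) (𝓛 : Finset (Ln F)), S.card ≤ Fintype.card F →
    (∀ L : Ln F, ((S.filter (fun z => On z L)).card : ℝ) ≤ (Fintype.card F : ℝ) ^ (9 / 10 : ℝ)) →
    (∀ i : Option F, ((S.filter (fun z => z.1 = i)).card : ℝ) ≤
      (Fintype.card F : ℝ) ^ (9 / 10 : ℝ)) →
    (∀ L ∈ 𝓛, (Fintype.card F : ℝ) ^ (1 / 2 - ε) ≤ (S.filter (fun z => On z L)).card) →
    (∑ L ∈ 𝓛, ((S.filter (fun z => On z L)).card : ℝ) ^ 2) ≤ (Fintype.card F : ℝ) ^ (2 - ε)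

end Crest.Agent.R34
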