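import Crest.Agent.R34.Defs

/-!
# Row 34: probability on finite products, the random stages, the final system.
-/

set_option autoImplicit false

open Finset Classical

namespace Crest.Agent.R34

/-! ## Uniform probability on `Π m, Φ m` -/

section
variable {M β : Type} [Fintype M]

/-- the sample space -/
noncomputable def sp (Φ : M → Finset β) : Finset (M → β) := Fintype.piFinset Φ

theorem mem_sp {Φ : M → Finset β} {ω : M → β} : ω ∈ sp Φ ↔ ∀ m, ω m ∈ Φ m := by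
  simp [sp]

theorem card_sp (Φ : M → Finset β) : (sp Φ).card = ∏ m, (Φ m).card := by
  simp [sp]

/-- probability of `E` under the uniform distribution on `sp Φ` -/
noncomputable def pr (Φ : M → Finset β) (E : (M → β) → Prop) : ℝ :=
  (((sp Φ).filter E).card : ℝ) / (sp Φ).card

/-- expectation -/
noncomputable def ex (Φ : M → Finset β) (f : (M → β) → ℝ) : ℝ :=
  (∑ ω ∈ sp Φ, f ω) / (sp Φ).card

theorem pr_nonneg (Φ : M → Finset β) (E : (M → β) → Prop) : 0 ≤ pr Φ E := by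
  unfold pr; positivity

theorem pr_mono {Φ : M → Finset β} {E E' : (M → β) → Prop}
    (h : ∀ ω, (∀ m, ω m ∈ Φ m) → E ω → E' ω) : pr Φ E ≤ pr Φ E' := by
  unfold pr
  apply div_le_div_of_nonneg_right _ (Nat.cast_nonneg _)
  exact_mod_cast Finset.card_le_card (fun ω hω => by
    simp only [Finset.mem_filter, mem_sp] at hω ⊢
    exact ⟨hω.1, h ω hω.1 hω.2⟩)

theorem pr_or_le (Φ : M → Finset β) (E E' : (M → β) → Prop) :
    pr Φ (fun ω => E ω ∨ E' ω) ≤ pr Φ E + pr Φ E' := by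
  unfold pr
  rw [← add_div]
  apply div_le_div_of_nonneg_right _ (Nat.cast_nonneg _)
  refine le_trans (Nat.cast_le.mpr (Finset.card_le_card (t := (sp Φ).filter E ∪ (sp Φ).filter E') ?_)) ?_
  · intro ω hω
    simp only [Finset.mem_filter, Finset.mem_union] at hω ⊢
    tauto
  · exact_mod_cast Finset.card_union_le _ _

/-- union bound -/
theorem pr_exists_le {κ : Type} (Φ : M → Finset β) (s : Finset κ) (E : κ → (M → β) → Prop) :
    pr Φ (fun ω => ∃ a ∈ s, E a ω) ≤ ∑ a ∈ s, pr Φ (E a) := by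
  unfold pr
  rw [← Finset.sum_div]
  apply div_le_div_of_nonneg_right _ (Nat.cast_nonneg _)
  refine le_trans (Nat.cast_le.mpr (Finset.card_le_card
    (t := s.biUnion (fun a => (sp Φ).filter (E a))) ?_)) ?_
  · intro ω hω
    simp only [Finset.mem_filter, Finset.mem_biUnion] at hω ⊢
    obtain ⟨h1, a, ha, h2⟩ := hω
    exact ⟨a, ha, h1, h2⟩
  · refine le_trans (Nat.cast_le.mpr Finset.card_biUnion_le) ?_
    push_cast
    exact le_refl _

/-- if the failure probability is `< 1` there is a good outcome. -/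
theorem exists_of_pr_lt {Φ : M → Finset β} (hne : ∀ m, (Φ m).Nonempty) {E : (M → β) → Prop}
    (h : pr Φ E < 1) : ∃ ω, (∀ m, ω m ∈ Φ m) ∧ ¬ E ω := by
  by_contra hcon
  push Not at hcon
  have h1 : (sp Φ).filter E = sp Φ := by
    apply Finset.filter_true_of_mem
    intro ω hω
    exact hcon ω (mem_sp.mp hω)
  unfold pr at h
  rw [h1] at h
  have h2 : (0 : ℝ) < (sp Φ).card := by
    rw [card_sp]
    exact_mod_cast Finset.prod_pos (fun m _ => Finset.card_pos.mpr (hne m))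
  rw [div_self h2.ne'] at h
  exact lt_irrefl _ h

/-- independence -/
theorem pr_pi (Φ : M → Finset β) (B : M → β → Prop) :
    pr Φ (fun ω => ∀ m, B m (ω m)) =
      ∏ m, ((((Φ m).filter (B m)).card : ℝ) / (Φ m).card) := by
  unfold pr
  have h1 : (@Finset.filter _ (fun ω => ∀ m, B m (ω m)) (fun a => propDecidable _) (sp Φ)) =
      sp (fun m => (Φ m).filter (B m)) := by
    ext ω
    simp only [Finset.mem_filter, mem_sp]
    exact ⟨fun h m => ⟨h.1 m, h.2 m⟩, fun h => ⟨fun m => (h m).1, fun m => (h m).2⟩⟩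
  rw [h1, card_sp, card_sp, Finset.prod_div_distrib]
  push_cast
  rfl

end

/-- McDiarmid's inequality (weak constant). -/
def McDiarmid : Prop := ∀ (M β : Type) [Fintype M] (Φ : M → Finset β), (∀ m, (Φ m).Nonempty) →
  ∀ (f : (M → β) → ℝ) (c : M → ℝ),
  (∀ (ω ω' : M → β), (∀ m, ω m ∈ Φ m) → (∀ m, ω' m ∈ Φ m) → ∀ m, (∀ m', m' ≠ m → ω m' = ω' m') →
    |f ω - f ω'| ≤ c m) →
  ∀ t V : ℝ, 0 ≤ t → 0 < V → (∑ m, c m ^ 2) ≤ V →
    pr Φ (fun ω => t ≤ |f ω - ex Φ f|) ≤ 2 * Real.exp (- t ^ 2 / (2 * V))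

/-- A linear number of tests survives linearly many independent random objects. -/
def GoodLower : Prop := ∀ (D : ℕ) (c C : ℝ), 0 < c → 0 < C → ∃ c₁ : ℝ, 0 < c₁ ∧ ∃ q₀ : ℕ,
  ∀ q : ℕ, q₀ ≤ q → ∀ (M β Θ : Type) [Fintype M] (Φ : M → Finset β) (T : Finset Θ)
    (bad : M → Θ → β → Prop),
    (Fintype.card M : ℝ) ≤ C * q → (∀ m, c * q ≤ (Φ m).card) → c * q ≤ T.card →
    (T.card : ℝ) ≤ C * q →
    (∀ m, ∀ θ ∈ T, ((Φ m).filter (fun w => bad m θ w)).card ≤ D) →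
    (∀ m, ∀ w ∈ Φ m, (T.filter (fun θ => bad m θ w)).card ≤ D) →
    pr Φ (fun ω => ((T.filter (fun θ => ∀ m, ¬ bad m θ (ω m))).card : ℝ) < c₁ * q) ≤
      Real.exp (- c₁ * q)

/-- at least `s` hits are unlikely -/
def FewHits : Prop := ∀ (M β : Type) [Fintype M] (Φ : M → Finset β) (I : M → β → Prop) (s : ℕ),
  pr Φ (fun ω => s ≤ (univ.filter (fun m => I m (ω m))).card) ≤
    (∑ m, (((Φ m).filter (I m)).card : ℝ) / (Φ m).card) ^ s / s.factorial

/-- Balls in bins: the probability that all targets are hit. -/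
def BallsBins : Prop := ∀ (M β τ : Type) [Fintype M] (Φ : M → Finset β) (H : Finset τ)
  (hit : M → β → τ → Prop), (∀ m, (Φ m).Nonempty) →
  (∀ m, ∀ w ∈ Φ m, ∀ e ∈ H, ∀ e' ∈ H, hit m w e → hit m w e' → e = e') →
  pr Φ (fun ω => ∀ e ∈ H, ∃ m, hit m (ω m) e) ≤
    ∏ e ∈ H, (1 - ∏ m, (1 - (((Φ m).filter (fun w => hit m w e)).card : ℝ) / (Φ m).card))

/-- Abstract witness lemma: it is very unlikely that almost all targets are hit with distinct
witnesses. -/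
def WitnessAbs : Prop := ∀ (c C : ℝ), 0 < c → 0 < C → ∃ c₁ : ℝ, 0 < c₁ ∧ c₁ < 1 ∧ ∃ q₀ : ℕ,
  ∀ q : ℕ, q₀ ≤ q → ∀ (M β τ : Type) [Fintype M] (Φ : M → Finset β) (H : Finset τ)
    (hit : M → β → τ → Prop),
    (Fintype.card M : ℝ) ≤ C * q → (∀ m, c * q ≤ (Φ m).card) →
    c * (lg q : ℝ) ^ 2 ≤ H.card → H.card ≤ lg q ^ 2 →
    (∀ m, ∀ e ∈ H, ((Φ m).filter (fun w => hit m w e)).card ≤ 1) →
    (∑ m, ((Φ m).filter (fun w => ∃ e ∈ H, ∃ e' ∈ H, e ≠ e' ∧ hit m w e ∧ hit m w e')).card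
      ≤ lg q ^ 4) →
    pr Φ (fun ω => ∃ H' ⊆ H, (1 - c₁) * H.card ≤ (H'.card : ℝ) ∧
        ∃ ψ : τ → M, Set.InjOn ψ H' ∧ ∀ e ∈ H', hit (ψ e) (ω (ψ e)) e) ≤
      (q : ℝ) ^ (- (6 * lg q : ℝ))

/-- events with five independent conditions -/
def FiveEvents : Prop := ∀ (M β κ : Type) [Fintype M] [Fintype κ] (Ω : M → Finset β) (δ : ℝ),
  (∀ m, (Ω m).Nonempty) → 0 ≤ δ → (Fintype.card κ : ℝ) * δ ^ 5 < 1 →
  ∀ (s : κ → Fin 5 → M), (∀ a, Function.Injective (s a)) → ∀ (B : κ → Fin 5 → β → Prop),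
  (∀ a r, (((Ω (s a r)).filter (B a r)).card : ℝ) ≤ δ * (Ω (s a r)).card) →
  ∃ ω : M → β, (∀ m, ω m ∈ Ω m) ∧ ∀ a, ∃ r, ¬ B a r (ω (s a r))

/-! ## The stages -/

section
variable {F : Type} [Field F] [Fintype F]

/-- the line through `z` and the point of `L` in part `i` -/
noncomputable def own (z : Pt F) (i : Option F) (L : Ln F) : Ln F := join z (i, ev L i)

/-- every point off `X` is on about `q (1-1/q)^q` lines missing `X` -/
def PAdeg (X : Option F → F) : Prop := ∀ z : Pt F, z.2 ≠ X z.1 →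
    |((univ.filter (fun L : Ln F => On z L ∧ ∀ i, ev L i ≠ X i)).card : ℝ) -
      (Fintype.card F : ℝ) * (1 - 1 / (Fintype.card F : ℝ)) ^ (Fintype.card F)| ≤
      lg (Fintype.card F) * √(Fintype.card F)

def PAfew (X : Option F → F) : Prop :=
  ∀ L : Ln F, (univ.filter (fun i => ev L i = X i)).card ≤ lg (Fintype.card F)

def PAgood (X : Option F → F) (R : ℕ) (c : ℝ) : Prop :=
  ∀ (i : Option F) (J : Fin 2 → Fin R → Pt F) (j' : Fin R), (∀ k j, (J k j).1 ≠ i) →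
    (∀ k j, j ≠ j' → (J k j).1 ≠ (J k j').1) →
    c * Fintype.card F ≤ (univ.filter (fun L : Ln F => ev L i = X i ∧ (∀ i', i' ≠ i → ev L i' ≠ X i') ∧
      (∀ k j, ¬ On (J k j) L) ∧ ∀ k j, j ≠ j' → ∀ i', i' ≠ (J k j).1 →
        ev (own (J k j) (J k j').1 L) i' ≠ X i')).card

def PAwit (X : Option F → F) (c : ℝ) : Prop :=
  ∀ z z' : Fin (lg (Fintype.card F)) → Pt F, (∀ u v, (z u).1 ≠ (z' v).1) →
    Function.Injective
      (fun e : Fin (lg (Fintype.card F)) × Fin (lg (Fintype.card F)) => join (z e.1) (z' e.2)) →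
    ∀ H : Finset (Fin (lg (Fintype.card F)) × Fin (lg (Fintype.card F))),
    ∀ ψ : Fin (lg (Fintype.card F)) × Fin (lg (Fintype.card F)) → Option F, Set.InjOn ψ H →
    (∀ e ∈ H, ev (join (z e.1) (z' e.2)) (ψ e) = X (ψ e)) →
    (H.card : ℝ) ≤ (1 - c) * (lg (Fintype.card F) : ℝ) ^ 2

/-- Stage A (I-points `x_i = (i, X i)`). -/
structure PropA (X : Option F → F) (R : ℕ) (c : ℝ) : Prop where
  deg : PAdeg X
  few : PAfew X
  good : PAgood X R c
  wit : PAwit X c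

/-- sample space of stage A: `X` uniform. -/
noncomputable abbrev spA (F : Type) [Fintype F] : Option F → Finset F := fun _ => univ

def TaskAdeg : Prop := ∃ q₀ : ℕ, ∀ (F : Type) [Field F] [Fintype F], q₀ ≤ Fintype.card F →
  pr (spA F) (fun X => ¬ PAdeg X) ≤ 1 / 8
def TaskAfew : Prop := ∃ q₀ : ℕ, ∀ (F : Type) [Field F] [Fintype F], q₀ ≤ Fintype.card F →
  pr (spA F) (fun X => ¬ PAfew X) ≤ 1 / 8
def TaskAgood : Prop := ∀ R : ℕ, ∃ c : ℝ, 0 < c ∧ ∃ q₀ : ℕ, ∀ (F : Type) [Field F] [Fintype F],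
  q₀ ≤ Fintype.card F → pr (spA F) (fun X => ¬ PAgood X R c) ≤ 1 / 8
def TaskAwit : Prop := ∃ c : ℝ, 0 < c ∧ ∃ q₀ : ℕ, ∀ (F : Type) [Field F] [Fintype F],
  q₀ ≤ Fintype.card F → pr (spA F) (fun X => ¬ PAwit X c) ≤ 1 / 8

def StageA : Prop := ∀ R : ℕ, ∃ c : ℝ, 0 < c ∧ ∃ q₀ : ℕ, ∀ (F : Type) [Field F] [Fintype F],
  q₀ ≤ Fintype.card F → ∃ X : Option F → F, PropA X R c

/-- the free parts for the J-point `(k,j)` of the base line `b i k` -/
noncomputable def Fr {R : ℕ} (b : Option F → Fin 2 → Ln F) (col : Option F → Fin 2 × Fin R)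
    (i : Option F) (k : Fin 2) (j : Fin R) : Finset (Option F) :=
  univ.filter (fun p => p ≠ i ∧ col p = (k, j) ∧
    ∀ i' k', (i', k') ≠ (i, k) → ev (b i' k') p ≠ ev (b i k) p)

/-- Stage B (base lines). -/
structure PropB (X : Option F → F) {R : ℕ} (c : ℝ) (b : Option F → Fin 2 → Ln F)
    (col : Option F → Fin 2 × Fin R) : Prop where
  base : ∀ i k, ev (b i k) i = X i
  tan : ∀ i k i', i' ≠ i → ev (b i k) i' ≠ X i'
  ne : ∀ i, b i 0 ≠ b i 1
  free : ∀ i k j, c * Fintype.card F ≤ (Fr b col i k j).card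

def StageB : Prop := ∀ (R : ℕ) (c : ℝ), 1 ≤ R → 0 < c → ∃ c' : ℝ, 0 < c' ∧ ∃ q₀ : ℕ,
  ∀ (F : Type) [Field F] [Fintype F], q₀ ≤ Fintype.card F → ∀ X : Option F → F, PropA X R c →
  ∃ (b : Option F → Fin 2 → Ln F) (col : Option F → Fin 2 × Fin R), PropB X c' b col

/-- the J-points -/
def Jp {R : ℕ} (b : Option F → Fin 2 → Ln F) (π : Option F → Fin 2 → Fin R → Option F)
    (i : Option F) (k : Fin 2) (j : Fin R) : Pt F := (π i k j, ev (b i k) (π i k j))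

/-- the set `K` of I-points and J-points -/
noncomputable def Kset {R : ℕ} (X : Option F → F) (b : Option F → Fin 2 → Ln F)
    (π : Option F → Fin 2 → Fin R → Option F) : Finset (Pt F) :=
  univ.filter (fun z => z.2 = X z.1 ∨ ∃ i k j, z = Jp b π i k j)

/-- few K-points in each part -/
def Qfew (K : Finset (Pt F)) : Prop :=
  ∀ i, (K.filter (fun z => z.1 = i)).card ≤ 2 * lg (Fintype.card F)

/-- inverse probability weights -/
def Qwts (K : Finset (Pt F)) (c : ℝ) : Prop :=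
  ∃ (w : Ln F → ℝ) (D : ℝ), c * Fintype.card F ≤ D ∧ (∀ L, 1 ≤ w L ∧ w L ≤ 1 / c) ∧
    ∀ z, z ∉ K → |(∑ L ∈ univ.filter (fun L : Ln F => On z L ∧ ∀ κ ∈ K, ¬ On κ L), w L) - D| ≤
      (lg (Fintype.card F) : ℝ) ^ 2 * √(Fintype.card F)

/-- no bipartite configuration all of whose lines are hit by `K` with distinct witnesses -/
def Qwit (K : Finset (Pt F)) : Prop :=
  ∃ φ : Ln F → Pt F, (∀ L, (∃ κ ∈ K, On κ L) → φ L ∈ K ∧ On (φ L) L) ∧
    ∀ z z' : Fin (lg (Fintype.card F)) → Pt F, (∀ u v, (z u).1 ≠ (z' v).1) → (∀ u, z u ∉ K) →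
    (∀ v, z' v ∉ K) → Function.Injective
      (fun e : Fin (lg (Fintype.card F)) × Fin (lg (Fintype.card F)) => join (z e.1) (z' e.2)) →
    (∀ u v, ∃ κ ∈ K, On κ (join (z u) (z' v))) → ¬ Function.Injective
      (fun e : Fin (lg (Fintype.card F)) × Fin (lg (Fintype.card F)) => φ (join (z e.1) (z' e.2)))

/-- What the cover analysis of `T = {lines missing K}` needs. -/
structure Quasi (K : Finset (Pt F)) (c : ℝ) : Prop where
  few : Qfew K
  wts : Qwts K c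
  wit : Qwit K

/-- few K-points on non-base lines -/
def PCfewL (X : Option F → F) {R : ℕ} (b : Option F → Fin 2 → Ln F)
    (π : Option F → Fin 2 → Fin R → Option F) : Prop :=
  ∀ L : Ln F, (∀ i k, L ≠ b i k) →
    ((Kset X b π).filter (fun z => On z L)).card ≤ 2 * lg (Fintype.card F)

/-- the good choices for the line `θ i j'` -/
noncomputable def GoodSet (X : Option F → F) {R : ℕ} (b : Option F → Fin 2 → Ln F)
    (π : Option F → Fin 2 → Fin R → Option F) (i : Option F) (j' : Fin R) : Finset (Ln F) :=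
  univ.filter (fun L : Ln F => ev L i = X i ∧
    (∀ z ∈ Kset X b π, z ≠ (i, X i) → ¬ On z L) ∧ ∀ k j, j ≠ j' → ∀ z ∈ Kset X b π,
      z ≠ Jp b π i k j → ¬ On z (own (Jp b π i k j) (π i k j') L))

/-- Stage C (J-points). -/
structure PropC (X : Option F → F) {R : ℕ} (c : ℝ) (b : Option F → Fin 2 → Ln F)
    (col : Option F → Fin 2 × Fin R) (π : Option F → Fin 2 → Fin R → Option F) : Prop where
  mem : ∀ i k j, π i k j ∈ Fr b col i k j
  quasi : Quasi (Kset X b π) c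
  fewL : PCfewL X b π
  good : ∀ i j', c * Fintype.card F ≤ (GoodSet X b π i j').card

/-- sample space of stage C, indexed by `(i, (k, j))` -/
noncomputable abbrev spC {R : ℕ} (b : Option F → Fin 2 → Ln F) (col : Option F → Fin 2 × Fin R) :
    Option F × (Fin 2 × Fin R) → Finset (Option F) := fun m => Fr b col m.1 m.2.1 m.2.2

/-- currying -/
abbrev unc {R : ℕ} (ω : Option F × (Fin 2 × Fin R) → Option F) :
    Option F → Fin 2 → Fin R → Option F := fun i k j => ω (i, (k, j))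

def TaskCfew : Prop := ∀ (R : ℕ) (c : ℝ), 1 ≤ R → 0 < c → ∃ q₀ : ℕ,
  ∀ (F : Type) [Field F] [Fintype F], q₀ ≤ Fintype.card F → ∀ (X : Option F → F)
    (b : Option F → Fin 2 → Ln F) (col : Option F → Fin 2 × Fin R),
    PropA X R c → PropB X c b col →
      pr (spC b col) (fun ω => ¬ (Qfew (Kset X b (unc ω)) ∧ PCfewL X b (unc ω))) ≤ 1 / 8

def TaskCwts : Prop := ∀ (R : ℕ) (c : ℝ), 1 ≤ R → 0 < c → ∃ c' : ℝ, 0 < c' ∧ ∃ q₀ : ℕ,
  ∀ (F : Type) [Field F] [Fintype F], q₀ ≤ Fintype.card F → ∀ (X : Option F → F)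
    (b : Option F → Fin 2 → Ln F) (col : Option F → Fin 2 × Fin R),
    PropA X R c → PropB X c b col →
      pr (spC b col) (fun ω => ¬ Qwts (Kset X b (unc ω)) c') ≤ 1 / 8

def TaskCwit : Prop := ∀ (R : ℕ) (c : ℝ), 1 ≤ R → 0 < c → ∃ q₀ : ℕ,
  ∀ (F : Type) [Field F] [Fintype F], q₀ ≤ Fintype.card F → ∀ (X : Option F → F)
    (b : Option F → Fin 2 → Ln F) (col : Option F → Fin 2 × Fin R),
    PropA X R c → PropB X c b col →
      pr (spC b col) (fun ω => ¬ Qwit (Kset X b (unc ω))) ≤ 1 / 8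

def TaskCgood : Prop := ∀ (R : ℕ) (c : ℝ), 1 ≤ R → 0 < c → ∃ c' : ℝ, 0 < c' ∧ ∃ q₀ : ℕ,
  ∀ (F : Type) [Field F] [Fintype F], q₀ ≤ Fintype.card F → ∀ (X : Option F → F)
    (b : Option F → Fin 2 → Ln F) (col : Option F → Fin 2 × Fin R),
    PropA X R c → PropB X c b col →
      pr (spC b col) (fun ω => ¬ ∀ i j', c' * Fintype.card F ≤ (GoodSet X b (unc ω) i j').card) ≤
        1 / 8

def StageC : Prop := ∀ (R : ℕ) (c : ℝ), 1 ≤ R → 0 < c → ∃ c' : ℝ, 0 < c' ∧ ∃ q₀ : ℕ,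
  ∀ (F : Type) [Field F] [Fintype F], q₀ ≤ Fintype.card F → ∀ (X : Option F → F)
    (b : Option F → Fin 2 → Ln F) (col : Option F → Fin 2 × Fin R),
    PropA X R c → PropB X c b col → ∃ π : Option F → Fin 2 → Fin R → Option F,
      PropC X c' b col π

/-- covers of `T` with at most `q` points contain a line or a part, outside `K`. -/
def Covers (K : Finset (Pt F)) : Prop := ∀ S : Finset (Pt F), (∀ z ∈ S, z ∉ K) →
  S.card ≤ Fintype.card F → (∀ L : Ln F, (∀ κ ∈ K, ¬ On κ L) → ∃ z ∈ S, On z L) →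
  (∃ L : Ln F, ∀ z, On z L → z ∉ K → z ∈ S) ∨ (∃ i : Option F, ∀ z : Pt F, z.1 = i → z ∉ K → z ∈ S)

/-- `S` is a set of at most `q` points outside `K` hitting all lines that miss `K` -/
structure IsCov (K S : Finset (Pt F)) : Prop where
  disj : ∀ z ∈ S, z ∉ K
  card_le : S.card ≤ Fintype.card F
  hits : ∀ L : Ln F, (∀ κ ∈ K, ¬ On κ L) → ∃ z ∈ S, On z L

/-- consequences of the weights -/
structure Excess (K S : Finset (Pt F)) (c : ℝ) : Prop where
  exc : (∑ L ∈ univ.filter (fun L : Ln F => ∀ κ ∈ K, ¬ On κ L),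
    (((S.filter (fun z => On z L)).card : ℝ) - 1)) ≤
      3 * (lg (Fintype.card F) : ℝ) ^ 2 * (Fintype.card F : ℝ) ^ (3 / 2 : ℝ)
  half : (Fintype.card F : ℝ) / 2 ≤ S.card
  degT : ∀ z, z ∉ K → c ^ 2 / 2 * Fintype.card F ≤
    (univ.filter (fun L : Ln F => On z L ∧ ∀ κ ∈ K, ¬ On κ L)).card

def ExcessThm : Prop := ∀ c : ℝ, 0 < c → ∃ q₀ : ℕ, ∀ (F : Type) [Field F] [Fintype F],
  q₀ ≤ Fintype.card F → ∀ K S : Finset (Pt F), Quasi K c → IsCov K S → Excess K S c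

def NonSpread : Prop := ∀ c : ℝ, 0 < c → ∃ q₀ : ℕ, ∀ (F : Type) [Field F] [Fintype F],
  q₀ ≤ Fintype.card F → ∀ K S : Finset (Pt F), Quasi K c → IsCov K S → Excess K S c →
  (∀ L : Ln F, (Fintype.card F : ℝ) ^ (9 / 10 : ℝ) < (S.filter (fun z => On z L)).card →
    ∀ z, On z L → z ∉ K → z ∈ S) ∧
  (∀ i : Option F, (Fintype.card F : ℝ) ^ (9 / 10 : ℝ) < (S.filter (fun z => z.1 = i)).card →
    ∀ z : Pt F, z.1 = i → z ∉ K → z ∈ S)

def SpreadThm : Prop := ∀ c : ℝ, 0 < c → ∃ q₀ : ℕ, ∀ (F : Type) [Field F] [Fintype F] (p k : ℕ),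
  p.Prime → Odd k → Fintype.card F = p ^ k → q₀ ≤ Fintype.card F →
  ∀ K S : Finset (Pt F), Quasi K c → IsCov K S → Excess K S c →
  (∀ L : Ln F, ((S.filter (fun z => On z L)).card : ℝ) ≤ (Fintype.card F : ℝ) ^ (9 / 10 : ℝ)) →
  (∀ i : Option F, ((S.filter (fun z => z.1 = i)).card : ℝ) ≤
      (Fintype.card F : ℝ) ^ (9 / 10 : ℝ)) → False

def CoverThm : Prop := ∀ c : ℝ, 0 < c → ∃ q₀ : ℕ, ∀ (F : Type) [Field F] [Fintype F] (p k : ℕ),
  p.Prime → Odd k → Fintype.card F = p ^ k → q₀ ≤ Fintype.card F →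
  ∀ K : Finset (Pt F), Quasi K c → Covers K

/-- `o` is an own line of gadget `i` attached at the K-point `z`. -/
def Att {R : ℕ} (X : Option F → F) (b : Option F → Fin 2 → Ln F)
    (π : Option F → Fin 2 → Fin R → Option F) (θ : Option F → Fin R → Ln F)
    (i : Option F) (z : Pt F) (o : Ln F) : Prop :=
  (z = (i, X i) ∧ ∃ j, o = θ i j) ∨
  (∃ k j j', j ≠ j' ∧ z = Jp b π i k j ∧ o = own (Jp b π i k j) (π i k j') (θ i j'))

/-- The final system. -/
structure Sys (F : Type) [Field F] [Fintype F] (R : ℕ) where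
  X : Option F → F
  b : Option F → Fin 2 → Ln F
  π : Option F → Fin 2 → Fin R → Option F
  θ : Option F → Fin R → Ln F
  base : ∀ i k, ev (b i k) i = X i
  tan : ∀ i k i', i' ≠ i → ev (b i k) i' ≠ X i'
  ne : ∀ i, b i 0 ≠ b i 1
  free : ∀ i k j i' k', (i', k') ≠ (i, k) → ¬ On (Jp b π i k j) (b i' k')
  part_ne : ∀ i k j, π i k j ≠ i
  part_inj : ∀ i k j k₁ j₁, π i k j = π i k₁ j₁ → k = k₁ ∧ j = j₁
  th_base : ∀ i j, ev (θ i j) i = X i
  th_avoid : ∀ i j, ∀ z ∈ Kset X b π, z ≠ (i, X i) → ¬ On z (θ i j)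
  th_inj : ∀ i j j', θ i j = θ i j' → j = j'
  om_avoid : ∀ i k j j', j ≠ j' → ∀ z ∈ Kset X b π, z ≠ Jp b π i k j →
    ¬ On z (own (Jp b π i k j) (π i k j') (θ i j'))
  om_inj : ∀ i k j j' j'', j ≠ j' → j ≠ j'' →
    own (Jp b π i k j) (π i k j') (θ i j') = own (Jp b π i k j) (π i k j'') (θ i j'') → j' = j''
  conc : ∀ (i : Option F) (k : Fin 2) (v : Pt F), ¬ On v (b i k) →
    ∀ j₁ j₂ j₃ j₁' j₂' j₃' : Fin R, j₁ ≠ j₁' → j₂ ≠ j₂' → j₃ ≠ j₃' → j₁ ≠ j₂ → j₁ ≠ j₃ → j₂ ≠ j₃ →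
    j₁' ≠ j₂' → j₁' ≠ j₃' → j₂' ≠ j₃' →
    On v (own (Jp b π i k j₁) (π i k j₁') (θ i j₁')) →
    On v (own (Jp b π i k j₂) (π i k j₂') (θ i j₂')) →
    ¬ On v (own (Jp b π i k j₃) (π i k j₃') (θ i j₃'))
  five : ∀ L : Ln F, (∀ i k, L ≠ b i k) → ∀ v : Pt F, ¬ On v L →
    (univ.filter (fun i => ∃ z o, Att X b π θ i z o ∧ On z L ∧ On v o)).card ≤ 4
  five_part : ∀ (p : Option F) (v : Pt F), v.1 ≠ p →
    (univ.filter (fun i => ∃ z o, Att X b π θ i z o ∧ z.1 = p ∧ On v o)).card ≤ 4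
  covers : Covers (Kset X b π)
  degT : ∀ z, z ∉ Kset X b π → ∃ L : Ln F, On z L ∧ ∀ κ ∈ Kset X b π, ¬ On κ L

/-- Stage D (own lines). -/
def StageD : Prop := ∀ (R : ℕ) (c : ℝ), 1 ≤ R → 0 < c → ∃ q₀ : ℕ,
  ∀ (F : Type) [Field F] [Fintype F], q₀ ≤ Fintype.card F → ∀ (X : Option F → F)
    (b : Option F → Fin 2 → Ln F) (col : Option F → Fin 2 × Fin R)
    (π : Option F → Fin 2 → Fin R → Option F), PropB X c b col → PropC X c b col π →
    Covers (Kset X b π) → Nonempty (Sys F R)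

/-! ## The hypergraph of a system: vertices `Option F × Option F` (part, value; `none` = ∞) -/

/-- the word of a line -/
def lineW (L : Ln F) : Option F → Option F := fun p => some (ev L p)

/-- the special edge `e_{i,k}` as a word: `∞` in part `i`, the label `y_{i,k,j}` in part `π i k j`,
and the point of `b i k` in the other parts. -/
noncomputable def specW {R : ℕ} (s : Sys F R) (i : Option F) (k : Fin 2) : Option F → Option F :=
  fun p => if p = i then none else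
    if h : ∃ j, s.π i k j = p then some (ev (s.θ i h.choose) p) else some (ev (s.b i k) p)

/-- `K` of a system -/
noncomputable abbrev Sys.K {R : ℕ} (s : Sys F R) : Finset (Pt F) := Kset s.X s.b s.π

/-- the edges (as words) -/
def IsEdge {R : ℕ} (s : Sys F R) (W : Option F → Option F) : Prop :=
  (∃ L : Ln F, (∀ κ ∈ s.K, ¬ On κ L) ∧ W = lineW L) ∨
  (∃ i z o, Att s.X s.b s.π s.θ i z o ∧ W = lineW o) ∨
  (∃ i k, W = specW s i k)

/-- `S` meets every edge -/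
def Hits {R : ℕ} (s : Sys F R) (S : Finset (Option F × Option F)) : Prop :=
  ∀ W, IsEdge s W → ∃ p, (p, W p) ∈ S

def EdgesMeet : Prop := ∀ (F : Type) [Field F] [Fintype F] (R : ℕ) (s : Sys F R), 1 ≤ R →
  ∀ W W', IsEdge s W → IsEdge s W' → ∃ p, W p = W' p

def CasePart : Prop := ∀ (F : Type) [Field F] [Fintype F] (R : ℕ) (s : Sys F R), 10 ≤ R →
  ∀ S : Finset (Option F × Option F), Hits s S → S.card ≤ Fintype.card F →
  ∀ i : Option F, (∀ z : Pt F, z.1 = i → z ∉ s.K → (z.1, some z.2) ∈ S) → False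

def CaseLine : Prop := ∀ (F : Type) [Field F] [Fintype F] (R : ℕ) (s : Sys F R), 10 ≤ R →
  ∀ S : Finset (Option F × Option F), Hits s S → S.card ≤ Fintype.card F →
  ∀ L : Ln F, (∀ i k, L ≠ s.b i k) → (∀ z : Pt F, On z L → z ∉ s.K → (z.1, some z.2) ∈ S) → False

def CaseBase : Prop := ∀ (F : Type) [Field F] [Fintype F] (R : ℕ) (s : Sys F R), 10 ≤ R →
  ∀ S : Finset (Option F × Option F), Hits s S → S.card ≤ Fintype.card F →
  ∀ i k, (∀ z : Pt F, On z (s.b i k) → z ∉ s.K → (z.1, some z.2) ∈ S) → False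

def HyperThm : Prop := ∀ (F : Type) [Field F] [Fintype F] (R : ℕ), 10 ≤ R → Sys F R →
  ∃ E : Finset (Finset (Option F × Option F)), E.Nonempty ∧
    (∀ e ∈ E, ∀ i, (e.filter (fun v => v.1 = i)).card = 1) ∧
    (∀ e ∈ E, ∀ f ∈ E, (e ∩ f).Nonempty) ∧ (∀ v, ∃ e ∈ E, v ∈ e) ∧
    (∀ S : Finset (Option F × Option F), (∀ e ∈ E, (e ∩ S).Nonempty) →
      Fintype.card F + 1 ≤ S.card)

end

/-- Everything together. -/
def MainThm : Prop := ∃ q₀ : ℕ, ∀ (F : Type) [Field F] [Fintype F] (p k : ℕ),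
  p.Prime → Odd k → Fintype.card F = p ^ k → q₀ ≤ Fintype.card F →
  ∃ E : Finset (Finset (Option F × Option F)), E.Nonempty ∧
    (∀ e ∈ E, ∀ i, (e.filter (fun v => v.1 = i)).card = 1) ∧
    (∀ e ∈ E, ∀ f ∈ E, (e ∩ f).Nonempty) ∧ (∀ v, ∃ e ∈ E, v ∈ e) ∧
    (∀ S : Finset (Option F × Option F), (∀ e ∈ E, (e ∩ S).Nonempty) →
      Fintype.card F + 1 ≤ S.card)

end Crest.Agent.R34
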