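import Mathlib
import Crest.Agent.R34.Defs
import Crest.Agent.R34.Defs2

/-!
# Row 34, task C2: inverse probability weights
-/

set_option autoImplicit false
set_option linter.unusedSectionVars false
set_option linter.unusedVariables false

open Finset Classical

namespace Crest.Agent.R34.CW

/-! ## numerical facts -/

theorem exp_le_one_sub {x : ℝ} (h0 : 0 ≤ x) (h1 : x ≤ 1 / 2) : Real.exp (-(2 * x)) ≤ 1 - x := by
  have h2 : (2 * x) + 1 ≤ Real.exp (2 * x) := Real.add_one_le_exp _
  have h3 : 1 ≤ (1 - x) * Real.exp (2 * x) := by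
    calc (1 : ℝ) ≤ (1 - x) * ((2 * x) + 1) := by nlinarith
      _ ≤ _ := by
        apply mul_le_mul_of_nonneg_left h2; linarith
  rw [Real.exp_neg, inv_le_iff_one_le_mul₀ (Real.exp_pos _)]
  exact h3

theorem exists_q0 {A c : ℝ} (hA : 0 < A) (hc : 0 < c) : ∃ q₀ : ℕ, ∀ q : ℕ, q₀ ≤ q →
    2 ≤ q ∧ 2 ≤ c * q ∧ 3 ≤ lg q ∧ 2 / c ≤ √(q : ℝ) ∧
      32 * (q : ℝ) ^ 2 * Real.exp (-(A * (lg q : ℝ) ^ 2)) ≤ 1 := by
  obtain ⟨l0, hl0⟩ := exists_nat_ge (9 / A)
  obtain ⟨a, ha⟩ := exists_nat_ge (2 / c)
  refine ⟨2 ^ (l0 + 2) + a + a ^ 2, ?_⟩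
  intro q hq
  have hq1 : 2 ^ (l0 + 2) ≤ q :=
    le_trans (le_trans (Nat.le_add_right _ _) (Nat.le_add_right _ _)) hq
  have hq0 : q ≠ 0 := by
    have : 0 < 2 ^ (l0 + 2) := by positivity
    omega
  have hl : l0 + 2 ≤ Nat.log 2 q := (Nat.le_log_iff_pow_le (by norm_num) hq0).mpr hq1
  set l := Nat.log 2 q with hldef
  have hq2 : 4 ≤ q := by
    have : 2 ^ 2 ≤ 2 ^ (l0 + 2) := Nat.pow_le_pow_right (by norm_num) (by omega)
    omega
  have hqa : a ≤ q :=
    le_trans (le_trans (Nat.le_add_left _ _) (Nat.le_add_right _ _)) hq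
  have hqa2 : a ^ 2 ≤ q := le_trans (Nat.le_add_left _ _) hq
  have hlg : lg q = l ^ 2 := rfl
  refine ⟨by omega, ?_, ?_, ?_, ?_⟩
  · have h1 : (2 / c : ℝ) ≤ q := ha.trans (by exact_mod_cast hqa)
    rw [div_le_iff₀ hc] at h1
    linarith
  · rw [hlg]
    have : 2 ^ 2 ≤ l ^ 2 := Nat.pow_le_pow_left (by omega) 2
    omega
  · refine ha.trans ?_
    apply Real.le_sqrt_of_sq_le
    exact_mod_cast hqa2
  · have h1 : (q : ℝ) ≤ 2 ^ (l + 1) := by
      exact_mod_cast (Nat.lt_pow_succ_log_self (by norm_num) q).le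
    have h2 : 32 * (q : ℝ) ^ 2 ≤ Real.exp (9 * l) := by
      have h3 : 32 * (q : ℝ) ^ 2 ≤ 2 ^ (2 * l + 7) := by
        calc 32 * (q : ℝ) ^ 2 ≤ 32 * (2 ^ (l + 1)) ^ 2 := by gcongr
          _ = 2 ^ (2 * l + 7) := by ring
      have h4 : (2 : ℝ) ^ (2 * l + 7) ≤ 2 ^ (9 * l) := by
        apply pow_le_pow_right₀ (by norm_num)
        omega
      have h5 : (2 : ℝ) ^ (9 * l) ≤ (Real.exp 1) ^ (9 * l) := by
        apply pow_le_pow_left₀ (by norm_num)
        have := Real.add_one_le_exp (1 : ℝ)
        linarith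
      have h6 : (Real.exp 1) ^ (9 * l) = Real.exp (9 * l) := by
        rw [← Real.exp_nat_mul]
        congr 1
        push_cast
        ring
      linarith
    have h3 : 9 * (l : ℝ) ≤ A * (lg q : ℝ) ^ 2 := by
      rw [hlg]
      push_cast
      have hl1 : (1 : ℝ) ≤ l := by
        have : 1 ≤ l := by omega
        exact_mod_cast this
      have hl2 : 9 / A ≤ (l : ℝ) := by
        refine hl0.trans ?_
        have : l0 ≤ l := by omega
        exact_mod_cast this
      rw [div_le_iff₀ hA] at hl2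
      have h4 : (l : ℝ) ≤ (l : ℝ) ^ 3 := by
        calc (l : ℝ) = (l : ℝ) ^ 1 := (pow_one _).symm
          _ ≤ (l : ℝ) ^ 3 := pow_le_pow_right₀ hl1 (by norm_num)
      calc 9 * (l : ℝ) ≤ (l * A) * l := by
            apply mul_le_mul_of_nonneg_right hl2; positivity
        _ ≤ ((l : ℝ) ^ 3 * A) * l := by gcongr
        _ = A * ((l : ℝ) ^ 2) ^ 2 := by ring
    calc 32 * (q : ℝ) ^ 2 * Real.exp (-(A * (lg q : ℝ) ^ 2))
        ≤ Real.exp (9 * l) * Real.exp (-(9 * l)) := by
          apply mul_le_mul h2 _ (Real.exp_pos _).le (Real.exp_pos _).le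
          apply Real.exp_le_exp.mpr
          linarith
      _ = 1 := by rw [← Real.exp_add]; simp

theorem quarter {q : ℕ} (hq : 2 ≤ q) : (1 / 4 : ℝ) ≤ (1 - 1 / (q : ℝ)) ^ q := by
  have hq2 : (2 : ℝ) ≤ q := by exact_mod_cast hq
  -- (1 - 1/q)^q ≥ 1/4
  have hq0 : (0 : ℝ) < q := by linarith
  have h1 : (1 : ℝ) / q ≤ 1 / 2 := by
    rw [div_le_div_iff₀ hq0 (by norm_num)]; linarith
  rcases Nat.even_or_odd q with he | ho
  · obtain ⟨r, hr⟩ := he
    have h2 : 1 - (r : ℝ) * (1 / q) ≤ (1 - 1 / (q : ℝ)) ^ r := by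
      have := one_add_mul_le_pow (a := -(1 / (q : ℝ))) (by linarith) r
      have e : (1 : ℝ) + (r : ℝ) * (-(1 / q)) = 1 - (r : ℝ) * (1 / q) := by ring
      rw [e] at this
      have e2 : (1 : ℝ) + -(1 / q) = 1 - 1 / q := by ring
      rwa [e2] at this
    have h3 : (r : ℝ) * (1 / q) = 1 / 2 := by
      rw [hr]; push_cast
      have : (r : ℝ) ≠ 0 := by
        intro h
        rw [hr] at hq2
        push_cast at hq2
        rw [h] at hq2
        norm_num at hq2
      field_simp
      ring
    have h4 : (1 / 2 : ℝ) ≤ (1 - 1 / (q : ℝ)) ^ r := by rw [h3] at h2; linarith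
    calc (1 / 4 : ℝ) = (1 / 2) * (1 / 2) := by norm_num
      _ ≤ (1 - 1 / (q : ℝ)) ^ r * (1 - 1 / (q : ℝ)) ^ r := by gcongr
      _ = (1 - 1 / (q : ℝ)) ^ (r + r) := by rw [pow_add]
      _ = (1 - 1 / (q : ℝ)) ^ q := by rw [← hr]
  · obtain ⟨r, hr⟩ := ho
    have hr1 : 1 ≤ r := by omega
    have hr1' : (1 : ℝ) ≤ r := by exact_mod_cast hr1
    have hqr : (q : ℝ) = 2 * r + 1 := by rw [hr]; push_cast; ring
    have hbern : ∀ s : ℕ, 1 - (s : ℝ) * (1 / q) ≤ (1 - 1 / (q : ℝ)) ^ s := by
      intro s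
      have := one_add_mul_le_pow (a := -(1 / (q : ℝ))) (by linarith) s
      have e : (1 : ℝ) + (s : ℝ) * (-(1 / q)) = 1 - (s : ℝ) * (1 / q) := by ring
      rw [e] at this
      have e2 : (1 : ℝ) + -(1 / q) = 1 - 1 / q := by ring
      rwa [e2] at this
    have h2 := hbern r
    -- (1-1/q)^(2r+1) ≥ ((r+1)/(2r+1))^2 * (2r/(2r+1)) ≥ 1/4
    have e1 : 1 - (r : ℝ) * (1 / q) = (r + 1) / (2 * r + 1) := by
      rw [hqr]; field_simp; ring
    have e2 : 1 - 1 / (q : ℝ) = (2 * r) / (2 * r + 1) := by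
      rw [hqr]; field_simp; ring
    rw [e1] at h2
    have h5 : (1 - 1 / (q : ℝ)) ^ q = (1 - 1 / (q : ℝ)) ^ r * (1 - 1 / (q : ℝ)) ^ r * (1 - 1 / (q : ℝ)) := by
      have h7 : q = r + r + 1 := by omega
      have h8 : (1 - 1 / (q : ℝ)) ^ q = (1 - 1 / (q : ℝ)) ^ (r + r + 1) := by
        congr 1
      rw [h8, pow_succ, pow_add]
    rw [h5]
    have h6 : ((r + 1) / (2 * r + 1) : ℝ) * ((r + 1) / (2 * r + 1)) * ((2 * r) / (2 * r + 1)) ≤
        (1 - 1 / (q : ℝ)) ^ r * (1 - 1 / (q : ℝ)) ^ r * (1 - 1 / (q : ℝ)) := by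
      rw [e2] at h2 ⊢
      gcongr
    refine le_trans ?_ h6
    rw [div_mul_div_comm, div_mul_div_comm, div_le_div_iff₀ (by norm_num) (by positivity)]
    nlinarith [mul_pos (show (0:ℝ) < r by linarith) (show (0:ℝ) < r by linarith), sq_nonneg ((r:ℝ) - 1), mul_nonneg (show (0:ℝ) ≤ r - 1 by linarith) (sq_nonneg (r : ℝ))]


/-! ## the weights -/

section
variable {F : Type} [Field F] [Fintype F] {R : ℕ}

/-- the choices for `m` for which `L` is hit -/
noncomputable def hs (b : Option F → Fin 2 → Ln F) (col : Option F → Fin 2 × Fin R) (L : Ln F)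
    (m : Option F × (Fin 2 × Fin R)) : Finset (Option F) :=
  (spC b col m).filter (fun p => ev (b m.1 m.2.1) p = ev L p)

noncomputable def pi0 (b : Option F → Fin 2 → Ln F) (col : Option F → Fin 2 × Fin R)
    (L : Ln F) : ℝ :=
  ∏ m, (1 - ((hs b col L m).card : ℝ) / (spC b col m).card)

noncomputable def wt (X : Option F → F) (b : Option F → Fin 2 → Ln F)
    (col : Option F → Fin 2 × Fin R) (L : Ln F) : ℝ :=
  if ∀ i, ev L i ≠ X i then 1 / pi0 b col L else 1

/-- the event that the choice `p` for `m` hits `L` outside `z` -/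
def Bz (b : Option F → Fin 2 → Ln F) (z : Pt F) (L : Ln F) (m : Option F × (Fin 2 × Fin R))
    (p : Option F) : Prop :=
  ev (b m.1 m.2.1) p = ev L p ∧ (p, ev (b m.1 m.2.1) p) ≠ z

theorem hs_card (b : Option F → Fin 2 → Ln F) (col : Option F → Fin 2 × Fin R) (L : Ln F)
    (m : Option F × (Fin 2 × Fin R)) (h : b m.1 m.2.1 ≠ L) : (hs b col L m).card ≤ 1 := by
  rw [Finset.card_le_one]
  intro p hp p' hp'
  unfold hs at hp hp'
  rw [Finset.mem_filter] at hp hp'
  rw [(ev_eq_iff h p).mp hp.2, (ev_eq_iff h p').mp hp'.2]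

theorem card_M : (Fintype.card (Option F × (Fin 2 × Fin R)) : ℝ) =
    ((Fintype.card F : ℝ) + 1) * (2 * R) := by
  rw [Fintype.card_prod, Fintype.card_prod, Fintype.card_option, Fintype.card_fin, Fintype.card_fin]
  push_cast
  ring

theorem card_M_le (hR : 1 ≤ R) (hq : 2 ≤ Fintype.card F) :
    (Fintype.card (Option F × (Fin 2 × Fin R)) : ℝ) ≤ 4 * R * Fintype.card F := by
  rw [card_M]
  have : (2 : ℝ) ≤ Fintype.card F := by exact_mod_cast hq
  have h2 : (1 : ℝ) ≤ R := by exact_mod_cast hR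
  nlinarith

/-- factor bounds -/
theorem factor {c : ℝ} (hc : 0 < c) (hcq : 2 ≤ c * Fintype.card F)
    {S : Finset (Option F)} {Φ : Finset (Option F)} (hS : S.card ≤ 1)
    (hΦ : c * Fintype.card F ≤ Φ.card) :
    1 - 1 / (c * Fintype.card F) ≤ 1 - (S.card : ℝ) / Φ.card ∧ 1 - (S.card : ℝ) / Φ.card ≤ 1 := by
  have h1 : (S.card : ℝ) ≤ 1 := by exact_mod_cast hS
  have h2 : (0 : ℝ) < c * Fintype.card F := by linarith
  have h3 : (0 : ℝ) < Φ.card := by linarith
  constructor
  · have : (S.card : ℝ) / Φ.card ≤ 1 / (c * Fintype.card F) := by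
      rw [div_le_div_iff₀ h3 h2]
      nlinarith
    linarith
  · have : 0 ≤ (S.card : ℝ) / Φ.card := by positivity
    linarith

theorem pi0_le_one {c : ℝ} (hc : 0 < c) (hcq : 2 ≤ c * Fintype.card F)
    {b : Option F → Fin 2 → Ln F} {col : Option F → Fin 2 × Fin R} {L : Ln F}
    (hfree : ∀ m, c * Fintype.card F ≤ (spC b col m).card)
    (hL : ∀ i k, b i k ≠ L) : pi0 b col L ≤ 1 := by
  unfold pi0
  apply Finset.prod_le_one
  · intro m _
    have h1 := (factor hc hcq (hs_card b col L m (hL _ _)) (hfree m)).1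
    have h2 : 1 / (c * Fintype.card F) ≤ 1 / 2 := by
      rw [div_le_div_iff₀ (by linarith) (by norm_num)]
      linarith
    linarith
  · intro m _
    exact (factor hc hcq (hs_card b col L m (hL _ _)) (hfree m)).2

theorem pi0_ge {c : ℝ} (hc : 0 < c) (hcq : 2 ≤ c * Fintype.card F) (hR : 1 ≤ R)
    (hq : 2 ≤ Fintype.card F)
    {b : Option F → Fin 2 → Ln F} {col : Option F → Fin 2 × Fin R} {L : Ln F}
    (hfree : ∀ m, c * Fintype.card F ≤ (spC b col m).card)
    (hL : ∀ i k, b i k ≠ L) : Real.exp (-(8 * R / c)) ≤ pi0 b col L := by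
  unfold pi0
  have hcq0 : (0 : ℝ) < c * Fintype.card F := by linarith
  have hq0 : (0 : ℝ) < Fintype.card F := by
    have : (2 : ℝ) ≤ Fintype.card F := by exact_mod_cast hq
    linarith
  have h0 : 1 / (c * Fintype.card F) ≤ 1 / 2 := by
    rw [div_le_div_iff₀ hcq0 (by norm_num)]
    linarith
  calc Real.exp (-(8 * R / c)) ≤
        (Real.exp (-(2 * (1 / (c * Fintype.card F))))) ^
          (Fintype.card (Option F × (Fin 2 × Fin R))) := by
        rw [← Real.exp_nat_mul]
        apply Real.exp_le_exp.mpr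
        have h1 := card_M_le (F := F) (R := R) hR hq
        have h2 : (Fintype.card (Option F × (Fin 2 × Fin R)) : ℝ) *
            (2 * (1 / (c * Fintype.card F))) ≤ (4 * R * Fintype.card F) *
            (2 * (1 / (c * Fintype.card F))) := by
          apply mul_le_mul_of_nonneg_right h1; positivity
        have h3 : (4 * R * Fintype.card F) * (2 * (1 / (c * Fintype.card F))) = 8 * R / c := by
          field_simp
          ring
        rw [h3] at h2
        linarith
    _ ≤ (1 - 1 / (c * Fintype.card F)) ^ (Fintype.card (Option F × (Fin 2 × Fin R))) := by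
        apply pow_le_pow_left₀ (Real.exp_pos _).le
        exact exp_le_one_sub (by positivity) h0
    _ = ∏ m : Option F × (Fin 2 × Fin R), (1 - 1 / (c * Fintype.card F)) := by
        rw [Finset.prod_const, Finset.card_univ]
    _ ≤ _ := by
        apply Finset.prod_le_prod
        · intro m _; linarith
        · intro m _
          exact (factor hc hcq (hs_card b col L m (hL _ _)) (hfree m)).1

/-- the number of lines through a point is at most `q` -/
theorem card_lines (z : Pt F) : (univ.filter (fun L : Ln F => On z L)).card ≤ Fintype.card F := by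
  rw [← Finset.card_univ]
  rcases z with ⟨i, y⟩
  cases i with
  | none =>
    apply Finset.card_le_card_of_injOn (fun L : Ln F => L.2) (fun _ _ => Finset.mem_univ _)
    intro L hL L' hL' h
    rw [Finset.mem_coe, Finset.mem_filter] at hL hL'
    have e1 : L.1 = y := hL.2
    have e2 : L'.1 = y := hL'.2
    exact Prod.ext (e1.trans e2.symm) h
  | some t =>
    apply Finset.card_le_card_of_injOn (fun L : Ln F => L.1) (fun _ _ => Finset.mem_univ _)
    intro L hL L' hL' h
    rw [Finset.mem_coe, Finset.mem_filter] at hL hL'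
    have e1 : L.1 * t + L.2 = y := hL.2
    have e2 : L'.1 * t + L'.2 = y := hL'.2
    have h' : L.1 = L'.1 := h
    refine Prod.ext h' ?_
    rw [h'] at e1
    exact add_left_cancel (e1.trans e2.symm)

/-- at most one line through `z` is hit by a given choice -/
theorem card_Bz (b : Option F → Fin 2 → Ln F) (z : Pt F) (m : Option F × (Fin 2 × Fin R))
    (p : Option F) (T : Finset (Ln F)) (hT : ∀ L ∈ T, On z L) :
    (T.filter (fun L => Bz b z L m p)).card ≤ 1 := by
  rw [Finset.card_le_one]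
  intro L hL L' hL'
  rw [Finset.mem_filter] at hL hL'
  have h1 : On (p, ev (b m.1 m.2.1) p) L := hL.2.1.symm
  have h2 : On (p, ev (b m.1 m.2.1) p) L' := hL'.2.1.symm
  have h3 : z.1 ≠ (p, ev (b m.1 m.2.1) p).1 := by
    intro h
    exact hL.2.2 (On_inj h1 (hT L hL.1) h.symm)
  exact On_unique h3 (hT L hL.1) h1 (hT L' hL'.1) h2

/-- the lines through `z` missing `X` -/
noncomputable def Tz (X : Option F → F) (z : Pt F) : Finset (Ln F) :=
  univ.filter (fun L : Ln F => On z L ∧ ∀ i, ev L i ≠ X i)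

/-- the weighted degree -/
noncomputable def fz (X : Option F → F) (b : Option F → Fin 2 → Ln F)
    (col : Option F → Fin 2 × Fin R) (z : Pt F)
    (ω : Option F × (Fin 2 × Fin R) → Option F) : ℝ :=
  ∑ L ∈ Tz X z, wt X b col L * (if ∀ m, ¬ Bz b z L m (ω m) then 1 else 0)

theorem fz_diff {X : Option F → F} {b : Option F → Fin 2 → Ln F}
    {col : Option F → Fin 2 × Fin R} {z : Pt F} {W : ℝ} (hW : 0 ≤ W)
    (hw : ∀ L, 0 ≤ wt X b col L ∧ wt X b col L ≤ W)
    (ω ω' : Option F × (Fin 2 × Fin R) → Option F) (m : Option F × (Fin 2 × Fin R))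
    (h : ∀ m', m' ≠ m → ω m' = ω' m') : |fz X b col z ω - fz X b col z ω'| ≤ 2 * W := by
  unfold fz
  rw [← Finset.sum_sub_distrib]
  refine (Finset.abs_sum_le_sum_abs _ _).trans ?_
  have h1 : ∀ L ∈ Tz X z, |wt X b col L * (if ∀ m, ¬ Bz b z L m (ω m) then (1 : ℝ) else 0) -
      wt X b col L * (if ∀ m, ¬ Bz b z L m (ω' m) then (1 : ℝ) else 0)| ≤
      W * ((if Bz b z L m (ω m) then 1 else 0) + (if Bz b z L m (ω' m) then 1 else 0)) := by
    intro L _
    rw [← mul_sub, abs_mul, abs_of_nonneg (hw L).1]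
    apply mul_le_mul (hw L).2 _ (abs_nonneg _) hW
    by_cases h2 : Bz b z L m (ω m)
    · rw [if_pos h2]
      have h3 : (0 : ℝ) ≤ (if Bz b z L m (ω' m) then 1 else 0) := by split_ifs <;> norm_num
      have h4 : |(if ∀ m, ¬ Bz b z L m (ω m) then (1 : ℝ) else 0) -
        (if ∀ m, ¬ Bz b z L m (ω' m) then (1 : ℝ) else 0)| ≤ 1 := by
        split_ifs <;> norm_num
      linarith
    · by_cases h3 : Bz b z L m (ω' m)
      · rw [if_pos h3]
        have h3' : (0 : ℝ) ≤ (if Bz b z L m (ω m) then 1 else 0) := by split_ifs <;> norm_num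
        have h4 : |(if ∀ m, ¬ Bz b z L m (ω m) then (1 : ℝ) else 0) -
          (if ∀ m, ¬ Bz b z L m (ω' m) then (1 : ℝ) else 0)| ≤ 1 := by
          split_ifs <;> norm_num
        linarith
      · have h5 : (∀ m, ¬ Bz b z L m (ω m)) ↔ (∀ m, ¬ Bz b z L m (ω' m)) := by
          constructor
          · intro h6 m'
            by_cases h7 : m' = m
            · subst h7; exact h3
            · rw [← h m' h7]; exact h6 m'
          · intro h6 m'
            by_cases h7 : m' = m
            · subst h7; exact h2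
            · rw [h m' h7]; exact h6 m'
        simp only [h5, h2, h3, sub_self, abs_zero, if_false, add_zero, le_refl]
  refine (Finset.sum_le_sum h1).trans ?_
  rw [← Finset.mul_sum, Finset.sum_add_distrib, mul_comm]
  apply mul_le_mul_of_nonneg_right _ hW
  have hT : ∀ L ∈ Tz X z, On z L := by
    intro L hL
    unfold Tz at hL
    rw [Finset.mem_filter] at hL
    exact hL.2.1
  have h2 : ∀ p, ∑ L ∈ Tz X z, (if Bz b z L m p then (1 : ℝ) else 0) ≤ 1 := by
    intro p
    rw [Finset.sum_boole]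
    exact_mod_cast card_Bz b z m p _ hT
  linarith [h2 (ω m), h2 (ω' m)]

theorem ex_fz (X : Option F → F) (b : Option F → Fin 2 → Ln F)
    (col : Option F → Fin 2 × Fin R) (z : Pt F) :
    ex (spC b col) (fz X b col z) = ∑ L ∈ Tz X z, wt X b col L *
      ∏ m, ((((spC b col m).filter (fun p => ¬ Bz b z L m p)).card : ℝ) / (spC b col m).card) := by
  unfold ex fz
  rw [Finset.sum_comm, Finset.sum_div]
  refine Finset.sum_congr rfl fun L _ => ?_
  rw [← Finset.mul_sum, mul_div_assoc, Finset.sum_boole]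
  congr 1
  have h1 := pr_pi (spC b col) (fun m p => ¬ Bz b z L m p)
  unfold pr at h1
  convert h1
  rfl

/-- comparison of the two products -/
theorem prod_compare {c : ℝ} (hc : 0 < c) (hcq : 2 ≤ c * Fintype.card F)
    {b : Option F → Fin 2 → Ln F} {col : Option F → Fin 2 × Fin R} {L : Ln F}
    (hfree : ∀ m, c * Fintype.card F ≤ (spC b col m).card)
    (hL : ∀ i k, b i k ≠ L) (z : Pt F) :
    pi0 b col L ≤ ∏ m, ((((spC b col m).filter (fun p => ¬ Bz b z L m p)).card : ℝ) /
      (spC b col m).card) ∧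
    (1 - 1 / (c * Fintype.card F)) * ∏ m, ((((spC b col m).filter
      (fun p => ¬ Bz b z L m p)).card : ℝ) / (spC b col m).card) ≤ pi0 b col L := by
  have hcq0 : (0 : ℝ) < c * Fintype.card F := by linarith
  have h0 : 1 / (c * Fintype.card F) ≤ 1 / 2 := by
    rw [div_le_div_iff₀ hcq0 (by norm_num)]
    linarith
  have h00 : 0 < 1 / (c * Fintype.card F) := by positivity
  have hΦ : ∀ m, (0 : ℝ) < (spC b col m).card := fun m => lt_of_lt_of_le hcq0 (hfree m)
  -- factor of pi0 as a filter
  have hfac : ∀ m, 1 - ((hs b col L m).card : ℝ) / (spC b col m).card =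
      (((spC b col m).filter (fun p => ¬ (ev (b m.1 m.2.1) p = ev L p))).card : ℝ) /
        (spC b col m).card := by
    intro m
    have h1 := Finset.card_filter_add_card_filter_not (s := spC b col m)
      (fun p => ev (b m.1 m.2.1) p = ev L p)
    have h2 : ((hs b col L m).card : ℝ) +
        (((spC b col m).filter (fun p => ¬ (ev (b m.1 m.2.1) p = ev L p))).card : ℝ) =
        (spC b col m).card := by
      unfold hs
      exact_mod_cast h1
    rw [eq_div_iff (hΦ m).ne', sub_mul, div_mul_cancel₀ _ (hΦ m).ne']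
    linarith
  have hg0 : ∀ m, 0 ≤ (((spC b col m).filter (fun p => ¬ Bz b z L m p)).card : ℝ) /
      (spC b col m).card := fun m => by positivity
  have hg1 : ∀ m, (((spC b col m).filter (fun p => ¬ Bz b z L m p)).card : ℝ) /
      (spC b col m).card ≤ 1 := by
    intro m
    rw [div_le_one (hΦ m)]
    exact_mod_cast Finset.card_filter_le _ _
  constructor
  · unfold pi0
    apply Finset.prod_le_prod
    · intro m _
      rw [hfac]; positivity
    · intro m _
      rw [hfac]
      apply div_le_div_of_nonneg_right _ (hΦ m).le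
      exact_mod_cast Finset.card_le_card (fun p hp => by
        rw [Finset.mem_filter] at hp ⊢
        exact ⟨hp.1, fun h => hp.2 h.1⟩)
  · -- at most one m is special
    by_cases hex : ∃ m p, p ∈ spC b col m ∧ (p, ev (b m.1 m.2.1) p) = z
    · obtain ⟨m0, p0, hp0, hz0⟩ := hex
      have huniq : ∀ m, m ≠ m0 → ∀ p ∈ spC b col m, (p, ev (b m.1 m.2.1) p) ≠ z := by
        intro m hm p hp hpz
        apply hm
        have hpp : p = p0 := by
          have := hpz.trans hz0.symm
          exact (Prod.ext_iff.mp this).1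
        subst hpp
        have hev : ev (b m.1 m.2.1) p = ev (b m0.1 m0.2.1) p := by
          have := hpz.trans hz0.symm
          exact (Prod.ext_iff.mp this).2
        change p ∈ Fr b col m.1 m.2.1 m.2.2 at hp
        change p ∈ Fr b col m0.1 m0.2.1 m0.2.2 at hp0
        unfold Fr at hp hp0
        rw [Finset.mem_filter] at hp hp0
        obtain ⟨_, h1, h2, h3⟩ := hp
        obtain ⟨_, h1', h2', h3'⟩ := hp0
        have h4 : m.2 = m0.2 := by
          have : (m.2.1, m.2.2) = (m0.2.1, m0.2.2) := h2.symm.trans h2'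
          exact this
        have h5 : m.1 = m0.1 := by
          by_contra hne
          apply h3 m0.1 m0.2.1 _ hev.symm
          intro h6
          exact hne (Prod.ext_iff.mp h6).1.symm
        exact Prod.ext h5 h4
      unfold pi0
      rw [← Finset.mul_prod_erase univ _ (Finset.mem_univ m0),
        ← Finset.mul_prod_erase univ _ (Finset.mem_univ m0), ← mul_assoc]
      have hprod : ∏ m ∈ univ.erase m0, ((((spC b col m).filter
          (fun p => ¬ Bz b z L m p)).card : ℝ) / (spC b col m).card) =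
          ∏ m ∈ univ.erase m0, (1 - ((hs b col L m).card : ℝ) / (spC b col m).card) := by
        apply Finset.prod_congr rfl
        intro m hm
        rw [hfac]
        congr 2
        apply congrArg
        apply Finset.filter_congr
        intro p hp
        unfold Bz
        have := huniq m (Finset.ne_of_mem_erase hm) p hp
        tauto
      rw [hprod]
      apply mul_le_mul_of_nonneg_right
      · have h1 := (factor hc hcq (hs_card b col L m0 (hL _ _)) (hfree m0)).1
        have h2 := hg1 m0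
        have h3 := hg0 m0
        calc _ ≤ (1 - 1 / (c * Fintype.card F)) * 1 := by
              apply mul_le_mul_of_nonneg_left h2; linarith
          _ ≤ _ := by linarith
      · apply Finset.prod_nonneg
        intro m _
        have h1 := (factor hc hcq (hs_card b col L m (hL _ _)) (hfree m)).1
        linarith
    · push Not at hex
      have hprod : ∏ m, ((((spC b col m).filter
          (fun p => ¬ Bz b z L m p)).card : ℝ) / (spC b col m).card) = pi0 b col L := by
        unfold pi0
        apply Finset.prod_congr rfl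
        intro m hm
        rw [hfac]
        congr 2
        apply congrArg
        apply Finset.filter_congr
        intro p hp
        unfold Bz
        have := hex m p hp
        tauto
      rw [hprod]
      have h1 : 0 ≤ pi0 b col L := by
        unfold pi0
        apply Finset.prod_nonneg
        intro m _
        have h1 := (factor hc hcq (hs_card b col L m (hL _ _)) (hfree m)).1
        linarith
      nlinarith

/-- expectation estimate -/
theorem ex_est {c : ℝ} (hc : 0 < c) (hcq : 2 ≤ c * Fintype.card F) (hR : 1 ≤ R)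
    (hq : 2 ≤ Fintype.card F) {X : Option F → F}
    {b : Option F → Fin 2 → Ln F} {col : Option F → Fin 2 × Fin R}
    (hfree : ∀ m, c * Fintype.card F ≤ (spC b col m).card)
    (hbase : ∀ i k, ev (b i k) i = X i) (z : Pt F) :
    |ex (spC b col) (fz X b col z) - (Tz X z).card| ≤ 2 / c := by
  have hq0 : (0 : ℝ) < Fintype.card F := by
    have : (2 : ℝ) ≤ Fintype.card F := by exact_mod_cast hq
    linarith
  have hcq0 : (0 : ℝ) < c * Fintype.card F := by linarith
  have h0 : 1 / (c * Fintype.card F) ≤ 1 / 2 := by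
    rw [div_le_div_iff₀ hcq0 (by norm_num)]
    linarith
  have h00 : 0 < 1 / (c * Fintype.card F) := by positivity
  rw [ex_fz]
  have e1 : ((Tz X z).card : ℝ) = ∑ L ∈ Tz X z, (1 : ℝ) := by simp
  rw [e1, ← Finset.sum_sub_distrib]
  refine (Finset.abs_sum_le_sum_abs _ _).trans ?_
  have h1 : ∀ L ∈ Tz X z, |wt X b col L *
      ∏ m, ((((spC b col m).filter (fun p => ¬ Bz b z L m p)).card : ℝ) / (spC b col m).card) - 1| ≤
      2 * (1 / (c * Fintype.card F)) := by
    intro L hL
    unfold Tz at hL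
    rw [Finset.mem_filter] at hL
    have hLb : ∀ i k, b i k ≠ L := by
      intro i k h
      apply hL.2.2 i
      rw [← h]
      exact hbase i k
    have hpos : 0 < pi0 b col L :=
      lt_of_lt_of_le (Real.exp_pos _) (pi0_ge hc hcq hR hq hfree hLb)
    obtain ⟨h2, h3⟩ := prod_compare hc hcq hfree hLb z
    unfold wt
    rw [if_pos hL.2.2]
    set P := ∏ m, ((((spC b col m).filter (fun p => ¬ Bz b z L m p)).card : ℝ) /
      (spC b col m).card) with hP
    set x := 1 / (c * Fintype.card F) with hx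
    have h4 : 1 ≤ 1 / pi0 b col L * P := by
      rw [one_div, inv_mul_eq_div, le_div_iff₀ hpos]
      linarith
    have h5 : 1 / pi0 b col L * P ≤ 1 + 2 * x := by
      rw [one_div, inv_mul_eq_div, div_le_iff₀ hpos]
      have hP0 : 0 ≤ P := hpos.le.trans h2
      have h6 : P ≤ (1 + 2 * x) * ((1 - x) * P) := by
        have : (1 + 2 * x) * ((1 - x) * P) - P = x * (1 - 2 * x) * P := by ring
        have h7 : 0 ≤ x * (1 - 2 * x) * P := by
          apply mul_nonneg (mul_nonneg h00.le _) hP0
          linarith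
        linarith
      refine h6.trans ?_
      apply mul_le_mul_of_nonneg_left h3
      linarith
    rw [abs_of_nonneg (by linarith)]
    linarith
  refine (Finset.sum_le_sum h1).trans ?_
  rw [Finset.sum_const, nsmul_eq_mul]
  have h2 : ((Tz X z).card : ℝ) ≤ Fintype.card F := by
    have h3 : (Tz X z).card ≤ (univ.filter (fun L : Ln F => On z L)).card := by
      apply Finset.card_le_card
      intro L hL
      unfold Tz at hL
      rw [Finset.mem_filter] at hL ⊢
      exact ⟨hL.1, hL.2.1⟩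
    exact_mod_cast h3.trans (card_lines z)
  calc ((Tz X z).card : ℝ) * (2 * (1 / (c * Fintype.card F))) ≤
      (Fintype.card F : ℝ) * (2 * (1 / (c * Fintype.card F))) := by
        apply mul_le_mul_of_nonneg_right h2; positivity
    _ = 2 / c := by field_simp

/-- the sum in `Qwts` -/
theorem sum_eq {X : Option F → F} {b : Option F → Fin 2 → Ln F}
    {col : Option F → Fin 2 × Fin R} {z : Pt F}
    (ω : Option F × (Fin 2 × Fin R) → Option F) (hz : z ∉ Kset X b (unc ω)) :
    (∑ L ∈ univ.filter (fun L : Ln F => On z L ∧ ∀ κ ∈ Kset X b (unc ω), ¬ On κ L),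
      wt X b col L) = fz X b col z ω := by
  unfold fz Tz
  simp only [mul_ite, mul_one, mul_zero]
  rw [← Finset.sum_filter, Finset.filter_filter]
  apply Finset.sum_congr _ (fun _ _ => rfl)
  apply Finset.filter_congr
  intro L _
  constructor
  · rintro ⟨h1, h2⟩
    refine ⟨⟨h1, ?_⟩, ?_⟩
    · intro i hi
      apply h2 (i, X i) _ hi
      unfold Kset
      rw [Finset.mem_filter]
      exact ⟨Finset.mem_univ _, Or.inl rfl⟩
    · intro m hm
      apply h2 (Jp b (unc ω) m.1 m.2.1 m.2.2) _ hm.1.symm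
      unfold Kset
      rw [Finset.mem_filter]
      exact ⟨Finset.mem_univ _, Or.inr ⟨_, _, _, rfl⟩⟩
  · rintro ⟨⟨h1, h2⟩, h3⟩
    refine ⟨h1, ?_⟩
    intro κ hκ hon
    have hκ' := hκ
    unfold Kset at hκ
    rw [Finset.mem_filter] at hκ
    rcases hκ.2 with h4 | ⟨i, k, j, h4⟩
    · apply h2 κ.1
      unfold On at hon
      rw [hon, h4]
    · apply h3 (i, (k, j))
      refine ⟨?_, ?_⟩
      · rw [h4] at hon
        exact hon.symm
      · intro h5
        apply hz
        rw [← h5]
        rw [h4] at hκ'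
        exact hκ'

end

end Crest.Agent.R34.CW

namespace Crest.Agent.R34

theorem taskCwts (h : McDiarmid) : TaskCwts := by
  intro R c hR hc
  have hR0 : (0 : ℝ) < R := by
    have : (1 : ℝ) ≤ R := by exact_mod_cast hR
    linarith
  set c2 := Real.exp (-(8 * R / c)) with hc2
  have hc2pos : 0 < c2 := Real.exp_pos _
  have hA : 0 < c2 ^ 2 / (32 * R) := by positivity
  obtain ⟨q₀, hq₀⟩ := CW.exists_q0 (A := c2 ^ 2 / (32 * R)) (c := c) hA hc
  refine ⟨min (1 / 4) c2, lt_min (by norm_num) hc2pos, q₀, ?_⟩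
  intro F _ _ hF X b col hPA hPB
  obtain ⟨hq2, hcq, hn, hs, hexp⟩ := hq₀ _ hF
  set q := Fintype.card F with hqdef
  set n := lg q with hndef
  have hq2' : (2 : ℝ) ≤ q := by exact_mod_cast hq2
  have hq0 : (0 : ℝ) < q := by linarith
  have hfree : ∀ m, c * Fintype.card F ≤ (spC b col m).card := fun m => hPB.free _ _ _
  have hcq0 : 0 < c * Fintype.card F := lt_of_lt_of_le (by norm_num) hcq
  have hne : ∀ m, (spC b col m).Nonempty := by
    intro m
    rw [← Finset.card_pos]
    have := hfree m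
    have h2 : (0 : ℝ) < (spC b col m).card := lt_of_lt_of_le hcq0 this
    exact_mod_cast h2
  -- bounds for the weights
  have hLb : ∀ L : Ln F, (∀ i, ev L i ≠ X i) → ∀ i k, b i k ≠ L := by
    intro L hL i k h
    apply hL i
    rw [← h]
    exact hPB.base i k
  have hwt : ∀ L, 1 ≤ CW.wt X b col L ∧ (CW.wt X b col L ≤ 1 / c2 ∨ CW.wt X b col L = 1) := by
    intro L
    unfold CW.wt
    split_ifs with hL
    · have h1 := CW.pi0_ge hc hcq hR hq2 hfree (hLb L hL)
      have h2 := CW.pi0_le_one hc hcq hfree (hLb L hL)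
      have h3 : 0 < CW.pi0 b col L := lt_of_lt_of_le (Real.exp_pos _) h1
      refine ⟨?_, Or.inl ?_⟩
      · rw [le_div_iff₀ h3]; linarith
      · exact one_div_le_one_div_of_le hc2pos h1
    · exact ⟨le_refl _, Or.inr rfl⟩
  have hc2le : c2 ≤ 1 := by
    rw [hc2]
    apply Real.exp_le_one_iff.mpr
    have : 0 ≤ 8 * R / c := by positivity
    linarith
  have hc2inv : 1 ≤ 1 / c2 := by
    rw [le_div_iff₀ hc2pos]; linarith
  have hwt2 : ∀ L, 0 ≤ CW.wt X b col L ∧ CW.wt X b col L ≤ 1 / c2 := by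
    intro L
    obtain ⟨h1, h2⟩ := hwt L
    refine ⟨by linarith, ?_⟩
    rcases h2 with h2 | h2
    · exact h2
    · rw [h2]; exact hc2inv
  -- concentration
  set V := 16 * R * q / c2 ^ 2 with hV
  have hVpos : 0 < V := by positivity
  set t := (n : ℝ) * √(q : ℝ) with ht
  have ht0 : 0 ≤ t := by positivity
  have hconc : ∀ z : Pt F, pr (spC b col) (fun ω => t ≤ |CW.fz X b col z ω -
      ex (spC b col) (CW.fz X b col z)|) ≤ 2 * Real.exp (-(c2 ^ 2 / (32 * R) * (n : ℝ) ^ 2)) := by
    intro z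
    have h1 := h _ _ (spC b col) hne (CW.fz X b col z) (fun _ => 2 * (1 / c2))
      (fun ω ω' _ _ m hm => CW.fz_diff (by positivity) hwt2 ω ω' m hm) t V ht0 hVpos (by
        rw [Finset.sum_const, nsmul_eq_mul, Finset.card_univ]
        have h2 := CW.card_M_le (F := F) hR hq2
        calc _ ≤ (4 * R * Fintype.card F) * (2 * (1 / c2)) ^ 2 := by
              apply mul_le_mul_of_nonneg_right h2; positivity
          _ = V := by
              rw [hV]
              field_simp
              ring)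
    have h2 : - t ^ 2 / (2 * V) = -(c2 ^ 2 / (32 * R) * (n : ℝ) ^ 2) := by
      rw [ht, hV, mul_pow, Real.sq_sqrt hq0.le]
      field_simp
      ring
    rw [h2] at h1
    exact h1
  -- the good event implies Qwts
  have himp : ∀ ω : Option F × (Fin 2 × Fin R) → Option F, (∀ m, ω m ∈ spC b col m) →
      ¬ Qwts (Kset X b (unc ω)) (min (1 / 4) c2) →
      ∃ z ∈ (univ : Finset (Pt F)), t ≤ |CW.fz X b col z ω -
        ex (spC b col) (CW.fz X b col z)| := by
    intro ω hω hnot
    by_contra hcon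
    push Not at hcon
    apply hnot
    refine ⟨CW.wt X b col, (q : ℝ) * (1 - 1 / (q : ℝ)) ^ q, ?_, ?_, ?_⟩
    · have h1 := CW.quarter hq2
      calc (min (1 / 4) c2) * (q : ℝ) ≤ (1 / 4) * q := by
            apply mul_le_mul_of_nonneg_right (min_le_left _ _) hq0.le
        _ ≤ _ := by rw [mul_comm]; exact mul_le_mul_of_nonneg_left h1 hq0.le
    · intro L
      refine ⟨(hwt L).1, (hwt2 L).2.trans ?_⟩
      exact one_div_le_one_div_of_le (lt_min (by norm_num) hc2pos) (min_le_right _ _)
    · intro z hz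
      have hzX : z.2 ≠ X z.1 := by
        intro h1
        apply hz
        unfold Kset
        rw [Finset.mem_filter]
        exact ⟨Finset.mem_univ _, Or.inl h1⟩
      rw [CW.sum_eq ω hz]
      have h1 := hcon z (Finset.mem_univ _)
      have h2 := CW.ex_est hc hcq hR hq2 hfree hPB.base z
      have h3 := hPA.deg z hzX
      have h3' : |((CW.Tz X z).card : ℝ) - (q : ℝ) * (1 - 1 / (q : ℝ)) ^ q| ≤ t := h3
      have h4 : |CW.fz X b col z ω - (q : ℝ) * (1 - 1 / (q : ℝ)) ^ q| ≤ t + 2 / c + t := by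
        have e : CW.fz X b col z ω - (q : ℝ) * (1 - 1 / (q : ℝ)) ^ q =
          (CW.fz X b col z ω - ex (spC b col) (CW.fz X b col z)) +
          (ex (spC b col) (CW.fz X b col z) - (CW.Tz X z).card) +
          (((CW.Tz X z).card : ℝ) - (q : ℝ) * (1 - 1 / (q : ℝ)) ^ q) := by ring
        rw [e]
        refine (abs_add_three _ _ _).trans ?_
        linarith
      refine h4.trans ?_
      have hn' : (3 : ℝ) ≤ n := by exact_mod_cast hn
      have hsq : 0 ≤ √(q : ℝ) := Real.sqrt_nonneg _
      calc t + 2 / c + t ≤ (n : ℝ) * √(q : ℝ) + √(q : ℝ) + (n : ℝ) * √(q : ℝ) := by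
            rw [ht]; linarith
        _ = (2 * n + 1) * √(q : ℝ) := by ring
        _ ≤ (n : ℝ) ^ 2 * √(q : ℝ) := by
            apply mul_le_mul_of_nonneg_right _ hsq
            nlinarith
  calc pr (spC b col) (fun ω => ¬ Qwts (Kset X b (unc ω)) (min (1 / 4) c2))
      ≤ pr (spC b col) (fun ω => ∃ z ∈ (univ : Finset (Pt F)), t ≤ |CW.fz X b col z ω -
        ex (spC b col) (CW.fz X b col z)|) := pr_mono himp
    _ ≤ ∑ z ∈ (univ : Finset (Pt F)), pr (spC b col) (fun ω => t ≤ |CW.fz X b col z ω -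
        ex (spC b col) (CW.fz X b col z)|) := pr_exists_le _ _ _
    _ ≤ ∑ z ∈ (univ : Finset (Pt F)), 2 * Real.exp (-(c2 ^ 2 / (32 * R) * (n : ℝ) ^ 2)) :=
        Finset.sum_le_sum fun z _ => hconc z
    _ = ((q : ℝ) + 1) * q * (2 * Real.exp (-(c2 ^ 2 / (32 * R) * (n : ℝ) ^ 2))) := by
        rw [Finset.sum_const, nsmul_eq_mul, Finset.card_univ, Fintype.card_prod,
          Fintype.card_option]
        push_cast
        rw [hqdef]
    _ ≤ (2 * (q : ℝ) ^ 2) * (2 * Real.exp (-(c2 ^ 2 / (32 * R) * (n : ℝ) ^ 2))) := by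
        apply mul_le_mul_of_nonneg_right _ (by positivity)
        nlinarith
    _ ≤ 1 / 8 := by linarith

end Crest.Agent.R34
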