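import Crest.Agent.R34.Defs2

/-!
# Row 34, task C3: many good choices for the own lines after stage C.
-/

set_option autoImplicit false

open Finset Classical

namespace Crest.Agent.R34.C3

open Crest.Agent.R34

section
variable {F : Type} [Field F] [Fintype F] {R : ℕ}

/-- J-points of gadget `i` with positions `v`. -/
def JJ (b : Option F → Fin 2 → Ln F) (i : Option F) (v : Fin 2 → Fin R → Option F)
    (k : Fin 2) (j : Fin R) : Pt F := (v k j, ev (b i k) (v k j))

/-- own line -/
noncomputable def ow (b : Option F → Fin 2 → Ln F) (i : Option F) (v : Fin 2 → Fin R → Option F)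
    (j' : Fin R) (k : Fin 2) (j : Fin R) (L : Ln F) : Ln F := own (JJ b i v k j) (v k j') L

/-- the set provided by stage A -/
noncomputable def S0 (X : Option F → F) (b : Option F → Fin 2 → Ln F) (i : Option F)
    (v : Fin 2 → Fin R → Option F) (j' : Fin R) : Finset (Ln F) :=
  univ.filter (fun L : Ln F => ev L i = X i ∧ (∀ i', i' ≠ i → ev L i' ≠ X i') ∧
      (∀ k j, ¬ On (JJ b i v k j) L) ∧ ∀ k j, j ≠ j' → ∀ i', i' ≠ (JJ b i v k j).1 →
        ev (own (JJ b i v k j) (JJ b i v k j').1 L) i' ≠ X i')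

/-- exceptional lines -/
noncomputable def gl (X : Option F → F) (b : Option F → Fin 2 → Ln F) (i : Option F)
    (v : Fin 2 → Fin R → Option F) (j' : Fin R) (a : (Fin 2 × Fin R) × (Fin 2 × Fin R)) : Ln F :=
  join (i, X i) (v a.1.1 j', ev (join (JJ b i v a.1.1 a.1.2) (JJ b i v a.2.1 a.2.2)) (v a.1.1 j'))

/-- tests -/
noncomputable def T (X : Option F → F) (b : Option F → Fin 2 → Ln F) (i : Option F)
    (v : Fin 2 → Fin R → Option F) (j' : Fin R) : Finset (Ln F) :=
  S0 X b i v j' \ univ.image (gl X b i v j')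

/-- bad relation -/
def bad (b : Option F → Fin 2 → Ln F) (i : Option F)
    (v : Fin 2 → Fin R → Option F) (j' : Fin R) (m : Option F × (Fin 2 × Fin R)) (L : Ln F)
    (p : Option F) : Prop :=
  m.1 ≠ i ∧ (On (p, ev (b m.1 m.2.1) p) L ∨ ∃ k j, j ≠ j' ∧
    On (p, ev (b m.1 m.2.1) p) (ow b i v j' k j L))

theorem card_T {X : Option F → F} {c : ℝ} (hA : PropA X R c) {b : Option F → Fin 2 → Ln F}
    {col : Option F → Fin 2 × Fin R} {i : Option F} {v : Fin 2 → Fin R → Option F}
    (hv : ∀ k j, v k j ∈ Fr b col i k j) (j' : Fin R) :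
    c * Fintype.card F - (2 * R) * (2 * R) ≤ (T X b i v j').card := by
  have hv1 : ∀ k j, v k j ≠ i := by
    intro k j
    have := hv k j
    unfold Fr at this
    rw [Finset.mem_filter] at this
    exact this.2.1
  have hv2 : ∀ k j, col (v k j) = (k, j) := by
    intro k j
    have := hv k j
    unfold Fr at this
    rw [Finset.mem_filter] at this
    exact this.2.2.1
  have h1 : c * Fintype.card F ≤ (S0 X b i v j').card := by
    refine hA.good i (JJ b i v) j' (fun k j => hv1 k j) (fun k j hj => ?_)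
    intro h
    have h' : v k j = v k j' := h
    have e1 := hv2 k j
    rw [h', hv2 k j'] at e1
    exact hj (Prod.mk.inj e1).2.symm
  have h2 : (univ.image (gl X b i v j')).card ≤ (2 * R) * (2 * R) := by
    refine le_trans Finset.card_image_le ?_
    rw [Finset.card_univ]
    simp [Fintype.card_prod]
  have h3 := Finset.le_card_sdiff (univ.image (gl X b i v j')) (S0 X b i v j')
  have h4 : (S0 X b i v j').card ≤ (T X b i v j').card + (2 * R) * (2 * R) := by
    unfold T
    omega
  have h5 : ((S0 X b i v j').card : ℝ) ≤ (T X b i v j').card + (2 * R) * (2 * R) := by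
    exact_mod_cast h4
  linarith

theorem card_T_le {X : Option F → F} {b : Option F → Fin 2 → Ln F} {i : Option F}
    {v : Fin 2 → Fin R → Option F} (j' : Fin R) :
    (T X b i v j').card ≤ Fintype.card F := by
  -- lines through `x_i` are determined by the value at another part
  obtain ⟨m, hm⟩ : ∃ m : Option F, i ≠ m := by
    cases i with
    | none => exact ⟨some 0, by simp⟩
    | some t => exact ⟨none, by simp⟩
  have h1 : T X b i v j' ⊆ univ.image (fun x : F => join (i, X i) (m, x)) := by
    intro L hL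
    unfold T S0 at hL
    rw [Finset.mem_sdiff, Finset.mem_filter] at hL
    rw [Finset.mem_image]
    exact ⟨ev L m, Finset.mem_univ _,
      join_eq (z := (i, X i)) (z' := (m, ev L m)) hm hL.1.2.1 (On_ev L m)⟩
  refine le_trans (Finset.card_le_card h1) (le_trans Finset.card_image_le ?_)
  rw [Finset.card_univ]

theorem card_insert_image {α : Type} (S : Finset α) (a₀ : α) (a : Fin 2 × Fin R → α)
    (h : ∀ x ∈ S, x = a₀ ∨ ∃ y, a y = x) : S.card ≤ 1 + 2 * R := by
  have h1 : S ⊆ insert a₀ (univ.image a) := by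
    intro x hx
    rw [Finset.mem_insert, Finset.mem_image]
    rcases h x hx with h2 | ⟨y, h2⟩
    · exact Or.inl h2
    · exact Or.inr ⟨y, Finset.mem_univ _, h2⟩
  refine le_trans (Finset.card_le_card h1) (le_trans (Finset.card_insert_le _ _) ?_)
  have h2 : (univ.image a).card ≤ 2 * R := by
    refine le_trans Finset.card_image_le ?_
    rw [Finset.card_univ]
    simp [Fintype.card_prod]
  omega

/-- a fixed test is spoiled by few values -/
theorem count1 {X : Option F → F} {c : ℝ} {b : Option F → Fin 2 → Ln F}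
    {col : Option F → Fin 2 × Fin R} (hB : PropB X c b col) {i : Option F}
    {v : Fin 2 → Fin R → Option F} (hv : ∀ k j, v k j ∈ Fr b col i k j) (j' : Fin R)
    (m : Option F × (Fin 2 × Fin R)) (L : Ln F) (hL : L ∈ T X b i v j') :
    ((spC b col m).filter (fun p => bad b i v j' m L p)).card ≤ 1 + 2 * R := by
  have hv2 : ∀ k j, col (v k j) = (k, j) := by
    intro k j
    have := hv k j
    unfold Fr at this
    rw [Finset.mem_filter] at this
    exact this.2.2.1
  have hv3 : ∀ k j i' k', (i', k') ≠ (i, k) → ev (b i' k') (v k j) ≠ ev (b i k) (v k j) := by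
    intro k j
    have := hv k j
    unfold Fr at this
    rw [Finset.mem_filter] at this
    exact this.2.2.2
  have hLi : ev L i = X i := by
    unfold T S0 at hL
    rw [Finset.mem_sdiff, Finset.mem_filter] at hL
    exact hL.1.2.1
  apply card_insert_image _ (meet L (b m.1 m.2.1))
    (fun y => meet (ow b i v j' y.1 y.2 L) (b m.1 m.2.1))
  intro p hp
  rw [Finset.mem_filter] at hp
  obtain ⟨_, hmi, h | ⟨k, j, hj, h⟩⟩ := hp
  · left
    have hne : L ≠ b m.1 m.2.1 := by
      intro h1
      rw [h1] at hLi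
      exact hB.tan m.1 m.2.1 i (fun h2 => hmi h2.symm) hLi
    exact (ev_eq_iff hne p).mp h
  · right
    have hpart : (JJ b i v k j).1 ≠ (v k j', ev L (v k j')).1 := by
      intro h1
      have h1' : v k j = v k j' := h1
      have e1 := hv2 k j
      rw [h1', hv2 k j'] at e1
      exact hj (Prod.mk.inj e1).2.symm
    have hJ : On (JJ b i v k j) (ow b i v j' k j L) := On_join_left hpart
    have hne : ow b i v j' k j L ≠ b m.1 m.2.1 := by
      intro h1
      rw [h1] at hJ
      exact hv3 k j m.1 m.2.1 (fun h2 => hmi (Prod.mk.inj h2).1) hJ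
    exact ⟨(k, j), ((ev_eq_iff hne p).mp h).symm⟩

/-- a fixed value spoils few tests -/
theorem count2 {X : Option F → F} {c : ℝ} {b : Option F → Fin 2 → Ln F}
    {col : Option F → Fin 2 × Fin R} (hB : PropB X c b col) {i : Option F}
    {v : Fin 2 → Fin R → Option F} (hv : ∀ k j, v k j ∈ Fr b col i k j) (j' : Fin R)
    (m : Option F × (Fin 2 × Fin R)) (p : Option F) (hp : p ∈ spC b col m) :
    ((T X b i v j').filter (fun L => bad b i v j' m L p)).card ≤ 1 + 2 * R := by
  have hv1 : ∀ k j, v k j ≠ i := by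
    intro k j
    have := hv k j
    unfold Fr at this
    rw [Finset.mem_filter] at this
    exact this.2.1
  have hv2 : ∀ k j, col (v k j) = (k, j) := by
    intro k j
    have := hv k j
    unfold Fr at this
    rw [Finset.mem_filter] at this
    exact this.2.2.1
  have hv3 : ∀ k j i' k', (i', k') ≠ (i, k) → ev (b i' k') (v k j) ≠ ev (b i k) (v k j) := by
    intro k j
    have := hv k j
    unfold Fr at this
    rw [Finset.mem_filter] at this
    exact this.2.2.2
  apply card_insert_image _ (join (i, X i) (p, ev (b m.1 m.2.1) p))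
    (fun y => join (i, X i) (v y.1 j',
      ev (join (JJ b i v y.1 y.2) (p, ev (b m.1 m.2.1) p)) (v y.1 j')))
  intro L hL
  rw [Finset.mem_filter] at hL
  obtain ⟨hLT, hmi, h | ⟨k, j, hj, h⟩⟩ := hL
  · left
    have hLi : ev L i = X i := by
      unfold T S0 at hLT
      rw [Finset.mem_sdiff, Finset.mem_filter] at hLT
      exact hLT.1.2.1
    have hpi : i ≠ p := by
      intro h1
      subst h1
      have h2 : ev L i = ev (b m.1 m.2.1) i := h
      rw [hLi] at h2
      exact hB.tan m.1 m.2.1 i (fun h3 => hmi h3.symm) h2.symm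
    exact (join_eq (z := (i, X i)) (z' := (p, ev (b m.1 m.2.1) p)) hpi hLi h).symm
  · right
    have hLi : ev L i = X i := by
      unfold T S0 at hLT
      rw [Finset.mem_sdiff, Finset.mem_filter] at hLT
      exact hLT.1.2.1
    have hpart : (JJ b i v k j).1 ≠ (v k j', ev L (v k j')).1 := by
      intro h1
      have h1' : v k j = v k j' := h1
      have e1 := hv2 k j
      rw [h1', hv2 k j'] at e1
      exact hj (Prod.mk.inj e1).2.symm
    have hJ : On (JJ b i v k j) (ow b i v j' k j L) := On_join_left hpart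
    have hlab : On (v k j', ev L (v k j')) (ow b i v j' k j L) := On_join_right hpart
    have hpv : (JJ b i v k j).1 ≠ (p, ev (b m.1 m.2.1) p).1 := by
      intro h1
      have h1' : v k j = p := h1
      have h2 : ev (ow b i v j' k j L) (v k j) = ev (b i k) (v k j) := hJ
      have h3 : ev (ow b i v j' k j L) p = ev (b m.1 m.2.1) p := h
      rw [← h1', h2] at h3
      exact hv3 k j m.1 m.2.1 (fun h4 => hmi (Prod.mk.inj h4).1) h3.symm
    have hjoin : join (JJ b i v k j) (p, ev (b m.1 m.2.1) p) = ow b i v j' k j L :=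
      join_eq hpv hJ h
    refine ⟨(k, j), ?_⟩
    simp only
    rw [hjoin]
    have hlab' : ev (ow b i v j' k j L) (v k j') = ev L (v k j') := hlab
    rw [hlab']
    exact join_eq (z := (i, X i)) (z' := (v k j', ev L (v k j'))) (fun h5 => hv1 k j' h5.symm) hLi
      (On_ev L _)

/-- survivors are good -/
theorem surv_good {X : Option F → F} {b : Option F → Fin 2 → Ln F}
    {col : Option F → Fin 2 × Fin R} {i : Option F}
    (ω : Option F × (Fin 2 × Fin R) → Option F)
    (hv : ∀ k j, unc ω i k j ∈ Fr b col i k j) (j' : Fin R) (L : Ln F)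
    (hL : L ∈ T X b i (unc ω i) j') (hbad : ∀ m, ¬ bad b i (unc ω i) j' m L (ω m)) :
    L ∈ GoodSet X b (unc ω) i j' := by
  obtain ⟨v, hvdef⟩ : ∃ v, v = unc ω i := ⟨_, rfl⟩
  rw [← hvdef] at hv hL hbad
  have hv1 : ∀ k j, v k j ≠ i := by
    intro k j
    have := hv k j
    unfold Fr at this
    rw [Finset.mem_filter] at this
    exact this.2.1
  have hv2 : ∀ k j, col (v k j) = (k, j) := by
    intro k j
    have := hv k j
    unfold Fr at this
    rw [Finset.mem_filter] at this
    exact this.2.2.1
  unfold T at hL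
  rw [Finset.mem_sdiff] at hL
  obtain ⟨hS, hG⟩ := hL
  unfold S0 at hS
  rw [Finset.mem_filter] at hS
  obtain ⟨_, hLi, hLX, hLJ, hown⟩ := hS
  have hJp : ∀ k j, Jp b (unc ω) i k j = JJ b i v k j := by
    intro k j
    rw [hvdef]
    rfl
  have hpart : ∀ k j, j ≠ j' → (JJ b i v k j).1 ≠ (v k j', ev L (v k j')).1 := by
    intro k j hj h1
    have h1' : v k j = v k j' := h1
    have e1 := hv2 k j
    rw [h1', hv2 k j'] at e1
    exact hj (Prod.mk.inj e1).2.symm
  have hJ : ∀ k j, j ≠ j' → On (JJ b i v k j) (ow b i v j' k j L) :=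
    fun k j hj => On_join_left (hpart k j hj)
  have hlab : ∀ k j, j ≠ j' → On (v k j', ev L (v k j')) (ow b i v j' k j L) :=
    fun k j hj => On_join_right (hpart k j hj)
  unfold GoodSet
  rw [Finset.mem_filter]
  refine ⟨Finset.mem_univ _, hLi, ?_, ?_⟩
  · intro z hz hzi hon
    unfold Kset at hz
    rw [Finset.mem_filter] at hz
    rcases hz.2 with h1 | ⟨i', k', j'', h1⟩
    · have h2 : z.1 ≠ i := by
        intro h3
        apply hzi
        ext1
        · exact h3
        · rw [h1, h3]
      apply hLX z.1 h2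
      rw [← h1]
      exact hon
    · by_cases h2 : i' = i
      · subst h2
        rw [h1, hJp] at hon
        exact hLJ k' j'' hon
      · apply hbad (i', (k', j''))
        refine ⟨h2, Or.inl ?_⟩
        rw [h1] at hon
        exact hon
  · intro k j hj z hz hzJ hon
    have hon' : On z (ow b i v j' k j L) := by
      have : own (Jp b (unc ω) i k j) (unc ω i k j') L = ow b i v j' k j L := by
        unfold ow
        rw [← hJp, hvdef]
      rw [← this]
      exact hon
    rw [hJp] at hzJ
    unfold Kset at hz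
    rw [Finset.mem_filter] at hz
    rcases hz.2 with h1 | ⟨i', k', j'', h1⟩
    · by_cases h2 : z.1 = (JJ b i v k j).1
      · exact hzJ (On_inj hon' (hJ k j hj) h2)
      · apply hown k j hj z.1 h2
        rw [← h1]
        exact hon'
    · by_cases h2 : i' = i
      · subst h2
        rw [hJp] at h1
        subst h1
        by_cases h3 : k' = k
        · subst h3
          have h4 : j'' ≠ j := by
            rintro rfl
            exact hzJ rfl
          have h5 : (JJ b i' v k' j).1 ≠ (JJ b i' v k' j'').1 := by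
            intro h6
            have h6' : v k' j = v k' j'' := h6
            have e1 := hv2 k' j
            rw [h6', hv2 k' j''] at e1
            exact h4 (Prod.mk.inj e1).2
          have h6 : ow b i' v j' k' j L = b i' k' :=
            On_unique h5 (hJ k' j hj) hon' rfl rfl
          have h7 := hlab k' j hj
          rw [h6] at h7
          apply hLJ k' j'
          have h8 : ev (b i' k') (v k' j') = ev L (v k' j') := h7
          exact h8.symm
        · apply hG
          rw [Finset.mem_image]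
          refine ⟨((k, j), (k', j'')), Finset.mem_univ _, ?_⟩
          have h5 : (JJ b i' v k j).1 ≠ (JJ b i' v k' j'').1 := by
            intro h6
            have h6' : v k j = v k' j'' := h6
            have e1 := hv2 k j
            rw [h6', hv2 k' j''] at e1
            exact h3 (Prod.mk.inj e1).1
          unfold gl
          simp only
          rw [join_eq h5 (hJ k j hj) hon']
          have h7 : ev (ow b i' v j' k j L) (v k j') = ev L (v k j') := hlab k j hj
          rw [h7]
          exact join_eq (z := (i', X i')) (z' := (v k j', ev L (v k j')))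
            (fun h8 => hv1 k j' h8.symm) hLi (On_ev L _)
      · apply hbad (i', (k', j''))
        refine ⟨h2, Or.inr ⟨k, j, hj, ?_⟩⟩
        rw [h1] at hon'
        exact hon'

end

/-- numerical estimate for the union bound -/
theorem numeric (R : ℕ) (c₁ : ℝ) (hc₁ : 0 < c₁) : ∃ q₀ : ℕ, ∀ q : ℕ, q₀ ≤ q →
    ((q : ℝ) + 1) * (R * (((q : ℝ) + 1) ^ R) ^ 2) * Real.exp (- c₁ * q) ≤ 1 / 8 := by
  have h1 := tendsto_rpow_mul_exp_neg_mul_atTop_nhds_zero ((2 * R + 1 : ℕ) : ℝ) c₁ hc₁
  have h2 : Filter.Tendsto (fun n : ℕ => ((n : ℝ) ^ ((2 * R + 1 : ℕ) : ℝ)) *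
      Real.exp (- c₁ * n)) Filter.atTop (nhds 0) :=
    h1.comp tendsto_natCast_atTop_atTop
  have hpos : (0 : ℝ) < 1 / (8 * ((R + 1) * 2 ^ (2 * R + 1))) := by positivity
  obtain ⟨q₀, hq₀⟩ := Filter.eventually_atTop.mp (h2.eventually (ge_mem_nhds hpos))
  refine ⟨max q₀ 1, fun q hq => ?_⟩
  have h3 := hq₀ q (le_trans (le_max_left _ _) hq)
  have hq1 : (1 : ℝ) ≤ q := by exact_mod_cast le_trans (le_max_right _ _) hq
  rw [Real.rpow_natCast, le_div_iff₀ (by positivity)] at h3
  have h4 : ((q : ℝ) + 1) * (R * (((q : ℝ) + 1) ^ R) ^ 2) ≤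
      (R + 1) * 2 ^ (2 * R + 1) * (q : ℝ) ^ (2 * R + 1) := by
    have e1 : ((q : ℝ) + 1) ≤ 2 * q := by linarith
    calc ((q : ℝ) + 1) * (R * (((q : ℝ) + 1) ^ R) ^ 2)
        ≤ (2 * q) * ((R + 1) * ((2 * q) ^ R) ^ 2) := by
          gcongr
          linarith
      _ = (R + 1) * 2 ^ (2 * R + 1) * (q : ℝ) ^ (2 * R + 1) := by ring
  calc ((q : ℝ) + 1) * (R * (((q : ℝ) + 1) ^ R) ^ 2) * Real.exp (- c₁ * q)
      ≤ ((R + 1) * 2 ^ (2 * R + 1) * (q : ℝ) ^ (2 * R + 1)) * Real.exp (- c₁ * q) := by gcongr
    _ ≤ 1 / 8 := by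
        rw [le_div_iff₀ (by norm_num)]
        calc (R + 1) * 2 ^ (2 * R + 1) * (q : ℝ) ^ (2 * R + 1) * Real.exp (- c₁ * q) * 8
            = (q : ℝ) ^ (2 * R + 1) * Real.exp (- c₁ * q) * (8 * ((R + 1) * 2 ^ (2 * R + 1))) := by
              ring
          _ ≤ 1 := h3

end Crest.Agent.R34.C3

namespace Crest.Agent.R34

open C3

theorem taskCgood (h : GoodLower) : TaskCgood := by
  intro R c hR hc
  have hR' : (1 : ℝ) ≤ R := by exact_mod_cast hR
  obtain ⟨c₁, hc₁, q₁, hq₁⟩ := h (1 + 2 * R) (c / 2) (4 * R) (by positivity) (by positivity)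
  obtain ⟨q₂, hq₂⟩ := C3.numeric R c₁ hc₁
  obtain ⟨q₃, hq₃⟩ := exists_nat_ge ((2 * R) * (2 * R) * 2 / c)
  refine ⟨c₁, hc₁, max q₁ (max q₂ q₃), ?_⟩
  intro F _ _ hqF X b col hA hB
  have hF1 : q₁ ≤ Fintype.card F := le_trans (le_max_left _ _) hqF
  have hF2 : q₂ ≤ Fintype.card F :=
    le_trans (le_trans (le_max_left _ _) (le_max_right _ _)) hqF
  have hF3 : q₃ ≤ Fintype.card F :=
    le_trans (le_trans (le_max_right _ _) (le_max_right _ _)) hqF
  have hF3' : (2 * R) * (2 * R) * 2 / c ≤ (Fintype.card F : ℝ) :=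
    le_trans hq₃ (by exact_mod_cast hF3)
  have hq1 : (1 : ℝ) ≤ Fintype.card F := by exact_mod_cast Fintype.card_pos
  -- index set of the events
  let κ : Finset (Option F × (Fin R × (Fin 2 → Fin R → Option F))) :=
    univ.filter (fun a => ∀ k j, a.2.2 k j ∈ Fr b col a.1 k j)
  let E : Option F × (Fin R × (Fin 2 → Fin R → Option F)) →
      (Option F × (Fin 2 × Fin R) → Option F) → Prop :=
    fun a ω => (((T X b a.1 a.2.2 a.2.1).filter
      (fun L => ∀ m, ¬ bad b a.1 a.2.2 a.2.1 m L (ω m))).card : ℝ) < c₁ * Fintype.card F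
  have hsub : pr (spC b col) (fun ω => ¬ ∀ i j', c₁ * Fintype.card F ≤
      (GoodSet X b (unc ω) i j').card) ≤ pr (spC b col) (fun ω => ∃ a ∈ κ, E a ω) := by
    apply pr_mono
    intro ω hω hnot
    push Not at hnot
    obtain ⟨i, j', hij⟩ := hnot
    refine ⟨(i, (j', unc ω i)), ?_, ?_⟩
    · rw [Finset.mem_filter]
      refine ⟨Finset.mem_univ _, fun k j => ?_⟩
      exact hω (i, (k, j))
    · refine lt_of_le_of_lt ?_ hij
      have : ((T X b i (unc ω i) j').filter
          (fun L => ∀ m, ¬ bad b i (unc ω i) j' m L (ω m))) ⊆ GoodSet X b (unc ω) i j' := by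
        intro L hL
        rw [Finset.mem_filter] at hL
        exact surv_good (col := col) ω (fun k j => hω (i, (k, j))) j' L hL.1 hL.2
      exact_mod_cast Finset.card_le_card this
  refine le_trans hsub (le_trans (pr_exists_le _ _ _) ?_)
  have h1 : ∀ a ∈ κ, pr (spC b col) (E a) ≤ Real.exp (- c₁ * Fintype.card F) := by
    intro a ha
    rw [Finset.mem_filter] at ha
    obtain ⟨_, hv⟩ := ha
    refine hq₁ (Fintype.card F) hF1 _ _ _ (spC b col) (T X b a.1 a.2.2 a.2.1)
      (bad b a.1 a.2.2 a.2.1) ?_ ?_ ?_ ?_ ?_ ?_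
    · rw [Fintype.card_prod, Fintype.card_prod, Fintype.card_option, Fintype.card_fin,
        Fintype.card_fin]
      push_cast
      nlinarith
    · intro m
      refine le_trans ?_ (hB.free m.1 m.2.1 m.2.2)
      nlinarith [mul_pos hc (lt_of_lt_of_le one_pos hq1)]
    · refine le_trans ?_ (card_T hA hv a.2.1)
      rw [div_le_iff₀ hc] at hF3'
      nlinarith
    · have h2 : ((T X b a.1 a.2.2 a.2.1).card : ℝ) ≤ Fintype.card F := by
        exact_mod_cast card_T_le (X := X) (b := b) (i := a.1) (v := a.2.2) a.2.1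
      nlinarith
    · intro m L hL
      exact count1 hB hv a.2.1 m L hL
    · intro m p hp
      exact count2 hB hv a.2.1 m p hp
  refine le_trans (Finset.sum_le_card_nsmul _ _ _ h1) ?_
  rw [nsmul_eq_mul]
  refine le_trans ?_ (hq₂ (Fintype.card F) hF2)
  have hcard : (κ.card : ℝ) ≤ ((Fintype.card F : ℝ) + 1) * (R * (((Fintype.card F : ℝ) + 1) ^ R) ^ 2) := by
    have h2 : κ.card ≤ (Fintype.card F + 1) * (R * ((Fintype.card F + 1) ^ R) ^ 2) := by
      refine le_trans (Finset.card_filter_le _ _) (le_of_eq ?_)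
      rw [Finset.card_univ, Fintype.card_prod, Fintype.card_prod, Fintype.card_option,
        Fintype.card_fin, Fintype.card_fun, Fintype.card_fun, Fintype.card_option,
        Fintype.card_fin, Fintype.card_fin]
    exact_mod_cast h2
  gcongr

end Crest.Agent.R34
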