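import Crest.Agent.R34.Defs2

/-!
# Row 34, task D1: stage D (own lines).
-/

set_option autoImplicit false
set_option linter.unusedSectionVars false
set_option linter.unusedVariables false

open Finset Classical

namespace Crest.Agent.R34

namespace D1

/-! ## Growth -/

theorem lg_growth (A : ℝ) : ∃ q₀ : ℕ, ∀ q : ℕ, q₀ ≤ q → A * (lg q : ℝ) ^ 5 < q := by
  have h1 : (fun x : ℝ => Real.log x ^ 10) =o[Filter.atTop] (id : ℝ → ℝ) :=
    Real.isLittleO_pow_log_id_atTop
  set B : ℝ := (|A| + 1) / (Real.log 2) ^ 10 with hB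
  have hl2 : 0 < Real.log 2 := Real.log_pos (by norm_num)
  have hBpos : 0 < B := by positivity
  have h2 := h1.bound (c := 1 / (2 * B)) (by positivity)
  have h3 := tendsto_natCast_atTop_atTop (R := ℝ) |>.eventually h2
  obtain ⟨N, hN⟩ := Filter.eventually_atTop.mp h3
  refine ⟨max N 1, ?_⟩
  intro q hq
  have hq1 : N ≤ q := (le_max_left _ _).trans hq
  have hq2 : 1 ≤ q := (le_max_right _ _).trans hq
  have h4 := hN q hq1
  simp only [id, Real.norm_eq_abs] at h4
  have hq3 : (1 : ℝ) ≤ q := by exact_mod_cast hq2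
  rw [abs_of_nonneg (by positivity : (0:ℝ) ≤ (q:ℝ))] at h4
  have hlogq : 0 ≤ Real.log q := Real.log_nonneg hq3
  rw [abs_of_nonneg (by positivity)] at h4
  have h5 : (Nat.log 2 q : ℝ) ≤ Real.log q / Real.log 2 := by
    have := Real.natLog_le_logb q 2
    simpa [Real.logb] using this
  have h6 : (lg q : ℝ) ^ 5 ≤ (Real.log q / Real.log 2) ^ 10 := by
    unfold lg
    push_cast
    rw [← pow_mul]
    exact pow_le_pow_left₀ (by positivity) h5 10
  have h7 : (0 : ℝ) ≤ (lg q : ℝ) ^ 5 := by positivity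
  calc A * (lg q : ℝ) ^ 5 ≤ (|A| + 1) * (lg q : ℝ) ^ 5 := by
        apply mul_le_mul_of_nonneg_right _ h7
        linarith [le_abs_self A]
    _ ≤ (|A| + 1) * (Real.log q / Real.log 2) ^ 10 := by
        apply mul_le_mul_of_nonneg_left h6
        positivity
    _ = B * Real.log q ^ 10 := by
        rw [hB, div_pow]
        ring
    _ ≤ B * (1 / (2 * B) * q) := by
        apply mul_le_mul_of_nonneg_left h4 hBpos.le
    _ = q / 2 := by
        field_simp
    _ < q := by linarith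

theorem lg_pos {q : ℕ} (hq : 2 ≤ q) : 1 ≤ lg q := by
  unfold lg
  have : 0 < Nat.log 2 q := Nat.log_pos (by norm_num) hq
  exact Nat.one_le_pow _ _ this

section
variable {F : Type} [Field F] [Fintype F]

/-- the lines through a point have `q` elements -/
theorem card_thru (i : Option F) (a : F) :
    (univ.filter (fun L : Ln F => ev L i = a)).card ≤ Fintype.card F := by
  rw [← Finset.card_univ]
  cases i with
  | none =>
    apply Finset.card_le_card_of_injOn (fun L => L.2) (fun _ _ => Finset.mem_coe.mpr (mem_univ _))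
    intro L hL L' hL' h
    have h1 : L.1 = a := (mem_filter.mp hL).2
    have h2 : L'.1 = a := (mem_filter.mp hL').2
    exact Prod.ext (h1.trans h2.symm) h
  | some t =>
    apply Finset.card_le_card_of_injOn (fun L => L.1) (fun _ _ => Finset.mem_coe.mpr (mem_univ _))
    intro L hL L' hL' h
    have h1 : L.1 * t + L.2 = a := (mem_filter.mp hL).2
    have h2 : L'.1 * t + L'.2 = a := (mem_filter.mp hL').2
    have h3 : L.1 = L'.1 := h
    refine Prod.ext h3 ?_
    rw [h3] at h1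
    exact add_left_cancel (h1.trans h2.symm)

/-- tuples determined by all but one coordinate -/
theorem tup_bound {R : ℕ} (P : Finset (Ln F)) (q : ℕ) (hP : P.card ≤ q) (j₀ : Fin R)
    (S : Finset (Fin R → Ln F)) (hS : ∀ θ ∈ S, ∀ j, θ j ∈ P)
    (hdet : ∀ θ ∈ S, ∀ θ' ∈ S, (∀ j, j ≠ j₀ → θ j = θ' j) → θ j₀ = θ' j₀) :
    S.card ≤ q ^ (R - 1) := by
  have h1 : S.card ≤ (Fintype.piFinset (fun _ : {j : Fin R // j ≠ j₀} => P)).card := by
    apply Finset.card_le_card_of_injOn (fun θ => fun j => θ j.1)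
    · intro θ hθ
      rw [Finset.mem_coe, Fintype.mem_piFinset]
      intro j
      exact hS θ hθ j.1
    · intro θ hθ θ' hθ' he
      have h2 : ∀ j, j ≠ j₀ → θ j = θ' j := by
        intro j hj
        exact congrFun he ⟨j, hj⟩
      funext j
      by_cases hj : j = j₀
      · subst hj
        exact hdet θ hθ θ' hθ' h2
      · exact h2 j hj
  refine h1.trans ?_
  rw [Fintype.card_piFinset]
  rw [Finset.prod_const, Finset.card_univ]
  have h2 : Fintype.card {j : Fin R // j ≠ j₀} = R - 1 := by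
    have := Set.card_ne_eq j₀
    simpa using this
  rw [h2]
  exact Nat.pow_le_pow_left hP _

/-- two lines through a common point agreeing in another part are equal -/
theorem line_eq {L L' : Ln F} {i p : Option F} (h : p ≠ i) (h1 : ev L i = ev L' i)
    (h2 : ev L p = ev L' p) : L = L' := by
  by_contra h3
  have e1 := (ev_eq_iff h3 i).mp h1
  have e2 := (ev_eq_iff h3 p).mp h2
  exact h (e2.trans e1.symm)

theorem ev_own {z : Pt F} {i : Option F} (L : Ln F) (h : z.1 ≠ i) : ev (own z i L) i = ev L i := by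
  have := On_join_right (z := z) (z' := (i, ev L i)) h
  exact this

theorem on_own {z : Pt F} {i : Option F} (L : Ln F) (h : z.1 ≠ i) : On z (own z i L) :=
  On_join_left (z := z) (z' := (i, ev L i)) h

/-- two points on a line, distinct, are in different parts -/
theorem part_ne_of_ne {z z' : Pt F} {L : Ln F} (h1 : On z L) (h2 : On z' L) (h : z ≠ z') :
    z.1 ≠ z'.1 := fun he => h (On_inj h1 h2 he)

/-- two distinct points are on at most one line -/
theorem line_unique {z z' : Pt F} {L L' : Ln F} (h : z ≠ z') (h1 : On z L) (h2 : On z' L)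
    (h3 : On z L') (h4 : On z' L') : L = L' :=
  On_unique (part_ne_of_ne h1 h2 h) h1 h2 h3 h4

end

/-! ## The context of stage D -/

section
variable {F : Type} [Field F] [Fintype F] {R : ℕ} {c : ℝ} {X : Option F → F}
  {b : Option F → Fin 2 → Ln F} {col : Option F → Fin 2 × Fin R}
  {π : Option F → Fin 2 → Fin R → Option F}

theorem pi_ne (hC : PropC X c b col π) (i k j) : π i k j ≠ i :=
  (mem_filter.mp (hC.mem i k j)).2.1

theorem pi_col (hC : PropC X c b col π) (i k j) : col (π i k j) = (k, j) :=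
  (mem_filter.mp (hC.mem i k j)).2.2.1

theorem pi_inj (hC : PropC X c b col π) (i k j k₁ j₁) (h : π i k j = π i k₁ j₁) :
    k = k₁ ∧ j = j₁ := by
  have h1 := pi_col hC i k j
  have h2 := pi_col hC i k₁ j₁
  rw [h, h2] at h1
  exact ⟨(Prod.ext_iff.mp h1).1.symm, (Prod.ext_iff.mp h1).2.symm⟩

theorem pi_free (hC : PropC X c b col π) (i k j i' k') (h : (i', k') ≠ (i, k)) :
    ¬ On (Jp b π i k j) (b i' k') :=
  (mem_filter.mp (hC.mem i k j)).2.2.2 i' k' h

theorem Jp_on (i : Option F) (k : Fin 2) (j : Fin R) : On (Jp b π i k j) (b i k) := rfl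

theorem Jp_fst (i : Option F) (k : Fin 2) (j : Fin R) : (Jp b π i k j).1 = π i k j := rfl

theorem Jp_mem (i : Option F) (k : Fin 2) (j : Fin R) : Jp b π i k j ∈ Kset X b π :=
  mem_filter.mpr ⟨mem_univ _, Or.inr ⟨i, k, j, rfl⟩⟩

theorem Ip_mem (i : Option F) : (i, X i) ∈ Kset X b π :=
  mem_filter.mpr ⟨mem_univ _, Or.inl rfl⟩

theorem Jp_ne_Ip (hB : PropB X c b col) (hC : PropC X c b col π) (i k j) (i') :
    Jp b π i k j ≠ (i', X i') := by
  intro h
  have h1 : π i k j = i' := congrArg Prod.fst h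
  have h2 : ev (b i k) (π i k j) = X i' := congrArg Prod.snd h
  rw [h1] at h2
  refine hB.tan i k i' ?_ h2
  rw [← h1]
  exact pi_ne hC i k j

/-! ### Codes of K-points -/

/-- point of a code -/
def pt (X : Option F → F) (b : Option F → Fin 2 → Ln F) (π : Option F → Fin 2 → Fin R → Option F)
    (g : Option F × Option (Fin 2 × Fin R)) : Pt F :=
  match g.2 with
  | none => (g.1, X g.1)
  | some e => Jp b π g.1 e.1 e.2

theorem pt_mem (g : Option F × Option (Fin 2 × Fin R)) : pt X b π g ∈ Kset X b π := by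
  rcases g with ⟨i, e⟩
  cases e with
  | none => exact Ip_mem i
  | some e => exact Jp_mem i e.1 e.2

theorem pt_inj (hB : PropB X c b col) (hC : PropC X c b col π) :
    Function.Injective (pt X b π) := by
  intro g g' h
  rcases g with ⟨i, e⟩
  rcases g' with ⟨i', e'⟩
  cases e with
  | none =>
    cases e' with
    | none =>
      have : i = i' := congrArg Prod.fst h
      rw [this]
    | some e' => exact absurd h.symm (Jp_ne_Ip hB hC i' e'.1 e'.2 i)
  | some e =>
    cases e' with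
    | none => exact absurd h (Jp_ne_Ip hB hC i e.1 e.2 i')
    | some e' =>
      have h' : Jp b π i e.1 e.2 = Jp b π i' e'.1 e'.2 := h
      have h1 : (i', e'.1) = (i, e.1) := by
        by_contra hne
        apply pi_free hC i e.1 e.2 i' e'.1 hne
        rw [h']
        exact Jp_on _ _ _
      obtain ⟨h2, h3⟩ := Prod.ext_iff.mp h1
      simp only at h2 h3
      subst h2
      have h4 : π i' e.1 e.2 = π i' e'.1 e'.2 := congrArg Prod.fst h'
      have h5 := pi_inj hC i' _ _ _ _ h4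
      have : e = e' := Prod.ext h5.1 h5.2
      rw [this]

/-- own line `o` attached at the code `g` -/
def AttC (b : Option F → Fin 2 → Ln F) (π : Option F → Fin 2 → Fin R → Option F)
    (g : Option F × Option (Fin 2 × Fin R)) (θ : Fin R → Ln F) (o : Ln F) : Prop :=
  match g.2 with
  | none => ∃ j, o = θ j
  | some e => ∃ j', e.2 ≠ j' ∧ o = own (Jp b π g.1 e.1 e.2) (π g.1 e.1 j') (θ j')

theorem att_code {θ : Option F → Fin R → Ln F} {i : Option F} {z : Pt F} {o : Ln F}
    (h : Att X b π θ i z o) : ∃ e, z = pt X b π (i, e) ∧ AttC b π (i, e) (θ i) o := by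
  rcases h with ⟨h1, j, h2⟩ | ⟨k, j, j', h1, h2, h3⟩
  · exact ⟨none, h1, j, h2⟩
  · exact ⟨some (k, j), h2, j', h1, h3⟩

/-! ### The set of tuples -/

/-- om_inj for one gadget -/
def relB (b : Option F → Fin 2 → Ln F) (π : Option F → Fin 2 → Fin R → Option F) (i : Option F)
    (θ : Fin R → Ln F) : Prop :=
  ∀ k j j' j'', j ≠ j' → j ≠ j'' →
    own (Jp b π i k j) (π i k j') (θ j') = own (Jp b π i k j) (π i k j'') (θ j'') → j' = j''

/-- conc for one gadget -/
def relC (b : Option F → Fin 2 → Ln F) (π : Option F → Fin 2 → Fin R → Option F) (i : Option F)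
    (θ : Fin R → Ln F) : Prop :=
  ∀ (k : Fin 2) (v : Pt F), ¬ On v (b i k) →
    ∀ j₁ j₂ j₃ j₁' j₂' j₃' : Fin R, j₁ ≠ j₁' → j₂ ≠ j₂' → j₃ ≠ j₃' → j₁ ≠ j₂ → j₁ ≠ j₃ → j₂ ≠ j₃ →
    j₁' ≠ j₂' → j₁' ≠ j₃' → j₂' ≠ j₃' →
    On v (own (Jp b π i k j₁) (π i k j₁') (θ j₁')) →
    On v (own (Jp b π i k j₂) (π i k j₂') (θ j₂')) →
    ¬ On v (own (Jp b π i k j₃) (π i k j₃') (θ j₃'))

/-- tuples of good lines -/
noncomputable def Tup (X : Option F → F) (b : Option F → Fin 2 → Ln F)
    (π : Option F → Fin 2 → Fin R → Option F) (i : Option F) : Finset (Fin R → Ln F) :=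
  Fintype.piFinset (fun j => GoodSet X b π i j)

noncomputable def Om (X : Option F → F) (b : Option F → Fin 2 → Ln F)
    (π : Option F → Fin 2 → Fin R → Option F) (i : Option F) : Finset (Fin R → Ln F) :=
  (Tup X b π i).filter (fun θ => Function.Injective θ ∧ relB b π i θ ∧ relC b π i θ)

theorem Tup_through {i : Option F} {θ : Fin R → Ln F} (h : θ ∈ Tup X b π i) (j : Fin R) :
    θ j ∈ univ.filter (fun L : Ln F => ev L i = X i) := by
  have h1 := (mem_filter.mp (Fintype.mem_piFinset.mp h j)).2.1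
  exact mem_filter.mpr ⟨mem_univ _, h1⟩

theorem Tup_ev {i : Option F} {θ : Fin R → Ln F} (h : θ ∈ Tup X b π i) (j : Fin R) :
    ev (θ j) i = X i := (mem_filter.mp (Tup_through h j)).2

/-- good lines avoid the J-points -/
theorem Tup_avoid (hB : PropB X c b col) (hC : PropC X c b col π) {i : Option F}
    {θ : Fin R → Ln F} (h : θ ∈ Tup X b π i) (j : Fin R) (k : Fin 2) (j' : Fin R) :
    ev (θ j) (π i k j') ≠ ev (b i k) (π i k j') := by
  have h1 := (mem_filter.mp (Fintype.mem_piFinset.mp h j)).2.2.1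
  exact h1 (Jp b π i k j') (Jp_mem i k j') (Jp_ne_Ip hB hC i k j' i)

theorem bound_of {i : Option F} (S : Finset (Fin R → Ln F)) (hS : S ⊆ Tup X b π i) (j₀ : Fin R)
    (hdet : ∀ θ ∈ S, ∀ θ' ∈ S, (∀ j, j ≠ j₀ → θ j = θ' j) → θ j₀ = θ' j₀) :
    S.card ≤ Fintype.card F ^ (R - 1) :=
  tup_bound _ _ (card_thru i (X i)) j₀ S (fun _ hθ j => Tup_through (hS hθ) j) hdet

/-- the own line determines the tuple entry -/
theorem own_det (hC : PropC X c b col π) {i : Option F} {θ θ' : Fin R → Ln F}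
    (h : θ ∈ Tup X b π i) (h' : θ' ∈ Tup X b π i) {k : Fin 2} {j j' : Fin R} (hj : j ≠ j')
    (he : own (Jp b π i k j) (π i k j') (θ j') = own (Jp b π i k j) (π i k j') (θ' j')) :
    θ j' = θ' j' := by
  have hne : (Jp b π i k j).1 ≠ π i k j' := fun h => hj (pi_inj hC i k j k j' h).2
  have h1 := ev_own (θ j') hne
  have h2 := ev_own (θ' j') hne
  rw [he, h2] at h1
  exact line_eq (pi_ne hC i k j') ((Tup_ev h j').trans (Tup_ev h' j').symm) h1.symm

theorem badA {i : Option F} (j j' : Fin R) (hj : j ≠ j') :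
    ((Tup X b π i).filter (fun θ => θ j = θ j')).card ≤ Fintype.card F ^ (R - 1) := by
  apply bound_of _ (filter_subset _ _) j
  intro θ hθ θ' hθ' h
  rw [(mem_filter.mp hθ).2, (mem_filter.mp hθ').2]
  exact h j' (Ne.symm hj)

theorem badB (hC : PropC X c b col π) {i : Option F} (k : Fin 2) (j j' j'' : Fin R)
    (hj : j ≠ j') (hj' : j ≠ j'') (hne : j' ≠ j'') :
    ((Tup X b π i).filter (fun θ => own (Jp b π i k j) (π i k j') (θ j') =
      own (Jp b π i k j) (π i k j'') (θ j''))).card ≤ Fintype.card F ^ (R - 1) := by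
  apply bound_of _ (filter_subset _ _) j'
  intro θ hθ θ' hθ' h
  obtain ⟨h1, h2⟩ := mem_filter.mp hθ
  obtain ⟨h3, h4⟩ := mem_filter.mp hθ'
  apply own_det hC h1 h3 hj
  rw [h2, h4, h j'' (Ne.symm hne)]

theorem badC (hB : PropB X c b col) (hC : PropC X c b col π) {i : Option F} (k : Fin 2)
    (j₁ j₂ j₃ j₁' j₂' j₃' : Fin R) (a1 : j₁ ≠ j₁') (a2 : j₂ ≠ j₂') (a3 : j₃ ≠ j₃') (b1 : j₁ ≠ j₂)
    (c1 : j₁' ≠ j₂') (c2 : j₁' ≠ j₃') (c3 : j₂' ≠ j₃') :
    ((Tup X b π i).filter (fun θ => ∃ v : Pt F, ¬ On v (b i k) ∧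
      On v (own (Jp b π i k j₁) (π i k j₁') (θ j₁')) ∧
      On v (own (Jp b π i k j₂) (π i k j₂') (θ j₂')) ∧
      On v (own (Jp b π i k j₃) (π i k j₃') (θ j₃')))).card ≤ Fintype.card F ^ (R - 1) := by
  apply bound_of _ (filter_subset _ _) j₃'
  intro θ hθ θ' hθ' h
  obtain ⟨h1, v, v1, v2, v3, v4⟩ := mem_filter.mp hθ
  obtain ⟨h1', v', v1', v2', v3', v4'⟩ := mem_filter.mp hθ'
  rw [← h j₁' c2] at v2'
  rw [← h j₂' c3] at v3'
  have e1 : (Jp b π i k j₁).1 ≠ π i k j₁' := fun h => a1 (pi_inj hC i k _ k _ h).2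
  have e2 : (Jp b π i k j₂).1 ≠ π i k j₂' := fun h => a2 (pi_inj hC i k _ k _ h).2
  have e3 : (Jp b π i k j₃).1 ≠ π i k j₃' := fun h => a3 (pi_inj hC i k _ k _ h).2
  set O₁ := own (Jp b π i k j₁) (π i k j₁') (θ j₁') with hO₁
  set O₂ := own (Jp b π i k j₂) (π i k j₂') (θ j₂') with hO₂
  have hOne : O₁ ≠ O₂ := by
    intro hO
    have hJ1 : On (Jp b π i k j₁) O₁ := on_own _ e1
    have hJ2 : On (Jp b π i k j₂) O₁ := by rw [hO]; exact on_own _ e2
    have hJne : (Jp b π i k j₁).1 ≠ (Jp b π i k j₂).1 := fun h => b1 (pi_inj hC i k _ k _ h).2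
    have hOb : O₁ = b i k := On_unique hJne hJ1 hJ2 (Jp_on _ _ _) (Jp_on _ _ _)
    have h5 := ev_own (θ j₁') e1
    rw [← hO₁, hOb] at h5
    exact Tup_avoid hB hC h1 j₁' k j₁' h5.symm
  have hvv : v = v' := by
    by_contra hne
    exact hOne (line_unique hne v2 v2' v3 v3')
  subst hvv
  apply own_det hC h1 h1' a3
  have hvJ : v ≠ Jp b π i k j₃ := by
    intro he
    apply v1
    rw [he]
    exact Jp_on _ _ _
  exact line_unique hvJ v4 (on_own _ e3) v4' (on_own _ e3)

/-- the number of kinds of bad relations -/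
def NN (R : ℕ) : ℕ := R ^ 2 + 2 * R ^ 3 + 2 * R ^ 6

theorem Om_card_nat (hB : PropB X c b col) (hC : PropC X c b col π) (i : Option F) :
    (Tup X b π i).card ≤ (Om X b π i).card + NN R * Fintype.card F ^ (R - 1) := by
  set Q := Fintype.card F ^ (R - 1) with hQ
  set UA := (univ : Finset (Fin R × Fin R)).biUnion (fun x =>
    if x.1 ≠ x.2 then (Tup X b π i).filter (fun θ => θ x.1 = θ x.2) else ∅) with hUA
  set UB := (univ : Finset (Fin 2 × Fin R × Fin R × Fin R)).biUnion (fun x =>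
    if x.2.1 ≠ x.2.2.1 ∧ x.2.1 ≠ x.2.2.2 ∧ x.2.2.1 ≠ x.2.2.2 then
      (Tup X b π i).filter (fun θ => own (Jp b π i x.1 x.2.1) (π i x.1 x.2.2.1) (θ x.2.2.1) =
      own (Jp b π i x.1 x.2.1) (π i x.1 x.2.2.2) (θ x.2.2.2)) else ∅) with hUB
  set UC := (univ : Finset (Fin 2 × Fin R × Fin R × Fin R × Fin R × Fin R × Fin R)).biUnion
    (fun x => if x.2.1 ≠ x.2.2.2.2.1 ∧ x.2.2.1 ≠ x.2.2.2.2.2.1 ∧ x.2.2.2.1 ≠ x.2.2.2.2.2.2 ∧
        x.2.1 ≠ x.2.2.1 ∧ x.2.2.2.2.1 ≠ x.2.2.2.2.2.1 ∧ x.2.2.2.2.1 ≠ x.2.2.2.2.2.2 ∧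
        x.2.2.2.2.2.1 ≠ x.2.2.2.2.2.2 then
      (Tup X b π i).filter (fun θ => ∃ v : Pt F, ¬ On v (b i x.1) ∧
      On v (own (Jp b π i x.1 x.2.1) (π i x.1 x.2.2.2.2.1) (θ x.2.2.2.2.1)) ∧
      On v (own (Jp b π i x.1 x.2.2.1) (π i x.1 x.2.2.2.2.2.1) (θ x.2.2.2.2.2.1)) ∧
      On v (own (Jp b π i x.1 x.2.2.2.1) (π i x.1 x.2.2.2.2.2.2) (θ x.2.2.2.2.2.2))) else ∅)
    with hUC
  have cA : UA.card ≤ R ^ 2 * Q := by
    have := Finset.card_biUnion_le_card_mul (univ : Finset (Fin R × Fin R)) (fun x =>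
      if x.1 ≠ x.2 then (Tup X b π i).filter (fun θ => θ x.1 = θ x.2) else ∅) Q (by
        intro x _
        split_ifs with hx
        · exact badA _ _ hx
        · simp)
    refine this.trans (le_of_eq ?_)
    rw [Finset.card_univ, Fintype.card_prod, Fintype.card_fin]
    ring
  have cB : UB.card ≤ 2 * R ^ 3 * Q := by
    refine (Finset.card_biUnion_le_card_mul _ _ Q ?_).trans (le_of_eq ?_)
    · intro x _
      split_ifs with hx
      · exact badB hC _ _ _ _ hx.1 hx.2.1 hx.2.2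
      · simp
    · rw [Finset.card_univ]
      simp only [Fintype.card_prod, Fintype.card_fin]
      ring
  have cC : UC.card ≤ 2 * R ^ 6 * Q := by
    refine (Finset.card_biUnion_le_card_mul _ _ Q ?_).trans (le_of_eq ?_)
    · intro x _
      split_ifs with hx
      · exact badC hB hC _ _ _ _ _ _ _ hx.1 hx.2.1 hx.2.2.1 hx.2.2.2.1 hx.2.2.2.2.1
          hx.2.2.2.2.2.1 hx.2.2.2.2.2.2
      · simp
    · rw [Finset.card_univ]
      simp only [Fintype.card_prod, Fintype.card_fin]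
      ring
  have hsub : Tup X b π i ⊆ Om X b π i ∪ (UA ∪ (UB ∪ UC)) := by
    intro θ hθ
    by_cases hA : Function.Injective θ
    · by_cases hBB : relB b π i θ
      · by_cases hCC : relC b π i θ
        · exact mem_union_left _ (mem_filter.mpr ⟨hθ, hA, hBB, hCC⟩)
        · apply mem_union_right
          apply mem_union_right
          apply mem_union_right
          unfold relC at hCC
          push Not at hCC
          obtain ⟨k, v, hv, j₁, j₂, j₃, j₁', j₂', j₃', a1, a2, a3, b1, b2, b3, c1, c2, c3, o1, o2, o3⟩ := hCC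
          rw [hUC, mem_biUnion]
          refine ⟨(k, j₁, j₂, j₃, j₁', j₂', j₃'), mem_univ _, ?_⟩
          rw [if_pos ⟨a1, a2, a3, b1, c1, c2, c3⟩]
          exact mem_filter.mpr ⟨hθ, v, hv, o1, o2, o3⟩
      · apply mem_union_right
        apply mem_union_right
        apply mem_union_left
        unfold relB at hBB
        push Not at hBB
        obtain ⟨k, j, j', j'', a1, a2, a3, a4⟩ := hBB
        rw [hUB, mem_biUnion]
        refine ⟨(k, j, j', j''), mem_univ _, ?_⟩
        rw [if_pos ⟨a1, a2, a4⟩]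
        exact mem_filter.mpr ⟨hθ, a3⟩
    · apply mem_union_right
      apply mem_union_left
      unfold Function.Injective at hA
      push Not at hA
      obtain ⟨j, j', a1, a2⟩ := hA
      rw [hUA, mem_biUnion]
      refine ⟨(j, j'), mem_univ _, ?_⟩
      rw [if_pos a2]
      exact mem_filter.mpr ⟨hθ, a1⟩
  have h1 := (card_le_card hsub).trans (card_union_le _ _)
  have h2 := card_union_le UA (UB ∪ UC)
  have h3 := card_union_le UB UC
  have h4 : NN R * Q = R ^ 2 * Q + 2 * R ^ 3 * Q + 2 * R ^ 6 * Q := by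
    unfold NN; ring
  rw [h4]
  omega

theorem Tup_card (hC : PropC X c b col π) (hc : 0 < c) (i : Option F) :
    (c * Fintype.card F) ^ R ≤ ((Tup X b π i).card : ℝ) := by
  unfold Tup
  rw [Fintype.card_piFinset]
  push_cast
  calc (c * Fintype.card F) ^ R = ∏ _j : Fin R, (c * (Fintype.card F : ℝ)) := by
        rw [Finset.prod_const, Finset.card_univ, Fintype.card_fin]
    _ ≤ _ := by
        apply Finset.prod_le_prod
        · intro j _
          positivity
        · intro j _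
          exact hC.good i j

theorem Om_card (hB : PropB X c b col) (hC : PropC X c b col π) (hc : 0 < c) (hR : 1 ≤ R)
    (i : Option F) (hq : 2 * (NN R : ℝ) / c ^ R ≤ Fintype.card F) :
    c ^ R / 2 * (Fintype.card F : ℝ) ^ R ≤ ((Om X b π i).card : ℝ) := by
  have h1 : ((Tup X b π i).card : ℝ) ≤ (Om X b π i).card + NN R * (Fintype.card F : ℝ) ^ (R - 1) := by
    exact_mod_cast Om_card_nat hB hC i
  have h2 := Tup_card hC hc i
  rw [mul_pow] at h2
  have h3 : (NN R : ℝ) * (Fintype.card F : ℝ) ^ (R - 1) ≤ c ^ R / 2 * (Fintype.card F : ℝ) ^ R := by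
    obtain ⟨r, rfl⟩ : ∃ r, R = r + 1 := ⟨R - 1, by omega⟩
    rw [Nat.add_sub_cancel, pow_succ (Fintype.card F : ℝ)]
    have h4 : (NN (r + 1) : ℝ) ≤ c ^ (r + 1) / 2 * Fintype.card F := by
      rw [div_le_iff₀ (by positivity)] at hq
      linarith
    calc (NN (r + 1) : ℝ) * (Fintype.card F : ℝ) ^ r
        ≤ (c ^ (r + 1) / 2 * Fintype.card F) * (Fintype.card F : ℝ) ^ r :=
          mul_le_mul_of_nonneg_right h4 (by positivity)
      _ = _ := by ring
  linarith

/-- few tuples have an own line at `g` through `v` -/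
theorem hit_card (hC : PropC X c b col π) (g : Option F × Option (Fin 2 × Fin R)) (v : Pt F)
    (hv : v ≠ pt X b π g) (S : Finset (Fin R → Ln F))
    (hS : ∀ θ ∈ S, θ ∈ Om X b π g.1 ∧ ∃ o, AttC b π g θ o ∧ On v o) :
    S.card ≤ R * Fintype.card F ^ (R - 1) := by
  rcases g with ⟨i, e⟩
  cases e with
  | none =>
    have hsub : S ⊆
        (univ : Finset (Fin R)).biUnion (fun j => (Tup X b π i).filter (fun θ => On v (θ j))) := by
      intro θ hθ
      obtain ⟨h1, o, ⟨j, rfl⟩, h3⟩ := hS θ hθ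
      rw [mem_biUnion]
      exact ⟨j, mem_univ _, mem_filter.mpr ⟨(mem_filter.mp h1).1, h3⟩⟩
    refine (card_le_card hsub).trans ((Finset.card_biUnion_le_card_mul _ _
      (Fintype.card F ^ (R - 1)) ?_).trans (le_of_eq ?_))
    · intro j _
      apply bound_of _ (filter_subset _ _) j
      intro θ hθ θ' hθ' _
      obtain ⟨h1, h2⟩ := mem_filter.mp hθ
      obtain ⟨h3, h4⟩ := mem_filter.mp hθ'
      exact line_unique hv h2 (Tup_ev h1 j) h4 (Tup_ev h3 j)
    · simp
  | some e =>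
    have hsub : S ⊆
        (univ : Finset (Fin R)).biUnion (fun j' => if e.2 ≠ j' then
          (Tup X b π i).filter (fun θ => On v (own (Jp b π i e.1 e.2) (π i e.1 j') (θ j')))
          else ∅) := by
      intro θ hθ
      obtain ⟨h1, o, ⟨j', hj', rfl⟩, h3⟩ := hS θ hθ
      rw [mem_biUnion]
      refine ⟨j', mem_univ _, ?_⟩
      rw [if_pos hj']
      exact mem_filter.mpr ⟨(mem_filter.mp h1).1, h3⟩
    refine (card_le_card hsub).trans ((Finset.card_biUnion_le_card_mul _ _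
      (Fintype.card F ^ (R - 1)) ?_).trans (le_of_eq ?_))
    · intro j' _
      split_ifs with hj'
      · apply bound_of _ (filter_subset _ _) j'
        intro θ hθ θ' hθ' _
        obtain ⟨h1, h2⟩ := mem_filter.mp hθ
        obtain ⟨h3, h4⟩ := mem_filter.mp hθ'
        have e1 : (Jp b π i e.1 e.2).1 ≠ π i e.1 j' := fun h => hj' (pi_inj hC i _ _ _ _ h).2
        apply own_det hC h1 h3 hj'
        exact line_unique hv h2 (on_own _ e1) h4 (on_own _ e1)
      · simp
    · simp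

/-! ### Containers -/

/-- incidence of a point with a line or a part -/
def Inc (z : Pt F) : Ln F ⊕ Option F → Prop
  | Sum.inl L => On z L
  | Sum.inr p => z.1 = p

/-- lines that are not base lines, and all parts -/
def valid (b : Option F → Fin 2 → Ln F) : Ln F ⊕ Option F → Prop
  | Sum.inl L => ∀ i k, L ≠ b i k
  | Sum.inr _ => True

theorem codes_card (hB : PropB X c b col) (hC : PropC X c b col π) (C : Ln F ⊕ Option F)
    (hv : valid b C) : Fintype.card {g // Inc (pt X b π g) C} ≤ 2 * lg (Fintype.card F) := by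
  have h1 : Fintype.card {g // Inc (pt X b π g) C} ≤ ((Kset X b π).filter (fun z => Inc z C)).card := by
    rw [Fintype.card_subtype]
    apply Finset.card_le_card_of_injOn (pt X b π)
    · intro g hg
      exact Finset.mem_coe.mpr (mem_filter.mpr ⟨pt_mem g, (mem_filter.mp hg).2⟩)
    · exact (pt_inj hB hC).injOn
  refine h1.trans ?_
  rcases C with L | p
  · exact hC.fewL L hv
  · refine (card_le_card ?_).trans (hC.quasi.few p)
    intro z hz
    rw [mem_filter] at hz ⊢
    exact hz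

/-- the index type -/
abbrev KK0 (X : Option F → F) (b : Option F → Fin 2 → Ln F)
    (π : Option F → Fin 2 → Fin R → Option F) : Type :=
  Σ a : {C : Ln F ⊕ Option F // valid b C} × Pt F, Fin 5 → {g // Inc (pt X b π g) a.1.1}

theorem KK0_card (hB : PropB X c b col) (hC : PropC X c b col π) (hq : 1 ≤ Fintype.card F) :
    Fintype.card (KK0 X b π) ≤ 192 * Fintype.card F ^ 4 * lg (Fintype.card F) ^ 5 := by
  have h1 : Fintype.card (KK0 X b π) ≤
      ∑ a : {C : Ln F ⊕ Option F // valid b C} × Pt F, (2 * lg (Fintype.card F)) ^ 5 := by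
    rw [Fintype.card_sigma]
    apply Finset.sum_le_sum
    intro a _
    rw [Fintype.card_fun, Fintype.card_fin]
    exact Nat.pow_le_pow_left (codes_card hB hC a.1.1 a.1.2) 5
  rw [Finset.sum_const, Finset.card_univ, Fintype.card_prod, smul_eq_mul] at h1
  have h2 : Fintype.card {C : Ln F ⊕ Option F // valid b C} ≤ 3 * Fintype.card F ^ 2 := by
    refine (Fintype.card_subtype_le _).trans ?_
    rw [Fintype.card_sum, Fintype.card_prod, Fintype.card_option]
    nlinarith
  have h3 : Fintype.card (Pt F) ≤ 2 * Fintype.card F ^ 2 := by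
    rw [Fintype.card_prod, Fintype.card_option]
    nlinarith
  calc Fintype.card (KK0 X b π) ≤ _ := h1
    _ ≤ (3 * Fintype.card F ^ 2) * (2 * Fintype.card F ^ 2) * (2 * lg (Fintype.card F)) ^ 5 :=
        Nat.mul_le_mul_right _ (Nat.mul_le_mul h2 h3)
    _ = _ := by ring

/-- the real index type -/
abbrev KK (X : Option F → F) (b : Option F → Fin 2 → Ln F)
    (π : Option F → Fin 2 → Fin R → Option F) : Type :=
  {x : KK0 X b π // Function.Injective (fun r => (x.2 r).1.1) ∧ ¬ Inc x.1.2 x.1.1.1}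

theorem five_aux (θ : Option F → Fin R → Ln F)
    (h : ∀ a : KK X b π, ∃ r, ¬ ∃ o, AttC b π (a.1.2 r).1 (θ (a.1.2 r).1.1) o ∧ On a.1.1.2 o)
    (C : Ln F ⊕ Option F) (hC : valid b C) (v : Pt F) (hv : ¬ Inc v C) :
    (univ.filter (fun i => ∃ z o, Att X b π θ i z o ∧ Inc z C ∧ On v o)).card ≤ 4 := by
  by_contra hcon
  push Not at hcon
  obtain ⟨s, hs1, hs2⟩ := Finset.exists_subset_card_eq (Nat.succ_le_of_lt hcon)
  have e := s.equivFinOfCardEq hs2
  have h1 : ∀ r : Fin 5, ∃ e' : Option (Fin 2 × Fin R), Inc (pt X b π ((e.symm r).1, e')) C ∧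
      ∃ o, AttC b π ((e.symm r).1, e') (θ (e.symm r).1) o ∧ On v o := by
    intro r
    obtain ⟨_, z, o, h2, h3, h4⟩ := mem_filter.mp (hs1 (e.symm r).2)
    obtain ⟨e', h5, h6⟩ := att_code h2
    exact ⟨e', h5 ▸ h3, o, h6, h4⟩
  choose f hf1 hf2 using h1
  have hinj : Function.Injective (fun r : Fin 5 => ((e.symm r).1 : Option F)) := by
    intro r r' hr
    exact e.symm.injective (Subtype.ext hr)
  obtain ⟨r, hr⟩ := h ⟨⟨(⟨C, hC⟩, v), fun r => ⟨((e.symm r).1, f r), hf1 r⟩⟩, hinj, hv⟩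
  exact hr (hf2 r)

theorem exists_theta (h : FiveEvents) (hB : PropB X c b col) (hC : PropC X c b col π)
    (hc : 0 < c) (hR : 1 ≤ R) (hq2 : 2 ≤ Fintype.card F)
    (hqc : 2 * (NN R : ℝ) / c ^ R ≤ Fintype.card F)
    (hqa : 192 * (R / (c ^ R / 2)) ^ 5 * (lg (Fintype.card F) : ℝ) ^ 5 < Fintype.card F) :
    ∃ θ : Option F → Fin R → Ln F, (∀ i, θ i ∈ Om X b π i) ∧
      ∀ a : KK X b π, ∃ r, ¬ ∃ o, AttC b π (a.1.2 r).1 (θ (a.1.2 r).1.1) o ∧ On a.1.1.2 o := by
  have hqpos : (0 : ℝ) < Fintype.card F := by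
    have : (2 : ℝ) ≤ Fintype.card F := by exact_mod_cast hq2
    linarith
  generalize hc3 : c ^ R / 2 = c3 at hqa
  have hc3pos : 0 < c3 := by rw [← hc3]; positivity
  have hOm : ∀ i, c3 * (Fintype.card F : ℝ) ^ R ≤ ((Om X b π i).card : ℝ) := by
    intro i
    rw [← hc3]
    exact Om_card hB hC hc hR i hqc
  have hδ0 : 0 ≤ (R / c3) / (Fintype.card F : ℝ) := by positivity
  apply h (Option F) (Fin R → Ln F) (KK X b π) (fun i => Om X b π i)
    ((R / c3) / (Fintype.card F : ℝ)) _ hδ0 _ (fun a r => (a.1.2 r).1.1) (fun a => a.2.1)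
    (fun a r θ' => ∃ o, AttC b π (a.1.2 r).1 θ' o ∧ On a.1.1.2 o)
  · intro a r
    have hv : a.1.1.2 ≠ pt X b π (a.1.2 r).1 := by
      intro he
      apply a.2.2
      rw [he]
      exact (a.1.2 r).2
    have h2 := hOm (a.1.2 r).1.1
    have h3 : ((R * Fintype.card F ^ (R - 1) : ℕ) : ℝ) ≤
        (R / c3) / (Fintype.card F : ℝ) * (c3 * (Fintype.card F : ℝ) ^ R) := by
      obtain ⟨r', hr'⟩ : ∃ r', R = r' + 1 := ⟨R - 1, by omega⟩
      have h4 : (Fintype.card F : ℝ) ^ R = (Fintype.card F : ℝ) ^ (R - 1) * (Fintype.card F : ℝ) := by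
        rw [hr', Nat.add_sub_cancel, pow_succ]
      rw [h4]
      apply le_of_eq
      push_cast
      field_simp
    refine le_trans (Nat.cast_le.mpr (hit_card hC (a.1.2 r).1 a.1.1.2 hv _ ?_))
      (h3.trans (mul_le_mul_of_nonneg_left h2 hδ0))
    intro θ' hθ'
    exact (@Finset.mem_filter _ _ (_) _ _).mp hθ'
  · intro i
    rw [← Finset.card_pos]
    have h1 := hOm i
    have h2 : 0 < c3 * (Fintype.card F : ℝ) ^ R := by positivity
    have h3 : (0 : ℝ) < ((Om X b π i).card : ℝ) := by linarith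
    exact_mod_cast h3
  · have h1 : (Fintype.card (KK X b π) : ℝ) ≤
        192 * (Fintype.card F : ℝ) ^ 4 * (lg (Fintype.card F) : ℝ) ^ 5 := by
      have h2 : Fintype.card (KK X b π) ≤ 192 * Fintype.card F ^ 4 * lg (Fintype.card F) ^ 5 :=
        (Fintype.card_subtype_le _).trans (KK0_card hB hC (by omega))
      exact_mod_cast h2
    calc (Fintype.card (KK X b π) : ℝ) * ((R / c3) / (Fintype.card F : ℝ)) ^ 5
        ≤ (192 * (Fintype.card F : ℝ) ^ 4 * (lg (Fintype.card F) : ℝ) ^ 5) *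
            ((R / c3) / (Fintype.card F : ℝ)) ^ 5 :=
          mul_le_mul_of_nonneg_right h1 (by positivity)
      _ = (192 * (R / c3) ^ 5 * (lg (Fintype.card F) : ℝ) ^ 5) / (Fintype.card F : ℝ) := by
          field_simp
      _ < 1 := by
          rw [div_lt_one hqpos]
          exact hqa

theorem degT_of (hC : PropC X c b col π) (hc : 0 < c) (hq2 : 2 ≤ Fintype.card F)
    (hqb : 1 / c ^ 2 * (lg (Fintype.card F) : ℝ) ^ 5 < Fintype.card F) (z : Pt F)
    (hz : z ∉ Kset X b π) : ∃ L : Ln F, On z L ∧ ∀ κ ∈ Kset X b π, ¬ On κ L := by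
  have hqpos : (0 : ℝ) < Fintype.card F := by
    have : (2 : ℝ) ≤ Fintype.card F := by exact_mod_cast hq2
    linarith
  by_contra hcon
  push Not at hcon
  obtain ⟨w, D, hD1, _, hD2⟩ := hC.quasi.wts
  have h1 := hD2 z hz
  have h2 : univ.filter (fun L : Ln F => On z L ∧ ∀ κ ∈ Kset X b π, ¬ On κ L) = ∅ := by
    apply Finset.filter_eq_empty_iff.mpr
    intro L _ hL
    obtain ⟨κ, hκ, hκ2⟩ := hcon L hL.1
    exact hL.2 κ hκ hκ2
  rw [h2, Finset.sum_empty, zero_sub, abs_neg] at h1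
  generalize (Fintype.card F : ℝ) = q at *
  have h3 : c * q ≤ (lg (Fintype.card F) : ℝ) ^ 2 * √q := hD1.trans ((le_abs_self _).trans h1)
  have hlg : (1 : ℝ) ≤ (lg (Fintype.card F) : ℝ) := by exact_mod_cast lg_pos hq2
  have h4 : (c * q) ^ 2 ≤ (lg (Fintype.card F) : ℝ) ^ 4 * q := by
    calc (c * q) ^ 2 ≤ ((lg (Fintype.card F) : ℝ) ^ 2 * √q) ^ 2 :=
          pow_le_pow_left₀ (by positivity) h3 2
      _ = (lg (Fintype.card F) : ℝ) ^ 4 * (√q) ^ 2 := by ring
      _ = _ := by rw [Real.sq_sqrt hqpos.le]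
  have h5 : (lg (Fintype.card F) : ℝ) ^ 4 ≤ (lg (Fintype.card F) : ℝ) ^ 5 :=
    pow_le_pow_right₀ hlg (by norm_num)
  have h6 : c ^ 2 * q ≤ (lg (Fintype.card F) : ℝ) ^ 5 := by
    have h7 : q * (c ^ 2 * q) ≤ q * (lg (Fintype.card F) : ℝ) ^ 4 := by nlinarith
    exact (le_of_mul_le_mul_left h7 hqpos).trans h5
  rw [one_div, inv_mul_lt_iff₀ (by positivity)] at hqb
  linarith

/-- assemble the system -/
noncomputable def mkSys (hB : PropB X c b col) (hC : PropC X c b col π)
    (hcov : Covers (Kset X b π)) (θ : Option F → Fin R → Ln F) (hθ1 : ∀ i, θ i ∈ Om X b π i)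
    (hθ2 : ∀ a : KK X b π, ∃ r, ¬ ∃ o, AttC b π (a.1.2 r).1 (θ (a.1.2 r).1.1) o ∧ On a.1.1.2 o)
    (hdeg : ∀ z, z ∉ Kset X b π → ∃ L : Ln F, On z L ∧ ∀ κ ∈ Kset X b π, ¬ On κ L) :
    Sys F R where
  X := X
  b := b
  π := π
  θ := θ
  base := hB.base
  tan := hB.tan
  ne := hB.ne
  free := pi_free hC
  part_ne := pi_ne hC
  part_inj := pi_inj hC
  th_base := fun i j => Tup_ev (mem_filter.mp (hθ1 i)).1 j
  th_avoid := fun i j =>
    (mem_filter.mp (Fintype.mem_piFinset.mp (mem_filter.mp (hθ1 i)).1 j)).2.2.1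
  th_inj := fun i j j' he => (mem_filter.mp (hθ1 i)).2.1 he
  om_avoid := fun i k j j' hj =>
    (mem_filter.mp (Fintype.mem_piFinset.mp (mem_filter.mp (hθ1 i)).1 j')).2.2.2 k j hj
  om_inj := fun i => (mem_filter.mp (hθ1 i)).2.2.1
  conc := fun i => (mem_filter.mp (hθ1 i)).2.2.2
  five := fun L hL v hv => five_aux θ hθ2 (Sum.inl L) hL v hv
  five_part := fun p v hv => by
    refine (card_le_card ?_).trans (five_aux θ hθ2 (Sum.inr p) trivial v hv)
    intro i hi
    rw [mem_filter] at hi ⊢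
    exact hi
  covers := hcov
  degT := hdeg

end

end D1

open D1 in
theorem stageD_of (h : FiveEvents) : StageD := by
  intro R c hR hc
  obtain ⟨q₁, hq₁⟩ := lg_growth (192 * (R / (c ^ R / 2)) ^ 5)
  obtain ⟨q₂, hq₂⟩ := lg_growth (1 / c ^ 2)
  refine ⟨max (max q₁ q₂) (max 2 ⌈2 * (NN R : ℝ) / c ^ R⌉₊), ?_⟩
  intro F _ _ hq X b col π hB hC hcov
  have hqa := hq₁ (Fintype.card F) (le_trans (by simp) hq)
  have hqb := hq₂ (Fintype.card F) (le_trans (by simp) hq)
  have hq2 : 2 ≤ Fintype.card F := le_trans (by simp) hq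
  have hqc : 2 * (NN R : ℝ) / c ^ R ≤ Fintype.card F := by
    have h1 : ⌈2 * (NN R : ℝ) / c ^ R⌉₊ ≤ Fintype.card F := le_trans (by simp) hq
    exact (Nat.le_ceil _).trans (by exact_mod_cast h1)
  obtain ⟨θ, hθ1, hθ2⟩ := exists_theta h hB hC hc hR hq2 hqc hqa
  exact ⟨mkSys hB hC hcov θ hθ1 hθ2 (degT_of hC hc hq2 hqb)⟩

end Crest.Agent.R34
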