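import Crest.Agent.R34.Asym

/-! Row 34, task R1: consequences of the weights. -/

set_option autoImplicit false

open Finset Classical

namespace Crest.Agent.R34.E1

section
variable {F : Type} [Field F] [Fintype F]

/-- lines missing `K` -/
noncomputable def TK (K : Finset (Pt F)) : Finset (Ln F) :=
  univ.filter (fun L : Ln F => ∀ κ ∈ K, ¬ On κ L)

noncomputable def W (K : Finset (Pt F)) (w : Ln F → ℝ) (z : Pt F) : ℝ :=
  ∑ L ∈ univ.filter (fun L : Ln F => On z L ∧ ∀ κ ∈ K, ¬ On κ L), w L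

theorem W_eq (K : Finset (Pt F)) (w : Ln F → ℝ) (z : Pt F) :
    W K w z = ∑ L ∈ TK K, if On z L then w L else 0 := by
  unfold W TK
  rw [← Finset.sum_filter]
  congr 1
  ext L
  simp [and_comm]

theorem sum_part (K : Finset (Pt F)) (w : Ln F → ℝ) (i : Option F) :
    ∑ z ∈ univ.filter (fun z : Pt F => z.1 = i ∧ z ∉ K), W K w z = ∑ L ∈ TK K, w L := by
  simp only [W_eq]
  rw [Finset.sum_comm]
  apply Finset.sum_congr rfl
  intro L hL
  have hL' : ∀ κ ∈ K, ¬ On κ L := by simpa [TK] using hL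
  rw [Finset.sum_eq_single ((i, ev L i) : Pt F)]
  · rw [if_pos (On_ev L i)]
  · intro z hz hne
    simp only [Finset.mem_filter, Finset.mem_univ, true_and] at hz
    rw [if_neg]
    intro h
    exact hne (On_inj h (On_ev L i) hz.1)
  · intro h
    exfalso
    apply h
    simp only [Finset.mem_filter, Finset.mem_univ, true_and]
    intro h2
    exact hL' _ h2 (On_ev L i)

theorem sum_S (K S : Finset (Pt F)) (w : Ln F → ℝ) :
    ∑ z ∈ S, W K w z = ∑ L ∈ TK K, w L * ((S.filter (fun z => On z L)).card : ℝ) := by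
  simp only [W_eq]
  rw [Finset.sum_comm]
  apply Finset.sum_congr rfl
  intro L _
  rw [← Finset.sum_filter, Finset.sum_const, nsmul_eq_mul, mul_comm]

theorem card_part_not (K : Finset (Pt F)) (i : Option F) (m : ℕ)
    (h : (K.filter (fun z => z.1 = i)).card ≤ m) :
    (Fintype.card F : ℝ) - m ≤ (univ.filter (fun z : Pt F => z.1 = i ∧ z ∉ K)).card := by
  have h1 := Asym.card_part (F := F) i
  have h2 : (univ.filter (fun z : Pt F => z.1 = i)) ⊆
      (univ.filter (fun z : Pt F => z.1 = i ∧ z ∉ K)) ∪ K.filter (fun z => z.1 = i) := by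
    intro z hz
    simp only [Finset.mem_filter, Finset.mem_univ, true_and, Finset.mem_union] at hz ⊢
    tauto
  have h3 := (Finset.card_le_card h2).trans (Finset.card_union_le _ _)
  rw [h1] at h3
  have h4 : Fintype.card F ≤ (univ.filter (fun z : Pt F => z.1 = i ∧ z ∉ K)).card + m := by omega
  have h5 : (Fintype.card F : ℝ) ≤ (univ.filter (fun z : Pt F => z.1 = i ∧ z ∉ K)).card + m := by
    exact_mod_cast h4
  linarith

end

end Crest.Agent.R34.E1

namespace Crest.Agent.R34

open E1 in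
theorem excessThm : ExcessThm := by
  intro c hc
  obtain ⟨q₁, hq₁⟩ := Asym.lg_pow_le 2 (c / 16) (1 / 2) (by positivity) (by norm_num)
  obtain ⟨q₂, hq₂⟩ := Asym.lg_pow_le 1 (1 / 16) 1 (by positivity) (by norm_num)
  obtain ⟨q₃, hq₃⟩ := Asym.lg_ge 1
  refine ⟨max (max q₁ q₂) (max q₃ (⌈(4 / c) ^ 2⌉₊ + 1)), ?_⟩
  intro F _ _ hq K S hK hS
  obtain ⟨w, D, hD, hw, hW⟩ := hK.wts
  set q := Fintype.card F with hqdef
  set Q : ℝ := (q : ℝ) with hQ
  set n : ℝ := (lg q : ℝ) with hn
  have hq0 : 1 ≤ q := Fintype.card_pos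
  have hQ1 : 1 ≤ Q := by rw [hQ]; exact_mod_cast hq0
  have hQ0 : 0 < Q := by linarith
  have a1 := hq₁ q (le_trans (by simp) hq)
  have a2 := hq₂ q (le_trans (by simp) hq)
  have a3 : (1 : ℝ) ≤ n := by rw [hn]; exact_mod_cast hq₃ q (le_trans (by simp) hq)
  have a4 : (4 / c) ^ 2 ≤ Q := by
    have h1 : ⌈(4 / c) ^ 2⌉₊ ≤ q := by
      have h2 : ⌈(4 / c) ^ 2⌉₊ + 1 ≤ q := le_trans (by simp) hq
      omega
    exact le_trans (Nat.le_ceil _) (by rw [hQ]; exact_mod_cast h1)
  rw [← Real.sqrt_eq_rpow] at a1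
  rw [pow_one, Real.rpow_one] at a2
  have hs0 : 0 < √Q := Real.sqrt_pos.mpr hQ0
  have hss : √Q * √Q = Q := Real.mul_self_sqrt hQ0.le
  have a5 : 4 / c ≤ √Q := by
    rw [← Real.sqrt_sq (show (0 : ℝ) ≤ 4 / c by positivity)]
    exact Real.sqrt_le_sqrt a4
  have a6 : 4 ≤ c * √Q := by
    rw [div_le_iff₀ hc] at a5
    linarith
  set err : ℝ := n ^ 2 * √Q with herr
  have herr0 : 0 ≤ err := by positivity
  have e1 : err ≤ c * Q / 16 := by
    have : err ≤ (c / 16 * √Q) * √Q := mul_le_mul_of_nonneg_right a1 hs0.le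
    calc err ≤ (c / 16 * √Q) * √Q := this
      _ = c * Q / 16 := by rw [mul_assoc, hss]; ring
  have e2 : err ≤ D / 16 := by linarith
  have hD0 : 0 < D := lt_of_lt_of_le (by positivity) hD
  -- bounds for W
  have hWl : ∀ z, z ∉ K → D - err ≤ W K w z := by
    intro z hz
    have := abs_le.mp (hW z hz)
    unfold W
    linarith [this.1]
  have hWu : ∀ z, z ∉ K → W K w z ≤ D + err := by
    intro z hz
    have := abs_le.mp (hW z hz)
    unfold W
    linarith [this.2]
  have hdeg : ∀ z, W K w z ≤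
      ((univ.filter (fun L : Ln F => On z L ∧ ∀ κ ∈ K, ¬ On κ L)).card : ℝ) * (1 / c) := by
    intro z
    unfold W
    calc _ ≤ ∑ L ∈ univ.filter (fun L : Ln F => On z L ∧ ∀ κ ∈ K, ¬ On κ L), 1 / c :=
          Finset.sum_le_sum (fun L _ => (hw L).2)
      _ = _ := by rw [Finset.sum_const, nsmul_eq_mul]
  have hWn : ∀ z, 0 ≤ W K w z := by
    intro z
    unfold W
    exact Finset.sum_nonneg (fun L _ => le_trans zero_le_one (hw L).1)
  -- total weight
  have htot : (Q - 2 * n) * (D - err) ≤ ∑ L ∈ TK K, w L := by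
    rw [← sum_part K w none]
    have h1 := card_part_not K none (2 * lg q) (hK.few none)
    have h2 : ((univ.filter (fun z : Pt F => z.1 = none ∧ z ∉ K)).card : ℝ) * (D - err) ≤
        ∑ z ∈ univ.filter (fun z : Pt F => z.1 = none ∧ z ∉ K), W K w z := by
      rw [← nsmul_eq_mul, ← Finset.sum_const]
      apply Finset.sum_le_sum
      intro z hz
      simp only [Finset.mem_filter, Finset.mem_univ, true_and] at hz
      exact hWl z hz.2
    refine le_trans (mul_le_mul_of_nonneg_right ?_ ?_) h2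
    · push_cast at h1
      linarith
    · linarith
  have hne : (univ.filter (fun z : Pt F => z.1 = none ∧ z ∉ K)).Nonempty := by
    have h1 := card_part_not K none (2 * lg q) (hK.few none)
    push_cast at h1
    have h2 : (0 : ℝ) < (univ.filter (fun z : Pt F => z.1 = none ∧ z ∉ K)).card := by linarith
    exact Finset.card_pos.mp (by exact_mod_cast h2)
  have hDu : D ≤ Q / c + err := by
    obtain ⟨z, hz⟩ := hne
    simp only [Finset.mem_filter, Finset.mem_univ, true_and] at hz
    have h1 := hWl z hz.2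
    have h2 := hdeg z
    have h3 : ((univ.filter (fun L : Ln F => On z L ∧ ∀ κ ∈ K, ¬ On κ L)).card : ℝ) ≤ Q := by
      have := Finset.card_le_card (show (univ.filter (fun L : Ln F => On z L ∧ ∀ κ ∈ K, ¬ On κ L)) ⊆
        univ.filter (fun L : Ln F => On z L) from fun L hL => by
          simp only [Finset.mem_filter, Finset.mem_univ, true_and] at hL ⊢
          exact hL.1)
      rw [Asym.card_through] at this
      rw [hQ]; exact_mod_cast this
    have h4 : ((univ.filter (fun L : Ln F => On z L ∧ ∀ κ ∈ K, ¬ On κ L)).card : ℝ) * (1 / c) ≤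
        Q * (1 / c) := mul_le_mul_of_nonneg_right h3 (by positivity)
    have h5 : Q * (1 / c) = Q / c := by ring
    linarith
  have hSup : ∑ z ∈ S, W K w z ≤ S.card * (D + err) := by
    rw [← nsmul_eq_mul, ← Finset.sum_const]
    exact Finset.sum_le_sum (fun z hz => hWu z (hS.disj z hz))
  have hSc : (S.card : ℝ) ≤ Q := by rw [hQ]; exact_mod_cast hS.card_le
  have hs1 : ∀ L ∈ TK K, (1 : ℝ) ≤ (S.filter (fun z => On z L)).card := by
    intro L hL
    have hL' : ∀ κ ∈ K, ¬ On κ L := by simpa [TK] using hL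
    obtain ⟨z, hz, hz2⟩ := hS.hits L hL'
    have : 0 < (S.filter (fun z => On z L)).card :=
      Finset.card_pos.mpr ⟨z, by simp [hz, hz2]⟩
    exact_mod_cast this
  refine ⟨?_, ?_, ?_⟩
  · -- excess
    have h1 : (∑ L ∈ TK K, (((S.filter (fun z => On z L)).card : ℝ) - 1)) ≤
        ∑ z ∈ S, W K w z - ∑ L ∈ TK K, w L := by
      rw [sum_S, ← Finset.sum_sub_distrib]
      apply Finset.sum_le_sum
      intro L hL
      have h2 := hs1 L hL
      have h3 := (hw L).1
      nlinarith
    have h4 : (∑ L ∈ TK K, (((S.filter (fun z => On z L)).card : ℝ) - 1)) ≤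
        Q * (D + err) - (Q - 2 * n) * (D - err) := by
      have h5 : (S.card : ℝ) * (D + err) ≤ Q * (D + err) :=
        mul_le_mul_of_nonneg_right hSc (by positivity)
      linarith
    have h6 : (Q : ℝ) ^ (3 / 2 : ℝ) = Q * √Q := by
      rw [show (3 / 2 : ℝ) = 1 + 1 / 2 by norm_num, Real.rpow_add hQ0, Real.rpow_one,
        ← Real.sqrt_eq_rpow]
    show (∑ L ∈ TK K, (((S.filter (fun z => On z L)).card : ℝ) - 1)) ≤ 3 * n ^ 2 * Q ^ (3 / 2 : ℝ)
    rw [h6]
    refine h4.trans ?_
    -- 2 Q err + 2 n (D - err) ≤ 3 n^2 Q √Q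
    have h7 : 2 * n * (D - err) ≤ 2 * n * (Q / c) :=
      mul_le_mul_of_nonneg_left (by linarith) (by positivity)
    have h8 : Q / c ≤ Q * √Q / 4 := by
      rw [div_le_iff₀ hc]
      have : Q * 4 ≤ Q * (c * √Q) := mul_le_mul_of_nonneg_left a6 hQ0.le
      linarith
    have h9 : 2 * n * (Q / c) ≤ n ^ 2 * (Q * √Q) := by
      have h10 : 2 * n * (Q / c) ≤ 2 * n * (Q * √Q / 4) :=
        mul_le_mul_of_nonneg_left h8 (by positivity)
      have h11 : n * (Q * √Q) ≤ n ^ 2 * (Q * √Q) := by
        apply mul_le_mul_of_nonneg_right _ (by positivity)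
        nlinarith
      have h12 : 0 ≤ n * (Q * √Q) := by positivity
      linarith
    have h13 : Q * (D + err) - (Q - 2 * n) * (D - err) = 2 * (Q * err) + 2 * n * (D - err) := by ring
    rw [h13, herr]
    have h14 : Q * (n ^ 2 * √Q) = n ^ 2 * (Q * √Q) := by ring
    rw [h14]
    rw [← herr]
    linarith
  · -- half
    have h1 : ∑ L ∈ TK K, w L ≤ ∑ z ∈ S, W K w z := by
      rw [sum_S]
      apply Finset.sum_le_sum
      intro L hL
      have h2 := hs1 L hL
      have h3 := (hw L).1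
      nlinarith
    have h2 : (Q - 2 * n) * (D - err) ≤ S.card * (D + err) := htot.trans (h1.trans hSup)
    by_contra hcon
    push Not at hcon
    have h3 : (S.card : ℝ) * (D + err) ≤ Q / 2 * (17 / 16 * D) := by
      apply mul_le_mul hcon.le (by linarith) (by positivity) (by positivity)
    have h4 : (7 / 8 * Q) * (15 / 16 * D) ≤ (Q - 2 * n) * (D - err) := by
      apply mul_le_mul (by linarith) (by linarith) (by positivity) (by linarith)
    have h5 : 0 < Q * D := by positivity
    nlinarith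
  · -- degT
    intro z hz
    have h1 := hWl z hz
    have h2 := hdeg z
    have h3 : D / 2 ≤ ((univ.filter (fun L : Ln F => On z L ∧ ∀ κ ∈ K, ¬ On κ L)).card : ℝ) * (1 / c) := by
      linarith
    have h4 : c * Q / 2 ≤
        ((univ.filter (fun L : Ln F => On z L ∧ ∀ κ ∈ K, ¬ On κ L)).card : ℝ) * (1 / c) := by linarith
    rw [mul_one_div, le_div_iff₀ hc] at h4
    show c ^ 2 / 2 * Q ≤ _
    calc c ^ 2 / 2 * Q = c * Q / 2 * c := by ring
      _ ≤ _ := h4

end Crest.Agent.R34
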