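import Crest.Agent.R34.Asym

/-! Row 34, task R2: the non-spread case. -/

set_option autoImplicit false

open Finset Classical

namespace Crest.Agent.R34.E2

section
variable {M β : Type} [Fintype M] [DecidableEq M]

theorem sum_update (Φ : M → Finset β) (m : M) (g : (M → β) → ℝ) :
    ((Φ m).card : ℝ) * ∑ ω ∈ sp Φ, g ω = ∑ ω ∈ sp Φ, ∑ w ∈ Φ m, g (Function.update ω m w) := by
  have h1 : ((Φ m).card : ℝ) * ∑ ω ∈ sp Φ, g ω = ∑ ω ∈ sp Φ, ∑ _w ∈ Φ m, g ω := by
    rw [Finset.mul_sum]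
    apply Finset.sum_congr rfl
    intro ω _
    rw [Finset.sum_const, nsmul_eq_mul]
  rw [h1, ← Finset.sum_product', ← Finset.sum_product']
  refine Finset.sum_bij' (fun p _ => (Function.update p.1 m p.2, p.1 m))
    (fun p _ => (Function.update p.1 m p.2, p.1 m)) ?_ ?_ ?_ ?_ ?_
  · intro p hp
    rw [Finset.mem_product] at hp ⊢
    obtain ⟨h2, h3⟩ := hp
    rw [mem_sp] at h2
    refine ⟨?_, h2 m⟩
    rw [mem_sp]
    intro m'
    by_cases h : m' = m
    · subst h; simpa using h3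
    · simpa [h] using h2 m'
  · intro p hp
    rw [Finset.mem_product] at hp ⊢
    obtain ⟨h2, h3⟩ := hp
    rw [mem_sp] at h2
    refine ⟨?_, h2 m⟩
    rw [mem_sp]
    intro m'
    by_cases h : m' = m
    · subst h; simpa using h3
    · simpa [h] using h2 m'
  · intro p _
    simp
  · intro p _
    simp
  · intro p _
    simp

theorem pr_eq_sum (Φ : M → Finset β) (E : (M → β) → Prop) :
    pr Φ E = (∑ ω ∈ sp Φ, if E ω then (1 : ℝ) else 0) / (sp Φ).card := by
  unfold pr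
  rw [Finset.card_filter]
  push_cast
  rfl

/-- conditioning on all coordinates but one -/
theorem pr_le_of_coord (Φ : M → Finset β) (m : M) (E : (M → β) → Prop) (δ : ℝ) (hδ : 0 ≤ δ)
    (h : ∀ ω, (∀ m', ω m' ∈ Φ m') →
      (((Φ m).filter (fun w => E (Function.update ω m w))).card : ℝ) ≤ δ * (Φ m).card) :
    pr Φ E ≤ δ := by
  rw [pr_eq_sum]
  by_cases h0 : (sp Φ).card = 0
  · rw [h0]; simpa using hδ
  have hpos : (0 : ℝ) < (sp Φ).card := by
    exact_mod_cast Nat.pos_of_ne_zero h0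
  have hm : (0 : ℝ) < (Φ m).card := by
    rw [card_sp] at h0
    have := Finset.prod_ne_zero_iff.mp h0 m (Finset.mem_univ _)
    exact_mod_cast Nat.pos_of_ne_zero this
  rw [div_le_iff₀ hpos]
  have h1 := sum_update Φ m (fun ω => if E ω then (1 : ℝ) else 0)
  have h2 : ∑ ω ∈ sp Φ, ∑ w ∈ Φ m, (if E (Function.update ω m w) then (1 : ℝ) else 0) ≤
      ∑ _ω ∈ sp Φ, δ * (Φ m).card := by
    apply Finset.sum_le_sum
    intro ω hω
    rw [mem_sp] at hω
    have h3 := h ω hω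
    rw [Finset.card_filter] at h3
    push_cast at h3
    exact h3
  rw [Finset.sum_const, nsmul_eq_mul] at h2
  have h4 : ((Φ m).card : ℝ) * ∑ ω ∈ sp Φ, (if E ω then (1 : ℝ) else 0) ≤
      (Φ m).card * (δ * (sp Φ).card) := by
    rw [h1]; linarith
  exact le_of_mul_le_mul_left h4 hm

/-- two coordinates -/
theorem pr_pair (Φ : M → Finset β) (m₁ m₂ : M) (hm : m₁ ≠ m₂) (R : β → β → Prop) (N : ℝ)
    (hN : (((Φ m₁ ×ˢ Φ m₂).filter (fun p => R p.1 p.2)).card : ℝ) ≤ N) :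
    pr Φ (fun ω => R (ω m₁) (ω m₂)) ≤ N / ((Φ m₁).card * (Φ m₂).card) := by
  rw [pr_eq_sum]
  have hN0 : 0 ≤ N := le_trans (Nat.cast_nonneg _) hN
  by_cases h0 : (sp Φ).card = 0
  · rw [h0]; simp; positivity
  have hpos : (0 : ℝ) < (sp Φ).card := by
    exact_mod_cast Nat.pos_of_ne_zero h0
  have hm' : ∀ m, (0 : ℝ) < (Φ m).card := by
    intro m
    rw [card_sp] at h0
    have := Finset.prod_ne_zero_iff.mp h0 m (Finset.mem_univ _)
    exact_mod_cast Nat.pos_of_ne_zero this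
  rw [div_le_div_iff₀ hpos (mul_pos (hm' m₁) (hm' m₂))]
  have h1 := sum_update Φ m₁ (fun ω => if R (ω m₁) (ω m₂) then (1 : ℝ) else 0)
  have h2 : ∀ w : β, ((Φ m₂).card : ℝ) * ∑ ω ∈ sp Φ, (if R w (ω m₂) then (1 : ℝ) else 0) =
      (sp Φ).card * ∑ w' ∈ Φ m₂, (if R w w' then (1 : ℝ) else 0) := by
    intro w
    rw [sum_update Φ m₂ (fun ω => if R w (ω m₂) then (1 : ℝ) else 0)]
    simp only [Function.update_self]
    rw [Finset.sum_const, nsmul_eq_mul]
  have h3 : ((Φ m₁).card : ℝ) * ∑ ω ∈ sp Φ, (if R (ω m₁) (ω m₂) then (1 : ℝ) else 0) =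
      ∑ w ∈ Φ m₁, ∑ ω ∈ sp Φ, (if R w (ω m₂) then (1 : ℝ) else 0) := by
    rw [h1, Finset.sum_comm]
    apply Finset.sum_congr rfl
    intro w _
    apply Finset.sum_congr rfl
    intro ω _
    simp [Function.update_of_ne (Ne.symm hm)]
  have h4 : ((Φ m₂).card : ℝ) * (((Φ m₁).card : ℝ) *
      ∑ ω ∈ sp Φ, (if R (ω m₁) (ω m₂) then (1 : ℝ) else 0)) =
      (sp Φ).card * (((Φ m₁ ×ˢ Φ m₂).filter (fun p => R p.1 p.2)).card : ℝ) := by
    rw [h3, Finset.mul_sum]
    simp only [h2]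
    rw [← Finset.mul_sum, Finset.card_filter, Finset.sum_product]
    push_cast
    rfl
  calc (∑ ω ∈ sp Φ, if R (ω m₁) (ω m₂) then (1 : ℝ) else 0) * (((Φ m₁).card : ℝ) * (Φ m₂).card)
      = ((Φ m₂).card : ℝ) * (((Φ m₁).card : ℝ) *
      ∑ ω ∈ sp Φ, (if R (ω m₁) (ω m₂) then (1 : ℝ) else 0)) := by ring
    _ = (sp Φ).card * (((Φ m₁ ×ˢ Φ m₂).filter (fun p => R p.1 p.2)).card : ℝ) := h4
    _ ≤ (sp Φ).card * N := mul_le_mul_of_nonneg_left hN hpos.le
    _ = N * (sp Φ).card := by ring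

theorem pr_ex_le {κ : Type} [Fintype κ] (Φ : M → Finset β) (E : κ → (M → β) → Prop) (δ : ℝ)
    (h : ∀ a, pr Φ (E a) ≤ δ) : pr Φ (fun ω => ∃ a, E a ω) ≤ Fintype.card κ * δ := by
  have h1 := pr_exists_le Φ (univ : Finset κ) E
  have h2 : pr Φ (fun ω => ∃ a, E a ω) ≤ pr Φ (fun ω => ∃ a ∈ (univ : Finset κ), E a ω) :=
    pr_mono (fun ω _ ⟨a, ha⟩ => ⟨a, Finset.mem_univ _, ha⟩)
  refine h2.trans (h1.trans ?_)
  calc ∑ a ∈ (univ : Finset κ), pr Φ (E a) ≤ ∑ _a ∈ (univ : Finset κ), δ :=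
        Finset.sum_le_sum (fun a _ => h a)
    _ = _ := by rw [Finset.sum_const, nsmul_eq_mul, Finset.card_univ]

end

section
variable {F : Type} [Field F] [Fintype F]

/-- `P` behaves like a line or a part. -/
structure Carrier (P : Pt F → Prop) : Prop where
  line : ∀ (L : Ln F) (z : Pt F), ¬ P z → On z L → ∀ x y, P x → P y → On x L → On y L → x = y
  part : ∀ z : Pt F, ¬ P z → ∀ x y : Pt F, P x → P y → x.1 = z.1 → y.1 = z.1 → x = y

theorem carrier_line (L₁ : Ln F) : Carrier (fun z : Pt F => On z L₁) where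
  line := by
    intro L z hz hzL x y hx hy hxL hyL
    by_contra hne
    have hL : L ≠ L₁ := by rintro rfl; exact hz hzL
    have hp : x.1 ≠ y.1 := fun h => hne (On_inj hx hy h)
    exact hL (On_unique hp hxL hyL hx hy)
  part := by
    intro z _ x y hx hy h1 h2
    exact On_inj hx hy (h1.trans h2.symm)

theorem carrier_part (i : Option F) : Carrier (fun z : Pt F => z.1 = i) where
  line := by
    intro L z _ _ x y hx hy hxL hyL
    exact On_inj hxL hyL (hx.trans hy.symm)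
  part := by
    intro z hz x y hx hy h1 h2
    exact absurd (h1.symm.trans hx) hz

/-- number of pairs on common T-lines -/
theorem pairs_le (K S : Finset (Pt F)) (hS : IsCov K S) (P : Pt F → Prop) (hP : Carrier P) :
    ((((S.filter P) ×ˢ (S.filter (fun z => ¬ P z))).filter
      (fun p => ∃ L : Ln F, (∀ κ ∈ K, ¬ On κ L) ∧ On p.1 L ∧ On p.2 L)).card : ℝ) ≤
    ∑ L ∈ univ.filter (fun L : Ln F => ∀ κ ∈ K, ¬ On κ L),
      (((S.filter (fun z => On z L)).card : ℝ) - 1) := by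
  have h1 : (((S.filter P) ×ˢ (S.filter (fun z => ¬ P z))).filter
      (fun p => ∃ L : Ln F, (∀ κ ∈ K, ¬ On κ L) ∧ On p.1 L ∧ On p.2 L)) ⊆
      (univ.filter (fun L : Ln F => ∀ κ ∈ K, ¬ On κ L)).biUnion (fun L =>
        ((S.filter P) ×ˢ (S.filter (fun z => ¬ P z))).filter (fun p => On p.1 L ∧ On p.2 L)) := by
    intro p hp
    rw [Finset.mem_filter] at hp
    obtain ⟨h2, L, h3, h4, h5⟩ := hp
    rw [Finset.mem_biUnion]
    exact ⟨L, by rw [Finset.mem_filter]; exact ⟨Finset.mem_univ _, h3⟩,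
      by rw [Finset.mem_filter]; exact ⟨h2, h4, h5⟩⟩
  have h2 := (Finset.card_le_card h1).trans Finset.card_biUnion_le
  have h3 : ((((S.filter P) ×ˢ (S.filter (fun z => ¬ P z))).filter
      (fun p => ∃ L : Ln F, (∀ κ ∈ K, ¬ On κ L) ∧ On p.1 L ∧ On p.2 L)).card : ℝ) ≤
      ∑ L ∈ univ.filter (fun L : Ln F => ∀ κ ∈ K, ¬ On κ L),
        ((((S.filter P) ×ˢ (S.filter (fun z => ¬ P z))).filter
          (fun p => On p.1 L ∧ On p.2 L)).card : ℝ) := by exact_mod_cast h2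
  refine h3.trans (Finset.sum_le_sum ?_)
  intro L hL
  have hL' : ∀ κ ∈ K, ¬ On κ L := by simpa using hL
  rw [Finset.filter_product (fun z => On z L) (fun z => On z L)]
  rw [Finset.card_product]
  set a := ((S.filter P).filter (fun z => On z L)).card with ha
  set b := ((S.filter (fun z => ¬ P z)).filter (fun z => On z L)).card with hb
  have hab : (S.filter (fun z => On z L)).card = a + b := by
    rw [ha, hb, ← Finset.card_union_of_disjoint]
    · congr 1
      ext z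
      simp only [Finset.mem_filter, Finset.mem_union]
      tauto
    · rw [Finset.disjoint_left]
      intro z hz hz'
      simp only [Finset.mem_filter] at hz hz'
      exact hz'.1.2 hz.1.2
  have h1s : 1 ≤ (S.filter (fun z => On z L)).card := by
    obtain ⟨z, hz, hz2⟩ := hS.hits L hL'
    exact Finset.card_pos.mpr ⟨z, by simp [hz, hz2]⟩
  have ha1 : 0 < b → a ≤ 1 := by
    intro hb0
    obtain ⟨z, hz⟩ := Finset.card_pos.mp hb0
    simp only [Finset.mem_filter] at hz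
    rw [ha, Finset.card_le_one]
    intro x hx y hy
    simp only [Finset.mem_filter] at hx hy
    exact hP.line L z hz.1.2 hz.2 x y hx.1.2 hy.1.2 hx.2 hy.2
  have key : a * b + 1 ≤ a + b := by
    rcases Nat.eq_zero_or_pos b with h0 | h0
    · rw [h0] at hab ⊢; omega
    · have := ha1 h0
      rcases Nat.eq_zero_or_pos a with h0' | h0'
      · rw [h0'] at hab ⊢; omega
      · have : a = 1 := by omega
        rw [this]; omega
  rw [hab]
  have key' : ((a * b : ℕ) : ℝ) + 1 ≤ ((a + b : ℕ) : ℝ) := by exact_mod_cast key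
  linarith

/-- the main argument: a big carrier part and a big rest are impossible. -/
theorem core (K S : Finset (Pt F)) (hK : Qwit K) (hS : IsCov K S) (P : Pt F → Prop)
    (hP : Carrier P) (A B : ℝ) (hA : A ≤ (S.filter P).card) (hB : B ≤ (S.filter (fun z => ¬ P z)).card)
    (hA0 : 0 < A) (hB0 : 0 < B) (X : ℝ)
    (hX : ∑ L ∈ univ.filter (fun L : Ln F => ∀ κ ∈ K, ¬ On κ L),
      (((S.filter (fun z => On z L)).card : ℝ) - 1) ≤ X)
    (hsmall : (lg (Fintype.card F) : ℝ) ^ 4 * (5 / A + 1 / B + X / (A * B)) < 1)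
    (hn : 1 ≤ lg (Fintype.card F)) : False := by
  obtain ⟨φ, hφ, hwit⟩ := hK
  set n := lg (Fintype.card F) with hndef
  let Φ : Fin n ⊕ Fin n → Finset (Pt F) := Sum.elim (fun _ => S.filter P) (fun _ => S.filter (fun z => ¬ P z))
  have hX0 : 0 ≤ X := le_trans (le_trans (Nat.cast_nonneg _) (pairs_le K S hS P hP)) hX
  have hA1 : (0 : ℝ) < (S.filter P).card := lt_of_lt_of_le hA0 hA
  have hB1 : (0 : ℝ) < (S.filter (fun z => ¬ P z)).card := lt_of_lt_of_le hB0 hB
  have hn1 : (1 : ℝ) ≤ n := by exact_mod_cast hn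
  have hne : ∀ m, (Φ m).Nonempty := by
    intro m
    cases m with
    | inl u => exact Finset.card_pos.mp (by exact_mod_cast hA1)
    | inr v => exact Finset.card_pos.mp (by exact_mod_cast hB1)
  have hmemP : ∀ ω : Fin n ⊕ Fin n → Pt F, (∀ m, ω m ∈ Φ m) → ∀ u, P (ω (Sum.inl u)) := by
    intro ω hω u
    have := hω (Sum.inl u)
    exact (Finset.mem_filter.mp this).2
  have hmemN : ∀ ω : Fin n ⊕ Fin n → Pt F, (∀ m, ω m ∈ Φ m) → ∀ v, ¬ P (ω (Sum.inr v)) := by
    intro ω hω v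
    have := hω (Sum.inr v)
    exact (Finset.mem_filter.mp this).2
  have hmemS : ∀ ω : Fin n ⊕ Fin n → Pt F, (∀ m, ω m ∈ Φ m) → ∀ m, ω m ∈ S := by
    intro ω hω m
    have := hω m
    cases m with
    | inl u => exact (Finset.mem_filter.mp this).1
    | inr v => exact (Finset.mem_filter.mp this).1
  -- the six bad events
  -- a generic bound: at most one choice for coordinate `inl u`
  have hcoordA : ∀ (u : Fin n) (E : (Fin n ⊕ Fin n → Pt F) → Prop),
      (∀ ω, (∀ m', ω m' ∈ Φ m') → ∀ x y, x ∈ S.filter P → y ∈ S.filter P →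
        E (Function.update ω (Sum.inl u) x) → E (Function.update ω (Sum.inl u) y) → x = y) →
      pr Φ E ≤ 1 / A := by
    intro u E hE
    apply pr_le_of_coord Φ (Sum.inl u) E (1 / A) (by positivity)
    intro ω hω
    have h1 : ((Φ (Sum.inl u)).filter (fun w => E (Function.update ω (Sum.inl u) w))).card ≤ 1 := by
      rw [Finset.card_le_one]
      intro x hx y hy
      rw [Finset.mem_filter] at hx hy
      exact hE ω hω x y hx.1 hy.1 hx.2 hy.2
    have h2 : (((Φ (Sum.inl u)).filter (fun w => E (Function.update ω (Sum.inl u) w))).card : ℝ) ≤ 1 := by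
      exact_mod_cast h1
    refine h2.trans ?_
    rw [div_mul_eq_mul_div, one_mul, le_div_iff₀ hA0, one_mul]
    exact hA
  have hcoordB : ∀ (v : Fin n) (E : (Fin n ⊕ Fin n → Pt F) → Prop),
      (∀ ω, (∀ m', ω m' ∈ Φ m') → ∀ x y, x ∈ S.filter (fun z => ¬ P z) →
        y ∈ S.filter (fun z => ¬ P z) →
        E (Function.update ω (Sum.inr v) x) → E (Function.update ω (Sum.inr v) y) → x = y) →
      pr Φ E ≤ 1 / B := by
    intro v E hE
    apply pr_le_of_coord Φ (Sum.inr v) E (1 / B) (by positivity)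
    intro ω hω
    have h1 : ((Φ (Sum.inr v)).filter (fun w => E (Function.update ω (Sum.inr v) w))).card ≤ 1 := by
      rw [Finset.card_le_one]
      intro x hx y hy
      rw [Finset.mem_filter] at hx hy
      exact hE ω hω x y hx.1 hy.1 hx.2 hy.2
    have h2 : (((Φ (Sum.inr v)).filter (fun w => E (Function.update ω (Sum.inr v) w))).card : ℝ) ≤ 1 := by
      exact_mod_cast h1
    refine h2.trans ?_
    rw [div_mul_eq_mul_div, one_mul, le_div_iff₀ hB0, one_mul]
    exact hB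
  -- E1 : two equal points in A
  have b1 : pr Φ (fun ω => ∃ e : Fin n × Fin n, e.1 ≠ e.2 ∧ ω (Sum.inl e.1) = ω (Sum.inl e.2)) ≤
      (n : ℝ) ^ 2 * (1 / A) := by
    have := pr_ex_le Φ (fun (e : Fin n × Fin n) ω => e.1 ≠ e.2 ∧ ω (Sum.inl e.1) = ω (Sum.inl e.2))
      (1 / A) (by
        intro e
        apply hcoordA e.1
        rintro ω hω x y hx hy ⟨h1, h2⟩ ⟨h3, h4⟩
        have hne' : (Sum.inl e.2 : Fin n ⊕ Fin n) ≠ Sum.inl e.1 := by
          intro h; exact h1 (Sum.inl.inj h).symm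
        simp only [Function.update_self, Function.update_of_ne hne'] at h2 h4
        exact h2.trans h4.symm)
    rw [Fintype.card_prod, Fintype.card_fin] at this
    push_cast at this
    rw [pow_two]
    exact this
  -- E2 : same part
  have b2 : pr Φ (fun ω => ∃ e : Fin n × Fin n, (ω (Sum.inl e.1)).1 = (ω (Sum.inr e.2)).1) ≤
      (n : ℝ) ^ 2 * (1 / A) := by
    have := pr_ex_le Φ (fun (e : Fin n × Fin n) ω => (ω (Sum.inl e.1)).1 = (ω (Sum.inr e.2)).1)
      (1 / A) (by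
        intro e
        apply hcoordA e.1
        intro ω hω x y hx hy h1 h2
        have hne' : (Sum.inr e.2 : Fin n ⊕ Fin n) ≠ Sum.inl e.1 := by simp
        simp only [Function.update_self, Function.update_of_ne hne'] at h1 h2
        exact hP.part _ (hmemN ω hω e.2) x y (Finset.mem_filter.mp hx).2 (Finset.mem_filter.mp hy).2
          h1 h2)
    rw [Fintype.card_prod, Fintype.card_fin] at this
    push_cast at this
    rw [pow_two]
    exact this
  -- E3 : two equal points in B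
  have b3 : pr Φ (fun ω => ∃ e : Fin n × Fin n, e.1 ≠ e.2 ∧ ω (Sum.inr e.1) = ω (Sum.inr e.2)) ≤
      (n : ℝ) ^ 2 * (1 / B) := by
    have := pr_ex_le Φ (fun (e : Fin n × Fin n) ω => e.1 ≠ e.2 ∧ ω (Sum.inr e.1) = ω (Sum.inr e.2))
      (1 / B) (by
        intro e
        apply hcoordB e.1
        rintro ω hω x y hx hy ⟨h1, h2⟩ ⟨h3, h4⟩
        have hne' : (Sum.inr e.2 : Fin n ⊕ Fin n) ≠ Sum.inr e.1 := by
          intro h; exact h1 (Sum.inr.inj h).symm
        simp only [Function.update_self, Function.update_of_ne hne'] at h2 h4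
        exact h2.trans h4.symm)
    rw [Fintype.card_prod, Fintype.card_fin] at this
    push_cast at this
    rw [pow_two]
    exact this
  -- E4 : z_u, z'_v, z'_v' collinear
  have b4 : pr Φ (fun ω => ∃ e : Fin n × Fin n × Fin n, ω (Sum.inr e.2.1) ≠ ω (Sum.inr e.2.2) ∧
      ∃ L : Ln F, On (ω (Sum.inl e.1)) L ∧ On (ω (Sum.inr e.2.1)) L ∧ On (ω (Sum.inr e.2.2)) L) ≤
      (n : ℝ) ^ 3 * (1 / A) := by
    have := pr_ex_le Φ (fun (e : Fin n × Fin n × Fin n) ω => ω (Sum.inr e.2.1) ≠ ω (Sum.inr e.2.2) ∧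
      ∃ L : Ln F, On (ω (Sum.inl e.1)) L ∧ On (ω (Sum.inr e.2.1)) L ∧ On (ω (Sum.inr e.2.2)) L)
      (1 / A) (by
        intro e
        apply hcoordA e.1
        rintro ω hω x y hx hy ⟨h1, L, h2, h3, h4⟩ ⟨h5, L', h6, h7, h8⟩
        have hne' : (Sum.inr e.2.1 : Fin n ⊕ Fin n) ≠ Sum.inl e.1 := by simp
        have hne'' : (Sum.inr e.2.2 : Fin n ⊕ Fin n) ≠ Sum.inl e.1 := by simp
        simp only [Function.update_self, Function.update_of_ne hne', Function.update_of_ne hne''] at *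
        have hLL : L = L' := by
          have hp : (ω (Sum.inr e.2.1)).1 ≠ (ω (Sum.inr e.2.2)).1 := fun h => h1 (On_inj h3 h4 h)
          exact On_unique hp h3 h4 h7 h8
        subst hLL
        exact hP.line L _ (hmemN ω hω e.2.1) h3 x y (Finset.mem_filter.mp hx).2
          (Finset.mem_filter.mp hy).2 h2 h6)
    rw [Fintype.card_prod, Fintype.card_prod, Fintype.card_fin] at this
    push_cast at this
    rw [show (n : ℝ) ^ 3 = n * (n * n) by ring]
    exact this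
  -- E5 : T-pair
  have b5 : pr Φ (fun ω => ∃ e : Fin n × Fin n, ∃ L : Ln F, (∀ κ ∈ K, ¬ On κ L) ∧
      On (ω (Sum.inl e.1)) L ∧ On (ω (Sum.inr e.2)) L) ≤ (n : ℝ) ^ 2 * (X / (A * B)) := by
    have := pr_ex_le Φ (fun (e : Fin n × Fin n) ω => ∃ L : Ln F, (∀ κ ∈ K, ¬ On κ L) ∧
      On (ω (Sum.inl e.1)) L ∧ On (ω (Sum.inr e.2)) L) (X / (A * B)) (by
        intro e
        have h1 := pr_pair Φ (Sum.inl e.1) (Sum.inr e.2) (by simp)
          (fun x y => ∃ L : Ln F, (∀ κ ∈ K, ¬ On κ L) ∧ On x L ∧ On y L) X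
          (by
            have h0 := (pairs_le K S hS P hP).trans hX
            have e1 : Φ (Sum.inl e.1) = S.filter P := rfl
            have e2 : Φ (Sum.inr e.2) = S.filter (fun z => ¬ P z) := rfl
            rw [e1, e2]
            refine le_trans (le_of_eq ?_) h0
            congr)
        refine h1.trans ?_
        apply div_le_div_of_nonneg_left hX0 (by positivity)
        exact mul_le_mul hA hB hB0.le hA1.le)
    rw [Fintype.card_prod, Fintype.card_fin] at this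
    push_cast at this
    rw [pow_two]
    exact this
  -- E6 : witness collision
  have b6 : pr Φ (fun ω => ∃ e : (Fin n × Fin n) × (Fin n × Fin n), e.1.1 ≠ e.2.1 ∧ e.1.2 ≠ e.2.2 ∧
      (ω (Sum.inl e.1.1)).1 ≠ (ω (Sum.inr e.1.2)).1 ∧
      (∃ κ ∈ K, On κ (join (ω (Sum.inl e.1.1)) (ω (Sum.inr e.1.2)))) ∧
      φ (join (ω (Sum.inl e.1.1)) (ω (Sum.inr e.1.2))) =
        φ (join (ω (Sum.inl e.2.1)) (ω (Sum.inr e.2.2)))) ≤ (n : ℝ) ^ 4 * (1 / A) := by
    have := pr_ex_le Φ (fun (e : (Fin n × Fin n) × (Fin n × Fin n)) ω => e.1.1 ≠ e.2.1 ∧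
      e.1.2 ≠ e.2.2 ∧ (ω (Sum.inl e.1.1)).1 ≠ (ω (Sum.inr e.1.2)).1 ∧
      (∃ κ ∈ K, On κ (join (ω (Sum.inl e.1.1)) (ω (Sum.inr e.1.2)))) ∧
      φ (join (ω (Sum.inl e.1.1)) (ω (Sum.inr e.1.2))) =
        φ (join (ω (Sum.inl e.2.1)) (ω (Sum.inr e.2.2)))) (1 / A) (by
        intro e
        apply hcoordA e.1.1
        rintro ω hω x y hx hy ⟨h1, -, h2, h3, h4⟩ ⟨-, -, h5, h6, h7⟩
        have hne1 : (Sum.inl e.2.1 : Fin n ⊕ Fin n) ≠ Sum.inl e.1.1 := by
          intro h; exact h1 (Sum.inl.inj h).symm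
        have hne2 : (Sum.inr e.1.2 : Fin n ⊕ Fin n) ≠ Sum.inl e.1.1 := by simp
        have hne3 : (Sum.inr e.2.2 : Fin n ⊕ Fin n) ≠ Sum.inl e.1.1 := by simp
        simp only [Function.update_self, Function.update_of_ne hne1, Function.update_of_ne hne2,
          Function.update_of_ne hne3] at *
        have k1 := hφ _ h3
        have k2 := hφ _ h6
        rw [h4] at k1
        rw [h7] at k2
        set κ := φ (join (ω (Sum.inl e.2.1)) (ω (Sum.inr e.2.2))) with hκ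
        set z' := ω (Sum.inr e.1.2) with hz'
        have hz'K : z' ∉ K := hS.disj _ (hmemS ω hω _)
        have hne4 : κ ≠ z' := fun h => hz'K (h ▸ k1.1)
        have j1 := On_join_right h2
        have j2 := On_join_right h5
        have hp : κ.1 ≠ z'.1 := fun h => hne4 (On_inj k1.2 j1 h)
        have hLL : join x z' = join y z' := On_unique hp k1.2 j1 k2.2 j2
        have i1 := On_join_left h2
        have i2 := On_join_left h5
        rw [← hLL] at i2
        exact hP.line _ z' (hmemN ω hω _) j1 x y (Finset.mem_filter.mp hx).2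
          (Finset.mem_filter.mp hy).2 i1 i2)
    rw [Fintype.card_prod, Fintype.card_prod, Fintype.card_fin] at this
    push_cast at this
    rw [show (n : ℝ) ^ 4 = n * n * (n * n) by ring]
    exact this
  -- total
  have htotal : pr Φ (fun ω =>
      ((∃ e : Fin n × Fin n, e.1 ≠ e.2 ∧ ω (Sum.inl e.1) = ω (Sum.inl e.2)) ∨
       (∃ e : Fin n × Fin n, (ω (Sum.inl e.1)).1 = (ω (Sum.inr e.2)).1)) ∨
      ((∃ e : Fin n × Fin n, e.1 ≠ e.2 ∧ ω (Sum.inr e.1) = ω (Sum.inr e.2)) ∨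
       (∃ e : Fin n × Fin n × Fin n, ω (Sum.inr e.2.1) ≠ ω (Sum.inr e.2.2) ∧
      ∃ L : Ln F, On (ω (Sum.inl e.1)) L ∧ On (ω (Sum.inr e.2.1)) L ∧ On (ω (Sum.inr e.2.2)) L)) ∨
      ((∃ e : Fin n × Fin n, ∃ L : Ln F, (∀ κ ∈ K, ¬ On κ L) ∧
      On (ω (Sum.inl e.1)) L ∧ On (ω (Sum.inr e.2)) L) ∨
       (∃ e : (Fin n × Fin n) × (Fin n × Fin n), e.1.1 ≠ e.2.1 ∧ e.1.2 ≠ e.2.2 ∧
      (ω (Sum.inl e.1.1)).1 ≠ (ω (Sum.inr e.1.2)).1 ∧
      (∃ κ ∈ K, On κ (join (ω (Sum.inl e.1.1)) (ω (Sum.inr e.1.2)))) ∧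
      φ (join (ω (Sum.inl e.1.1)) (ω (Sum.inr e.1.2))) =
        φ (join (ω (Sum.inl e.2.1)) (ω (Sum.inr e.2.2)))))) < 1 := by
    refine lt_of_le_of_lt (pr_or_le _ _ _) ?_
    refine lt_of_le_of_lt (add_le_add (pr_or_le _ _ _) (pr_or_le _ _ _)) ?_
    refine lt_of_le_of_lt (add_le_add (add_le_add b1 b2) (add_le_add (pr_or_le _ _ _) (pr_or_le _ _ _))) ?_
    refine lt_of_le_of_lt (add_le_add_right (add_le_add (add_le_add b3 b4) (add_le_add b5 b6)) _) ?_
    have m2 : (n : ℝ) ^ 2 ≤ n ^ 4 := pow_le_pow_right₀ hn1 (by norm_num)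
    have m3 : (n : ℝ) ^ 3 ≤ n ^ 4 := pow_le_pow_right₀ hn1 (by norm_num)
    have p1 : (n : ℝ) ^ 2 * (1 / A) ≤ n ^ 4 * (1 / A) := mul_le_mul_of_nonneg_right m2 (by positivity)
    have p2 : (n : ℝ) ^ 2 * (1 / B) ≤ n ^ 4 * (1 / B) := mul_le_mul_of_nonneg_right m2 (by positivity)
    have p3 : (n : ℝ) ^ 3 * (1 / A) ≤ n ^ 4 * (1 / A) := mul_le_mul_of_nonneg_right m3 (by positivity)
    have p4 : (n : ℝ) ^ 2 * (X / (A * B)) ≤ n ^ 4 * (X / (A * B)) :=
      mul_le_mul_of_nonneg_right m2 (by positivity)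
    have p5 : (n : ℝ) ^ 4 * (5 / A + 1 / B + X / (A * B)) =
      5 * (n ^ 4 * (1 / A)) + n ^ 4 * (1 / B) + n ^ 4 * (X / (A * B)) := by ring
    have p6 : 0 ≤ (n : ℝ) ^ 4 * (1 / A) := by positivity
    linarith
  obtain ⟨ω, hω, hgood⟩ := exists_of_pr_lt hne htotal
  push Not at hgood
  obtain ⟨⟨g1, g2⟩, ⟨g3, g4⟩, g5, g6⟩ := hgood
  have hinj : Function.Injective
      (fun e : Fin n × Fin n => join (ω (Sum.inl e.1)) (ω (Sum.inr e.2))) := by
    rintro ⟨u, v⟩ ⟨u₁, v₁⟩ h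
    simp only at h
    have k1 := On_join_left (g2 (u, v))
    have k2 := On_join_right (g2 (u, v))
    have k3 := On_join_left (g2 (u₁, v₁))
    have k4 := On_join_right (g2 (u₁, v₁))
    simp only at k1 k2 k3 k4
    rw [← h] at k3 k4
    have e1 : ω (Sum.inl u) = ω (Sum.inl u₁) :=
      hP.line _ _ (hmemN ω hω v) k2 _ _ (hmemP ω hω u) (hmemP ω hω u₁) k1 k3
    have e2 : u = u₁ := by
      by_contra hne'
      exact g1 (u, u₁) hne' e1
    have e3 : v = v₁ := by
      by_contra hne'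
      have h5 := g3 (v, v₁) hne'
      exact g4 (u, v, v₁) h5 _ k1 k2 k4
    rw [e2, e3]
  refine hwit (fun u => ω (Sum.inl u)) (fun v => ω (Sum.inr v)) (fun u v => g2 (u, v))
    (fun u => hS.disj _ (hmemS ω hω _)) (fun v => hS.disj _ (hmemS ω hω _)) hinj ?_ ?_
  · intro u v
    by_contra hcon
    push Not at hcon
    exact g5 (u, v) _ hcon (On_join_left (g2 (u, v))) (On_join_right (g2 (u, v)))
  · have hhit : ∀ u v, ∃ κ ∈ K, On κ (join (ω (Sum.inl u)) (ω (Sum.inr v))) := by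
      intro u v
      by_contra hcon
      push Not at hcon
      exact g5 (u, v) _ hcon (On_join_left (g2 (u, v))) (On_join_right (g2 (u, v)))
    rintro ⟨u, v⟩ ⟨u₁, v₁⟩ h
    simp only at h
    by_contra hne'
    have k1 := hφ _ (hhit u v)
    have k2 := hφ _ (hhit u₁ v₁)
    by_cases hu : u = u₁
    · subst hu
      have hK1 : ω (Sum.inl u) ∉ K := hS.disj _ (hmemS ω hω _)
      have i1 := On_join_left (g2 (u, v))
      have i2 := On_join_left (g2 (u, v₁))
      simp only at i1 i2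
      rw [← h] at k2
      have hp : (φ (join (ω (Sum.inl u)) (ω (Sum.inr v)))).1 ≠ (ω (Sum.inl u)).1 := by
        intro h3
        have := On_inj k1.2 i1 h3
        exact hK1 (this ▸ k1.1)
      have := On_unique hp k1.2 i1 k2.2 i2
      exact hne' (hinj this)
    · by_cases hv : v = v₁
      · subst hv
        have hK1 : ω (Sum.inr v) ∉ K := hS.disj _ (hmemS ω hω _)
        have i1 := On_join_right (g2 (u, v))
        have i2 := On_join_right (g2 (u₁, v))
        simp only at i1 i2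
        rw [← h] at k2
        have hp : (φ (join (ω (Sum.inl u)) (ω (Sum.inr v)))).1 ≠ (ω (Sum.inr v)).1 := by
          intro h3
          have := On_inj k1.2 i1 h3
          exact hK1 (this ▸ k1.1)
        have := On_unique hp k1.2 i1 k2.2 i2
        exact hne' (hinj this)
      · exact g6 ((u, v), (u₁, v₁)) hu hv (g2 (u, v)) ⟨_, k1.1, k1.2⟩ h

end

end Crest.Agent.R34.E2

namespace Crest.Agent.R34

open E2 in
theorem nonSpread : NonSpread := by
  intro c hc
  -- constants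
  obtain ⟨q₁, hq₁⟩ := Asym.lg_pow_le 4 (1 / 30) (9 / 10) (by norm_num) (by norm_num)
  obtain ⟨q₂, hq₂⟩ := Asym.lg_pow_le 4 (c ^ 2 / 16) 1 (by positivity) (by norm_num)
  obtain ⟨q₃, hq₃⟩ := Asym.lg_pow_le 6 (c ^ 2 / 64) (4 / 10) (by positivity) (by norm_num)
  obtain ⟨q₄, hq₄⟩ := Asym.lg_ge 1
  refine ⟨max (max q₁ q₂) (max (max q₃ q₄) (⌈8 / c ^ 2⌉₊ + 1)), ?_⟩
  intro F _ _ hq K S hK hS hE
  have a1 := hq₁ (Fintype.card F) (le_trans (by simp) hq)
  have a2 := hq₂ (Fintype.card F) (le_trans (by simp) hq)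
  have a3 := hq₃ (Fintype.card F) (le_trans (by simp) hq)
  have a4 := hq₄ (Fintype.card F) (le_trans (by simp) hq)
  have a5 : 8 / c ^ 2 ≤ (Fintype.card F : ℝ) := by
    have h1 : ⌈8 / c ^ 2⌉₊ ≤ Fintype.card F := by
      have h2 : ⌈8 / c ^ 2⌉₊ + 1 ≤ Fintype.card F := le_trans (by simp) hq
      omega
    exact le_trans (Nat.le_ceil _) (by exact_mod_cast h1)
  have hq0 : (0 : ℝ) < (Fintype.card F : ℝ) := by exact_mod_cast Fintype.card_pos
  have hc2 : 0 < c ^ 2 := by positivity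
  rw [Real.rpow_one] at a2
  have a6 : 8 ≤ c ^ 2 * (Fintype.card F : ℝ) := by
    rw [div_le_iff₀ hc2] at a5; linarith
  have hpow : ((Fintype.card F : ℝ)) ^ (3 / 2 : ℝ) * (Fintype.card F : ℝ) ^ (4 / 10 : ℝ) =
      (Fintype.card F : ℝ) ^ (9 / 10 : ℝ) * (Fintype.card F : ℝ) := by
    rw [← Real.rpow_add hq0, ← Real.rpow_add_one hq0.ne']
    norm_num
  -- the general statement
  have main : ∀ P : Pt F → Prop, Carrier P →
      (Fintype.card F : ℝ) ^ (9 / 10 : ℝ) < (S.filter P).card →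
      (Fintype.card F : ℝ) * c ^ 2 / 4 ≤ (S.filter (fun z => ¬ P z)).card → False := by
    intro P hP hA hB
    set Q : ℝ := (Fintype.card F : ℝ) with hQ
    set n : ℝ := (lg (Fintype.card F) : ℝ) with hn
    have hA0 : 0 < Q ^ (9 / 10 : ℝ) := by positivity
    have hn1 : (1 : ℝ) ≤ n := by rw [hn]; exact_mod_cast a4
    refine core K S hK.wit hS P hP (Q ^ (9 / 10 : ℝ)) (Q * c ^ 2 / 4) hA.le hB hA0 (by positivity)
      _ hE.exc ?_ a4
    rw [← hn, ← hQ]
    have t1 : n ^ 4 * (5 / Q ^ (9 / 10 : ℝ)) ≤ 1 / 6 := by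
      rw [mul_div_assoc', div_le_iff₀ hA0]
      linarith
    have t2 : n ^ 4 * (1 / (Q * c ^ 2 / 4)) ≤ 1 / 4 := by
      rw [mul_div_assoc', div_le_iff₀ (by positivity)]
      linarith
    have t3 : n ^ 4 * (3 * n ^ 2 * Q ^ (3 / 2 : ℝ) / (Q ^ (9 / 10 : ℝ) * (Q * c ^ 2 / 4))) ≤ 1 / 4 := by
      rw [mul_div_assoc', div_le_iff₀ (by positivity)]
      have h1 : n ^ 6 * Q ^ (3 / 2 : ℝ) ≤ (c ^ 2 / 64 * Q ^ (4 / 10 : ℝ)) * Q ^ (3 / 2 : ℝ) :=
        mul_le_mul_of_nonneg_right a3 (by positivity)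
      have h2 : (c ^ 2 / 64 * Q ^ (4 / 10 : ℝ)) * Q ^ (3 / 2 : ℝ) =
          c ^ 2 / 64 * (Q ^ (9 / 10 : ℝ) * Q) := by
        rw [← hpow]; ring
      have h3 : 0 < c ^ 2 * (Q ^ (9 / 10 : ℝ) * Q) := by positivity
      nlinarith
    have t4 : n ^ 4 * (5 / Q ^ (9 / 10 : ℝ) + 1 / (Q * c ^ 2 / 4) +
        3 * n ^ 2 * Q ^ (3 / 2 : ℝ) / (Q ^ (9 / 10 : ℝ) * (Q * c ^ 2 / 4))) =
        n ^ 4 * (5 / Q ^ (9 / 10 : ℝ)) + n ^ 4 * (1 / (Q * c ^ 2 / 4)) +
        n ^ 4 * (3 * n ^ 2 * Q ^ (3 / 2 : ℝ) / (Q ^ (9 / 10 : ℝ) * (Q * c ^ 2 / 4))) := by ring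
    rw [t4]
    linarith
  -- a hole gives many points off the carrier
  have hole : ∀ P : Pt F → Prop, ∀ z, P z → z ∉ K → z ∉ S →
      (∀ L L' : Ln F, On z L → On z L' → (∃ x, On x L ∧ P x ∧ x ≠ z) →
        (∃ x, On x L' ∧ P x ∧ x ≠ z) → L = L') →
      (Fintype.card F : ℝ) * c ^ 2 / 4 ≤ (S.filter (fun z => ¬ P z)).card := by
    intro P z hz hzK hzS hbad
    have h1 := hE.degT z hzK
    set Tz := univ.filter (fun L : Ln F => On z L ∧ ∀ κ ∈ K, ¬ On κ L) with hTz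
    set bad := Tz.filter (fun L => ∃ x, On x L ∧ P x ∧ x ≠ z) with hbd
    have h2 : bad.card ≤ 1 := by
      rw [Finset.card_le_one]
      intro L hL L' hL'
      rw [hbd, Finset.mem_filter, hTz, Finset.mem_filter] at hL hL'
      exact hbad L L' hL.1.2.1 hL'.1.2.1 hL.2 hL'.2
    have h3 : (Tz \ bad).card ≤ (S.filter (fun z => ¬ P z)).card := by
      have hch : ∀ L : Ln F, ∃ x : Pt F, L ∈ Tz → x ∈ S ∧ On x L := by
        intro L
        by_cases hL : L ∈ Tz
        · rw [hTz, Finset.mem_filter] at hL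
          obtain ⟨x, hx, hx2⟩ := hS.hits L hL.2.2
          exact ⟨x, fun _ => ⟨hx, hx2⟩⟩
        · exact ⟨z, fun h => absurd h hL⟩
      choose f hf using hch
      apply Finset.card_le_card_of_injOn f
      · intro L hL
        rw [Finset.mem_coe, Finset.mem_sdiff] at hL
        obtain ⟨hL1, hL2⟩ := hL
        obtain ⟨hx, hx2⟩ := hf L hL1
        rw [Finset.mem_coe, Finset.mem_filter]
        refine ⟨hx, fun hP => hL2 ?_⟩
        rw [hbd, Finset.mem_filter]
        exact ⟨hL1, f L, hx2, hP, fun h => hzS (h ▸ hx)⟩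
      · intro L hL L' hL' h
        rw [Finset.mem_coe, Finset.mem_sdiff] at hL hL'
        obtain ⟨hx, hx2⟩ := hf L hL.1
        obtain ⟨hx', hx2'⟩ := hf L' hL'.1
        rw [← h] at hx2'
        have hzL := hL.1
        have hzL' := hL'.1
        rw [hTz, Finset.mem_filter] at hzL hzL'
        have hne : f L ≠ z := fun h => hzS (h ▸ hx)
        have hp : (f L).1 ≠ z.1 := fun h => hne (On_inj hx2 hzL.2.1 h)
        exact On_unique hp hx2 hzL.2.1 hx2' hzL'.2.1
    have h4 : Tz.card ≤ (Tz \ bad).card + bad.card := by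
      rw [Finset.card_sdiff_add_card_eq_card (Finset.filter_subset _ _)]
    have h5 : (Tz.card : ℝ) ≤ (S.filter (fun z => ¬ P z)).card + 1 := by
      exact_mod_cast h4.trans (by omega)
    linarith
  constructor
  · intro L₁ hL₁ z hz hzK
    by_contra hzS
    apply main (fun z => On z L₁) (carrier_line L₁) hL₁
    apply hole (fun z => On z L₁) z hz hzK hzS
    rintro L L' h1 h2 ⟨x, hx1, hx2, hx3⟩ ⟨x', hx1', hx2', hx3'⟩
    have e1 : L = L₁ := On_unique (fun h => hx3 (On_inj hx1 h1 h)) hx1 h1 hx2 hz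
    have e2 : L' = L₁ := On_unique (fun h => hx3' (On_inj hx1' h2 h)) hx1' h2 hx2' hz
    rw [e1, e2]
  · intro i hi z hz hzK
    by_contra hzS
    apply main (fun z => z.1 = i) (carrier_part i) (by convert hi)
    apply hole (fun z => z.1 = i) z hz hzK hzS
    rintro L L' h1 h2 ⟨x, hx1, hx2, hx3⟩ ⟨x', hx1', hx2', hx3'⟩
    exact absurd (On_inj hx1 h1 (hx2.trans hz.symm)) hx3

end Crest.Agent.R34
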