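import Mathlib
import Crest.Agent.R34.Defs
import Crest.Agent.R34.Defs2

/-!
# Row 34, task R3 (helper17): `SpreadThm` from the incidence theorem
-/

set_option autoImplicit false

open Finset Classical

namespace Crest.Agent.R34

namespace E3

section Prob
variable {M β : Type} [Fintype M] [DecidableEq M]

theorem resample (Φ : M → Finset β) (m : M) (f : (M → β) → ℝ) :
    ∑ ω ∈ sp Φ, ∑ x ∈ Φ m, f (Function.update ω m x) = ((Φ m).card : ℝ) * ∑ ω ∈ sp Φ, f ω := by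
  have h1 : ∑ ω ∈ sp Φ, ∑ x ∈ Φ m, f (Function.update ω m x) =
      ∑ p ∈ sp Φ ×ˢ Φ m, f (Function.update p.1 m p.2) := by
    rw [Finset.sum_product]
  have h2 : ((Φ m).card : ℝ) * ∑ ω ∈ sp Φ, f ω = ∑ p ∈ sp Φ ×ˢ Φ m, f p.1 := by
    rw [Finset.sum_product, Finset.mul_sum]
    apply Finset.sum_congr rfl
    intro ω _
    simp
  rw [h1, h2]
  have hmem : ∀ p ∈ sp Φ ×ˢ Φ m, (Function.update p.1 m p.2, p.1 m) ∈ sp Φ ×ˢ Φ m := by
    intro p hp
    rw [Finset.mem_product] at hp ⊢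
    have h3 := mem_sp.mp hp.1
    refine ⟨mem_sp.mpr ?_, h3 m⟩
    intro m'
    by_cases h : m' = m
    · subst h; simpa using hp.2
    · simpa [Function.update_of_ne h] using h3 m'
  have hinv : ∀ p : (M → β) × β,
      (Function.update (Function.update p.1 m p.2) m (p.1 m), (Function.update p.1 m p.2) m) = p := by
    intro p
    simp
  refine Finset.sum_nbij' (fun p => (Function.update p.1 m p.2, p.1 m))
    (fun p => (Function.update p.1 m p.2, p.1 m)) hmem hmem (fun p _ => hinv p)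
    (fun p _ => hinv p) (fun p _ => rfl)

theorem pr_le_of_update {Φ : M → Finset β} (hne : ∀ m, (Φ m).Nonempty) (m : M)
    (E : (M → β) → Prop) (B : ℝ)
    (h : ∀ ω, (∀ m', ω m' ∈ Φ m') → ∃ A : Finset β, (A.card : ℝ) ≤ B ∧
      ∀ x ∈ Φ m, E (Function.update ω m x) → x ∈ A) :
    pr Φ E ≤ B / (Φ m).card := by
  unfold pr
  have hpos : (0 : ℝ) < (sp Φ).card := by
    rw [card_sp]
    exact_mod_cast Finset.prod_pos (fun m _ => Finset.card_pos.mpr (hne m))
  have hpos2 : (0 : ℝ) < (Φ m).card := by exact_mod_cast Finset.card_pos.mpr (hne m)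
  rw [div_le_div_iff₀ hpos hpos2]
  have h1 := resample Φ m (fun ω => if E ω then (1 : ℝ) else 0)
  have h2 : ∑ ω ∈ sp Φ, (if E ω then (1 : ℝ) else 0) = (((sp Φ).filter E).card : ℝ) := by
    rw [Finset.sum_boole]
  rw [h2] at h1
  calc (((sp Φ).filter E).card : ℝ) * (Φ m).card
      = ∑ ω ∈ sp Φ, ∑ x ∈ Φ m, (if E (Function.update ω m x) then (1 : ℝ) else 0) := by
        rw [h1]; ring
    _ ≤ ∑ ω ∈ sp Φ, B := by
        apply Finset.sum_le_sum
        intro ω hω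
        rw [Finset.sum_boole]
        obtain ⟨A, hA, hA2⟩ := h ω (mem_sp.mp hω)
        refine le_trans (Nat.cast_le.mpr (Finset.card_le_card ?_)) hA
        intro x hx
        rw [Finset.mem_filter] at hx
        exact hA2 x hx.1 hx.2
    _ = B * (sp Φ).card := by rw [Finset.sum_const, nsmul_eq_mul]; ring

theorem pr_pair_le {Φ : M → Finset β} (hne : ∀ m, (Φ m).Nonempty) {m m' : M} (hmm : m ≠ m')
    (R : β → β → Prop) (A : Finset (β × β)) (hA : ∀ x ∈ Φ m, ∀ y ∈ Φ m', R x y → (x, y) ∈ A) :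
    pr Φ (fun ω => R (ω m) (ω m')) ≤ (A.card : ℝ) / ((Φ m).card * (Φ m').card) := by
  unfold pr
  have hpos : (0 : ℝ) < (sp Φ).card := by
    rw [card_sp]
    exact_mod_cast Finset.prod_pos (fun m _ => Finset.card_pos.mpr (hne m))
  have hpos2 : (0 : ℝ) < (Φ m).card := by exact_mod_cast Finset.card_pos.mpr (hne m)
  have hpos3 : (0 : ℝ) < (Φ m').card := by exact_mod_cast Finset.card_pos.mpr (hne m')
  rw [div_le_div_iff₀ hpos (by positivity)]
  have h1 := resample Φ m (fun ω => if R (ω m) (ω m') then (1 : ℝ) else 0)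
  have h2 : ∑ ω ∈ sp Φ, (if R (ω m) (ω m') then (1 : ℝ) else 0) =
      (((sp Φ).filter (fun ω => R (ω m) (ω m'))).card : ℝ) := by
    rw [Finset.sum_boole]
  rw [h2] at h1
  have h3 := resample Φ m' (fun ω => ∑ x ∈ Φ m, (if R x (ω m') then (1 : ℝ) else 0))
  have h4 : ∑ ω ∈ sp Φ, ∑ x ∈ Φ m, (if R ((Function.update ω m x) m) ((Function.update ω m x) m')
      then (1 : ℝ) else 0) = ∑ ω ∈ sp Φ, ∑ x ∈ Φ m, (if R x (ω m') then (1 : ℝ) else 0) := by
    apply Finset.sum_congr rfl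
    intro ω _
    apply Finset.sum_congr rfl
    intro x _
    rw [Function.update_self, Function.update_of_ne hmm.symm]
  have h5 : ∑ ω ∈ sp Φ, ∑ y ∈ Φ m', ∑ x ∈ Φ m, (if R x ((Function.update ω m' y) m')
      then (1 : ℝ) else 0) = (sp Φ).card *
        (((Φ m ×ˢ Φ m').filter (fun p => R p.1 p.2)).card : ℝ) := by
    rw [← nsmul_eq_mul, ← Finset.sum_const]
    apply Finset.sum_congr rfl
    intro ω _
    rw [Finset.sum_comm, ← Finset.sum_boole, Finset.sum_product]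
    apply Finset.sum_congr rfl
    intro x _
    apply Finset.sum_congr rfl
    intro y _
    rw [Function.update_self]
  rw [h4] at h1
  rw [h1] at h3
  rw [h5] at h3
  calc (((sp Φ).filter (fun ω => R (ω m) (ω m'))).card : ℝ) * ((Φ m).card * (Φ m').card)
      = (Φ m').card * ((Φ m).card * (((sp Φ).filter (fun ω => R (ω m) (ω m'))).card : ℝ)) := by ring
    _ = (((Φ m ×ˢ Φ m').filter (fun p => R p.1 p.2)).card : ℝ) * (sp Φ).card := by
        rw [← h3]; ring
    _ ≤ (A.card : ℝ) * (sp Φ).card := by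
        apply mul_le_mul_of_nonneg_right _ (Nat.cast_nonneg _)
        apply Nat.cast_le.mpr
        apply Finset.card_le_card
        rintro ⟨x, y⟩ hxy
        rw [Finset.mem_filter, Finset.mem_product] at hxy
        exact hA x hxy.1.1 y hxy.1.2 hxy.2

end Prob

section Config
variable {F : Type} [Field F] [Fintype F]

theorem exists_config {K S : Finset (Pt F)} {n : ℕ} {B N : ℝ} (hN : N = S.card) (hN0 : 0 < N)
    (hB : 0 ≤ B)
    (hdisj : ∀ z ∈ S, z ∉ K)
    (hL : ∀ L : Ln F, ((S.filter (fun z => On z L)).card : ℝ) ≤ B)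
    (hP : ∀ i : Option F, ((S.filter (fun z => z.1 = i)).card : ℝ) ≤ B)
    (φ : Ln F → Pt F) (hφ : ∀ L, (∃ κ ∈ K, On κ L) → φ L ∈ K ∧ On (φ L) L)
    (Tp : ℝ) (hTp : (((S ×ˢ S).filter (fun p => p.1.1 ≠ p.2.1 ∧
      ∀ κ ∈ K, ¬ On κ (join p.1 p.2))).card : ℝ) = Tp)
    (hsum : (n : ℝ) ^ 2 * (B / N) + (n : ℝ) ^ 2 * (Tp / (N * N)) + (n : ℝ) ^ 3 * (B / N) +
      (n : ℝ) ^ 3 * (B / N) + (n : ℝ) ^ 4 * (B / N) < 1) :
    ∃ z z' : Fin n → Pt F, (∀ u v, (z u).1 ≠ (z' v).1) ∧ (∀ u, z u ∈ S) ∧ (∀ v, z' v ∈ S) ∧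
      (∀ u v, ∃ κ ∈ K, On κ (join (z u) (z' v))) ∧ Function.Injective
        (fun e : Fin n × Fin n => φ (join (z e.1) (z' e.2))) := by
  have hSne : S.Nonempty := by
    rw [← Finset.card_pos]
    rw [hN] at hN0
    exact_mod_cast hN0
  set Φ : Fin n ⊕ Fin n → Finset (Pt F) := fun _ => S with hΦ
  have hne : ∀ m, (Φ m).Nonempty := fun _ => hSne
  have hcard : ∀ m, ((Φ m).card : ℝ) = N := fun _ => hN.symm
  -- the events
  let E1 : Fin n × Fin n → (Fin n ⊕ Fin n → Pt F) → Prop := fun a ω =>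
    (ω (Sum.inl a.1)).1 = (ω (Sum.inr a.2)).1
  let E4 : Fin n × Fin n → (Fin n ⊕ Fin n → Pt F) → Prop := fun a ω =>
    (ω (Sum.inl a.1)).1 ≠ (ω (Sum.inr a.2)).1 ∧
      ∀ κ ∈ K, ¬ On κ (join (ω (Sum.inl a.1)) (ω (Sum.inr a.2)))
  let E2 : Fin n × Fin n × Fin n → (Fin n ⊕ Fin n → Pt F) → Prop := fun a ω =>
    a.1 ≠ a.2.1 ∧ On (ω (Sum.inl a.2.1)) (join (ω (Sum.inl a.1)) (ω (Sum.inr a.2.2)))
  let E3 : Fin n × Fin n × Fin n → (Fin n ⊕ Fin n → Pt F) → Prop := fun a ω =>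
    a.1 ≠ a.2.1 ∧ On (ω (Sum.inr a.2.1)) (join (ω (Sum.inl a.2.2)) (ω (Sum.inr a.1)))
  let E5 : Fin n × Fin n × Fin n × Fin n → (Fin n ⊕ Fin n → Pt F) → Prop := fun a ω =>
    a.1 ≠ a.2.1 ∧ a.2.2.1 ≠ a.2.2.2 ∧ (ω (Sum.inl a.1)).1 ≠ (ω (Sum.inr a.2.2.1)).1 ∧
    (∃ κ ∈ K, On κ (join (ω (Sum.inl a.1)) (ω (Sum.inr a.2.2.1)))) ∧
    φ (join (ω (Sum.inl a.1)) (ω (Sum.inr a.2.2.1))) =
      φ (join (ω (Sum.inl a.2.1)) (ω (Sum.inr a.2.2.2)))
  have p1 : ∀ a, pr Φ (E1 a) ≤ B / N := by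
    intro a
    have := pr_le_of_update hne (Sum.inr a.2) (E1 a) B (by
      intro ω _
      refine ⟨_, hP (ω (Sum.inl a.1)).1, ?_⟩
      intro x hx h
      refine Finset.mem_filter.mpr ⟨hx, ?_⟩
      simp only [E1] at h
      rw [Function.update_self, Function.update_of_ne (by simp)] at h
      exact h.symm)
    rw [hcard (Sum.inr a.2)] at this
    exact this
  have p4 : ∀ a, pr Φ (E4 a) ≤ Tp / (N * N) := by
    intro a
    have := pr_pair_le hne (m := Sum.inl a.1) (m' := Sum.inr a.2) (by simp)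
      (fun x y => x.1 ≠ y.1 ∧ ∀ κ ∈ K, ¬ On κ (join x y)) ((S ×ˢ S).filter
        (fun p => p.1.1 ≠ p.2.1 ∧ ∀ κ ∈ K, ¬ On κ (join p.1 p.2))) (by
        intro x hx y hy h
        exact Finset.mem_filter.mpr ⟨Finset.mem_product.mpr ⟨hx, hy⟩, h⟩)
    rw [hcard (Sum.inl a.1)] at this
    rw [← hTp]
    exact this
  have p2 : ∀ a, pr Φ (E2 a) ≤ B / N := by
    intro a
    have := pr_le_of_update hne (Sum.inl a.2.1) (E2 a) B (by
      intro ω _
      refine ⟨_, hL (join (ω (Sum.inl a.1)) (ω (Sum.inr a.2.2))), ?_⟩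
      intro x hx h
      refine Finset.mem_filter.mpr ⟨hx, ?_⟩
      simp only [E2] at h
      rw [Function.update_self, Function.update_of_ne (by simpa using h.1),
        Function.update_of_ne (by simp)] at h
      exact h.2)
    rw [hcard (Sum.inl a.2.1)] at this
    exact this
  have p3 : ∀ a, pr Φ (E3 a) ≤ B / N := by
    intro a
    have := pr_le_of_update hne (Sum.inr a.2.1) (E3 a) B (by
      intro ω _
      refine ⟨_, hL (join (ω (Sum.inl a.2.2)) (ω (Sum.inr a.1))), ?_⟩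
      intro x hx h
      refine Finset.mem_filter.mpr ⟨hx, ?_⟩
      simp only [E3] at h
      rw [Function.update_self, Function.update_of_ne (by simp),
        Function.update_of_ne (by simpa using h.1)] at h
      exact h.2)
    rw [hcard (Sum.inr a.2.1)] at this
    exact this
  have p5 : ∀ a, pr Φ (E5 a) ≤ B / N := by
    intro a
    have := pr_le_of_update hne (Sum.inr a.2.2.1) (E5 a) B (by
      intro ω hω
      refine ⟨_, hL (join (φ (join (ω (Sum.inl a.2.1)) (ω (Sum.inr a.2.2.2))))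
        (ω (Sum.inl a.1))), ?_⟩
      intro y hy h
      refine Finset.mem_filter.mpr ⟨hy, ?_⟩
      obtain ⟨h1, h2, h3, h4, h5⟩ := h
      rw [Function.update_self, Function.update_of_ne (by simp)] at h3 h4 h5
      rw [Function.update_of_ne (by simp), Function.update_of_ne (by simpa using h2.symm)] at h5
      obtain ⟨h6, h7⟩ := hφ _ h4
      rw [h5] at h6 h7
      have h8 : On (ω (Sum.inl a.1)) (join (ω (Sum.inl a.1)) y) := On_join_left h3
      have h9 : (φ (join (ω (Sum.inl a.2.1)) (ω (Sum.inr a.2.2.2)))).1 ≠ (ω (Sum.inl a.1)).1 := by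
        intro h10
        have h11 := On_inj h7 h8 h10
        rw [h11] at h6
        exact hdisj _ (hω (Sum.inl a.1)) h6
      rw [join_eq h9 h7 h8]
      exact On_join_right h3)
    rw [hcard (Sum.inr a.2.2.1)] at this
    exact this
  have hBN : 0 ≤ B / N := by positivity
  have hbound : pr Φ (fun ω => (((((∃ a ∈ (univ : Finset (Fin n × Fin n)), E1 a ω) ∨
      (∃ a ∈ (univ : Finset (Fin n × Fin n)), E4 a ω)) ∨
      (∃ a ∈ (univ : Finset (Fin n × Fin n × Fin n)), E2 a ω)) ∨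
      (∃ a ∈ (univ : Finset (Fin n × Fin n × Fin n)), E3 a ω)) ∨
      (∃ a ∈ (univ : Finset (Fin n × Fin n × Fin n × Fin n)), E5 a ω))) < 1 := by
    refine lt_of_le_of_lt ?_ hsum
    refine le_trans (pr_or_le _ _ _) (add_le_add ?_ ?_)
    · refine le_trans (pr_or_le _ _ _) (add_le_add ?_ ?_)
      · refine le_trans (pr_or_le _ _ _) (add_le_add ?_ ?_)
        · refine le_trans (pr_or_le _ _ _) (add_le_add ?_ ?_)
          · refine le_trans (pr_exists_le _ _ _) ?_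
            refine le_trans (Finset.sum_le_sum fun a _ => p1 a) ?_
            rw [Finset.sum_const, nsmul_eq_mul]
            simp only [Finset.card_univ, Fintype.card_prod, Fintype.card_fin]
            push_cast
            apply le_of_eq
            ring
          · refine le_trans (pr_exists_le _ _ _) ?_
            refine le_trans (Finset.sum_le_sum fun a _ => p4 a) ?_
            rw [Finset.sum_const, nsmul_eq_mul]
            simp only [Finset.card_univ, Fintype.card_prod, Fintype.card_fin]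
            push_cast
            apply le_of_eq
            ring
        · refine le_trans (pr_exists_le _ _ _) ?_
          refine le_trans (Finset.sum_le_sum fun a _ => p2 a) ?_
          rw [Finset.sum_const, nsmul_eq_mul]
          simp only [Finset.card_univ, Fintype.card_prod, Fintype.card_fin]
          push_cast
          apply le_of_eq
          ring
      · refine le_trans (pr_exists_le _ _ _) ?_
        refine le_trans (Finset.sum_le_sum fun a _ => p3 a) ?_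
        rw [Finset.sum_const, nsmul_eq_mul]
        simp only [Finset.card_univ, Fintype.card_prod, Fintype.card_fin]
        push_cast
        apply le_of_eq
        ring
    · refine le_trans (pr_exists_le _ _ _) ?_
      refine le_trans (Finset.sum_le_sum fun a _ => p5 a) ?_
      rw [Finset.sum_const, nsmul_eq_mul]
      simp only [Finset.card_univ, Fintype.card_prod, Fintype.card_fin]
      push_cast
      apply le_of_eq
      ring
  obtain ⟨ω, hω, hgood⟩ := exists_of_pr_lt hne hbound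
  simp only [not_or, Finset.mem_univ, true_and, not_exists] at hgood
  obtain ⟨⟨⟨⟨g1, g4⟩, g2⟩, g3⟩, g5⟩ := hgood
  have q1 : ∀ u v, (ω (Sum.inl u)).1 ≠ (ω (Sum.inr v)).1 := fun u v => g1 (u, v)
  have q4 : ∀ u v, ∃ κ ∈ K, On κ (join (ω (Sum.inl u)) (ω (Sum.inr v))) := by
    intro u v
    have h := g4 (u, v)
    simp only [E4, not_and, not_forall, not_not] at h
    obtain ⟨κ, h1, h2⟩ := h (q1 u v)
    exact ⟨κ, h1, h2⟩
  refine ⟨fun u => ω (Sum.inl u), fun v => ω (Sum.inr v), q1, fun u => hω _, fun v => hω _, q4, ?_⟩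
  rintro ⟨u, v⟩ ⟨u', v'⟩ h
  simp only at h
  obtain ⟨a1, a2⟩ := hφ _ (q4 u v)
  obtain ⟨b1, b2⟩ := hφ _ (q4 u' v')
  have zK : ∀ m, ω m ∉ K := fun m => hdisj _ (hω m)
  by_cases hu : u = u'
  · subst hu
    by_cases hv : v = v'
    · subst hv; rfl
    · exfalso
      -- both lines contain `z u` and `κ`
      have c1 : On (ω (Sum.inl u)) (join (ω (Sum.inl u)) (ω (Sum.inr v))) := On_join_left (q1 u v)
      have c2 : On (ω (Sum.inl u)) (join (ω (Sum.inl u)) (ω (Sum.inr v'))) := On_join_left (q1 u v')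
      rw [← h] at b1 b2
      have c3 : (φ (join (ω (Sum.inl u)) (ω (Sum.inr v)))).1 ≠ (ω (Sum.inl u)).1 := by
        intro h10
        have h11 := On_inj a2 c1 h10
        rw [h11] at a1
        exact zK _ a1
      have c4 := On_unique c3 a2 c1 b2 c2
      have c5 : On (ω (Sum.inr v')) (join (ω (Sum.inl u)) (ω (Sum.inr v'))) := On_join_right (q1 u v')
      rw [← c4] at c5
      exact g3 (v, v', u) ⟨hv, c5⟩
  · by_cases hv : v = v'
    · subst hv
      exfalso
      have c1 : On (ω (Sum.inr v)) (join (ω (Sum.inl u)) (ω (Sum.inr v))) := On_join_right (q1 u v)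
      have c2 : On (ω (Sum.inr v)) (join (ω (Sum.inl u')) (ω (Sum.inr v))) := On_join_right (q1 u' v)
      rw [← h] at b1 b2
      have c3 : (φ (join (ω (Sum.inl u)) (ω (Sum.inr v)))).1 ≠ (ω (Sum.inr v)).1 := by
        intro h10
        have h11 := On_inj a2 c1 h10
        rw [h11] at a1
        exact zK _ a1
      have c4 := On_unique c3 a2 c1 b2 c2
      have c5 : On (ω (Sum.inl u')) (join (ω (Sum.inl u')) (ω (Sum.inr v))) := On_join_left (q1 u' v)
      rw [← c4] at c5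
      exact g2 (u, u', v) ⟨hu, c5⟩
    · exfalso
      exact g5 (u, u', v, v') ⟨hu, hv, q1 u v, q4 u v, h⟩

/-- the count of `T`-pairs is bounded by the sum over `T`-lines -/
theorem pairs_le (K S : Finset (Pt F)) :
    (((S ×ˢ S).filter (fun p => p.1.1 ≠ p.2.1 ∧ ∀ κ ∈ K, ¬ On κ (join p.1 p.2))).card : ℝ) ≤
      ∑ L ∈ univ.filter (fun L : Ln F => ∀ κ ∈ K, ¬ On κ L),
        ((S.filter (fun z => On z L)).card : ℝ) * (((S.filter (fun z => On z L)).card : ℝ) - 1) := by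
  have h1 : (S ×ˢ S).filter (fun p => p.1.1 ≠ p.2.1 ∧ ∀ κ ∈ K, ¬ On κ (join p.1 p.2)) ⊆
      (univ.filter (fun L : Ln F => ∀ κ ∈ K, ¬ On κ L)).biUnion
        (fun L => (S.filter (fun z => On z L)).offDiag) := by
    rintro ⟨x, y⟩ hxy
    simp only [Finset.mem_filter, Finset.mem_product] at hxy
    obtain ⟨⟨hx, hy⟩, hne, hK⟩ := hxy
    rw [Finset.mem_biUnion]
    refine ⟨join x y, by simpa using hK, ?_⟩
    rw [Finset.mem_offDiag]
    refine ⟨Finset.mem_filter.mpr ⟨hx, On_join_left hne⟩,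
      Finset.mem_filter.mpr ⟨hy, On_join_right hne⟩, ?_⟩
    intro h
    apply hne
    simp only at h
    rw [h]
  refine le_trans (Nat.cast_le.mpr (Finset.card_le_card h1)) ?_
  refine le_trans (Nat.cast_le.mpr Finset.card_biUnion_le) ?_
  rw [Nat.cast_sum]
  apply Finset.sum_le_sum
  intro L _
  rw [Finset.offDiag_card]
  rw [Nat.cast_sub (Nat.le_mul_self _)]
  push_cast
  apply le_of_eq
  ring

/-- the core: from many `T`-pairs to rich lines -/
theorem rich_sum {K S : Finset (Pt F)} {Q r P : ℝ} (hr : 0 ≤ r)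
    (hhits : ∀ L : Ln F, (∀ κ ∈ K, ¬ On κ L) → ∃ z ∈ S, On z L)
    (hexc : (∑ L ∈ univ.filter (fun L : Ln F => ∀ κ ∈ K, ¬ On κ L),
      (((S.filter (fun z => On z L)).card : ℝ) - 1)) ≤ Q)
    (hP : P ≤ (((S ×ˢ S).filter (fun p => p.1.1 ≠ p.2.1 ∧
      ∀ κ ∈ K, ¬ On κ (join p.1 p.2))).card : ℝ)) :
    P - r * Q ≤ ∑ L ∈ (univ.filter (fun L : Ln F => ∀ κ ∈ K, ¬ On κ L)).filter
        (fun L => r ≤ ((S.filter (fun z => On z L)).card : ℝ)),
      ((S.filter (fun z => On z L)).card : ℝ) ^ 2 := by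
  set T := univ.filter (fun L : Ln F => ∀ κ ∈ K, ¬ On κ L) with hT
  set s : Ln F → ℝ := fun L => ((S.filter (fun z => On z L)).card : ℝ) with hs
  have hs0 : ∀ L, 0 ≤ s L := fun L => Nat.cast_nonneg _
  have hs1 : ∀ L ∈ T, 1 ≤ s L := by
    intro L hL
    rw [hT, Finset.mem_filter] at hL
    obtain ⟨z, hz, hzL⟩ := hhits L hL.2
    have : 0 < (S.filter (fun z => On z L)).card :=
      Finset.card_pos.mpr ⟨z, Finset.mem_filter.mpr ⟨hz, hzL⟩⟩
    simp only [hs]
    exact_mod_cast this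
  have h1 : P ≤ ∑ L ∈ T, s L * (s L - 1) := le_trans hP (pairs_le K S)
  have h2 : ∑ L ∈ T, s L * (s L - 1) = ∑ L ∈ T.filter (fun L => r ≤ s L), s L * (s L - 1) +
      ∑ L ∈ T.filter (fun L => ¬ r ≤ s L), s L * (s L - 1) :=
    (Finset.sum_filter_add_sum_filter_not _ _ _).symm
  have h3 : ∑ L ∈ T.filter (fun L => ¬ r ≤ s L), s L * (s L - 1) ≤ r * Q := by
    calc ∑ L ∈ T.filter (fun L => ¬ r ≤ s L), s L * (s L - 1)
        ≤ ∑ L ∈ T.filter (fun L => ¬ r ≤ s L), r * (s L - 1) := by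
          apply Finset.sum_le_sum
          intro L hL
          rw [Finset.mem_filter] at hL
          apply mul_le_mul_of_nonneg_right (le_of_lt (not_le.mp hL.2))
          linarith [hs1 L hL.1]
      _ ≤ ∑ L ∈ T, r * (s L - 1) := by
          apply Finset.sum_le_sum_of_subset_of_nonneg (Finset.filter_subset _ _)
          intro L hL _
          apply mul_nonneg hr
          linarith [hs1 L hL]
      _ = r * ∑ L ∈ T, (s L - 1) := by rw [Finset.mul_sum]
      _ ≤ r * Q := mul_le_mul_of_nonneg_left hexc hr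
  have h4 : ∑ L ∈ T.filter (fun L => r ≤ s L), s L * (s L - 1) ≤
      ∑ L ∈ T.filter (fun L => r ≤ s L), s L ^ 2 := by
    apply Finset.sum_le_sum
    intro L _
    nlinarith [hs0 L]
  linarith

end Config

section Asymp

theorem lg_pow_le (ε : ℝ) (hε : 0 < ε) : ∃ q₁ : ℕ, ∀ q : ℕ, q₁ ≤ q →
    96 * (lg q : ℝ) ^ 4 ≤ (q : ℝ) ^ ε := by
  have h1 := isLittleO_log_rpow_rpow_atTop (s := ε) 8 hε
  have h2 := h1.def (c := 1 / (96 * 256)) (by norm_num)
  have h3 := (tendsto_natCast_atTop_atTop (R := ℝ)).eventually h2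
  obtain ⟨q₁, hq₁⟩ := Filter.eventually_atTop.mp h3
  refine ⟨max q₁ 1, fun q hq => ?_⟩
  have h4 := hq₁ q (le_trans (le_max_left _ _) hq)
  have hq1 : 1 ≤ q := le_trans (le_max_right _ _) hq
  have hq1' : (1 : ℝ) ≤ q := by exact_mod_cast hq1
  have hl0 : 0 ≤ Real.log q := Real.log_nonneg hq1'
  have h5 : (Nat.log 2 q : ℝ) ≤ 2 * Real.log q := by
    have h6 : (2 : ℝ) ^ (Nat.log 2 q) ≤ q := by
      exact_mod_cast Nat.pow_log_le_self 2 (by omega : q ≠ 0)
    have h7 := Real.log_le_log (by positivity) h6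
    rw [Real.log_pow] at h7
    have h8 := Real.log_two_gt_d9
    have h9 : (0 : ℝ) ≤ (Nat.log 2 q : ℝ) := Nat.cast_nonneg _
    nlinarith
  have h10 : (lg q : ℝ) ^ 4 ≤ 256 * Real.log q ^ 8 := by
    unfold lg
    push_cast
    rw [← pow_mul]
    calc (Nat.log 2 q : ℝ) ^ (2 * 4) ≤ (2 * Real.log q) ^ (2 * 4) := by
          apply pow_le_pow_left₀ (Nat.cast_nonneg _) h5
      _ = 256 * Real.log q ^ 8 := by ring
  rw [Real.norm_of_nonneg (by positivity), Real.norm_of_nonneg (by positivity)] at h4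
  have h11 : Real.log (q : ℝ) ^ (8 : ℝ) = Real.log q ^ 8 := by
    exact_mod_cast Real.rpow_natCast (Real.log q) 8
  rw [h11] at h4
  linarith

end Asymp

end E3

theorem spreadThm_of (h : INC) : SpreadThm := by
  intro c hc
  obtain ⟨ε, hε, q₀, hinc⟩ := h
  obtain ⟨q₁, hq₁⟩ := E3.lg_pow_le ε hε
  obtain ⟨q₂, hq₂⟩ := E3.lg_pow_le (1 / 10) (by norm_num)
  refine ⟨max (max q₀ 2) (max q₁ q₂), ?_⟩
  intro F _ _ p k hp hk hcard hq K S hQ hC hE hL hP
  set q := Fintype.card F with hqdef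
  have hq0 : q₀ ≤ q := le_trans (le_trans (le_max_left _ _) (le_max_left _ _)) hq
  have hq2 : 2 ≤ q := le_trans (le_trans (le_max_right _ _) (le_max_left _ _)) hq
  have h96 := hq₁ q (le_trans (le_trans (le_max_left _ _) (le_max_right _ _)) hq)
  have h96' := hq₂ q (le_trans (le_trans (le_max_right _ _) (le_max_right _ _)) hq)
  have hn1 : 1 ≤ lg q := by
    unfold lg
    have : 1 ≤ Nat.log 2 q := Nat.log_pos (by norm_num) hq2
    exact Nat.one_le_pow _ _ this
  have hn1' : (1 : ℝ) ≤ (lg q : ℝ) := by exact_mod_cast hn1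
  have hqR : (2 : ℝ) ≤ (q : ℝ) := by exact_mod_cast hq2
  have hqpos : (0 : ℝ) < (q : ℝ) := by linarith
  set n : ℝ := (lg q : ℝ) with hn
  have hn4 : n ^ 2 ≤ n ^ 4 := pow_le_pow_right₀ hn1' (by norm_num)
  have hn34 : n ^ 3 ≤ n ^ 4 := pow_le_pow_right₀ hn1' (by norm_num)
  have hn4pos : 0 < n ^ 4 := by positivity
  have hn2pos : 0 < n ^ 2 := by positivity
  have hhalf := hE.half
  rw [← hqdef] at hhalf
  have hNpos : (0 : ℝ) < S.card := by linarith
  set N : ℝ := (S.card : ℝ) with hN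
  -- Step 1
  have hTp : (q : ℝ) ^ 2 / (16 * n ^ 2) ≤ (((S ×ˢ S).filter (fun p => p.1.1 ≠ p.2.1 ∧
      ∀ κ ∈ K, ¬ On κ (join p.1 p.2))).card : ℝ) := by
    by_contra hcon
    rw [not_le] at hcon
    obtain ⟨φ, hφ, hwit⟩ := hQ.wit
    set Tp : ℝ := (((S ×ˢ S).filter (fun p => p.1.1 ≠ p.2.1 ∧
      ∀ κ ∈ K, ¬ On κ (join p.1 p.2))).card : ℝ) with hTpdef
    have hBN : (q : ℝ) ^ (9 / 10 : ℝ) / N ≤ 1 / (48 * n ^ 4) := by
      have e1 : (q : ℝ) ^ (9 / 10 : ℝ) * (q : ℝ) ^ (1 / 10 : ℝ) = q := by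
        rw [← Real.rpow_add hqpos]
        norm_num
      rw [div_le_div_iff₀ hNpos (by positivity)]
      have e2 : (0 : ℝ) < (q : ℝ) ^ (9 / 10 : ℝ) := by positivity
      nlinarith
    have hBN0 : 0 ≤ (q : ℝ) ^ (9 / 10 : ℝ) / N := by positivity
    have hT4 : n ^ 2 * (Tp / (N * N)) ≤ 1 / 4 := by
      have e3 : Tp ≤ N * N / (4 * n ^ 2) := by
        refine le_trans hcon.le ?_
        rw [div_le_div_iff₀ (by positivity) (by positivity)]
        have e4 : (q : ℝ) ^ 2 / 4 ≤ N * N := by nlinarith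
        calc (q : ℝ) ^ 2 * (4 * n ^ 2) = (q : ℝ) ^ 2 / 4 * (16 * n ^ 2) := by ring
          _ ≤ N * N * (16 * n ^ 2) := by gcongr
      calc n ^ 2 * (Tp / (N * N)) ≤ n ^ 2 * ((N * N / (4 * n ^ 2)) / (N * N)) := by
            gcongr
        _ = 1 / 4 := by field_simp
    have hB4 : n ^ 4 * ((q : ℝ) ^ (9 / 10 : ℝ) / N) ≤ 1 / 48 := by
      calc n ^ 4 * ((q : ℝ) ^ (9 / 10 : ℝ) / N) ≤ n ^ 4 * (1 / (48 * n ^ 4)) := by gcongr
        _ = 1 / 48 := by field_simp
    have hB2 : n ^ 2 * ((q : ℝ) ^ (9 / 10 : ℝ) / N) ≤ 1 / 48 :=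
      le_trans (mul_le_mul_of_nonneg_right hn4 hBN0) hB4
    have hB3 : n ^ 3 * ((q : ℝ) ^ (9 / 10 : ℝ) / N) ≤ 1 / 48 :=
      le_trans (mul_le_mul_of_nonneg_right hn34 hBN0) hB4
    obtain ⟨z, z', hz1, hz2, hz3, hz4, hz5⟩ := E3.exists_config (n := lg q)
      (B := (q : ℝ) ^ (9 / 10 : ℝ)) (N := N) hN hNpos (by positivity) hC.disj hL hP φ hφ Tp
      hTpdef.symm (by
        rw [← hn]
        linarith)
    refine hwit z z' hz1 (fun u => hC.disj _ (hz2 u)) (fun v => hC.disj _ (hz3 v)) ?_ hz4 hz5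
    intro e e' he
    apply hz5
    simp only at he ⊢
    rw [he]
  -- Step 2
  have hrich := E3.rich_sum (K := K) (S := S) (Q := 3 * n ^ 2 * (q : ℝ) ^ (3 / 2 : ℝ))
    (r := (q : ℝ) ^ (1 / 2 : ℝ) / (96 * n ^ 4)) (P := (q : ℝ) ^ 2 / (16 * n ^ 2)) (by positivity)
    hC.hits hE.exc hTp
  have hQr : (q : ℝ) ^ (1 / 2 : ℝ) / (96 * n ^ 4) * (3 * n ^ 2 * (q : ℝ) ^ (3 / 2 : ℝ)) =
      (q : ℝ) ^ 2 / (32 * n ^ 2) := by
    have e1 : (q : ℝ) ^ (1 / 2 : ℝ) * (q : ℝ) ^ (3 / 2 : ℝ) = (q : ℝ) ^ 2 := by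
      rw [← Real.rpow_add hqpos, ← Real.rpow_natCast]
      norm_num
    rw [← e1]
    field_simp
    norm_num
  rw [hQr] at hrich
  have hfin := hinc F p k hp hk hcard hq0 S ((univ.filter (fun L : Ln F => ∀ κ ∈ K, ¬ On κ L)).filter
        (fun L => (q : ℝ) ^ (1 / 2 : ℝ) / (96 * n ^ 4) ≤ ((S.filter (fun z => On z L)).card : ℝ)))
    hC.card_le hL hP (by
      intro L hLL
      rw [Finset.mem_filter] at hLL
      refine le_trans ?_ hLL.2
      rw [le_div_iff₀ (by positivity), ← hqdef]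
      calc (q : ℝ) ^ (1 / 2 - ε) * (96 * n ^ 4) ≤ (q : ℝ) ^ (1 / 2 - ε) * (q : ℝ) ^ ε := by
            gcongr
        _ = (q : ℝ) ^ (1 / 2 : ℝ) := by
            rw [← Real.rpow_add hqpos]
            congr 1
            ring)
  have h5 : (q : ℝ) ^ 2 / (16 * n ^ 2) - (q : ℝ) ^ 2 / (32 * n ^ 2) ≤ (q : ℝ) ^ (2 - ε) :=
    le_trans hrich hfin
  have h6 : (q : ℝ) ^ 2 / (16 * n ^ 2) - (q : ℝ) ^ 2 / (32 * n ^ 2) = (q : ℝ) ^ 2 / (32 * n ^ 2) := by
    field_simp
    norm_num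
  rw [h6, div_le_iff₀ (by positivity)] at h5
  have h7 : (q : ℝ) ^ (2 - ε) * (q : ℝ) ^ ε = (q : ℝ) ^ 2 := by
    rw [← Real.rpow_add hqpos, ← Real.rpow_natCast]
    congr 1
    push_cast
    ring
  have h8 : (0 : ℝ) < (q : ℝ) ^ (2 - ε) := by positivity
  nlinarith

end Crest.Agent.R34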