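import Crest.Agent.R34.Defs2

/-!
# (H1) Any two edges of the hypergraph of a system meet.
-/

set_option autoImplicit false

open Finset Classical

namespace Crest.Agent.R34

namespace H1

section
variable {F : Type} [Field F] [Fintype F] {R : ℕ}

theorem ev_meet {L L' : Ln F} (h : L ≠ L') : ev L (meet L L') = ev L' (meet L L') :=
  (ev_eq_iff h _).2 rfl

theorem specW_self (s : Sys F R) (i : Option F) (k : Fin 2) : specW s i k i = none := by
  simp [specW]

theorem specW_label (s : Sys F R) (i : Option F) (k : Fin 2) (j : Fin R) :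
    specW s i k (s.π i k j) = some (ev (s.θ i j) (s.π i k j)) := by
  have h : ∃ j', s.π i k j' = s.π i k j := ⟨j, rfl⟩
  unfold specW
  rw [if_neg (s.part_ne i k j), dif_pos h]
  have h2 : h.choose = j := (s.part_inj i k _ k j h.choose_spec).2
  rw [h2]

theorem specW_base (s : Sys F R) (i : Option F) (k : Fin 2) (p : Option F) (h1 : p ≠ i)
    (h2 : ∀ j, s.π i k j ≠ p) : specW s i k p = some (ev (s.b i k) p) := by
  unfold specW
  rw [if_neg h1, dif_neg (by push Not; exact h2)]

theorem x_mem (s : Sys F R) (i : Option F) : (i, s.X i) ∈ s.K := by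
  simp [Sys.K, Kset]

theorem Jp_mem (s : Sys F R) (i : Option F) (k : Fin 2) (j : Fin R) : Jp s.b s.π i k j ∈ s.K := by
  simp only [Sys.K, Kset, Finset.mem_filter, Finset.mem_univ, true_and]
  right
  exact ⟨i, k, j, rfl⟩

theorem mem_K {s : Sys F R} {z : Pt F} (h : z ∈ s.K) :
    z = (z.1, s.X z.1) ∨ ∃ i k j, z = Jp s.b s.π i k j := by
  simp only [Sys.K, Kset, Finset.mem_filter, Finset.mem_univ, true_and] at h
  rcases h with h | h
  · left
    rw [← h]
  · right; exact h

/-- K-points on a base line -/
theorem K_on_base {s : Sys F R} {z : Pt F} (h : z ∈ s.K) {i : Option F} {k : Fin 2}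
    (hz : On z (s.b i k)) : z = (i, s.X i) ∨ ∃ j, z = Jp s.b s.π i k j := by
  rcases mem_K h with h1 | ⟨i', k', j, h1⟩
  · left
    rw [h1] at hz
    unfold On at hz
    simp only at hz
    by_cases h2 : z.1 = i
    · rw [h1, h2]
    · exact absurd hz (s.tan i k _ h2)
  · right
    by_cases h2 : (i, k) = (i', k')
    · obtain ⟨rfl, rfl⟩ := Prod.mk.inj h2
      exact ⟨j, h1⟩
    · rw [h1] at hz
      exact absurd hz (s.free i' k' j i k h2)

theorem x_on_base (s : Sys F R) (i : Option F) (k : Fin 2) : On (i, s.X i) (s.b i k) := s.base i k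

theorem J_on_base (s : Sys F R) (i : Option F) (k : Fin 2) (j : Fin R) :
    On (Jp s.b s.π i k j) (s.b i k) := rfl

theorem J_ne_x (s : Sys F R) (i : Option F) (k : Fin 2) (j : Fin R) :
    Jp s.b s.π i k j ≠ (i, s.X i) := by
  intro h
  exact s.part_ne i k j (congrArg Prod.fst h)

theorem att_avoid {s : Sys F R} {i : Option F} {z : Pt F} {o : Ln F}
    (h : Att s.X s.b s.π s.θ i z o) {z' : Pt F} (hz' : z' ∈ s.K) (hne : z' ≠ z) : ¬ On z' o := by
  rcases h with ⟨rfl, j, rfl⟩ | ⟨k, j, j', hjj, rfl, rfl⟩
  · exact s.th_avoid i j z' hz' hne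
  · exact s.om_avoid i k j j' hjj z' hz' hne

/-- the lines (as opposed to the special edges) -/
def Pure (s : Sys F R) (o : Ln F) : Prop :=
  (∀ κ ∈ s.K, ¬ On κ o) ∨ ∃ i z, Att s.X s.b s.π s.θ i z o

theorem pure_ne_base {s : Sys F R} (hR : 1 ≤ R) {o : Ln F} (h : Pure s o) (i : Option F)
    (k : Fin 2) : o ≠ s.b i k := by
  rintro rfl
  rcases h with h | ⟨i', z, h⟩
  · exact h _ (x_mem s i) (x_on_base s i k)
  · have h1 : (i, s.X i) = z := by
      by_contra hne
      exact att_avoid h (x_mem s i) hne (x_on_base s i k)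
    have h2 : Jp s.b s.π i k ⟨0, hR⟩ = z := by
      by_contra hne
      exact att_avoid h (Jp_mem s i k _) hne (J_on_base s i k _)
    exact J_ne_x s i k _ (h2.trans h1.symm)

theorem pure_spec {s : Sys F R} (hR : 1 ≤ R) {o : Ln F} (h : Pure s o) (i : Option F)
    (k : Fin 2) : ∃ p, lineW o p = specW s i k p := by
  have hne := pure_ne_base hR h i k
  set p := meet o (s.b i k) with hp
  have hev : ev o p = ev (s.b i k) p := ev_meet hne
  by_cases hK : (p, ev o p) ∈ s.K
  · rcases h with h | ⟨i', z, h⟩
    · exact absurd (On_ev o p) (h _ hK)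
    · have hz : (p, ev o p) = z := by
        by_contra hz
        exact att_avoid h hK hz (On_ev o p)
      have hzb : On z (s.b i k) := by
        rw [← hz]
        unfold On
        exact hev.symm
      rcases h with ⟨h1, j, rfl⟩ | ⟨k', j, j', hjj, h1, rfl⟩
      · -- the attached point is `x_{i'}`
        have h2 : i' = i := by
          by_contra h3
          rw [h1] at hzb
          exact s.tan i k i' h3 hzb
        subst h2
        exact ⟨s.π i' k j, (specW_label s i' k j).symm⟩
      · have h2 : (i, k) = (i', k') := by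
          by_contra h3
          rw [h1] at hzb
          exact s.free i' k' j i k h3 hzb
        obtain ⟨rfl, rfl⟩ := Prod.mk.inj h2
        refine ⟨s.π i k j', ?_⟩
        rw [specW_label]
        unfold lineW
        congr 1
        have h4 : (Jp s.b s.π i k j).1 ≠ (s.π i k j', ev (s.θ i j') (s.π i k j')).1 := by
          intro h5
          exact hjj (s.part_inj i k j k j' h5).2
        exact On_join_right h4
  · refine ⟨p, ?_⟩
    rw [specW_base s i k p]
    · unfold lineW
      rw [hev]
    · intro h1
      apply hK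
      rw [hev, h1, s.base]
      exact x_mem s i
    · intro j h1
      apply hK
      rw [hev, ← h1]
      exact Jp_mem s i k j

theorem spec_spec (s : Sys F R) (i i' : Option F) (k k' : Fin 2) :
    ∃ p, specW s i k p = specW s i' k' p := by
  by_cases hi : i = i'
  · subst hi
    exact ⟨i, by rw [specW_self, specW_self]⟩
  · have hne : s.b i k ≠ s.b i' k' := by
      intro h
      have h1 := s.tan i' k' i hi
      rw [← h, s.base] at h1
      exact h1 rfl
    set p := meet (s.b i k) (s.b i' k') with hp
    have hev : ev (s.b i k) p = ev (s.b i' k') p := ev_meet hne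
    refine ⟨p, ?_⟩
    rw [specW_base s i k p, specW_base s i' k' p, hev]
    · intro h1
      rw [h1, s.base] at hev
      exact s.tan i k i' (Ne.symm hi) hev
    · intro j h1
      have h2 : On (Jp s.b s.π i' k' j) (s.b i k) := by
        unfold On Jp
        simp only
        rw [h1, hev]
      refine s.free i' k' j i k ?_ h2
      intro h3
      exact hi (Prod.mk.inj h3).1
    · intro h1
      rw [h1, s.base] at hev
      exact s.tan i' k' i hi hev.symm
    · intro j h1
      have h2 : On (Jp s.b s.π i k j) (s.b i' k') := by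
        unfold On Jp
        simp only
        rw [h1, hev]
      refine s.free i k j i' k' ?_ h2
      intro h3
      exact hi (Prod.mk.inj h3).1.symm

theorem edge_cases {s : Sys F R} {W : Option F → Option F} (h : IsEdge s W) :
    (∃ o, Pure s o ∧ W = lineW o) ∨ ∃ i k, W = specW s i k := by
  rcases h with ⟨L, h1, h2⟩ | ⟨i, z, o, h1, h2⟩ | h
  · exact Or.inl ⟨L, Or.inl h1, h2⟩
  · exact Or.inl ⟨o, Or.inr ⟨i, z, h1⟩, h2⟩
  · exact Or.inr h

end

end H1

open H1

theorem edgesMeet : EdgesMeet := by
  intro F _ _ R s hR W W' hW hW'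
  rcases edge_cases hW with ⟨o, ho, rfl⟩ | ⟨i, k, rfl⟩
  · rcases edge_cases hW' with ⟨o', ho', rfl⟩ | ⟨i', k', rfl⟩
    · by_cases h : o = o'
      · subst h
        exact ⟨none, rfl⟩
      · refine ⟨meet o o', ?_⟩
        unfold lineW
        rw [ev_meet h]
    · exact pure_spec hR ho i' k'
  · rcases edge_cases hW' with ⟨o', ho', rfl⟩ | ⟨i', k', rfl⟩
    · obtain ⟨p, hp⟩ := pure_spec hR ho' i k
      exact ⟨p, hp.symm⟩
    · exact spec_spec s i i' k k'

end Crest.Agent.R34
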