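import Crest.Agent.R34.Defs2

/-!
# (H2) Covers of size `q` containing a part, or a line which is not a base line.
-/

set_option autoImplicit false

open Finset Classical

namespace Crest.Agent.R34

namespace H2

section
variable {F : Type} [Field F] [Fintype F] {R : ℕ}

/-- `z` is the I-point of gadget `i` or a J-point on `b i k` -/
def Loc (s : Sys F R) (i : Option F) (k : Fin 2) (z : Pt F) : Prop :=
  z = (i, s.X i) ∨ ∃ j, z = Jp s.b s.π i k j

/-- own lines attached at `z` in gadget `i` -/
noncomputable def OL (s : Sys F R) (i : Option F) (z : Pt F) : Finset (Ln F) :=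
  univ.filter (fun o => Att s.X s.b s.π s.θ i z o)

theorem mem_OL {s : Sys F R} {i : Option F} {z : Pt F} {o : Ln F} :
    o ∈ OL s i z ↔ Att s.X s.b s.π s.θ i z o := by
  simp [OL]

theorem card_OL_x (s : Sys F R) (i : Option F) : R ≤ (OL s i (i, s.X i)).card := by
  have h : (univ : Finset (Fin R)).card ≤ (OL s i (i, s.X i)).card := by
    apply Finset.card_le_card_of_injOn (fun j => s.θ i j)
    · intro j _
      simp only [Finset.mem_coe, mem_OL]
      exact Or.inl ⟨rfl, j, rfl⟩
    · intro j _ j' _ h
      exact s.th_inj i j j' h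
  simpa using h

theorem card_OL_J (s : Sys F R) (i : Option F) (k : Fin 2) (j : Fin R) :
    R - 1 ≤ (OL s i (Jp s.b s.π i k j)).card := by
  have h : ((univ : Finset (Fin R)).erase j).card ≤ (OL s i (Jp s.b s.π i k j)).card := by
    apply Finset.card_le_card_of_injOn
      (fun j' => own (Jp s.b s.π i k j) (s.π i k j') (s.θ i j'))
    · intro j' hj'
      simp only [Finset.mem_coe, Finset.mem_erase] at hj'
      simp only [Finset.mem_coe, mem_OL]
      exact Or.inr ⟨k, j, j', fun h => hj'.1 h.symm, rfl, rfl⟩
    · intro j' hj' j'' hj'' h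
      simp only [Finset.mem_coe, Finset.mem_erase] at hj' hj''
      exact s.om_inj i k j j' j'' (fun h => hj'.1 h.symm) (fun h => hj''.1 h.symm) h
  simpa [Finset.card_erase_of_mem] using h

theorem exists_gad (s : Sys F R) {z : Pt F} (h : z ∈ s.K) :
    ∃ i k, Loc s i k z ∧ R - 1 ≤ (OL s i z).card := by
  simp only [Sys.K, Kset, Finset.mem_filter, Finset.mem_univ, true_and] at h
  rcases h with h | ⟨i, k, j, h⟩
  · have h1 : z = (z.1, s.X z.1) := by rw [← h]
    refine ⟨z.1, 0, Or.inl h1, ?_⟩
    rw [h1]
    exact le_trans (Nat.sub_le _ _) (card_OL_x s z.1)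
  · refine ⟨i, k, Or.inr ⟨j, h⟩, ?_⟩
    rw [h]
    exact card_OL_J s i k j

theorem att_on {s : Sys F R} {i : Option F} {z : Pt F} {o : Ln F}
    (h : Att s.X s.b s.π s.θ i z o) : On z o := by
  rcases h with ⟨rfl, j, rfl⟩ | ⟨k, j, j', hjj, rfl, rfl⟩
  · exact s.th_base i j
  · have h4 : (Jp s.b s.π i k j).1 ≠ (s.π i k j', ev (s.θ i j') (s.π i k j')).1 := by
      intro h5
      exact hjj (s.part_inj i k j k j' h5).2
    exact On_join_left h4

theorem loc_on_base {s : Sys F R} {i : Option F} {k : Fin 2} {z : Pt F} (h : Loc s i k z) :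
    On z (s.b i k) := by
  rcases h with rfl | ⟨j, rfl⟩
  · exact s.base i k
  · rfl

/-- the part of the hit of `o` -/
noncomputable def hp (S : Finset (Option F × Option F)) (o : Ln F) : Option F :=
  if h : ∃ p, (p, lineW o p) ∈ S then h.choose else none

theorem hp_spec {s : Sys F R} {S : Finset (Option F × Option F)} (hS : Hits s S) {o : Ln F}
    {i : Option F} {z : Pt F} (h : Att s.X s.b s.π s.θ i z o) :
    (hp S o, some (ev o (hp S o))) ∈ S := by
  have h1 : ∃ p, (p, lineW o p) ∈ S := hS _ (Or.inr (Or.inl ⟨i, z, o, h, rfl⟩))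
  unfold hp
  rw [dif_pos h1]
  exact h1.choose_spec

theorem loc_line {s : Sys F R} {i : Option F} {k : Fin 2} {z z' : Pt F} {L : Ln F}
    (hL : L ≠ s.b i k) (h : Loc s i k z) (h' : Loc s i k z') (hz : On z L) (hz' : On z' L) :
    z = z' := by
  apply On_inj hz hz'
  by_contra hne
  exact hL (On_unique hne hz hz' (loc_on_base h) (loc_on_base h'))

theorem loc_part {s : Sys F R} {i : Option F} {k k' : Fin 2} {z z' : Pt F}
    (h : Loc s i k z) (h' : Loc s i k' z') (hz : z.1 = z'.1) : z = z' := by
  rcases h with rfl | ⟨j, rfl⟩
  · rcases h' with rfl | ⟨j', rfl⟩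
    · rfl
    · exact absurd hz.symm (s.part_ne i k' j')
  · rcases h' with rfl | ⟨j', rfl⟩
    · exact absurd hz (s.part_ne i k j)
    · obtain ⟨rfl, rfl⟩ := s.part_inj i k j k' j' hz
      rfl

end

end H2

open H2

theorem casePart : CasePart := by
  intro F _ _ R s hR S hS hcard p hp0
  -- choose gadgets
  have hg : ∀ z : Pt F, ∃ i : Option F, ∃ k : Fin 2, z ∈ s.K → Loc s i k z ∧ R - 1 ≤ (OL s i z).card := by
    intro z
    by_cases hz : z ∈ s.K
    · obtain ⟨i, k, h⟩ := exists_gad s hz
      exact ⟨i, k, fun _ => h⟩
    · exact ⟨none, 0, fun h => absurd h hz⟩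
  choose γ κ hγ using hg
  -- missing values
  set A : Finset F := univ.filter (fun y : F => (p, some y) ∉ S) with hA
  set Y : Finset F := univ.filter (fun y : F => (p, some y) ∈ S) with hY
  set V : Finset (Option F × Option F) := S.filter (fun v => ∀ y : F, v ≠ (p, some y)) with hV
  have hAY : Y.card + A.card = Fintype.card F := by
    rw [hA, hY]
    have := Finset.card_filter_add_card_filter_not (s := (univ : Finset F))
      (fun y : F => (p, some y) ∈ S)
    simpa using this
  have hAK : ∀ y ∈ A, ((p, y) : Pt F) ∈ s.K := by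
    intro y hy
    by_contra h
    simp only [hA, Finset.mem_filter, Finset.mem_univ, true_and] at hy
    exact hy (hp0 (p, y) rfl h)
  have hYV : Y.card + V.card ≤ S.card := by
    have h1 : Y.card ≤ (S.filter (fun v => ¬ ∀ y : F, v ≠ (p, some y))).card := by
      apply Finset.card_le_card_of_injOn (fun y => (p, some y))
      · intro y hy
        simp only [hY, Finset.mem_coe, Finset.mem_filter, Finset.mem_univ, true_and] at hy ⊢
        exact ⟨hy, fun h => h y rfl⟩
      · intro y _ y' _ h
        simpa using h
    have h2 : V.card + (S.filter (fun v => ¬ ∀ y : F, v ≠ (p, some y))).card = S.card := by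
      rw [hV]
      exact Finset.card_filter_add_card_filter_not _
    omega
  have hVA : V.card ≤ A.card := by omega
  -- pairs
  have hP : A.card * (R - 1) ≤ (A.sigma (fun y => OL s (γ (p, y)) (p, y))).card := by
    rw [Finset.card_sigma]
    rw [← smul_eq_mul, ← Finset.sum_const]
    apply Finset.sum_le_sum
    intro y hy
    exact (hγ _ (hAK y hy)).2
  have hPV : (A.sigma (fun y => OL s (γ (p, y)) (p, y))).card ≤ 4 * V.card := by
    apply Finset.card_le_mul_card_image_of_maps_to
      (f := fun a => (hp S a.2, some (ev a.2 (hp S a.2))))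
    · rintro ⟨y, o⟩ ha
      simp only [Finset.mem_sigma, mem_OL] at ha
      have h1 := hp_spec hS ha.2
      simp only [hV, Finset.mem_filter]
      refine ⟨h1, ?_⟩
      intro y' h2
      simp only [Prod.mk.injEq, Option.some.injEq] at h2
      have h3 : On ((p, y) : Pt F) o := att_on ha.2
      unfold On at h3
      simp only at h3
      have h4 : (p, some y) ∈ S := by
        rw [← h3, ← h2.1]
        exact h1
      have h5 := ha.1
      simp only [hA, Finset.mem_filter, Finset.mem_univ, true_and] at h5
      exact h5 h4
    · intro v hv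
      simp only [hV, Finset.mem_filter] at hv
      -- the fibre
      by_cases hv2 : ∃ y₀ : F, v.2 = some y₀
      · obtain ⟨y₀, hy₀⟩ := hv2
        have hvp : v.1 ≠ p := by
          intro h
          exact hv.2 y₀ (Prod.ext h hy₀)
        refine le_trans ?_ (s.five_part p (v.1, y₀) hvp)
        apply Finset.card_le_card_of_injOn (fun a => γ (p, a.1))
        · rintro ⟨y, o⟩ ha
          simp only [Finset.mem_coe, Finset.mem_filter, Finset.mem_sigma, mem_OL] at ha
          obtain ⟨⟨h1, h2⟩, h3⟩ := ha
          simp only [Finset.mem_coe, Finset.mem_filter, Finset.mem_univ, true_and]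
          refine ⟨(p, y), o, h2, rfl, ?_⟩
          unfold On
          simp only
          rw [← h3] at hy₀
          simp only [Option.some.injEq] at hy₀
          rw [← hy₀, ← h3]
        · rintro ⟨y, o⟩ ha ⟨y', o'⟩ ha' hEq
          simp only [Finset.mem_coe, Finset.mem_filter, Finset.mem_sigma, mem_OL] at ha ha'
          simp only at hEq
          obtain ⟨⟨h1, h2⟩, h3⟩ := ha
          obtain ⟨⟨h1', h2'⟩, h3'⟩ := ha'
          have hl := (hγ _ (hAK y h1)).1
          have hl' := (hγ _ (hAK y' h1')).1
          rw [← hEq] at hl'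
          have h5 : ((p, y) : Pt F) = (p, y') := loc_part hl hl' rfl
          have h6 : y = y' := (Prod.mk.inj h5).2
          subst h6
          have hon : On ((v.1, y₀) : Pt F) o := by
            unfold On
            simp only
            have h7 := hy₀
            rw [← h3] at h7
            simp only [Option.some.injEq] at h7
            rw [← h7, ← h3]
          have hon' : On ((v.1, y₀) : Pt F) o' := by
            unfold On
            simp only
            have h7 := hy₀
            rw [← h3'] at h7
            simp only [Option.some.injEq] at h7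
            rw [← h7, ← h3']
          have h8 : o = o' := On_unique (z := (p, y)) (z' := (v.1, y₀)) (fun h => hvp h.symm)
            (att_on h2) hon (att_on h2') hon'
          subst h8
          rfl
      · have h0 : (Finset.filter (fun a : (_ : F) × Ln F => (hp S a.2, some (ev a.2 (hp S a.2))) = v)
            (A.sigma (fun y => OL s (γ (p, y)) (p, y)))) = ∅ := by
          apply Finset.filter_false_of_mem
          rintro ⟨y, o⟩ _ h
          apply hv2
          exact ⟨_, by rw [← h]⟩
        rw [h0]
        simp
  -- conclusion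
  have h9 : 9 ≤ R - 1 := by omega
  have hA0 : A.card = 0 := by
    by_contra hne
    have : A.card * 9 ≤ A.card * (R - 1) := Nat.mul_le_mul_left _ h9
    omega
  have hV0 : V = ∅ := by
    apply Finset.card_eq_zero.mp
    omega
  obtain ⟨p', hp'⟩ := hS _ (Or.inr (Or.inr ⟨p, 0, rfl⟩))
  have h10 : (p', specW s p 0 p') ∉ V := by
    rw [hV0]
    simp
  apply h10
  simp only [hV, Finset.mem_filter]
  refine ⟨hp', ?_⟩
  intro y h11
  have h12 := (Prod.mk.inj h11).1
  have h13 := (Prod.mk.inj h11).2
  subst h12
  simp [specW] at h13

theorem caseLine : CaseLine := by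
  intro F _ _ R s hR S hS hcard L hL hL0
  have hg : ∀ z : Pt F, ∃ i : Option F, ∃ k : Fin 2, z ∈ s.K → Loc s i k z ∧ R - 1 ≤ (OL s i z).card := by
    intro z
    by_cases hz : z ∈ s.K
    · obtain ⟨i, k, h⟩ := exists_gad s hz
      exact ⟨i, k, fun _ => h⟩
    · exact ⟨none, 0, fun h => absurd h hz⟩
  choose γ κ hγ using hg
  set A : Finset (Option F) := univ.filter (fun p => (p, some (ev L p)) ∉ S) with hA
  set Y : Finset (Option F) := univ.filter (fun p => (p, some (ev L p)) ∈ S) with hY
  set V : Finset (Option F × Option F) := S.filter (fun v => v ≠ (v.1, some (ev L v.1))) with hV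
  have hAY : Y.card + A.card = Fintype.card F + 1 := by
    rw [hA, hY]
    have := Finset.card_filter_add_card_filter_not (s := (univ : Finset (Option F)))
      (fun p => (p, some (ev L p)) ∈ S)
    simpa using this
  have hAK : ∀ p ∈ A, ((p, ev L p) : Pt F) ∈ s.K := by
    intro p hp1
    by_contra h
    simp only [hA, Finset.mem_filter, Finset.mem_univ, true_and] at hp1
    exact hp1 (hL0 (p, ev L p) (On_ev L p) h)
  have hYV : Y.card + V.card ≤ S.card := by
    have h1 : Y.card ≤ (S.filter (fun v => ¬ (v ≠ (v.1, some (ev L v.1))))).card := by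
      apply Finset.card_le_card_of_injOn (fun p => (p, some (ev L p)))
      · intro y hy
        simp only [hY, Finset.mem_coe, Finset.mem_filter, Finset.mem_univ, true_and] at hy ⊢
        exact ⟨hy, fun h => h rfl⟩
      · intro y _ y' _ h
        exact (Prod.mk.inj h).1
    have h2 : V.card + (S.filter (fun v => ¬ (v ≠ (v.1, some (ev L v.1))))).card = S.card := by
      rw [hV]
      exact Finset.card_filter_add_card_filter_not _
    omega
  have hVA : V.card + 1 ≤ A.card := by omega
  have hP : A.card * (R - 2) ≤
      (A.sigma (fun p => (OL s (γ (p, ev L p)) (p, ev L p)).erase L)).card := by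
    rw [Finset.card_sigma]
    rw [← smul_eq_mul, ← Finset.sum_const]
    apply Finset.sum_le_sum
    intro y hy
    have h1 := (hγ _ (hAK y hy)).2
    have h2 := Finset.pred_card_le_card_erase (s := OL s (γ (y, ev L y)) (y, ev L y)) (a := L)
    omega
  have hPV : (A.sigma (fun p => (OL s (γ (p, ev L p)) (p, ev L p)).erase L)).card ≤
      8 * V.card := by
    apply Finset.card_le_mul_card_image_of_maps_to
      (f := fun a => (hp S a.2, some (ev a.2 (hp S a.2))))
    · rintro ⟨p, o⟩ ha
      simp only [Finset.mem_sigma, Finset.mem_erase, mem_OL] at ha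
      obtain ⟨h1, h2, h3⟩ := ha
      have h4 := hp_spec hS h3
      simp only [hV, Finset.mem_filter]
      refine ⟨h4, ?_⟩
      intro h5
      have h6 : ev o (hp S o) = ev L (hp S o) := by
        have := (Prod.mk.inj h5).2
        simpa using this
      have h7 : ev o p = ev L p := att_on h3
      have h8 := (ev_eq_iff h2 _).mp h6
      have h9 := (ev_eq_iff h2 _).mp h7
      have h10 : hp S o = p := h8.trans h9.symm
      rw [h10] at h4
      rw [h7] at h4
      simp only [hA, Finset.mem_filter, Finset.mem_univ, true_and] at h1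
      exact h1 h4
    · intro v hv
      simp only [hV, Finset.mem_filter] at hv
      by_cases hv2 : ∃ y₀ : F, v.2 = some y₀
      · obtain ⟨y₀, hy₀⟩ := hv2
        have hvL : ¬ On ((v.1, y₀) : Pt F) L := by
          intro h
          apply hv.2
          unfold On at h
          simp only at h
          rw [h, ← hy₀]
        have h5 := s.five L hL (v.1, y₀) hvL
        have h6 : ((univ.filter (fun i => ∃ z o, Att s.X s.b s.π s.θ i z o ∧ On z L ∧
            On ((v.1, y₀) : Pt F) o)) ×ˢ (univ : Finset (Fin 2))).card ≤ 8 := by
          rw [Finset.card_product]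
          simp only [Finset.card_univ, Fintype.card_fin]
          omega
        refine le_trans ?_ h6
        have hon : ∀ p o, (⟨p, o⟩ : (_ : Option F) × Ln F) ∈ (Finset.filter
            (fun a : (_ : Option F) × Ln F => (hp S a.2, some (ev a.2 (hp S a.2))) = v)
            (A.sigma (fun p => (OL s (γ (p, ev L p)) (p, ev L p)).erase L))) →
            On ((v.1, y₀) : Pt F) o := by
          intro p o ha
          simp only [Finset.mem_filter, Finset.mem_sigma] at ha
          obtain ⟨_, h3⟩ := ha
          unfold On
          simp only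
          have h7 := hy₀
          rw [← h3] at h7
          simp only [Option.some.injEq] at h7
          rw [← h7, ← h3]
        apply Finset.card_le_card_of_injOn (fun a => (γ (a.1, ev L a.1), κ (a.1, ev L a.1)))
        · rintro ⟨p, o⟩ ha
          have hon1 := hon p o ha
          simp only [Finset.mem_coe, Finset.mem_filter, Finset.mem_sigma, Finset.mem_erase,
            mem_OL] at ha
          obtain ⟨⟨h1, h2, h2'⟩, h3⟩ := ha
          simp only [Finset.coe_product, Finset.coe_univ, Set.mem_prod, Finset.mem_coe,
            Finset.mem_filter, Finset.mem_univ, true_and, Set.mem_univ, and_true]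
          exact ⟨(p, ev L p), o, h2', On_ev L p, hon1⟩
        · rintro ⟨p, o⟩ ha ⟨p', o'⟩ ha' hEq
          have hon1 := hon p o ha
          have hon2 := hon p' o' ha'
          simp only [Finset.mem_coe, Finset.mem_filter, Finset.mem_sigma, Finset.mem_erase,
            mem_OL] at ha ha'
          simp only [Prod.mk.injEq] at hEq
          obtain ⟨⟨h1, h2, h2a⟩, h3⟩ := ha
          obtain ⟨⟨h1', h2', h2a'⟩, h3'⟩ := ha'
          have hl := (hγ _ (hAK p h1)).1
          have hl' := (hγ _ (hAK p' h1')).1
          rw [← hEq.1, ← hEq.2] at hl'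
          have h5 : ((p, ev L p) : Pt F) = (p', ev L p') :=
            loc_line (hL _ _) hl hl' (On_ev L p) (On_ev L p')
          have h6 : p = p' := (Prod.mk.inj h5).1
          subst h6
          have hvp : p ≠ v.1 := by
            intro h
            apply hvL
            have h7 : ((v.1, y₀) : Pt F) = (p, ev L p) := On_inj hon1 (att_on h2a) h.symm
            rw [h7]
            exact On_ev L p
          have h8 : o = o' := On_unique (z := (p, ev L p)) (z' := (v.1, y₀)) hvp
            (att_on h2a) hon1 (att_on h2a') hon2
          subst h8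
          rfl
      · have h0 : (Finset.filter
            (fun a : (_ : Option F) × Ln F => (hp S a.2, some (ev a.2 (hp S a.2))) = v)
            (A.sigma (fun p => (OL s (γ (p, ev L p)) (p, ev L p)).erase L))) = ∅ := by
          apply Finset.filter_false_of_mem
          rintro ⟨y, o⟩ _ h
          apply hv2
          exact ⟨_, by rw [← h]⟩
        rw [h0]
        simp
  have h8 : 8 ≤ R - 2 := by omega
  have h9 : A.card * 8 ≤ A.card * (R - 2) := Nat.mul_le_mul_left _ h8
  omega

end Crest.Agent.R34
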