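import Crest.Agent.R34.Defs2

/-!
# Row 34, task H3: the case of a base line.
-/

set_option autoImplicit false
set_option linter.unusedSectionVars false
set_option linter.unusedVariables false

open Finset Classical

namespace Crest.Agent.R34

namespace H3

section
variable {F : Type} [Field F] [Fintype F]

theorem line_eq {L L' : Ln F} {i p : Option F} (h : p ≠ i) (h1 : ev L i = ev L' i)
    (h2 : ev L p = ev L' p) : L = L' := by
  by_contra h3
  have e1 := (ev_eq_iff h3 i).mp h1
  have e2 := (ev_eq_iff h3 p).mp h2
  exact h (e2.trans e1.symm)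

theorem ev_own {z : Pt F} {i : Option F} (L : Ln F) (h : z.1 ≠ i) : ev (own z i L) i = ev L i :=
  On_join_right (z := z) (z' := (i, ev L i)) h

theorem on_own {z : Pt F} {i : Option F} (L : Ln F) (h : z.1 ≠ i) : On z (own z i L) :=
  On_join_left (z := z) (z' := (i, ev L i)) h

/-- two distinct points are on at most one line -/
theorem line_unique {z z' : Pt F} {L L' : Ln F} (h : z ≠ z') (h1 : On z L) (h2 : On z' L)
    (h3 : On z L') (h4 : On z' L') : L = L' :=
  On_unique (fun he => h (On_inj h1 h2 he)) h1 h2 h3 h4

/-- a point as a vertex -/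
def emb (z : Pt F) : Option F × Option F := (z.1, some z.2)

theorem emb_inj : Function.Injective (emb (F := F)) := by
  intro z z' h
  have h1 : z.1 = z'.1 := congrArg (fun x : Option F × Option F => x.1) h
  have h2 : some z.2 = some z'.2 := congrArg (fun x : Option F × Option F => x.2) h
  exact Prod.ext h1 (Option.some.inj h2)

variable {R : ℕ} (s : Sys F R) (i : Option F) (k : Fin 2)

/-- J-points -/
def J (j : Fin R) : Pt F := Jp s.b s.π i k j
/-- labels -/
def Y (j : Fin R) : Pt F := (s.π i k j, ev (s.θ i j) (s.π i k j))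
/-- own lines -/
noncomputable def om (j j' : Fin R) : Ln F := own (J s i k j) (s.π i k j') (s.θ i j')

theorem J_on (j : Fin R) : On (J s i k j) (s.b i k) := rfl

theorem J_mem (j : Fin R) : J s i k j ∈ s.K :=
  mem_filter.mpr ⟨mem_univ _, Or.inr ⟨i, k, j, rfl⟩⟩

theorem Ip_mem : (i, s.X i) ∈ s.K :=
  mem_filter.mpr ⟨mem_univ _, Or.inl rfl⟩

theorem J_ne_Ip (j : Fin R) (i' : Option F) : J s i k j ≠ (i', s.X i') := by
  intro h
  have h1 : s.π i k j = i' := congrArg Prod.fst h
  have h2 : ev (s.b i k) (s.π i k j) = s.X i' := congrArg Prod.snd h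
  rw [h1] at h2
  refine s.tan i k i' ?_ h2
  rw [← h1]
  exact s.part_ne i k j

/-- K-points of the base line -/
theorem K_base {p : Option F} (h : (p, ev (s.b i k) p) ∈ s.K) : p = i ∨ ∃ j, p = s.π i k j := by
  rcases (mem_filter.mp h).2 with h1 | ⟨i', k', j', h1⟩
  · left
    by_contra hne
    exact s.tan i k p hne h1
  · right
    have h2 : (i, k) = (i', k') := by
      by_contra hne
      apply s.free i' k' j' i k hne
      rw [← h1]
      rfl
    obtain ⟨h3, h4⟩ := Prod.ext_iff.mp h2
    simp only at h3 h4
    subst h3 h4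
    exact ⟨j', congrArg Prod.fst h1⟩

/-- `θ i j` avoids all J-points -/
theorem th_ne (j : Fin R) (k' : Fin 2) (j' : Fin R) :
    ev (s.θ i j) (s.π i k' j') ≠ ev (s.b i k') (s.π i k' j') :=
  s.th_avoid i j (J s i k' j') (J_mem s i k' j') (J_ne_Ip s i k' j' i)

theorem th_ne_base (j : Fin R) (k' : Fin 2) (hR : 0 < R) : s.θ i j ≠ s.b i k' := by
  intro h
  apply th_ne s i j k' ⟨0, hR⟩
  rw [h]

/-- `θ i j` meets base lines of gadget `i` only at `x_i` -/
theorem th_ev_ne (j : Fin R) (k' : Fin 2) (hR : 0 < R) {p : Option F} (hp : p ≠ i) :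
    ev (s.θ i j) p ≠ ev (s.b i k') p := by
  intro h
  exact th_ne_base s i j k' hR (line_eq hp ((s.th_base i j).trans (s.base i k').symm) h)

theorem J_fst (j : Fin R) : (J s i k j).1 = s.π i k j := rfl

theorem pi_ne {j j' : Fin R} (h : j ≠ j') : (J s i k j).1 ≠ s.π i k j' :=
  fun he => h (s.part_inj i k j k j' he).2

theorem J_om {j j' : Fin R} (h : j ≠ j') : On (J s i k j) (om s i k j j') :=
  on_own _ (pi_ne s i k h)

theorem Y_om {j j' : Fin R} (h : j ≠ j') : On (Y s i k j') (om s i k j j') :=
  ev_own _ (pi_ne s i k h)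

theorem Y_not_on (hR : 0 < R) (j : Fin R) : ¬ On (Y s i k j) (s.b i k) :=
  fun h => th_ev_ne s i j k hR (s.part_ne i k j) h.symm

theorem om_ne_base (hR : 0 < R) {j j' : Fin R} (h : j ≠ j') : om s i k j j' ≠ s.b i k := by
  intro he
  have h1 := Y_om s i k h
  rw [he] at h1
  exact Y_not_on s i k hR j' h1

theorem om_base (hR : 0 < R) {j j' : Fin R} (h : j ≠ j') {v : Pt F} (h1 : On v (om s i k j j'))
    (h2 : On v (s.b i k)) : v = J s i k j := by
  by_contra hne
  exact om_ne_base s i k hR h (line_unique hne h1 (J_om s i k h) h2 (J_on s i k j))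

theorem om_K {j j' : Fin R} (h : j ≠ j') {v : Pt F} (h1 : On v (om s i k j j'))
    (h2 : v ∈ s.K) : v = J s i k j := by
  by_contra hne
  exact s.om_avoid i k j j' h v h2 hne h1

theorem om_edge {j j' : Fin R} (h : j ≠ j') : IsEdge s (lineW (om s i k j j')) :=
  Or.inr (Or.inl ⟨i, J s i k j, om s i k j j', Or.inr ⟨k, j, j', h, rfl, rfl⟩, rfl⟩)

theorem J_injective : Function.Injective (J s i k) := by
  intro j j' h
  exact (s.part_inj i k j k j' (congrArg Prod.fst h)).2

theorem Y_injective : Function.Injective (Y s i k) := by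
  intro j j' h
  exact (s.part_inj i k j k j' (congrArg Prod.fst h)).2

theorem J_ne_Y (hR : 0 < R) (j j' : Fin R) : J s i k j ≠ Y s i k j' := by
  intro h
  apply Y_not_on s i k hR j'
  rw [← h]
  exact J_on s i k j

/-- the points of the base line outside `K` -/
noncomputable def S' : Finset (Option F × Option F) :=
  (univ.filter (fun p : Option F => (p, ev (s.b i k) p) ∉ s.K)).image
    (fun p => emb (p, ev (s.b i k) p))

theorem mem_S' {v : Pt F} : emb v ∈ S' s i k ↔ On v (s.b i k) ∧ v ∉ s.K := by
  unfold S'
  rw [mem_image]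
  constructor
  · rintro ⟨p, hp, he⟩
    have h1 := emb_inj he
    subst h1
    exact ⟨rfl, (mem_filter.mp hp).2⟩
  · rintro ⟨h1, h2⟩
    have h3 : (v.1, ev (s.b i k) v.1) = v := Prod.ext rfl h1
    refine ⟨v.1, mem_filter.mpr ⟨mem_univ _, ?_⟩, ?_⟩
    · rw [h3]; exact h2
    · rw [h3]

theorem card_S' : Fintype.card F ≤ (S' s i k).card + R := by
  unfold S'
  rw [card_image_of_injective]
  · have h1 : (univ : Finset (Option F)).card ≤
        (univ.filter (fun p : Option F => (p, ev (s.b i k) p) ∉ s.K)).card + (R + 1) := by
      have hsub : (univ : Finset (Option F)) ⊆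
          univ.filter (fun p : Option F => (p, ev (s.b i k) p) ∉ s.K) ∪
            insert i (univ.image (fun j => s.π i k j)) := by
        intro p _
        by_cases hp : (p, ev (s.b i k) p) ∈ s.K
        · apply mem_union_right
          rcases K_base s i k hp with h | ⟨j, h⟩
          · rw [h]; exact mem_insert_self _ _
          · apply mem_insert_of_mem
            rw [mem_image]
            exact ⟨j, mem_univ _, h.symm⟩
        · exact mem_union_left _ (mem_filter.mpr ⟨mem_univ _, hp⟩)
      refine (card_le_card hsub).trans ((card_union_le _ _).trans ?_)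
      apply Nat.add_le_add_left
      refine (card_insert_le _ _).trans ?_
      apply Nat.add_le_add_right
      refine card_image_le.trans ?_
      rw [Finset.card_univ, Fintype.card_fin]
    rw [Finset.card_univ, Fintype.card_option] at h1
    omega
  · intro p p' h
    exact congrArg Prod.fst (emb_inj h)

end

end H3

open H3 in
theorem caseBase : CaseBase := by
  intro F _ _ R s hR S hS hcard i k hℓ
  have hR0 : 0 < R := by omega
  set A := (univ : Finset (Fin R)).filter (fun j => emb (J s i k j) ∉ S) with hA
  set B := (univ : Finset (Fin R)).filter (fun j => emb (Y s i k j) ∉ S) with hB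
  set A' := (univ : Finset (Fin R)).filter (fun j => emb (J s i k j) ∈ S) with hA'
  set B' := (univ : Finset (Fin R)).filter (fun j => emb (Y s i k j) ∈ S) with hB'
  set IJ := A'.image (fun j => emb (J s i k j)) with hIJ
  set IY := B'.image (fun j => emb (Y s i k j)) with hIY
  set Vo := S.filter (fun x => x ∉ S' s i k ∧ (∀ j, x ≠ emb (J s i k j)) ∧
    (∀ j, x ≠ emb (Y s i k j))) with hVo
  have hAA : A'.card + A.card = R := by
    rw [hA', hA, Finset.card_filter_add_card_filter_not, Finset.card_univ, Fintype.card_fin]
  have hBB : B'.card + B.card = R := by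
    rw [hB', hB, Finset.card_filter_add_card_filter_not, Finset.card_univ, Fintype.card_fin]
  have cIJ : IJ.card = A'.card :=
    card_image_of_injective _ (emb_inj.comp (J_injective s i k))
  have cIY : IY.card = B'.card :=
    card_image_of_injective _ (emb_inj.comp (Y_injective s i k))
  have hS'S : S' s i k ⊆ S := by
    intro x hx
    unfold S' at hx
    rw [mem_image] at hx
    obtain ⟨p, hp, rfl⟩ := hx
    exact hℓ (p, ev (s.b i k) p) rfl (mem_filter.mp hp).2
  -- counting S
  have hcount : (S' s i k).card + A'.card + B'.card + Vo.card ≤ S.card := by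
    have d1 : Disjoint (S' s i k) IJ := by
      rw [Finset.disjoint_left]
      intro x hx hx'
      rw [hIJ, mem_image] at hx'
      obtain ⟨j, _, rfl⟩ := hx'
      exact ((mem_S' s i k).mp hx).2 (J_mem s i k j)
    have d2 : Disjoint (S' s i k ∪ IJ) IY := by
      rw [Finset.disjoint_left]
      intro x hx hx'
      rw [hIY, mem_image] at hx'
      obtain ⟨j, _, rfl⟩ := hx'
      rcases mem_union.mp hx with hx | hx
      · exact Y_not_on s i k hR0 j ((mem_S' s i k).mp hx).1
      · rw [hIJ, mem_image] at hx
        obtain ⟨j', _, he⟩ := hx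
        exact J_ne_Y s i k hR0 j' j (emb_inj he)
    have d3 : Disjoint (S' s i k ∪ IJ ∪ IY) Vo := by
      rw [Finset.disjoint_left]
      intro x hx hx'
      obtain ⟨h1, h2, h3, h4⟩ := mem_filter.mp hx'
      rcases mem_union.mp hx with hx | hx
      · rcases mem_union.mp hx with hx | hx
        · exact h2 hx
        · rw [hIJ, mem_image] at hx
          obtain ⟨j', _, he⟩ := hx
          exact h3 j' he.symm
      · rw [hIY, mem_image] at hx
        obtain ⟨j', _, he⟩ := hx
        exact h4 j' he.symm
    have hsub : S' s i k ∪ IJ ∪ IY ∪ Vo ⊆ S := by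
      intro x hx
      rcases mem_union.mp hx with hx | hx
      · rcases mem_union.mp hx with hx | hx
        · rcases mem_union.mp hx with hx | hx
          · exact hS'S hx
          · rw [hIJ, mem_image] at hx
            obtain ⟨j, hj, rfl⟩ := hx
            exact (mem_filter.mp hj).2
        · rw [hIY, mem_image] at hx
          obtain ⟨j, hj, rfl⟩ := hx
          exact (mem_filter.mp hj).2
      · exact (mem_filter.mp hx).1
    have h1 := card_le_card hsub
    rw [card_union_of_disjoint d3, card_union_of_disjoint d2, card_union_of_disjoint d1,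
      cIJ, cIY] at h1
    exact h1
  have hS'c := card_S' s i k
  -- Vo is nonempty
  have hVo1 : 1 ≤ Vo.card := by
    rw [Nat.one_le_iff_ne_zero, ← Nat.pos_iff_ne_zero, Finset.card_pos]
    obtain ⟨k', hk'⟩ : ∃ k' : Fin 2, k' ≠ k := by
      fin_cases k
      · exact ⟨1, by decide⟩
      · exact ⟨0, by decide⟩
    have hbb : s.b i k' ≠ s.b i k := by
      have := s.ne i
      fin_cases k <;> fin_cases k' <;> first | exact absurd rfl hk' | exact this | exact this.symm
    obtain ⟨p, hp⟩ := hS (specW s i k') (Or.inr (Or.inr ⟨i, k', rfl⟩))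
    refine ⟨(p, specW s i k' p), mem_filter.mpr ⟨hp, ?_⟩⟩
    by_cases hpi : p = i
    · have h1 : specW s i k' p = none := by
        unfold specW
        rw [if_pos hpi]
      rw [h1]
      refine ⟨?_, ?_, ?_⟩
      · intro h
        unfold S' at h
        rw [mem_image] at h
        obtain ⟨p', _, he⟩ := h
        have : (some (ev (s.b i k) p') : Option F) = none := congrArg Prod.snd he
        exact absurd this (by simp)
      · intro j he
        have : (none : Option F) = some (J s i k j).2 := congrArg Prod.snd he
        exact absurd this (by simp)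
      · intro j he
        have : (none : Option F) = some (Y s i k j).2 := congrArg Prod.snd he
        exact absurd this (by simp)
    · by_cases hex : ∃ j, s.π i k' j = p
      · have h1 : specW s i k' p = some (ev (s.θ i hex.choose) p) := by
          unfold specW
          rw [if_neg hpi, dif_pos hex]
        have hch := hex.choose_spec
        rw [h1]
        have hne := th_ev_ne s i hex.choose k hR0 hpi
        have e1 : ((p, some (ev (s.θ i hex.choose) p)) : Option F × Option F) =
          emb (p, ev (s.θ i hex.choose) p) := rfl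
        rw [e1]
        refine ⟨?_, ?_, ?_⟩
        · intro h
          exact hne ((mem_S' s i k).mp h).1.symm
        · intro j he
          have h2 := emb_inj he
          have h3 : p = s.π i k j := congrArg Prod.fst h2
          have h4 : ev (s.θ i hex.choose) p = ev (s.b i k) (s.π i k j) := congrArg Prod.snd h2
          rw [← h3] at h4
          exact hne h4
        · intro j he
          have h2 := emb_inj he
          have h3 : p = s.π i k j := congrArg Prod.fst h2
          rw [← hch] at h3
          exact hk' (s.part_inj i k' _ k _ h3).1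
      · have h1 : specW s i k' p = some (ev (s.b i k') p) := by
          unfold specW
          rw [if_neg hpi, dif_neg hex]
        rw [h1]
        have hne : ev (s.b i k') p ≠ ev (s.b i k) p := by
          intro h
          exact hbb (line_eq hpi ((s.base i k').trans (s.base i k).symm) h)
        have e1 : ((p, some (ev (s.b i k') p)) : Option F × Option F) =
          emb (p, ev (s.b i k') p) := rfl
        rw [e1]
        refine ⟨?_, ?_, ?_⟩
        · intro h
          exact hne ((mem_S' s i k).mp h).1.symm
        · intro j he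
          have h2 := emb_inj he
          have h3 : p = s.π i k j := congrArg Prod.fst h2
          have h4 : ev (s.b i k') p = ev (s.b i k) (s.π i k j) := congrArg Prod.snd h2
          rw [← h3] at h4
          exact hne h4
        · intro j he
          have h2 := emb_inj he
          have h3 : p = s.π i k j := congrArg Prod.fst h2
          have h4 : ev (s.b i k') p = ev (s.θ i j) (s.π i k j) := congrArg Prod.snd h2
          rw [← h3] at h4
          exact th_ev_ne s i j k' hR0 hpi h4.symm
  -- the pairs
  set P := (A ×ˢ B).filter (fun x => x.1 ≠ x.2) with hP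
  have hPc : P.card ≤ Vo.card * 2 := by
    have hsub : P ⊆ Vo.biUnion (fun x => P.filter (fun y =>
        ∃ v : Pt F, x = emb v ∧ On v (om s i k y.1 y.2))) := by
      rintro ⟨j, j'⟩ hjj
      obtain ⟨h1, hne⟩ := mem_filter.mp hjj
      obtain ⟨hj, hj'⟩ := mem_product.mp h1
      simp only at hj hj' hne
      have hjS := (mem_filter.mp hj).2
      have hjS' := (mem_filter.mp hj').2
      obtain ⟨p, hp⟩ := hS _ (om_edge s i k hne)
      set v : Pt F := (p, ev (om s i k j j') p) with hv
      have hvo : On v (om s i k j j') := rfl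
      have hvS : emb v ∈ S := hp
      rw [mem_biUnion]
      refine ⟨emb v, mem_filter.mpr ⟨hvS, ?_, ?_, ?_⟩, mem_filter.mpr ⟨hjj, v, rfl, hvo⟩⟩
      · intro h
        obtain ⟨h2, h3⟩ := (mem_S' s i k).mp h
        apply h3
        rw [om_base s i k hR0 hne hvo h2]
        exact J_mem s i k j
      · intro j₂ he
        have h2 := emb_inj he
        have h3 : On v (s.b i k) := by rw [h2]; exact J_on s i k j₂
        have h4 := om_base s i k hR0 hne hvo h3
        rw [h4] at hvS
        exact hjS hvS
      · intro j₂ he
        have h2 := emb_inj he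
        by_cases e1 : j₂ = j'
        · subst e1
          rw [h2] at hvS
          exact hjS' hvS
        · by_cases e2 : j₂ = j
          · subst e2
            have h3 : v.1 = (J s i k j₂).1 := by rw [h2]; rfl
            have h4 := On_inj hvo (J_om s i k hne) h3
            rw [h4] at hvS
            exact hjS hvS
          · have hyo : On (Y s i k j₂) (om s i k j j') := by rw [← h2]; exact hvo
            have h5 : om s i k j j' = om s i k j j₂ :=
              line_unique (J_ne_Y s i k hR0 j j₂) (J_om s i k hne) hyo
                (J_om s i k (Ne.symm e2)) (Y_om s i k (Ne.symm e2))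
            exact e1 (s.om_inj i k j j' j₂ hne (Ne.symm e2) h5).symm
    refine (card_le_card hsub).trans (Finset.card_biUnion_le_card_mul _ _ 2 ?_)
    intro x hx
    by_contra hcon
    push Not at hcon
    obtain ⟨y₁, hy₁, y₂, hy₂, y₃, hy₃, n12, n13, n23⟩ := Finset.two_lt_card.mp hcon
    obtain ⟨p1, v, rfl, v1⟩ := mem_filter.mp hy₁
    obtain ⟨p2, v', hvv, v2⟩ := mem_filter.mp hy₂
    obtain ⟨p3, v'', hvv', v3⟩ := mem_filter.mp hy₃
    have e1 := emb_inj hvv
    have e2 := emb_inj hvv'
    subst e1
    subst e2
    obtain ⟨_, q1, q2, q3⟩ := mem_filter.mp hx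
    have n1 := (mem_filter.mp p1).2
    have n2 := (mem_filter.mp p2).2
    have n3 := (mem_filter.mp p3).2
    have hvJ : ∀ j, v ≠ J s i k j := fun j h => q2 j (by rw [h])
    have hvY : ∀ j, v ≠ Y s i k j := fun j h => q3 j (by rw [h])
    have hvK : v ∉ s.K := fun h => hvJ _ (om_K s i k n1 v1 h)
    have hvb : ¬ On v (s.b i k) := fun h => q1 ((mem_S' s i k).mpr ⟨h, hvK⟩)
    have key : ∀ y y' : Fin R × Fin R, y ≠ y' → y.1 ≠ y.2 → y'.1 ≠ y'.2 →
        On v (om s i k y.1 y.2) → On v (om s i k y'.1 y'.2) → y.1 ≠ y'.1 ∧ y.2 ≠ y'.2 := by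
      intro y y' hyy m m' o o'
      constructor
      · intro he
        have o2 := o'
        rw [← he] at o2
        have m2 : y.1 ≠ y'.2 := by rw [he]; exact m'
        have h5 := line_unique (hvJ y.1) o (J_om s i k m) o2 (J_om s i k m2)
        have h6 := s.om_inj i k y.1 y.2 y'.2 m m2 h5
        exact hyy (Prod.ext he h6)
      · intro he
        have o2 := o'
        rw [← he] at o2
        have m2 : y'.1 ≠ y.2 := by rw [he]; exact m'
        have h5 := line_unique (hvY y.2) o (Y_om s i k m) o2 (Y_om s i k m2)
        have hne : y.1 ≠ y'.1 := fun h => hyy (Prod.ext h he)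
        have h6 : On (J s i k y'.1) (om s i k y.1 y.2) := by rw [h5]; exact J_om s i k m2
        have hJJ : J s i k y.1 ≠ J s i k y'.1 := fun h => hne (J_injective s i k h)
        exact om_ne_base s i k hR0 m (line_unique hJJ (J_om s i k m) h6 (J_on s i k _) (J_on s i k _))
    have k12 := key y₁ y₂ n12 n1 n2 v1 v2
    have k13 := key y₁ y₃ n13 n1 n3 v1 v3
    have k23 := key y₂ y₃ n23 n2 n3 v2 v3
    exact s.conc i k v hvb y₁.1 y₂.1 y₃.1 y₁.2 y₂.2 y₃.2 n1 n2 n3 k12.1 k13.1 k23.1 k12.2 k13.2
      k23.2 v1 v2 v3
  -- counting pairs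
  have hD : (A ×ˢ B).card = P.card + ((A ×ˢ B).filter (fun x => ¬ x.1 ≠ x.2)).card := by
    rw [hP, Finset.card_filter_add_card_filter_not]
  rw [card_product] at hD
  have hD1 : ((A ×ˢ B).filter (fun x => ¬ x.1 ≠ x.2)).card ≤ A.card := by
    apply Finset.card_le_card_of_injOn Prod.fst
    · intro x hx
      exact Finset.mem_coe.mpr (mem_product.mp (mem_filter.mp hx).1).1
    · intro x hx y hy h
      have h1 := (mem_filter.mp hx).2
      have h2 := (mem_filter.mp hy).2
      push Not at h1 h2
      exact Prod.ext h (by rw [← h1, ← h2]; exact h)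
  have hD2 : ((A ×ˢ B).filter (fun x => ¬ x.1 ≠ x.2)).card ≤ B.card := by
    apply Finset.card_le_card_of_injOn Prod.snd
    · intro x hx
      exact Finset.mem_coe.mpr (mem_product.mp (mem_filter.mp hx).1).2
    · intro x hx y hy h
      have h1 := (mem_filter.mp hx).2
      have h2 := (mem_filter.mp hy).2
      push Not at h1 h2
      exact Prod.ext (by rw [h1, h2]; exact h) h
  generalize ((A ×ˢ B).filter (fun x => ¬ x.1 ≠ x.2)).card = D at *
  generalize A.card = a at *
  generalize B.card = b at *
  generalize A'.card = a' at *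
  generalize B'.card = b' at *
  generalize P.card = m at *
  generalize Vo.card = c at *
  have e1 : a' + b' + c ≤ R := by omega
  have e2 : c ≤ a := by omega
  have e3 : c ≤ b := by omega
  have e4 : R + c ≤ a + b := by omega
  rcases le_total a b with h | h
  · have h1 : 6 ≤ b := by omega
    nlinarith
  · have h1 : 6 ≤ a := by omega
    nlinarith

end Crest.Agent.R34
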