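import Crest.Agent.R34.H1

/-!
# (H4) The hypergraph of a system, and the final packaging.
-/

set_option autoImplicit false

open Finset Classical

namespace Crest.Agent.R34

namespace H4

section
variable {F : Type} [Field F] [Fintype F] {R : ℕ}

/-- the set of vertices of a word -/
noncomputable def gr (W : Option F → Option F) : Finset (Option F × Option F) :=
  univ.filter (fun v => W v.1 = v.2)

omit [Field F] in
theorem mem_gr {W : Option F → Option F} {v : Option F × Option F} : v ∈ gr W ↔ W v.1 = v.2 := by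
  simp [gr]

/-- the edge set -/
noncomputable def edges (s : Sys F R) : Finset (Finset (Option F × Option F)) :=
  (univ.filter (fun W : Option F → Option F => IsEdge s W)).image gr

theorem mem_edges {s : Sys F R} {e : Finset (Option F × Option F)} :
    e ∈ edges s ↔ ∃ W, IsEdge s W ∧ gr W = e := by
  simp [edges]

theorem gr_mem {s : Sys F R} {W : Option F → Option F} (h : IsEdge s W) : gr W ∈ edges s :=
  mem_edges.2 ⟨W, h, rfl⟩

theorem vertex (s : Sys F R) (hR : 2 ≤ R) (v : Option F × Option F) : ∃ e ∈ edges s, v ∈ e := by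
  obtain ⟨p, x⟩ := v
  cases x with
  | none =>
    exact ⟨gr (specW s p 0), gr_mem (Or.inr (Or.inr ⟨p, 0, rfl⟩)), mem_gr.2 (H1.specW_self s p 0)⟩
  | some y =>
    by_cases hK : ((p, y) : Pt F) ∈ s.K
    · rcases H1.mem_K hK with h1 | ⟨i, k, j, h1⟩
      · have hy : y = s.X p := congrArg Prod.snd h1
        subst hy
        refine ⟨gr (lineW (s.θ p ⟨0, by omega⟩)), gr_mem (Or.inr (Or.inl ⟨p, (p, s.X p), _,
          Or.inl ⟨rfl, _, rfl⟩, rfl⟩)), mem_gr.2 ?_⟩
        unfold lineW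
        simp only
        rw [s.th_base]
      · have hne : ∃ j' : Fin R, j ≠ j' := by
          by_cases hj : j = ⟨0, by omega⟩
          · refine ⟨⟨1, by omega⟩, ?_⟩
            rw [hj]
            intro h
            exact absurd (congrArg Fin.val h) (by norm_num)
          · exact ⟨⟨0, by omega⟩, hj⟩
        obtain ⟨j', hj'⟩ := hne
        refine ⟨gr (lineW (own (Jp s.b s.π i k j) (s.π i k j') (s.θ i j'))),
          gr_mem (Or.inr (Or.inl ⟨i, _, _, Or.inr ⟨k, j, j', hj', rfl, rfl⟩, rfl⟩)), mem_gr.2 ?_⟩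
        have h4 : (Jp s.b s.π i k j).1 ≠ (s.π i k j', ev (s.θ i j') (s.π i k j')).1 := by
          intro h5
          exact hj' (s.part_inj i k j k j' h5).2
        have h5 := On_join_left h4
        rw [← h1] at h5
        unfold lineW
        simp only
        rw [← h1]
        congr 1
    · obtain ⟨L, hL, hL'⟩ := s.degT (p, y) hK
      refine ⟨gr (lineW L), gr_mem (Or.inl ⟨L, hL', rfl⟩), mem_gr.2 ?_⟩
      unfold lineW
      simp only
      exact congrArg some hL

end

/-- transfer to `Fin N` -/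
theorem transfer {V P : Type} [Fintype V] [Fintype P] [DecidableEq V] [DecidableEq P] (part : V → P) (E : Finset (Finset V))
    (m : ℕ) (hm : Fintype.card P = m) (hE : E.Nonempty)
    (h1 : ∀ e ∈ E, ∀ i, (e.filter (fun v => part v = i)).card = 1)
    (h2 : ∀ e ∈ E, ∀ f ∈ E, (e ∩ f).Nonempty)
    (h3 : ∀ i, (univ.filter (fun v => part v = i)).card = m)
    (h4 : ∀ v, ∃ e ∈ E, v ∈ e)
    (h5 : ∀ S : Finset V, (∀ e ∈ E, (e ∩ S).Nonempty) → m ≤ S.card) :
    ∃ (N : ℕ) (part : Fin N → Fin m) (E : Finset (Finset (Fin N))),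
        E.Nonempty ∧
        (∀ e ∈ E, ∀ i : Fin m, (e.filter (fun v => part v = i)).card = 1) ∧
        (∀ e ∈ E, ∀ f ∈ E, (e ∩ f).Nonempty) ∧
        (∀ i : Fin m, (Finset.univ.filter (fun v => part v = i)).card = m) ∧
        (∀ v : Fin N, ∃ e ∈ E, v ∈ e) ∧
        (∀ S : Finset (Fin N), (∀ e ∈ E, (e ∩ S).Nonempty) → m ≤ S.card) := by
  obtain ⟨e1⟩ : Nonempty (V ≃ Fin (Fintype.card V)) := ⟨Fintype.equivFin V⟩
  obtain ⟨e2⟩ : Nonempty (P ≃ Fin m) := ⟨Fintype.equivFinOfCardEq hm⟩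
  have hfil : ∀ (e : Finset V) (i : Fin m),
      (e.map e1.toEmbedding).filter (fun v => e2 (part (e1.symm v)) = i) =
        (e.filter (fun v => part v = e2.symm i)).map e1.toEmbedding := by
    intro e i
    ext v
    simp only [Finset.mem_filter, Finset.mem_map, Equiv.coe_toEmbedding]
    constructor
    · rintro ⟨⟨w, hw, rfl⟩, h⟩
      refine ⟨w, ⟨hw, ?_⟩, rfl⟩
      rw [Equiv.symm_apply_apply] at h
      rw [← h, Equiv.symm_apply_apply]
    · rintro ⟨w, ⟨hw, h⟩, rfl⟩
      refine ⟨⟨w, hw, rfl⟩, ?_⟩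
      rw [Equiv.symm_apply_apply, h, Equiv.apply_symm_apply]
  refine ⟨Fintype.card V, fun v => e2 (part (e1.symm v)), E.image (fun e => e.map e1.toEmbedding),
    hE.image _, ?_, ?_, ?_, ?_, ?_⟩
  · intro e he i
    obtain ⟨e', he', rfl⟩ := Finset.mem_image.1 he
    rw [hfil, Finset.card_map]
    exact h1 e' he' _
  · intro e he f hf
    obtain ⟨e', he', rfl⟩ := Finset.mem_image.1 he
    obtain ⟨f', hf', rfl⟩ := Finset.mem_image.1 hf
    obtain ⟨v, hv⟩ := h2 e' he' f' hf'
    rw [Finset.mem_inter] at hv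
    refine ⟨e1 v, Finset.mem_inter.2 ⟨?_, ?_⟩⟩
    · exact Finset.mem_map.2 ⟨v, hv.1, rfl⟩
    · exact Finset.mem_map.2 ⟨v, hv.2, rfl⟩
  · intro i
    have h := hfil univ i
    have hu : (univ : Finset V).map e1.toEmbedding = univ := by
      ext v
      simp only [Finset.mem_map, Finset.mem_univ, Equiv.coe_toEmbedding, true_and, iff_true]
      exact ⟨e1.symm v, e1.apply_symm_apply v⟩
    rw [hu] at h
    rw [h, Finset.card_map]
    exact h3 _
  · intro v
    obtain ⟨e, he, hv⟩ := h4 (e1.symm v)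
    refine ⟨e.map e1.toEmbedding, Finset.mem_image.2 ⟨e, he, rfl⟩, Finset.mem_map.2 ⟨_, hv, ?_⟩⟩
    exact e1.apply_symm_apply v
  · intro S hS
    have h := h5 (S.map e1.symm.toEmbedding) (by
      intro e he
      obtain ⟨v, hv⟩ := hS _ (Finset.mem_image.2 ⟨e, he, rfl⟩)
      rw [Finset.mem_inter] at hv
      obtain ⟨w, hw, rfl⟩ := Finset.mem_map.1 hv.1
      refine ⟨w, Finset.mem_inter.2 ⟨hw, Finset.mem_map.2 ⟨e1 w, hv.2, ?_⟩⟩⟩
      exact e1.symm_apply_apply w)
    rwa [Finset.card_map] at h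

end H4

open H4

theorem hyperThm_of (h1 : EdgesMeet) (h2 : CasePart) (h3 : CaseLine) (h4 : CaseBase) :
    HyperThm := by
  intro F _ _ R hR s
  refine ⟨edges s, ⟨_, gr_mem (Or.inr (Or.inr ⟨none, 0, rfl⟩))⟩, ?_, ?_, vertex s (by omega), ?_⟩
  · intro e he i
    obtain ⟨W, _, rfl⟩ := mem_edges.1 he
    rw [Finset.card_eq_one]
    refine ⟨(i, W i), ?_⟩
    ext v
    rw [Finset.mem_filter, mem_gr, Finset.mem_singleton]
    constructor
    · rintro ⟨h, rfl⟩
      rw [h]
    · rintro rfl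
      exact ⟨rfl, rfl⟩
  · intro e he f hf
    obtain ⟨W, hW, rfl⟩ := mem_edges.1 he
    obtain ⟨W', hW', rfl⟩ := mem_edges.1 hf
    obtain ⟨p, hp⟩ := h1 F R s (by omega) W W' hW hW'
    exact ⟨(p, W p), Finset.mem_inter.2 ⟨mem_gr.2 rfl, mem_gr.2 hp.symm⟩⟩
  · intro S hS
    by_contra hlt
    have hcard : S.card ≤ Fintype.card F := by omega
    have hH : Hits s S := by
      intro W hW
      obtain ⟨v, hv⟩ := hS _ (gr_mem hW)
      rw [Finset.mem_inter, mem_gr] at hv
      refine ⟨v.1, ?_⟩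
      rw [hv.1]
      exact hv.2
    set S' : Finset (Pt F) := univ.filter (fun z => (z.1, some z.2) ∈ S ∧ z ∉ s.K) with hS'
    have hmem : ∀ z, z ∈ S' ↔ (z.1, some z.2) ∈ S ∧ z ∉ s.K := by
      intro z
      rw [hS', Finset.mem_filter]
      simp
    have hS'c : S'.card ≤ Fintype.card F := by
      refine le_trans ?_ hcard
      refine Finset.card_le_card_of_injOn (fun z : Pt F => (z.1, some z.2)) ?_ ?_
      · intro z hz
        exact ((hmem z).1 (Finset.mem_coe.1 hz)).1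
      · intro z _ z' _ h
        have ha := congrArg Prod.fst h
        have hb := Option.some.inj (congrArg Prod.snd h)
        exact Prod.ext ha hb
    have hcov := s.covers S' (fun z hz => ((hmem z).1 hz).2) hS'c (by
      intro L hL
      obtain ⟨p, hp⟩ := hH (lineW L) (Or.inl ⟨L, hL, rfl⟩)
      refine ⟨(p, ev L p), (hmem _).2 ⟨hp, fun hK => hL _ hK (On_ev L p)⟩, On_ev L p⟩)
    rcases hcov with ⟨L, hL⟩ | ⟨i, hi⟩
    · by_cases hb : ∃ i k, L = s.b i k
      · obtain ⟨i, k, rfl⟩ := hb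
        exact h4 F R s hR S hH hcard i k (fun z hz hK => ((hmem z).1 (hL z hz hK)).1)
      · push Not at hb
        exact h3 F R s hR S hH hcard L hb (fun z hz hK => ((hmem z).1 (hL z hz hK)).1)
    · exact h2 F R s hR S hH hcard i (fun z hz hK => ((hmem z).1 (hi z hz hK)).1)

/-- transfer of `MainThm` for a field -/
theorem main_transfer (h : MainThm) : ∃ q₀ : ℕ, ∀ (F : Type) [Field F] [Fintype F] (p k : ℕ),
    p.Prime → Odd k → Fintype.card F = p ^ k → q₀ ≤ Fintype.card F →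
    ∃ (N : ℕ) (part : Fin N → Fin (Fintype.card F + 1)) (E : Finset (Finset (Fin N))),
        E.Nonempty ∧
        (∀ e ∈ E, ∀ i : Fin (Fintype.card F + 1), (e.filter (fun v => part v = i)).card = 1) ∧
        (∀ e ∈ E, ∀ f ∈ E, (e ∩ f).Nonempty) ∧
        (∀ i : Fin (Fintype.card F + 1),
          (Finset.univ.filter (fun v => part v = i)).card = Fintype.card F + 1) ∧
        (∀ v : Fin N, ∃ e ∈ E, v ∈ e) ∧
        (∀ S : Finset (Fin N), (∀ e ∈ E, (e ∩ S).Nonempty) → Fintype.card F + 1 ≤ S.card) := by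
  obtain ⟨q₀, h⟩ := h
  refine ⟨q₀, fun F _ _ p k hp hk hF hq => ?_⟩
  obtain ⟨E, hE, h1, h2, h3, h4⟩ := h F p k hp hk hF hq
  refine transfer (V := Option F × Option F) (P := Option F) (fun v => v.1) E
    (Fintype.card F + 1) Fintype.card_option hE h1 h2 ?_ h3 h4
  intro i
  have h5 : (univ.filter (fun v : Option F × Option F => v.1 = i)) =
      (univ : Finset (Option F)).map ⟨fun y => (i, y), Prod.mk_right_injective i⟩ := by
    ext v
    rw [Finset.mem_filter, Finset.mem_map]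
    constructor
    · rintro ⟨_, rfl⟩
      exact ⟨v.2, Finset.mem_univ _, rfl⟩
    · rintro ⟨y, _, rfl⟩
      exact ⟨Finset.mem_univ _, rfl⟩
  rw [h5, Finset.card_map, Finset.card_univ, Fintype.card_option]

end Crest.Agent.R34

namespace Crest.Agent.R34

theorem s0045_of (h : MainThm) :
    ∃ q₀ : ℕ, ∀ q : ℕ, q₀ ≤ q → q.Prime →
      ∃ (N : ℕ) (part : Fin N → Fin (q + 1)) (E : Finset (Finset (Fin N))),
        E.Nonempty ∧
        (∀ e ∈ E, ∀ i : Fin (q + 1), (e.filter (fun v => part v = i)).card = 1) ∧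
        (∀ e ∈ E, ∀ f ∈ E, (e ∩ f).Nonempty) ∧
        (∀ i : Fin (q + 1), (Finset.univ.filter (fun v => part v = i)).card = q + 1) ∧
        (∀ v : Fin N, ∃ e ∈ E, v ∈ e) ∧
        (∀ S : Finset (Fin N), (∀ e ∈ E, (e ∩ S).Nonempty) → q + 1 ≤ S.card) := by
  obtain ⟨q₀, h⟩ := main_transfer h
  refine ⟨q₀, fun q hq hp => ?_⟩
  have : Fact q.Prime := ⟨hp⟩
  have h1 := h (ZMod q) q 1 hp odd_one (by rw [ZMod.card, pow_one]) (by rw [ZMod.card]; exact hq)
  rw [ZMod.card] at h1
  exact h1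

theorem s0046_of (h : MainThm) :
    ∃ s₀ : ℕ, ∀ s : ℕ, s₀ ≤ s → s.Prime → s % 3 = 2 →
      ∃ n₀ : ℕ, 3 ≤ n₀ ∧ ∀ n : ℕ, n₀ ≤ n → Odd n →
        ∃ (N : ℕ) (part : Fin N → Fin (s ^ n + 1)) (E : Finset (Finset (Fin N))),
          E.Nonempty ∧
          (∀ e ∈ E, ∀ i : Fin (s ^ n + 1), (e.filter (fun v => part v = i)).card = 1) ∧
          (∀ e ∈ E, ∀ f ∈ E, (e ∩ f).Nonempty) ∧
          (∀ S : Finset (Fin N), (∀ e ∈ E, (e ∩ S).Nonempty) → s ^ n + 1 ≤ S.card) := by
  obtain ⟨q₀, h⟩ := main_transfer h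
  refine ⟨2, fun s hs hp _ => ⟨max 3 q₀, le_max_left _ _, fun n hn hodd => ?_⟩⟩
  have : Fact s.Prime := ⟨hp⟩
  have hn3 : 3 ≤ n := (le_max_left _ _).trans hn
  have hnq : q₀ ≤ n := (le_max_right _ _).trans hn
  have : Fintype (GaloisField s n) := Fintype.ofFinite _
  have hc : Fintype.card (GaloisField s n) = s ^ n := by
    rw [← Nat.card_eq_fintype_card]
    exact GaloisField.card s n (by omega)
  have hbig : q₀ ≤ Fintype.card (GaloisField s n) := by
    rw [hc]
    exact hnq.trans (Nat.lt_pow_self hp.one_lt).le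
  have key := h (GaloisField s n) s n hp hodd hc hbig
  rw [hc] at key
  obtain ⟨N, part, E, h1, h2, h3, _, _, h4⟩ := key
  exact ⟨N, part, E, h1, h2, h3, h4⟩

end Crest.Agent.R34
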