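import Crest.Agent.R34.Defs

set_option autoImplicit false

open Finset Classical

namespace Crest.Agent.R34

set_option maxHeartbeats 4000000 in
/-- Graph lemma (paths of length three). -/
theorem bsg_graph {G : Type} (A B : Finset G) (E : Finset (G × G)) (N K : ℝ) (hK : 1 ≤ K)
    (hN : 0 < N) (hE : E ⊆ A ×ˢ B) (hA : (A.card : ℝ) ≤ N) (hB : (B.card : ℝ) ≤ N)
    (hcard : N ^ 2 ≤ K * E.card) :
    ∃ A' B' : Finset G, A' ⊆ A ∧ B' ⊆ B ∧ N ≤ 6 * K * A'.card ∧ N ≤ 4 * K * B'.card ∧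
      ∀ a ∈ A', ∀ b ∈ B', N ^ 2 ≤ 3072 * K ^ 5 *
        ((A ×ˢ B).filter (fun p => (a, p.2) ∈ E ∧ (p.1, p.2) ∈ E ∧ (p.1, b) ∈ E)).card := by
  have hK0 : 0 < K := by linarith
  set nb : G → Finset G := fun a => B.filter (fun b => (a, b) ∈ E) with hnb
  -- degrees
  have hEcard : (E.card : ℝ) = ∑ a ∈ A, ((nb a).card : ℝ) := by
    have h1 : E = (A ×ˢ B).filter (fun p => p ∈ E) := by
      ext p
      simp only [mem_filter]
      exact ⟨fun h => ⟨hE h, h⟩, fun h => h.2⟩
    have h2 : E.card = ∑ a ∈ A, (nb a).card := by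
      conv_lhs => rw [h1]
      rw [Finset.card_filter, Finset.sum_product]
      refine Finset.sum_congr rfl fun a _ => ?_
      rw [hnb, Finset.card_filter]
    rw [h2]; push_cast; rfl
  set A₁ : Finset G := A.filter (fun a => N ≤ 2 * K * ((nb a).card : ℝ)) with hA₁
  have hA₁A : A₁ ⊆ A := Finset.filter_subset _ _
  have hA₁N : (A₁.card : ℝ) ≤ N := le_trans (by exact_mod_cast Finset.card_le_card hA₁A) hA
  have hsum1 : N ^ 2 ≤ 2 * K * ∑ a ∈ A₁, ((nb a).card : ℝ) := by
    have h1 : ∑ a ∈ A, ((nb a).card : ℝ) = ∑ a ∈ A₁, ((nb a).card : ℝ) +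
        ∑ a ∈ A.filter (fun a => ¬ (N ≤ 2 * K * ((nb a).card : ℝ))), ((nb a).card : ℝ) :=
      (Finset.sum_filter_add_sum_filter_not A _ _).symm
    have h2 : 2 * K * ∑ a ∈ A.filter (fun a => ¬ (N ≤ 2 * K * ((nb a).card : ℝ))),
        ((nb a).card : ℝ) ≤ N ^ 2 := by
      rw [Finset.mul_sum]
      calc ∑ a ∈ A.filter (fun a => ¬ (N ≤ 2 * K * ((nb a).card : ℝ))), 2 * K * ((nb a).card : ℝ)
          ≤ ∑ a ∈ A.filter (fun a => ¬ (N ≤ 2 * K * ((nb a).card : ℝ))), N := by
            refine Finset.sum_le_sum fun a ha => ?_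
            exact (not_le.mp (Finset.mem_filter.mp ha).2).le
        _ = ((A.filter (fun a => ¬ (N ≤ 2 * K * ((nb a).card : ℝ)))).card : ℝ) * N := by
            rw [Finset.sum_const, nsmul_eq_mul]
        _ ≤ N * N := by
            refine mul_le_mul_of_nonneg_right (le_trans ?_ hA) hN.le
            exact_mod_cast Finset.card_filter_le _ _
        _ = N ^ 2 := by ring
    rw [hEcard, h1] at hcard
    nlinarith
  set M : G → Finset G := fun b => A₁.filter (fun a => (a, b) ∈ E) with hM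
  have hswap : ∀ S : Finset G, ∑ b ∈ B, ((S.filter (fun a => (a, b) ∈ E)).card : ℝ) =
      ∑ a ∈ S, ((nb a).card : ℝ) := by
    intro S
    have : ∑ b ∈ B, (S.filter (fun a => (a, b) ∈ E)).card = ∑ a ∈ S, (nb a).card := by
      simp only [hnb, Finset.card_filter]
      exact Finset.sum_comm
    exact_mod_cast this
  have hBne : B.Nonempty := by
    rcases Finset.eq_empty_or_nonempty B with h | h
    · exfalso
      have : E = ∅ := by
        rw [← Finset.subset_empty]
        refine hE.trans ?_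
        rw [h]; simp
      rw [this] at hcard
      simp at hcard
      nlinarith
    · exact h
  have hsq : N ^ 3 ≤ 4 * K ^ 2 * ∑ b ∈ B, ((M b).card : ℝ) ^ 2 := by
    have h1 : (∑ b ∈ B, ((M b).card : ℝ)) ^ 2 ≤ B.card * ∑ b ∈ B, ((M b).card : ℝ) ^ 2 :=
      sq_sum_le_card_mul_sum_sq
    have h2 : ∑ b ∈ B, ((M b).card : ℝ) = ∑ a ∈ A₁, ((nb a).card : ℝ) := hswap A₁
    rw [h2] at h1
    have h3 : 0 ≤ ∑ b ∈ B, ((M b).card : ℝ) ^ 2 := Finset.sum_nonneg fun _ _ => by positivity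
    have h4 : (N ^ 2) ^ 2 ≤ (2 * K * ∑ a ∈ A₁, ((nb a).card : ℝ)) ^ 2 :=
      pow_le_pow_left₀ (by positivity) hsum1 2
    have h5 : (B.card : ℝ) * ∑ b ∈ B, ((M b).card : ℝ) ^ 2 ≤ N * ∑ b ∈ B, ((M b).card : ℝ) ^ 2 :=
      mul_le_mul_of_nonneg_right hB h3
    have h6 : N * N ^ 3 ≤ N * (4 * K ^ 2 * ∑ b ∈ B, ((M b).card : ℝ) ^ 2) := by
      calc N * N ^ 3 = (N ^ 2) ^ 2 := by ring
        _ ≤ (2 * K * ∑ a ∈ A₁, ((nb a).card : ℝ)) ^ 2 := h4
        _ = 4 * K ^ 2 * (∑ a ∈ A₁, ((nb a).card : ℝ)) ^ 2 := by ring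
        _ ≤ 4 * K ^ 2 * (N * ∑ b ∈ B, ((M b).card : ℝ) ^ 2) :=
            mul_le_mul_of_nonneg_left (h1.trans h5) (by positivity)
        _ = N * (4 * K ^ 2 * ∑ b ∈ B, ((M b).card : ℝ) ^ 2) := by ring
    exact le_of_mul_le_mul_left h6 hN
  -- bad pairs
  set bad : G → G → Prop := fun a a' => 128 * K ^ 3 * ((nb a ∩ nb a').card : ℝ) < N with hbad
  set bd : G → ℝ := fun b => (((M b ×ˢ M b).filter (fun p => bad p.1 p.2)).card : ℝ) with hbd
  have hbdsum : 128 * K ^ 3 * ∑ b ∈ B, bd b ≤ N ^ 3 := by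
    have h1 : ∑ b ∈ B, ((M b ×ˢ M b).filter (fun p => bad p.1 p.2)).card =
        ∑ p ∈ (A₁ ×ˢ A₁).filter (fun p => bad p.1 p.2), (nb p.1 ∩ nb p.2).card := by
      have e1 : ∀ b ∈ B, ((M b ×ˢ M b).filter (fun p => bad p.1 p.2)).card =
          ∑ p ∈ (A₁ ×ˢ A₁).filter (fun p => bad p.1 p.2),
            if (p.1, b) ∈ E ∧ (p.2, b) ∈ E then 1 else 0 := by
        intro b _
        rw [← Finset.card_filter]
        congr 1
        ext ⟨x, y⟩
        simp only [hM, mem_filter, mem_product]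
        tauto
      have e2 : ∀ p ∈ (A₁ ×ˢ A₁).filter (fun p => bad p.1 p.2), (nb p.1 ∩ nb p.2).card =
          ∑ b ∈ B, if (p.1, b) ∈ E ∧ (p.2, b) ∈ E then 1 else 0 := by
        intro p _
        rw [← Finset.card_filter]
        congr 1
        ext y
        simp only [hnb, mem_filter, mem_inter]
        tauto
      rw [Finset.sum_congr rfl e1, Finset.sum_congr rfl e2]
      exact Finset.sum_comm
    have h2 : ∑ b ∈ B, bd b =
        ∑ p ∈ (A₁ ×ˢ A₁).filter (fun p => bad p.1 p.2), ((nb p.1 ∩ nb p.2).card : ℝ) := by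
      have := congrArg (fun n : ℕ => (n : ℝ)) h1
      push_cast at this
      exact this
    rw [h2, Finset.mul_sum]
    calc ∑ p ∈ (A₁ ×ˢ A₁).filter (fun p => bad p.1 p.2),
          128 * K ^ 3 * ((nb p.1 ∩ nb p.2).card : ℝ)
        ≤ ∑ p ∈ (A₁ ×ˢ A₁).filter (fun p => bad p.1 p.2), N :=
          Finset.sum_le_sum fun p hp => (Finset.mem_filter.mp hp).2.le
      _ = (((A₁ ×ˢ A₁).filter (fun p => bad p.1 p.2)).card : ℝ) * N := by
          rw [Finset.sum_const, nsmul_eq_mul]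
      _ ≤ ((A₁ ×ˢ A₁).card : ℝ) * N := by
          refine mul_le_mul_of_nonneg_right ?_ hN.le
          exact_mod_cast Finset.card_filter_le _ _
      _ = (A₁.card : ℝ) * A₁.card * N := by
          rw [Finset.card_product]; push_cast; ring
      _ ≤ N * N * N := by
          refine mul_le_mul_of_nonneg_right ?_ hN.le
          exact mul_le_mul hA₁N hA₁N (by positivity) hN.le
      _ = N ^ 3 := by ring
  -- choice of `b₀`
  obtain ⟨b₀, hb₀, hb₀2⟩ : ∃ b ∈ B, N ^ 2 ≤ 8 * K ^ 2 * (((M b).card : ℝ) ^ 2 - 16 * K * bd b) := by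
    refine Finset.exists_le_of_sum_le hBne ?_
    rw [Finset.sum_const, nsmul_eq_mul, ← Finset.mul_sum, Finset.sum_sub_distrib, ← Finset.mul_sum]
    have h1 : (B.card : ℝ) * N ^ 2 ≤ N ^ 3 := by nlinarith [sq_nonneg N]
    nlinarith
  set A₂ : Finset G := M b₀ with hA₂
  have hA₂A₁ : A₂ ⊆ A₁ := Finset.filter_subset _ _
  have hA₂A : A₂ ⊆ A := hA₂A₁.trans hA₁A
  have hbd0 : 0 ≤ bd b₀ := by rw [hbd]; positivity
  have hA₂big : N ≤ 3 * K * A₂.card := by
    have h1 : N ^ 2 ≤ (3 * K * A₂.card) ^ 2 := by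
      have : 0 ≤ 8 * K ^ 2 * (16 * K * bd b₀) := by positivity
      have h2 : 0 ≤ K ^ 2 * (A₂.card : ℝ) ^ 2 := by positivity
      nlinarith
    exact le_of_sq_le_sq h1 (by positivity)
  have hbad2 : 16 * K * bd b₀ ≤ (A₂.card : ℝ) ^ 2 := by
    have h1 : 0 ≤ ((A₂.card : ℝ) ^ 2 - 16 * K * bd b₀) := by
      have h2 : 0 < 8 * K ^ 2 := by positivity
      have h3 : 0 ≤ 8 * K ^ 2 * ((A₂.card : ℝ) ^ 2 - 16 * K * bd b₀) :=
        le_trans (by positivity) hb₀2
      exact nonneg_of_mul_nonneg_right h3 h2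
    linarith
  have hA₂pos : 0 < (A₂.card : ℝ) := by
    by_contra h
    have : (A₂.card : ℝ) = 0 := le_antisymm (not_lt.mp h) (by positivity)
    rw [this] at hA₂big
    linarith
  set A' : Finset G := A₂.filter
    (fun a => 8 * K * ((A₂.filter (fun a' => bad a a')).card : ℝ) ≤ A₂.card) with hA'
  set B' : Finset G := B.filter
    (fun b => (A₂.card : ℝ) ≤ 4 * K * ((A₂.filter (fun a' => (a', b) ∈ E)).card : ℝ)) with hB'
  refine ⟨A', B', (Finset.filter_subset _ _).trans hA₂A, Finset.filter_subset _ _, ?_, ?_, ?_⟩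
  · -- size of `A'`
    have h1 : bd b₀ = ∑ a ∈ A₂, ((A₂.filter (fun a' => bad a a')).card : ℝ) := by
      have : ((A₂ ×ˢ A₂).filter (fun p => bad p.1 p.2)).card =
          ∑ a ∈ A₂, (A₂.filter (fun a' => bad a a')).card := by
        rw [Finset.card_filter, Finset.sum_product]
        refine Finset.sum_congr rfl fun a _ => ?_
        rw [Finset.card_filter]
      have h := congrArg (fun n : ℕ => (n : ℝ)) this
      push_cast at h
      exact h
    have h2 : ((A₂.filter (fun a => ¬ (8 * K * ((A₂.filter (fun a' => bad a a')).card : ℝ) ≤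
        A₂.card))).card : ℝ) * A₂.card ≤ 8 * K * bd b₀ := by
      rw [h1, Finset.mul_sum, ← nsmul_eq_mul, ← Finset.sum_const]
      calc ∑ a ∈ A₂.filter (fun a => ¬ (8 * K * ((A₂.filter (fun a' => bad a a')).card : ℝ) ≤
            A₂.card)), (A₂.card : ℝ)
          ≤ ∑ a ∈ A₂.filter (fun a => ¬ (8 * K * ((A₂.filter (fun a' => bad a a')).card : ℝ) ≤
            A₂.card)), 8 * K * ((A₂.filter (fun a' => bad a a')).card : ℝ) :=
            Finset.sum_le_sum fun a ha => (not_le.mp (Finset.mem_filter.mp ha).2).le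
        _ ≤ ∑ a ∈ A₂, 8 * K * ((A₂.filter (fun a' => bad a a')).card : ℝ) :=
            Finset.sum_le_sum_of_subset_of_nonneg (Finset.filter_subset _ _)
              (fun _ _ _ => by positivity)
    have h3 : ((A'.card : ℝ)) + ((A₂.filter (fun a => ¬ (8 * K *
        ((A₂.filter (fun a' => bad a a')).card : ℝ) ≤ A₂.card))).card : ℝ) = A₂.card := by
      have := Finset.card_filter_add_card_filter_not (s := A₂)
        (fun a => 8 * K * ((A₂.filter (fun a' => bad a a')).card : ℝ) ≤ A₂.card)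
      exact_mod_cast this
    set n' : ℝ := ((A₂.filter (fun a => ¬ (8 * K *
        ((A₂.filter (fun a' => bad a a')).card : ℝ) ≤ A₂.card))).card : ℝ)
    have h4 : n' * A₂.card ≤ (A₂.card : ℝ) / 2 * A₂.card := by nlinarith
    have h5 : n' ≤ (A₂.card : ℝ) / 2 := le_of_mul_le_mul_right h4 hA₂pos
    nlinarith
  · -- size of `B'`
    have h1 : ∑ b ∈ B, ((A₂.filter (fun a' => (a', b) ∈ E)).card : ℝ) =
        ∑ a ∈ A₂, ((nb a).card : ℝ) := hswap A₂
    have h2 : (A₂.card : ℝ) * N ≤ 2 * K * ∑ a ∈ A₂, ((nb a).card : ℝ) := by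
      rw [Finset.mul_sum, ← nsmul_eq_mul, ← Finset.sum_const]
      refine Finset.sum_le_sum fun a ha => ?_
      exact (Finset.mem_filter.mp (hA₂A₁ ha)).2
    have h3 : ∑ b ∈ B, ((A₂.filter (fun a' => (a', b) ∈ E)).card : ℝ) =
        ∑ b ∈ B', ((A₂.filter (fun a' => (a', b) ∈ E)).card : ℝ) +
        ∑ b ∈ B.filter (fun b => ¬ ((A₂.card : ℝ) ≤ 4 * K *
          ((A₂.filter (fun a' => (a', b) ∈ E)).card : ℝ))),
          ((A₂.filter (fun a' => (a', b) ∈ E)).card : ℝ) :=
      (Finset.sum_filter_add_sum_filter_not B _ _).symm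
    have h4 : 4 * K * ∑ b ∈ B.filter (fun b => ¬ ((A₂.card : ℝ) ≤ 4 * K *
          ((A₂.filter (fun a' => (a', b) ∈ E)).card : ℝ))),
          ((A₂.filter (fun a' => (a', b) ∈ E)).card : ℝ) ≤ N * A₂.card := by
      rw [Finset.mul_sum]
      calc _ ≤ ∑ b ∈ B.filter (fun b => ¬ ((A₂.card : ℝ) ≤ 4 * K *
          ((A₂.filter (fun a' => (a', b) ∈ E)).card : ℝ))), (A₂.card : ℝ) :=
            Finset.sum_le_sum fun b hb => (not_le.mp (Finset.mem_filter.mp hb).2).le
        _ = ((B.filter (fun b => ¬ ((A₂.card : ℝ) ≤ 4 * K *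
          ((A₂.filter (fun a' => (a', b) ∈ E)).card : ℝ)))).card : ℝ) * A₂.card := by
            rw [Finset.sum_const, nsmul_eq_mul]
        _ ≤ N * A₂.card := by
            refine mul_le_mul_of_nonneg_right (le_trans ?_ hB) (by positivity)
            exact_mod_cast Finset.card_filter_le _ _
    have h5 : ∑ b ∈ B', ((A₂.filter (fun a' => (a', b) ∈ E)).card : ℝ) ≤ B'.card * A₂.card := by
      rw [← nsmul_eq_mul, ← Finset.sum_const]
      refine Finset.sum_le_sum fun b _ => ?_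
      exact_mod_cast Finset.card_filter_le _ _
    have h6 : N * A₂.card ≤ 4 * K * B'.card * A₂.card := by
      have : 4 * K * ∑ b ∈ B', ((A₂.filter (fun a' => (a', b) ∈ E)).card : ℝ) ≤
        4 * K * (B'.card * A₂.card) := mul_le_mul_of_nonneg_left h5 (by positivity)
      rw [← h1, h3] at h2
      nlinarith
    exact le_of_mul_le_mul_right h6 hA₂pos
  · -- paths
    intro a ha b hb
    set T : Finset G := A₂.filter (fun a' => (a', b) ∈ E ∧ ¬ bad a a') with hT
    have hTcard : (A₂.card : ℝ) ≤ 8 * K * T.card := by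
      have h1 : ((A₂.filter (fun a' => (a', b) ∈ E)).card : ℝ) ≤
          T.card + ((A₂.filter (fun a' => bad a a')).card : ℝ) := by
        have : A₂.filter (fun a' => (a', b) ∈ E) ⊆ T ∪ A₂.filter (fun a' => bad a a') := by
          intro x hx
          simp only [hT, mem_union, mem_filter] at hx ⊢
          by_cases h : bad a x
          · exact Or.inr ⟨hx.1, h⟩
          · exact Or.inl ⟨hx.1, hx.2, h⟩
        exact_mod_cast (Finset.card_le_card this).trans (Finset.card_union_le _ _)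
      have h2 := (Finset.mem_filter.mp ha).2
      have h3 := (Finset.mem_filter.mp hb).2
      have h4 := mul_le_mul_of_nonneg_left h1 (show (0:ℝ) ≤ 8 * K by positivity)
      nlinarith
    have hP : (T.card : ℝ) * N ≤ 128 * K ^ 3 * ((A ×ˢ B).filter
        (fun p => (a, p.2) ∈ E ∧ (p.1, p.2) ∈ E ∧ (p.1, b) ∈ E)).card := by
      have h1 : ∑ a' ∈ T, (nb a ∩ nb a').card ≤ ((A ×ˢ B).filter
        (fun p => (a, p.2) ∈ E ∧ (p.1, p.2) ∈ E ∧ (p.1, b) ∈ E)).card := by
        rw [← Finset.card_sigma]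
        refine Finset.card_le_card_of_injOn (fun s => (s.1, s.2)) ?_ ?_
        · rintro ⟨x, y⟩ hxy
          simp only [hT, hnb, coe_sigma, Set.mem_sigma_iff, mem_coe, mem_filter, mem_inter,
            mem_product] at hxy ⊢
          refine ⟨⟨hA₂A hxy.1.1, hxy.2.1.1⟩, hxy.2.1.2, hxy.2.2.2, hxy.1.2.1⟩
        · rintro ⟨x, y⟩ _ ⟨x', y'⟩ _ h
          simp only [Prod.mk.injEq] at h
          obtain ⟨rfl, rfl⟩ := h
          rfl
      have h2 : (T.card : ℝ) * N ≤ 128 * K ^ 3 * ∑ a' ∈ T, ((nb a ∩ nb a').card : ℝ) := by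
        rw [Finset.mul_sum, ← nsmul_eq_mul, ← Finset.sum_const]
        refine Finset.sum_le_sum fun a' ha' => ?_
        exact not_lt.mp (Finset.mem_filter.mp ha').2.2
      refine h2.trans (mul_le_mul_of_nonneg_left ?_ (by positivity))
      exact_mod_cast h1
    have h1 : N ^ 2 ≤ 3 * K * (8 * K * T.card) * N := by
      have : N * N ≤ 3 * K * (8 * K * T.card) * N := by
        refine mul_le_mul_of_nonneg_right (hA₂big.trans ?_) hN.le
        exact mul_le_mul_of_nonneg_left hTcard (by positivity)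
      nlinarith
    calc N ^ 2 ≤ 3 * K * (8 * K * T.card) * N := h1
      _ = 24 * K ^ 2 * (T.card * N) := by ring
      _ ≤ 24 * K ^ 2 * (128 * K ^ 3 * ((A ×ˢ B).filter
        (fun p => (a, p.2) ∈ E ∧ (p.1, p.2) ∈ E ∧ (p.1, b) ∈ E)).card) :=
          mul_le_mul_of_nonneg_left hP (by positivity)
      _ = _ := by ring

set_option maxHeartbeats 4000000 in
theorem bsg : BSG := by
  refine ⟨3072, by norm_num, ?_⟩
  intro G _ A B E N K hK hN hE hA hB hcard hS
  obtain ⟨A', B', hA', hB', h1, h2, h3⟩ := bsg_graph A B E N K hK hN hE hA hB hcard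
  have hK0 : 0 < K := by linarith
  have hp1 : K ≤ K ^ 3072 := by
    calc K = K ^ 1 := (pow_one K).symm
      _ ≤ K ^ 3072 := pow_le_pow_right₀ hK (by norm_num)
  refine ⟨A', B', hA', hB', ?_, ?_, ?_⟩
  · refine h1.trans ?_
    refine mul_le_mul_of_nonneg_right ?_ (by positivity)
    push_cast
    nlinarith
  · refine h2.trans ?_
    refine mul_le_mul_of_nonneg_right ?_ (by positivity)
    push_cast
    nlinarith
  · set S : Finset G := E.image (fun e => e.1 + e.2) with hSdef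
    set S' : Finset G := (A' ×ˢ B').image (fun e => e.1 + e.2) with hS'def
    have h4 : (S'.card : ℝ) * N ^ 2 ≤ 3072 * K ^ 5 * (S.card : ℝ) ^ 3 := by
      have h5 : ∀ s ∈ S', N ^ 2 ≤ 3072 * K ^ 5 *
          (((S ×ˢ S ×ˢ S).filter (fun t => t.1 - t.2.1 + t.2.2 = s)).card : ℝ) := by
        intro s hs
        obtain ⟨⟨a, b⟩, hab, rfl⟩ := Finset.mem_image.mp hs
        rw [Finset.mem_product] at hab
        refine (h3 a hab.1 b hab.2).trans ?_
        refine mul_le_mul_of_nonneg_left ?_ (by positivity)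
        have : ((A ×ˢ B).filter (fun p => (a, p.2) ∈ E ∧ (p.1, p.2) ∈ E ∧ (p.1, b) ∈ E)).card ≤
            ((S ×ˢ S ×ˢ S).filter (fun t => t.1 - t.2.1 + t.2.2 = a + b)).card := by
          refine Finset.card_le_card_of_injOn (fun p => (a + p.2, p.1 + p.2, p.1 + b)) ?_ ?_
          · rintro ⟨x, y⟩ hxy
            simp only [mem_coe, mem_filter, mem_product] at hxy ⊢
            refine ⟨⟨?_, ?_, ?_⟩, by abel⟩
            · exact Finset.mem_image.mpr ⟨(a, y), hxy.2.1, rfl⟩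
            · exact Finset.mem_image.mpr ⟨(x, y), hxy.2.2.1, rfl⟩
            · exact Finset.mem_image.mpr ⟨(x, b), hxy.2.2.2, rfl⟩
          · rintro ⟨x, y⟩ _ ⟨x', y'⟩ _ h
            simp only [Prod.mk.injEq] at h
            obtain ⟨h, -, h'⟩ := h
            rw [add_left_cancel h, add_right_cancel h']
        exact_mod_cast this
      have h6 : ∑ s ∈ S', (((S ×ˢ S ×ˢ S).filter (fun t => t.1 - t.2.1 + t.2.2 = s)).card : ℝ) ≤
          (S.card : ℝ) ^ 3 := by
        have h7 : ∑ s ∈ S', ((S ×ˢ S ×ˢ S).filter (fun t => t.1 - t.2.1 + t.2.2 = s)).card ≤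
            (S ×ˢ S ×ˢ S).card := by
          rw [← Finset.card_biUnion]
          · refine Finset.card_le_card ?_
            intro t ht
            obtain ⟨s, _, hs⟩ := Finset.mem_biUnion.mp ht
            exact (Finset.mem_filter.mp hs).1
          · intro s _ s' _ hss
            rw [Function.onFun, Finset.disjoint_left]
            intro t ht ht'
            exact hss ((Finset.mem_filter.mp ht).2.symm.trans (Finset.mem_filter.mp ht').2)
        rw [Finset.card_product, Finset.card_product] at h7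
        calc ∑ s ∈ S', (((S ×ˢ S ×ˢ S).filter (fun t => t.1 - t.2.1 + t.2.2 = s)).card : ℝ)
            ≤ ((S.card * (S.card * S.card) : ℕ) : ℝ) := by exact_mod_cast h7
          _ = (S.card : ℝ) ^ 3 := by push_cast; ring
      calc (S'.card : ℝ) * N ^ 2 = ∑ s ∈ S', N ^ 2 := by rw [Finset.sum_const, nsmul_eq_mul]
        _ ≤ ∑ s ∈ S', 3072 * K ^ 5 *
          (((S ×ˢ S ×ˢ S).filter (fun t => t.1 - t.2.1 + t.2.2 = s)).card : ℝ) :=
            Finset.sum_le_sum h5
        _ = 3072 * K ^ 5 * ∑ s ∈ S',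
          (((S ×ˢ S ×ˢ S).filter (fun t => t.1 - t.2.1 + t.2.2 = s)).card : ℝ) := by
            rw [Finset.mul_sum]
        _ ≤ 3072 * K ^ 5 * (S.card : ℝ) ^ 3 := mul_le_mul_of_nonneg_left h6 (by positivity)
    have h5 : (S.card : ℝ) ^ 3 ≤ (K * N) ^ 3 := pow_le_pow_left₀ (by positivity) hS 3
    have h6 : (S'.card : ℝ) * N ^ 2 ≤ (3072 * K ^ 8 * N) * N ^ 2 := by
      calc (S'.card : ℝ) * N ^ 2 ≤ 3072 * K ^ 5 * (S.card : ℝ) ^ 3 := h4
        _ ≤ 3072 * K ^ 5 * (K * N) ^ 3 := mul_le_mul_of_nonneg_left h5 (by positivity)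
        _ = (3072 * K ^ 8 * N) * N ^ 2 := by ring
    have h7 : (S'.card : ℝ) ≤ 3072 * K ^ 8 * N := le_of_mul_le_mul_right h6 (by positivity)
    refine h7.trans ?_
    refine mul_le_mul_of_nonneg_right ?_ hN.le
    push_cast
    have : K ^ 8 ≤ K ^ 3072 := pow_le_pow_right₀ hK (by norm_num)
    nlinarith

end Crest.Agent.R34
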