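import Mathlib
import Crest.Agent.R34.Defs

/-!
# Row 34, task I2: no approximate subfields of size about `√q` in a field with `p^k` elements, `k` odd
-/

set_option autoImplicit false
set_option linter.unusedSectionVars false
set_option linter.unusedVariables false

open Finset
open scoped Pointwise

namespace Crest.Agent.R34.FP

variable {F : Type} [Field F] [Fintype F] [DecidableEq F]

/-- covering predicate: `l A` is covered by `T^c` translates of `A - A`. -/
def Cov (A : Finset F) (T : ℝ) (c : ℕ) (l : F) : Prop :=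
  ∃ X : Finset F, (X.card : ℝ) ≤ T ^ c ∧ ∀ a ∈ A, ∃ x ∈ X, ∃ b ∈ A, ∃ d ∈ A, l * a = x + (b - d)

/-- Plünnecke-Ruzsa in the form we need. -/
theorem pr_bound {A : Finset F} (hA : A.Nonempty) {T : ℝ} (hT : 1 ≤ T)
    (hAA : ((A - A).card : ℝ) ≤ T ^ 2 * A.card) :
    ((A + A - A).card : ℝ) ≤ T ^ 6 * A.card ∧
      ((A + A + A - (A + A)).card : ℝ) ≤ T ^ 10 * A.card := by
  have hA0 : (0 : ℝ) < A.card := by exact_mod_cast hA.card_pos
  have key : ∀ m n : ℕ, ((m • A - n • A).card : ℝ) ≤ (((A - A).card : ℝ) / A.card) ^ (m + n) * A.card := by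
    intro m n
    have h := pluennecke_ruzsa_inequality_nsmul_sub_nsmul_sub hA A m n
    have h2 : (((m • A - n • A).card : ℚ≥0) : ℝ) ≤
        (((((A - A).card : ℚ≥0) / (A.card : ℚ≥0)) ^ (m + n) * A.card : ℚ≥0) : ℝ) := by
      exact_mod_cast h
    push_cast at h2
    exact h2
  have hr : ((A - A).card : ℝ) / A.card ≤ T ^ 2 := by
    rw [div_le_iff₀ hA0]; exact hAA
  have hr0 : (0 : ℝ) ≤ ((A - A).card : ℝ) / A.card := by positivity
  constructor
  · have h := key 2 1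
    have e : (2 • A - 1 • A) = A + A - A := by rw [two_nsmul, one_nsmul]
    rw [e] at h
    refine h.trans ?_
    calc (((A - A).card : ℝ) / A.card) ^ (2 + 1) * A.card ≤ (T ^ 2) ^ (2 + 1) * A.card := by
          gcongr
      _ = T ^ 6 * A.card := by ring
  · have h := key 3 2
    have e : (3 • A - 2 • A) = A + A + A - (A + A) := by
      rw [two_nsmul, show (3 : ℕ) = 2 + 1 from rfl, succ_nsmul, two_nsmul]
    rw [e] at h
    refine h.trans ?_
    calc (((A - A).card : ℝ) / A.card) ^ (3 + 2) * A.card ≤ (T ^ 2) ^ (3 + 2) * A.card := by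
          gcongr
      _ = T ^ 10 * A.card := by ring

/-- `2A - 2A` is covered by few translates of `A - A`. -/
theorem cover_two {A : Finset F} (hA : A.Nonempty) {T : ℝ} (hT : 1 ≤ T)
    (hAA : ((A - A).card : ℝ) ≤ T ^ 2 * A.card) :
    ∃ Y : Finset F, (Y.card : ℝ) ≤ T ^ 10 ∧ ∀ a ∈ A, ∀ b ∈ A, ∀ c ∈ A, ∀ d ∈ A,
      ∃ y ∈ Y, ∃ e ∈ A, ∃ f ∈ A, (a - b) + (c - d) = y + (e - f) := by
  obtain ⟨-, h3⟩ := pr_bound hA hT hAA
  have e : (A + A - (A + A)) + A = A + A + A - (A + A) := by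
    rw [sub_add_eq_add_sub]
  obtain ⟨Y, -, hY, hcov⟩ := ruzsa_covering_add (A := A + A - (A + A)) (B := A) (K := T ^ 10) hA
    (by rw [e]; exact h3)
  refine ⟨Y, hY, ?_⟩
  intro a ha b hb c hc d hd
  have hm : (a - b) + (c - d) ∈ A + A - (A + A) := by
    have : (a - b) + (c - d) = (a + c) - (b + d) := by ring
    rw [this]
    exact sub_mem_sub (add_mem_add ha hc) (add_mem_add hb hd)
  have h4 := hcov hm
  rw [mem_add] at h4
  obtain ⟨y, hy, z, hz, h5⟩ := h4
  rw [mem_sub] at hz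
  obtain ⟨e, he, f, hf, h6⟩ := hz
  exact ⟨y, hy, e, he, f, hf, by rw [← h5, ← h6]⟩

theorem Cov.mono {A : Finset F} {T : ℝ} (hT : 1 ≤ T) {c c' : ℕ} (h : c ≤ c') {l : F}
    (hl : Cov A T c l) : Cov A T c' l := by
  obtain ⟨X, hX, h2⟩ := hl
  exact ⟨X, hX.trans (pow_le_pow_right₀ hT h), h2⟩

theorem cov_zero {A : Finset F} (T : ℝ) : Cov A T 0 0 := by
  refine ⟨{0}, by simp, ?_⟩
  intro a ha
  exact ⟨0, by simp, a, ha, a, ha, by ring⟩

theorem cov_one {A : Finset F} (T : ℝ) : Cov A T 0 1 := by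
  by_cases hA : A.Nonempty
  · obtain ⟨a0, ha0⟩ := hA
    refine ⟨{a0}, by simp, ?_⟩
    intro a ha
    exact ⟨a0, by simp, a, ha, a0, ha0, by ring⟩
  · rw [not_nonempty_iff_eq_empty] at hA
    subst hA
    exact ⟨{0}, by simp, by simp⟩

theorem cov_neg {A : Finset F} {T : ℝ} {c : ℕ} {l : F} (h : Cov A T c l) : Cov A T c (-l) := by
  obtain ⟨X, hX, h2⟩ := h
  refine ⟨X.image (fun x => -x), ?_, ?_⟩
  · exact le_trans (by exact_mod_cast card_image_le) hX
  · intro a ha
    obtain ⟨x, hx, b, hb, d, hd, e⟩ := h2 a ha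
    exact ⟨-x, mem_image_of_mem _ hx, d, hd, b, hb, by rw [neg_mul, e]; ring⟩

/-- Auxiliary: the card of a triple sumset. -/
theorem card_three {X Y Z : Finset F} {a b c : ℝ} (hX : (X.card : ℝ) ≤ a) (hY : (Y.card : ℝ) ≤ b)
    (hZ : (Z.card : ℝ) ≤ c) : (((X + Y + Z).card : ℕ) : ℝ) ≤ a * b * c := by
  have h1 : (X + Y + Z).card ≤ X.card * Y.card * Z.card :=
    (card_add_le).trans (Nat.mul_le_mul_right _ card_add_le)
  have h2 : (((X + Y + Z).card : ℕ) : ℝ) ≤ (X.card : ℝ) * Y.card * Z.card := by exact_mod_cast h1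
  refine h2.trans ?_
  have := (Nat.cast_nonneg X.card : (0 : ℝ) ≤ _).trans hX
  have := (Nat.cast_nonneg Y.card : (0 : ℝ) ≤ _).trans hY
  gcongr

section
variable {A : Finset F} {T : ℝ}

theorem cov_add (hA : A.Nonempty) (hT : 1 ≤ T) (hAA : ((A - A).card : ℝ) ≤ T ^ 2 * A.card)
    {c c' : ℕ} {l m : F} (h : Cov A T c l) (h' : Cov A T c' m) : Cov A T (c + c' + 10) (l + m) := by
  obtain ⟨Y, hY, hY2⟩ := cover_two hA hT hAA
  obtain ⟨X, hX, hX2⟩ := h
  obtain ⟨Z, hZ, hZ2⟩ := h'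
  refine ⟨X + Z + Y, ?_, ?_⟩
  · refine (card_three hX hZ hY).trans (le_of_eq ?_)
    ring
  · intro a ha
    obtain ⟨x, hx, b, hb, d, hd, e⟩ := hX2 a ha
    obtain ⟨z, hz, b', hb', d', hd', e'⟩ := hZ2 a ha
    obtain ⟨y, hy, u, hu, v, hv, e2⟩ := hY2 b hb d hd b' hb' d' hd'
    refine ⟨x + z + y, add_mem_add (add_mem_add hx hz) hy, u, hu, v, hv, ?_⟩
    rw [add_mul, e, e']
    linear_combination e2

theorem cov_mul (hA : A.Nonempty) (hT : 1 ≤ T) (hAA : ((A - A).card : ℝ) ≤ T ^ 2 * A.card)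
    {c c' : ℕ} {l m : F} (h : Cov A T c l) (h' : Cov A T c' m) :
    Cov A T (c' + 2 * c + 10) (l * m) := by
  obtain ⟨Y, hY, hY2⟩ := cover_two hA hT hAA
  obtain ⟨X, hX, hX2⟩ := h
  obtain ⟨Z, hZ, hZ2⟩ := h'
  refine ⟨(Z.image (fun z => l * z)) + (X - X) + Y, ?_, ?_⟩
  · have h1 : ((Z.image (fun z => l * z)).card : ℝ) ≤ T ^ c' :=
      le_trans (by exact_mod_cast card_image_le) hZ
    have h2 : ((X - X).card : ℝ) ≤ T ^ c * T ^ c := by
      have h3 : ((X - X).card : ℝ) ≤ (X.card : ℝ) * X.card := by exact_mod_cast card_sub_le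
      refine h3.trans ?_
      gcongr
    refine (card_three h1 h2 hY).trans (le_of_eq ?_)
    ring
  · intro a ha
    obtain ⟨z, hz, b, hb, d, hd, e⟩ := hZ2 a ha
    obtain ⟨x, hx, b1, hb1, d1, hd1, e1⟩ := hX2 b hb
    obtain ⟨x', hx', b2, hb2, d2, hd2, e2⟩ := hX2 d hd
    obtain ⟨y, hy, u, hu, v, hv, e3⟩ := hY2 b1 hb1 d1 hd1 d2 hd2 b2 hb2
    refine ⟨l * z + (x - x') + y, add_mem_add (add_mem_add (mem_image_of_mem _ hz)
      (sub_mem_sub hx hx')) hy, u, hu, v, hv, ?_⟩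
    rw [mul_assoc, e]
    linear_combination e1 - e2 + e3

/-- a covering constant gives a small sumset -/
theorem small_of_cov (hA : A.Nonempty) (hT : 1 ≤ T) (hAA : ((A - A).card : ℝ) ≤ T ^ 2 * A.card)
    {c : ℕ} {l : F} (h : Cov A T c l) : ((A + l • A).card : ℝ) ≤ T ^ (c + 6) * A.card := by
  obtain ⟨h6, -⟩ := pr_bound hA hT hAA
  obtain ⟨X, hX, hX2⟩ := h
  have hsub : A + l • A ⊆ X + (A + A - A) := by
    intro z hz
    rw [mem_add] at hz
    obtain ⟨a, ha, w, hw, rfl⟩ := hz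
    rw [mem_smul_finset] at hw
    obtain ⟨b, hb, rfl⟩ := hw
    obtain ⟨x, hx, b', hb', d, hd, e⟩ := hX2 b hb
    rw [smul_eq_mul, e]
    have : a + (x + (b' - d)) = x + ((a + b') - d) := by ring
    rw [this]
    exact add_mem_add hx (sub_mem_sub (add_mem_add ha hb') hd)
  have h1 : ((A + l • A).card : ℝ) ≤ (X.card : ℝ) * (A + A - A).card := by
    exact_mod_cast (card_le_card hsub).trans card_add_le
  refine h1.trans ?_
  calc (X.card : ℝ) * (A + A - A).card ≤ T ^ c * (T ^ 6 * A.card) := by gcongr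
    _ = T ^ (c + 6) * A.card := by ring

/-- Ruzsa covering -/
theorem cov_of_small (hA : A.Nonempty) {c : ℕ} {l : F}
    (h : ((l • A + A).card : ℝ) ≤ T ^ c * A.card) : Cov A T c l := by
  obtain ⟨X, -, hX, hX2⟩ := ruzsa_covering_add (A := l • A) (B := A) (K := T ^ c) hA h
  refine ⟨X, hX, ?_⟩
  intro a ha
  have h1 : l * a ∈ X + (A - A) := hX2 (by
    rw [← smul_eq_mul]; exact smul_mem_smul_finset ha)
  rw [mem_add] at h1
  obtain ⟨x, hx, z, hz, e⟩ := h1
  rw [mem_sub] at hz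
  obtain ⟨b, hb, d, hd, e2⟩ := hz
  exact ⟨x, hx, b, hb, d, hd, by rw [← e, ← e2]⟩

theorem cov_inv (hA : A.Nonempty) (hT : 1 ≤ T) (hAA : ((A - A).card : ℝ) ≤ T ^ 2 * A.card)
    {c : ℕ} {l : F} (h : Cov A T c l) : Cov A T (c + 6) l⁻¹ := by
  by_cases hl : l = 0
  · subst hl
    rw [inv_zero]
    exact h.mono hT (by omega)
  · apply cov_of_small hA
    have h1 := small_of_cov hA hT hAA h
    have h2 : (l⁻¹ • A + A).card = (A + l • A).card := by
      have e : l • (l⁻¹ • A + A) = A + l • A := by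
        ext z
        simp only [mem_smul_finset, mem_add, smul_eq_mul]
        constructor
        · rintro ⟨w, ⟨u, ⟨a, ha, rfl⟩, b, hb, rfl⟩, rfl⟩
          exact ⟨a, ha, l * b, ⟨b, hb, rfl⟩, by field_simp⟩
        · rintro ⟨a, ha, w, ⟨b, hb, rfl⟩, rfl⟩
          exact ⟨l⁻¹ * a + b, ⟨l⁻¹ * a, ⟨a, ha, rfl⟩, b, hb, rfl⟩, by field_simp⟩
      rw [← e, card_smul_finset₀ hl]
    rw [h2]
    exact h1

end


/-- quadruples `a + l b = c + l d`, stored as `((a,c),(b,d))` -/
def Qd (A : Finset F) (l : F) : Finset ((F × F) × (F × F)) :=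
  ((A ×ˢ A) ×ˢ (A ×ˢ A)).filter (fun x => x.1.1 + l * x.2.1 = x.1.2 + l * x.2.2)

theorem energy_lower (A : Finset F) {l : F} (hl : l ≠ 0) :
    A.card ^ 4 ≤ (A + l • A).card * (Qd A l).card := by
  have h1 := le_card_add_mul_addEnergy A (l • A)
  rw [card_smul_finset₀ hl] at h1
  have h2 : addEnergy A (l • A) ≤ (Qd A l).card := by
    unfold addEnergy
    apply card_le_card_of_injOn (fun x => (x.1, (l⁻¹ * x.2.1, l⁻¹ * x.2.2)))
    · intro x hx
      simp only [coe_filter, mem_product, Set.mem_ofPred_eq, mem_smul_finset, smul_eq_mul] at hx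
      obtain ⟨⟨⟨h3, h4⟩, ⟨b, hb, hb2⟩, ⟨d, hd, hd2⟩⟩, h5⟩ := hx
      simp only [Qd, coe_filter, mem_product, Set.mem_ofPred_eq]
      rw [← hb2, ← hd2, inv_mul_cancel_left₀ hl, inv_mul_cancel_left₀ hl]
      refine ⟨⟨⟨h3, h4⟩, hb, hd⟩, ?_⟩
      rw [hb2, hd2]
      exact h5
    · intro x _ y _ h
      simp only [Prod.mk.injEq] at h
      obtain ⟨h3, h4, h5⟩ := h
      have hl' : l⁻¹ ≠ 0 := inv_ne_zero hl
      have h6 := mul_left_cancel₀ hl' h4
      have h7 := mul_left_cancel₀ hl' h5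
      exact Prod.ext h3 (Prod.ext h6 h7)
  calc A.card ^ 4 = A.card ^ 2 * A.card ^ 2 := by ring
    _ ≤ _ := h1
    _ ≤ _ := Nat.mul_le_mul_left _ h2

theorem Qd_split (A : Finset F) (l : F) :
    (Qd A l).card ≤ ((Qd A l).filter (fun x => x.2.1 ≠ x.2.2)).card + A.card ^ 2 := by
  have h := card_filter_add_card_filter_not (s := Qd A l) (fun x => x.2.1 ≠ x.2.2)
  rw [← h]
  have h2 : ((Qd A l).filter (fun x => ¬ (x.2.1 ≠ x.2.2))).card ≤ A.card ^ 2 := by
    rw [sq, ← card_product]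
    apply card_le_card_of_injOn (fun x => (x.1.1, x.2.1))
    · intro x hx
      simp only [Qd, coe_filter, mem_filter, mem_product, Set.mem_ofPred_eq] at hx
      simp only [coe_product, Set.mem_prod, mem_coe]
      exact ⟨hx.1.1.1.1, hx.1.1.2.1⟩
    · intro x hx y hy hxy
      simp only [Qd, coe_filter, mem_filter, mem_product, Set.mem_ofPred_eq, not_not] at hx hy
      simp only [Prod.mk.injEq] at hxy
      obtain ⟨e1, e2⟩ := hxy
      have hx2 := hx.1.2
      have hy2 := hy.1.2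
      rw [← hx.2] at hx2
      rw [← hy.2] at hy2
      have hx3 := add_right_cancel hx2
      have hy3 := add_right_cancel hy2
      refine Prod.ext (Prod.ext e1 ?_) (Prod.ext e2 ?_)
      · rw [← hx3, ← hy3, e1]
      · rw [← hx.2, ← hy.2, e2]
  omega

theorem Qd_sum (A G : Finset F) :
    ∑ l ∈ G, ((Qd A l).filter (fun x => x.2.1 ≠ x.2.2)).card ≤ A.card ^ 4 := by
  rw [← card_biUnion]
  · have : A.card ^ 4 = ((A ×ˢ A) ×ˢ (A ×ˢ A)).card := by
      rw [card_product, card_product]; ring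
    rw [this]
    apply card_le_card
    intro x hx
    simp only [mem_biUnion, Qd, mem_filter] at hx
    obtain ⟨l, _, hx⟩ := hx
    exact hx.1.1
  · intro l _ m _ hlm
    rw [Function.onFun, disjoint_left]
    intro x hx hx'
    simp only [Qd, mem_filter] at hx hx'
    apply hlm
    have h1 := hx.1.2
    have h2 := hx'.1.2
    have h3 : (l - m) * (x.2.1 - x.2.2) = 0 := by linear_combination h1 - h2
    rcases mul_eq_zero.mp h3 with h4 | h4
    · exact sub_eq_zero.mp h4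
    · exact absurd (sub_eq_zero.mp h4) hx.2

theorem count_small {A : Finset F} (hA : A.Nonempty) {K : ℝ} (hK : 0 < K) (h2K : 2 * K ≤ A.card) :
    (((univ : Finset F).filter (fun l => ((A + l • A).card : ℝ) ≤ K * A.card)).card : ℝ)
      ≤ 2 * K * A.card + 1 := by
  have hA0 : (0 : ℝ) < A.card := by exact_mod_cast hA.card_pos
  set G := (univ : Finset F).filter (fun l => ((A + l • A).card : ℝ) ≤ K * A.card) with hG
  set G0 := G.erase 0 with hG0
  have h1 : G.card ≤ G0.card + 1 := by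
    rw [hG0]
    have := pred_card_le_card_erase (s := G) (a := (0 : F))
    omega
  have h2 : (G0.card : ℝ) * ((A.card : ℝ) ^ 3 / (2 * K)) ≤ (A.card : ℝ) ^ 4 := by
    have h3 : ∀ l ∈ G0, (A.card : ℝ) ^ 3 / (2 * K) ≤
        (((Qd A l).filter (fun x => x.2.1 ≠ x.2.2)).card : ℝ) := by
      intro l hl
      rw [hG0, mem_erase, hG, mem_filter] at hl
      obtain ⟨hl0, -, hl1⟩ := hl
      have h4 : ((A.card : ℝ)) ^ 4 ≤ (A + l • A).card * (Qd A l).card := by
        exact_mod_cast energy_lower A hl0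
      have h5 : ((Qd A l).card : ℝ) ≤ ((Qd A l).filter (fun x => x.2.1 ≠ x.2.2)).card +
          (A.card : ℝ) ^ 2 := by exact_mod_cast Qd_split A l
      have h6 : (A.card : ℝ) ^ 4 ≤ K * A.card * (Qd A l).card :=
        h4.trans (by gcongr)
      have h7 : (A.card : ℝ) ^ 3 / K ≤ (Qd A l).card := by
        rw [div_le_iff₀ hK]
        have h8 : (A.card : ℝ) * (A.card : ℝ) ^ 3 ≤ A.card * ((Qd A l).card * K) := by
          calc (A.card : ℝ) * (A.card : ℝ) ^ 3 = (A.card : ℝ) ^ 4 := by ring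
            _ ≤ _ := h6
            _ = _ := by ring
        exact le_of_mul_le_mul_left h8 hA0
      have h9 : (A.card : ℝ) ^ 2 ≤ (A.card : ℝ) ^ 3 / (2 * K) := by
        rw [le_div_iff₀ (by positivity)]
        calc (A.card : ℝ) ^ 2 * (2 * K) ≤ (A.card : ℝ) ^ 2 * A.card := by gcongr
          _ = (A.card : ℝ) ^ 3 := by ring
      have h10 : (A.card : ℝ) ^ 3 / K = (A.card : ℝ) ^ 3 / (2 * K) + (A.card : ℝ) ^ 3 / (2 * K) := by
        field_simp; ring
      linarith
    have h4 : (∑ l ∈ G0, ((((Qd A l).filter (fun x => x.2.1 ≠ x.2.2)).card : ℕ) : ℝ)) ≤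
        (A.card : ℝ) ^ 4 := by exact_mod_cast Qd_sum A G0
    calc (G0.card : ℝ) * ((A.card : ℝ) ^ 3 / (2 * K)) = ∑ l ∈ G0, (A.card : ℝ) ^ 3 / (2 * K) := by
          rw [sum_const, nsmul_eq_mul]
      _ ≤ _ := sum_le_sum h3
      _ ≤ _ := h4
  have h3 : (G0.card : ℝ) ≤ 2 * K * A.card := by
    have h4 : (G0.card : ℝ) * (A.card : ℝ) ^ 3 ≤ (2 * K * A.card) * (A.card : ℝ) ^ 3 := by
      have h5 : (G0.card : ℝ) * ((A.card : ℝ) ^ 3 / (2 * K)) * (2 * K) ≤ (A.card : ℝ) ^ 4 * (2 * K) := by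
        gcongr
      calc (G0.card : ℝ) * (A.card : ℝ) ^ 3 =
            (G0.card : ℝ) * ((A.card : ℝ) ^ 3 / (2 * K)) * (2 * K) := by field_simp
        _ ≤ _ := h5
        _ = _ := by ring
    exact le_of_mul_le_mul_right h4 (by positivity)
  have h4 : (G.card : ℝ) ≤ G0.card + 1 := by exact_mod_cast h1
  linarith



/-- quotient set -/
def Quo (Λ : Finset F) (r : F) : Prop :=
  ∃ a ∈ Λ, ∃ b ∈ Λ, ∃ c ∈ Λ, ∃ d ∈ Λ, c ≠ d ∧ r = (a - b) / (c - d)

theorem Quo.inv {Λ : Finset F} {r : F} (h : Quo Λ r) (hr : r ≠ 0) : Quo Λ r⁻¹ := by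
  obtain ⟨a, ha, b, hb, c, hc, d, hd, hcd, e⟩ := h
  refine ⟨c, hc, d, hd, a, ha, b, hb, ?_, ?_⟩
  · rintro rfl
    exact hr (by rw [e, sub_self, zero_div])
  · rw [e, inv_div]

/-- If `ξ` is not a quotient then `a + ξ b` takes `|Λ|²` values. -/
theorem inj_of_not_quo {Λ : Finset F} {ξ : F} (h : ¬ Quo Λ ξ) :
    ((Λ ×ˢ Λ).image (fun e => e.1 + ξ * e.2)).card = Λ.card ^ 2 := by
  rw [card_image_of_injOn, card_product, sq]
  intro x hx y hy hxy
  simp only [coe_product, Set.mem_prod, mem_coe] at hx hy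
  simp only at hxy
  by_cases hb : x.2 = y.2
  · rw [hb] at hxy
    exact Prod.ext (add_right_cancel hxy) hb
  · exfalso
    apply h
    refine ⟨x.1, hx.1, y.1, hy.1, y.2, hy.2, x.2, hx.2, Ne.symm hb, ?_⟩
    have h1 : y.2 - x.2 ≠ 0 := sub_ne_zero.mpr (Ne.symm hb)
    rw [eq_div_iff h1]
    linear_combination -hxy

/-- The abstract algebraic part: a quotient set closed under `+1` and `Λ *` contains a subfield
containing `Λ`. -/
theorem exists_subfield {Λ : Finset F} (h0 : (0 : F) ∉ Λ) (h2 : 2 ≤ Λ.card)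
    (hadd : ∀ r, Quo Λ r → Quo Λ (r + 1)) (hmul : ∀ l ∈ Λ, ∀ r, Quo Λ r → Quo Λ (l * r)) :
    ∃ E : Subfield F, (∀ l ∈ Λ, l ∈ E) ∧ ∀ x ∈ E, Quo Λ x := by
  -- 0 ∈ R
  have hz : Quo Λ 0 := by
    obtain ⟨c, hc, d, hd, hcd⟩ := Finset.one_lt_card.mp (show 1 < Λ.card by omega)
    exact ⟨c, hc, c, hc, c, hc, d, hd, hcd, by simp⟩
  have hdiv : ∀ l ∈ Λ, ∀ r, Quo Λ r → Quo Λ (r / l) := by
    intro l hl r hr
    by_cases hr0 : r = 0
    · rw [hr0, zero_div]; exact hz
    · have hl0 : l ≠ 0 := fun h => h0 (h ▸ hl)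
      have h1 := hmul l hl _ (hr.inv hr0)
      have h2 := h1.inv (mul_ne_zero hl0 (inv_ne_zero hr0))
      have : (l * r⁻¹)⁻¹ = r / l := by field_simp
      rwa [this] at h2
  have haddl : ∀ l ∈ Λ, ∀ r, Quo Λ r → Quo Λ (r + l) := by
    intro l hl r hr
    have hl0 : l ≠ 0 := fun h => h0 (h ▸ hl)
    have h1 := hmul l hl _ (hadd _ (hdiv l hl r hr))
    have : l * (r / l + 1) = r + l := by field_simp
    rwa [this] at h1
  -- H
  let H : Set F := {x | ∀ r, Quo Λ r → Quo Λ (r + x)}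
  have H0 : (0 : F) ∈ H := fun r hr => by rwa [add_zero]
  have H1 : (1 : F) ∈ H := hadd
  have Hadd : ∀ x ∈ H, ∀ y ∈ H, x + y ∈ H := by
    intro x hx y hy r hr
    rw [← add_assoc]
    exact hy _ (hx _ hr)
  have Hnsmul : ∀ (n : ℕ), ∀ x ∈ H, n • x ∈ H := by
    intro n
    induction n with
    | zero => intro x _; rw [zero_nsmul]; exact H0
    | succ n ih => intro x hx; rw [succ_nsmul]; exact Hadd _ (ih x hx) _ hx
  have Hneg : ∀ x ∈ H, -x ∈ H := by
    intro x hx
    have hp : 0 < addOrderOf x := addOrderOf_pos x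
    have h1 := Hnsmul (addOrderOf x - 1) x hx
    have h2 : (addOrderOf x - 1) • x = -x := by
      have h3 : (addOrderOf x - 1) • x + x = 0 := by
        rw [← succ_nsmul, Nat.sub_add_cancel hp, addOrderOf_nsmul_eq_zero]
      exact eq_neg_of_add_eq_zero_left h3
    rwa [h2] at h1
  have HL : ∀ l ∈ Λ, l ∈ H := haddl
  have HmulL : ∀ l ∈ Λ, ∀ x ∈ H, l * x ∈ H := by
    intro l hl x hx r hr
    have hl0 : l ≠ 0 := fun h => h0 (h ▸ hl)
    have h1 := hmul l hl _ (hx _ (hdiv l hl r hr))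
    have : l * (r / l + x) = r + l * x := by field_simp
    rwa [this] at h1
  -- the subring
  let S : Set F := {y | ∀ x ∈ H, y * x ∈ H}
  have Sone : (1 : F) ∈ S := fun x hx => by rwa [one_mul]
  have Smul : ∀ x ∈ S, ∀ y ∈ S, x * y ∈ S := by
    intro x hx y hy z hz
    rw [mul_assoc]
    exact hx _ (hy _ hz)
  have Spow : ∀ (n : ℕ), ∀ x ∈ S, x ^ n ∈ S := by
    intro n
    induction n with
    | zero => intro x _; rw [pow_zero]; exact Sone
    | succ n ih => intro x hx; rw [pow_succ]; exact Smul _ (ih x hx) _ hx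
  let E : Subfield F :=
    { carrier := S
      mul_mem' := fun {x y} hx hy => Smul x hx y hy
      one_mem' := Sone
      add_mem' := fun {x y} hx hy => fun z hz => by
        rw [add_mul]; exact Hadd _ (hx z hz) _ (hy z hz)
      zero_mem' := fun x _ => by rw [zero_mul]; exact H0
      neg_mem' := fun {x} hx => fun z hz => by
        rw [neg_mul]; exact Hneg _ (hx z hz)
      inv_mem' := fun x hx => by
        by_cases hx0 : x = 0
        · subst hx0; rw [inv_zero]; exact hx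
        · have h1 : x ^ (Fintype.card F - 1) = 1 := FiniteField.pow_card_sub_one_eq_one x hx0
          have h2 : x⁻¹ = x ^ (Fintype.card F - 2) := by
            have hc : 2 ≤ Fintype.card F := Fintype.one_lt_card
            rw [inv_eq_iff_eq_inv]
            have h3 : x ^ (Fintype.card F - 2) * x = 1 := by
              rw [← pow_succ, show Fintype.card F - 2 + 1 = Fintype.card F - 1 by omega, h1]
            exact (eq_inv_of_mul_eq_one_right h3)
          rw [h2]
          exact Spow _ x hx }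
  refine ⟨E, ?_, ?_⟩
  · intro l hl
    exact HmulL l hl
  · intro x hx
    have h1 : x * 1 ∈ H := hx 1 H1
    rw [mul_one] at h1
    have h2 := h1 0 hz
    rwa [zero_add] at h2

/-- cardinality of a subfield of a field with `p^k` elements, `k` odd -/
theorem subfield_card (E : Subfield F) {p k : ℕ} (hp : p.Prime) (hk : Odd k)
    (hc : Fintype.card F = p ^ k) :
    Nat.card E = Fintype.card F ∨ (Nat.card E) ^ 3 ≤ Fintype.card F := by
  classical
  have h1 : Nat.card F = Nat.card E ^ Module.finrank E F := Module.natCard_eq_pow_finrank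
  rw [Nat.card_eq_fintype_card] at h1
  set j := Module.finrank E F with hj
  have h2 : Nat.card E ∣ p ^ k := by
    rw [← hc, h1]
    apply dvd_pow_self
    have : 0 < j := Module.finrank_pos
    omega
  obtain ⟨m, hm, hm2⟩ := (Nat.dvd_prime_pow hp).mp h2
  have h3 : p ^ (m * j) = p ^ k := by rw [pow_mul, ← hm2, ← h1, hc]
  have h4 : m * j = k := Nat.pow_right_injective hp.two_le h3
  have h5 : Odd j := by
    rw [← h4] at hk
    exact (Nat.odd_mul.mp hk).2
  have h6 : 0 < Nat.card E := Nat.card_pos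
  rcases h5 with ⟨i, hi⟩
  rcases Nat.eq_zero_or_pos i with h7 | h7
  · left
    rw [h1, hi, h7]; simp
  · right
    rw [h1]
    exact Nat.pow_le_pow_right h6 (by omega)



theorem core {A Λ : Finset F} {T : ℝ} (hT : 2 ≤ T) {p k : ℕ} (hp : p.Prime) (hk : Odd k)
    (hc : Fintype.card F = p ^ k) (hq : (Fintype.card F : ℝ) = T ^ 1000)
    (hA1 : T ^ 499 ≤ A.card) (hA2 : (A.card : ℝ) ≤ T ^ 501) (hΛ : T ^ 499 ≤ Λ.card)
    (h0 : (0 : F) ∉ Λ) (h : ∀ l ∈ Λ, ((A + l • A).card : ℝ) ≤ T * A.card) : False := by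
  have hT1 : (1 : ℝ) ≤ T := by linarith
  have hT0 : (0 : ℝ) < T := by linarith
  have hmono : ∀ {a b : ℕ}, a ≤ b → T ^ a ≤ T ^ b := fun hab => pow_le_pow_right₀ hT1 hab
  have hge1 : ∀ n : ℕ, 1 ≤ T ^ n := fun n => one_le_pow₀ hT1
  have hAc : (0 : ℝ) < A.card := lt_of_lt_of_le (by positivity) hA1
  have hA : A.Nonempty := card_pos.mp (by exact_mod_cast hAc)
  have hΛc : (2 : ℝ) ≤ Λ.card := by
    calc (2 : ℝ) ≤ T ^ 1 := by rw [pow_one]; exact hT
      _ ≤ T ^ 499 := hmono (by norm_num)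
      _ ≤ _ := hΛ
  have hΛ2 : 2 ≤ Λ.card := by exact_mod_cast hΛc
  obtain ⟨l0, hl0⟩ : Λ.Nonempty := card_pos.mp (by omega)
  have hl00 : l0 ≠ 0 := fun e => h0 (e ▸ hl0)
  have hAA : ((A - A).card : ℝ) ≤ T ^ 2 * A.card := by
    have h1 := ruzsa_triangle_inequality_sub_add_add A (l0 • A) A
    rw [card_smul_finset₀ hl00] at h1
    have h2 : ((A - A).card : ℝ) * A.card ≤ (A + l0 • A).card * (A + l0 • A).card := by
      exact_mod_cast h1
    have h3 := h l0 hl0
    have h4 : ((A + l0 • A).card : ℝ) * (A + l0 • A).card ≤ (T * A.card) * (T * A.card) := by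
      gcongr
    have h5 : ((A - A).card : ℝ) * A.card ≤ (T ^ 2 * A.card) * A.card := by
      calc _ ≤ _ := h2
        _ ≤ _ := h4
        _ = _ := by ring
    exact le_of_mul_le_mul_right h5 hAc
  have covL : ∀ l ∈ Λ, Cov A T 1 l := by
    intro l hl
    apply cov_of_small hA
    rw [pow_one, add_comm]
    exact h l hl
  have covR : ∀ r, Quo Λ r → Cov A T 52 r := by
    rintro r ⟨a, ha, b, hb, c, hc', d, hd, hcd, rfl⟩
    have h1 : Cov A T 12 (a - b) := by
      rw [sub_eq_add_neg]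
      exact (cov_add hA hT1 hAA (covL a ha) (cov_neg (covL b hb))).mono hT1 (by norm_num)
    have h2 : Cov A T 12 (c - d) := by
      rw [sub_eq_add_neg]
      exact (cov_add hA hT1 hAA (covL c hc') (cov_neg (covL d hd))).mono hT1 (by norm_num)
    have h3 : Cov A T 18 (c - d)⁻¹ := (cov_inv hA hT1 hAA h2).mono hT1 (by norm_num)
    rw [div_eq_mul_inv]
    exact (cov_mul hA hT1 hAA h1 h3).mono hT1 (by norm_num)
  have count : ∀ (n : ℕ) (P : F → Prop) [DecidablePred P], n ≤ 400 →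
      (∀ x, P x → Cov A T n x) → (((univ : Finset F).filter P).card : ℝ) ≤ T ^ (n + 510) := by
    intro n P _ hn hP
    have h1 : 2 * T ^ (n + 6) ≤ A.card := by
      calc 2 * T ^ (n + 6) ≤ T * T ^ (n + 6) := by gcongr
        _ = T ^ (n + 7) := by ring
        _ ≤ T ^ 499 := hmono (by omega)
        _ ≤ _ := hA1
    have h2 := count_small hA (K := T ^ (n + 6)) (by positivity) h1
    have h3 : (((univ : Finset F).filter P).card : ℝ) ≤
        (((univ : Finset F).filter (fun l => ((A + l • A).card : ℝ) ≤ T ^ (n + 6) * A.card)).card : ℝ) := by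
      apply Nat.cast_le.mpr
      apply card_le_card
      intro x hx
      rw [mem_filter] at hx ⊢
      exact ⟨mem_univ _, small_of_cov hA hT1 hAA (hP x hx.2)⟩
    have h4 : 2 * T ^ (n + 6) * A.card + 1 ≤ T ^ (n + 510) := by
      have h5 : 2 * T ^ (n + 6) * A.card ≤ T ^ (n + 508) := by
        calc 2 * T ^ (n + 6) * (A.card : ℝ) ≤ T * T ^ (n + 6) * T ^ 501 := by gcongr
          _ = T ^ (n + 508) := by ring
      have h6 : T ^ (n + 508) + 1 ≤ T ^ (n + 510) := by
        have h7 := hge1 (n + 508)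
        have h8 : T ^ (n + 510) = T ^ (n + 508) * T ^ 2 := by ring
        rw [h8]
        have h9 : (2 : ℝ) ≤ T ^ 2 := by nlinarith
        have h10 : T ^ (n + 508) * 2 ≤ T ^ (n + 508) * T ^ 2 :=
          mul_le_mul_of_nonneg_left h9 (by positivity)
        linarith
      linarith
    linarith
  -- every xi with small constant is a quotient
  have closed : ∀ ξ, Cov A T 64 ξ → Quo Λ ξ := by
    intro ξ hξ
    by_contra hn
    have h1 := inj_of_not_quo hn
    classical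
    have h2 := count 87 (fun x => x ∈ (Λ ×ˢ Λ).image (fun e => e.1 + ξ * e.2)) (by norm_num) (by
      intro x hx
      rw [mem_image] at hx
      obtain ⟨e, he, rfl⟩ := hx
      rw [mem_product] at he
      have h3 : Cov A T 76 (e.2 * ξ) :=
        (cov_mul hA hT1 hAA (covL _ he.2) hξ).mono hT1 (by norm_num)
      have h4 : Cov A T 87 (e.1 + e.2 * ξ) :=
        (cov_add hA hT1 hAA (covL _ he.1) h3).mono hT1 (by norm_num)
      rwa [mul_comm e.2 ξ] at h4)
    have h3 : ((univ : Finset F).filter (fun x => x ∈ (Λ ×ˢ Λ).image (fun e => e.1 + ξ * e.2))) =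
        (Λ ×ˢ Λ).image (fun e => e.1 + ξ * e.2) := by
      ext x; simp
    rw [h3, h1] at h2
    have h4 : (T ^ 499) ^ 2 ≤ ((Λ.card ^ 2 : ℕ) : ℝ) := by
      push_cast
      gcongr
    have h5 : (T ^ 499) ^ 2 = T ^ (87 + 510) * T ^ 401 := by ring
    have h6 : T ^ (87 + 510) * 2 ≤ T ^ (87 + 510) * T ^ 401 := by
      apply mul_le_mul_of_nonneg_left _ (by positivity)
      calc (2 : ℝ) ≤ T ^ 1 := by rw [pow_one]; exact hT
        _ ≤ T ^ 401 := hmono (by norm_num)
    have h7 := hge1 (87 + 510)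
    linarith
  have hadd : ∀ r, Quo Λ r → Quo Λ (r + 1) := by
    intro r hr
    apply closed
    exact (cov_add hA hT1 hAA (covR r hr) (cov_one T)).mono hT1 (by norm_num)
  have hmul : ∀ l ∈ Λ, ∀ r, Quo Λ r → Quo Λ (l * r) := by
    intro l hl r hr
    apply closed
    exact (cov_mul hA hT1 hAA (covL l hl) (covR r hr)).mono hT1 (by norm_num)
  obtain ⟨E, hE1, hE2⟩ := exists_subfield h0 hΛ2 hadd hmul
  classical
  have hEc : Nat.card E = ((univ : Finset F).filter (fun x => x ∈ E)).card := by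
    rw [Nat.card_eq_fintype_card, Fintype.card_subtype]
  have hup : (Nat.card E : ℝ) ≤ T ^ (52 + 510) := by
    rw [hEc]
    exact count 52 (fun x => x ∈ E) (by norm_num) (fun x hx => covR x (hE2 x hx))
  have hlow : T ^ 499 ≤ (Nat.card E : ℝ) := by
    refine hΛ.trans ?_
    rw [hEc]
    apply Nat.cast_le.mpr
    apply card_le_card
    intro x hx
    rw [mem_filter]
    exact ⟨mem_univ _, hE1 x hx⟩
  rcases subfield_card E hp hk hc with h1 | h1
  · rw [h1, hq] at hup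
    have h2 : T ^ 1000 = T ^ (52 + 510) * T ^ 438 := by ring
    have h3 : T ^ (52 + 510) * 2 ≤ T ^ (52 + 510) * T ^ 438 := by
      apply mul_le_mul_of_nonneg_left _ (by positivity)
      calc (2 : ℝ) ≤ T ^ 1 := by rw [pow_one]; exact hT
        _ ≤ T ^ 438 := hmono (by norm_num)
    have h7 := hge1 (52 + 510)
    linarith
  · have h2 : ((Nat.card E : ℝ)) ^ 3 ≤ T ^ 1000 := by
      rw [← hq]; exact_mod_cast h1
    have h3 : (T ^ 499) ^ 3 ≤ (Nat.card E : ℝ) ^ 3 := by gcongr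
    have h4 : (T ^ 499) ^ 3 = T ^ 1000 * T ^ 497 := by ring
    have h5 : T ^ 1000 * 2 ≤ T ^ 1000 * T ^ 497 := by
      apply mul_le_mul_of_nonneg_left _ (by positivity)
      calc (2 : ℝ) ≤ T ^ 1 := by rw [pow_one]; exact hT
        _ ≤ T ^ 497 := hmono (by norm_num)
    have h7 := hge1 1000
    linarith

end Crest.Agent.R34.FP

namespace Crest.Agent.R34

open Classical in
theorem fieldPart : FieldPart := by
  refine ⟨1 / 1000, by norm_num, 2 ^ 1000, ?_⟩
  intro F _ _ p k hp hk hc hq A Λ hA1 hA2 hΛ h0 h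
  have hqpos : (0 : ℝ) < Fintype.card F := by
    have : 0 < Fintype.card F := Fintype.card_pos
    exact_mod_cast this
  set T : ℝ := (Fintype.card F : ℝ) ^ (1 / 1000 : ℝ) with hTdef
  have hTpow : ∀ n : ℕ, T ^ n = (Fintype.card F : ℝ) ^ ((n : ℝ) / 1000) := by
    intro n
    rw [hTdef, ← Real.rpow_natCast, ← Real.rpow_mul hqpos.le]
    congr 1
    ring
  have hT : 2 ≤ T := by
    have h1 : (2 : ℝ) = ((2 : ℝ) ^ (1000 : ℕ)) ^ (1 / 1000 : ℝ) := by
      rw [← Real.rpow_natCast, ← Real.rpow_mul (by norm_num)]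
      norm_num
    rw [h1, hTdef]
    apply Real.rpow_le_rpow (by positivity) _ (by norm_num)
    exact_mod_cast hq
  have e1 : (1 / 2 - 1 / 1000 : ℝ) = ((499 : ℕ) : ℝ) / 1000 := by norm_num
  have e2 : (1 / 2 + 1 / 1000 : ℝ) = ((501 : ℕ) : ℝ) / 1000 := by norm_num
  rw [e1, ← hTpow] at hA1 hΛ
  rw [e2, ← hTpow] at hA2
  refine FP.core (A := A) (Λ := Λ) hT hp hk hc ?_ hA1 hA2 hΛ h0 ?_
  · rw [hTpow]; norm_num
  · intro l hl
    have h1 := h l hl
    have h2 : (A + l • A) = ((A ×ˢ A).image (fun e => e.1 + l * e.2)) := by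
      ext z
      simp only [mem_add, mem_smul_finset, smul_eq_mul, mem_image, mem_product, Prod.exists]
      constructor
      · rintro ⟨a, ha, w, ⟨b, hb, rfl⟩, rfl⟩
        exact ⟨a, b, ⟨ha, hb⟩, rfl⟩
      · rintro ⟨a, b, ⟨ha, hb⟩, rfl⟩
        exact ⟨a, ha, _, ⟨b, hb, rfl⟩, rfl⟩
    rw [h2]
    exact h1

end Crest.Agent.R34
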