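import Crest.Agent.R34.Defs

/-!
# (I3) a common set from Balog-Szemeredi-Gowers
-/

set_option autoImplicit false

open Finset Classical
open scoped Pointwise

namespace Crest.Agent.R34

namespace I3

variable {F : Type} [Field F]

/-- dilate -/
noncomputable def sc (l : F) (V : Finset F) : Finset F := V.image fun b => l * b

lemma sc_card {l : F} (hl : l ≠ 0) (V : Finset F) : (sc l V).card = V.card :=
  card_image_of_injective _ (mul_right_injective₀ hl)

lemma sc_add (l : F) (U V : Finset F) : sc l (U + V) = sc l U + sc l V := by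
  unfold sc
  exact image_image₂_distrib fun a b => mul_add l a b

lemma sc_sub (l : F) (U V : Finset F) : sc l (U - V) = sc l U - sc l V := by
  unfold sc
  exact image_image₂_distrib fun a b => mul_sub l a b

lemma sc_sc (l m : F) (V : Finset F) : sc l (sc m V) = sc (l * m) V := by
  unfold sc
  rw [image_image]
  congr 1
  funext b
  simp [mul_assoc]

lemma sc_mono {l : F} {U V : Finset F} (h : U ⊆ V) : sc l U ⊆ sc l V := image_subset_image h

lemma prod_image (l : F) (A B : Finset F) :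
    (A ×ˢ B).image (fun e => e.1 + l * e.2) = A + sc l B := by
  ext x
  simp only [sc, mem_image, mem_product, mem_add, Prod.exists]
  constructor
  · rintro ⟨a, b, ⟨ha, hb⟩, rfl⟩
    exact ⟨a, ha, _, ⟨b, hb, rfl⟩, rfl⟩
  · rintro ⟨a, ha, _, ⟨b, hb, rfl⟩, rfl⟩
    exact ⟨a, b, ⟨ha, hb⟩, rfl⟩

lemma prod_image' (A B : Finset F) :
    (A ×ˢ B).image (fun e => e.1 + e.2) = A + B := by
  ext x
  simp only [mem_image, mem_product, mem_add, Prod.exists]
  constructor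
  · rintro ⟨a, b, ⟨ha, hb⟩, rfl⟩
    exact ⟨a, ha, b, hb, rfl⟩
  · rintro ⟨a, ha, b, hb, rfl⟩
    exact ⟨a, b, ⟨ha, hb⟩, rfl⟩

/-- Cauchy-Schwarz for a family of subsets -/
lemma cs {α ι : Type} [DecidableEq α] (X : Finset α) (s : Finset ι) (P : ι → Finset α) (hP : ∀ i ∈ s, P i ⊆ X) :
    (∑ i ∈ s, ((P i).card : ℝ)) ^ 2 ≤ X.card * ∑ i ∈ s, ∑ j ∈ s, ((P j ∩ P i).card : ℝ) := by
  have e1 : ∀ i ∈ s, ((P i).card : ℝ) = ∑ x ∈ X, (if x ∈ P i then (1 : ℝ) else 0) := by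
    intro i hi
    rw [← sum_filter, sum_const, nsmul_eq_mul, mul_one]
    congr 2
    ext x
    simp only [mem_filter]
    exact ⟨fun h => ⟨hP i hi h, h⟩, fun h => h.2⟩
  have e2 : ∀ i ∈ s, ∀ j ∈ s, ((P j ∩ P i).card : ℝ) =
      ∑ x ∈ X, (if x ∈ P i then (1 : ℝ) else 0) * (if x ∈ P j then (1 : ℝ) else 0) := by
    intro i hi j hj
    have : ∀ x, (if x ∈ P i then (1 : ℝ) else 0) * (if x ∈ P j then (1 : ℝ) else 0) =
        if x ∈ P j ∩ P i then (1 : ℝ) else 0 := by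
      intro x
      by_cases h1 : x ∈ P i <;> by_cases h2 : x ∈ P j <;> simp [h1, h2]
    simp_rw [this]
    rw [← sum_filter, sum_const, nsmul_eq_mul, mul_one]
    congr 2
    ext x
    simp only [mem_filter]
    exact ⟨fun h => ⟨hP i hi (mem_inter.1 h).2, h⟩, fun h => h.2⟩
  rw [sum_congr rfl e1, sum_congr rfl fun i hi => sum_congr rfl (e2 i hi), sum_comm]
  refine (sq_sum_le_card_mul_sum_sq).trans (le_of_eq ?_)
  congr 1
  simp_rw [sq, sum_mul_sum]
  rw [sum_comm]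
  refine sum_congr rfl fun i _ => ?_
  rw [sum_comm]

lemma cs2 (A₁ A₂ Λ : Finset F) (U V : F → Finset F) (hU : ∀ l ∈ Λ, U l ⊆ A₁)
    (hV : ∀ l ∈ Λ, V l ⊆ A₂) :
    (∑ i ∈ Λ, ((U i).card * (V i).card : ℝ)) ^ 2 ≤
      (A₁.card * A₂.card) * ∑ i ∈ Λ, ∑ j ∈ Λ, (((U j ∩ U i).card : ℝ) * (V j ∩ V i).card) := by
  have hc := cs (A₁ ×ˢ A₂) Λ (fun l => U l ×ˢ V l)
    fun l hl => product_subset_product (hU l hl) (hV l hl)
  have e1 : ∀ i j, (((U j ×ˢ V j) ∩ (U i ×ˢ V i)).card : ℝ) =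
      ((U j ∩ U i).card : ℝ) * (V j ∩ V i).card := by
    intro i j
    have : (U j ×ˢ V j) ∩ (U i ×ˢ V i) = (U j ∩ U i) ×ˢ (V j ∩ V i) := by
      ext x
      simp only [mem_inter, mem_product]
      tauto
    rw [this, card_product]
    push_cast
    ring
  simp only [card_product, Nat.cast_mul, e1] at hc
  exact hc

/-- choice of a popular element -/
lemma popular (Λ : Finset F) (P : F → F → ℝ) (N₂ R : ℝ) (hN₂ : 0 < N₂) (hR : 0 < R)
    (hΛ : Λ.Nonempty) (hP : ∀ i ∈ Λ, ∀ j ∈ Λ, P i j ≤ N₂)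
    (h : (Λ.card : ℝ) * (Λ.card * N₂) ≤ R * ∑ i ∈ Λ, ∑ j ∈ Λ, P i j) :
    ∃ l₀ ∈ Λ, (Λ.card : ℝ) ≤ 2 * R * (Λ.filter fun l => N₂ ≤ 2 * R * P l₀ l).card := by
  obtain ⟨l₀, hl₀, hl₀D⟩ : ∃ l₀ ∈ Λ, (Λ.card : ℝ) * N₂ ≤ R * ∑ j ∈ Λ, P l₀ j := by
    refine exists_le_of_sum_le hΛ ?_
    have e3 : ∑ _i ∈ Λ, (Λ.card : ℝ) * N₂ = Λ.card * (Λ.card * N₂) := by
      rw [sum_const, nsmul_eq_mul]
    rw [e3, ← mul_sum]
    exact h
  refine ⟨l₀, hl₀, ?_⟩
  have b1 : R * ∑ j ∈ Λ, P l₀ j ≤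
      R * ((Λ.filter fun l => N₂ ≤ 2 * R * P l₀ l).card * N₂) + Λ.card * (N₂ / 2) := by
    rw [← sum_filter_add_sum_filter_not Λ (fun l => N₂ ≤ 2 * R * P l₀ l), mul_add]
    refine add_le_add ?_ ?_
    · refine mul_le_mul_of_nonneg_left ?_ hR.le
      rw [← nsmul_eq_mul, ← sum_const]
      exact sum_le_sum fun l hl => hP l₀ hl₀ l (mem_filter.1 hl).1
    · rw [mul_sum]
      have : ∀ l ∈ Λ.filter (fun l => ¬ N₂ ≤ 2 * R * P l₀ l), R * P l₀ l ≤ N₂ / 2 := by
        intro l hl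
        have := (mem_filter.1 hl).2
        push Not at this
        linarith
      refine (sum_le_sum this).trans ?_
      rw [sum_const, nsmul_eq_mul]
      refine mul_le_mul_of_nonneg_right ?_ (by positivity)
      exact_mod_cast card_le_card (filter_subset _ _)
  refine le_of_mul_le_mul_right ?_ hN₂
  linarith

lemma core (A₁ A₂ Λ : Finset F) (N M : ℝ) (hM : 1 ≤ M) (hN : 0 < N)
    (h1 : (A₁.card : ℝ) ≤ N) (h2 : (A₂.card : ℝ) ≤ N) (hΛ : Λ.Nonempty) (h0 : (0 : F) ∉ Λ)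
    (U V : F → Finset F) (hU : ∀ l ∈ Λ, U l ⊆ A₁) (hV : ∀ l ∈ Λ, V l ⊆ A₂)
    (hUc : ∀ l ∈ Λ, N ≤ M * (U l).card) (hVc : ∀ l ∈ Λ, N ≤ M * (V l).card)
    (hs : ∀ l ∈ Λ, ((U l + sc l (V l)).card : ℝ) ≤ M * N) :
    ∃ A Λ' : Finset F, A ⊆ A₁ ∧ N ≤ M * A.card ∧ (Λ.card : ℝ) ≤ 2 * M ^ 4 * Λ'.card ∧
      (0 : F) ∉ Λ' ∧ ∀ l ∈ Λ', ((A + sc l A).card : ℝ) ≤ 4 * M ^ 18 * A.card := by
  have hM0 : 0 < M := by linarith
  have hN2 : 0 < N ^ 2 := by positivity
  -- pairs
  have hc := cs2 A₁ A₂ Λ U V hU hV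
  have hPl : ∀ l ∈ Λ, N ^ 2 ≤ M ^ 2 * ((U l).card * (V l).card : ℝ) := by
    intro l hl
    calc N ^ 2 = N * N := by ring
      _ ≤ (M * (U l).card) * (M * (V l).card) :=
          mul_le_mul (hUc l hl) (hVc l hl) hN.le (by positivity)
      _ = _ := by ring
  have hsum : (Λ.card : ℝ) * N ^ 2 ≤ M ^ 2 * ∑ l ∈ Λ, ((U l).card * (V l).card : ℝ) := by
    rw [mul_sum, ← nsmul_eq_mul, ← sum_const]
    exact sum_le_sum hPl
  have hX : (A₁.card * A₂.card : ℝ) ≤ N ^ 2 := by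
    rw [sq]
    exact mul_le_mul h1 h2 (by positivity) hN.le
  have hD0 : 0 ≤ ∑ i ∈ Λ, ∑ j ∈ Λ, (((U j ∩ U i).card : ℝ) * (V j ∩ V i).card) := by positivity
  generalize hD : ∑ i ∈ Λ, ∑ j ∈ Λ, (((U j ∩ U i).card : ℝ) * (V j ∩ V i).card) = D at hc hD0
  generalize hS : ∑ l ∈ Λ, ((U l).card * (V l).card : ℝ) = S at hc hsum
  have hΛD : (Λ.card : ℝ) * (Λ.card * N ^ 2) ≤ M ^ 4 * D := by
    have a1 : ((Λ.card : ℝ) * N ^ 2) ^ 2 ≤ (M ^ 2 * S) ^ 2 :=
      pow_le_pow_left₀ (by positivity) hsum 2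
    have a2 : S ^ 2 ≤ N ^ 2 * D :=
      hc.trans (mul_le_mul_of_nonneg_right hX hD0)
    have a3 : ((Λ.card : ℝ) * N ^ 2) ^ 2 ≤ M ^ 4 * (N ^ 2 * D) := by
      calc _ ≤ _ := a1
        _ = M ^ 4 * S ^ 2 := by ring
        _ ≤ _ := mul_le_mul_of_nonneg_left a2 (by positivity)
    refine le_of_mul_le_mul_left ?_ hN2
    calc _ = ((Λ.card : ℝ) * N ^ 2) ^ 2 := by ring
      _ ≤ _ := a3
      _ = _ := by ring
  rw [← hD] at hΛD
  -- choose l₀
  obtain ⟨l₀, hl₀, hΛ₁c⟩ := popular Λ (fun i j => ((U j ∩ U i).card : ℝ) * (V j ∩ V i).card)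
    (N ^ 2) (M ^ 4) hN2 (by positivity) hΛ (by
      intro i hi j hj
      have hu : ((U j ∩ U i).card : ℝ) ≤ N := le_trans
        (by exact_mod_cast card_le_card (inter_subset_left.trans (hU j hj))) h1
      have hv : ((V j ∩ V i).card : ℝ) ≤ N := le_trans
        (by exact_mod_cast card_le_card (inter_subset_left.trans (hV j hj))) h2
      rw [sq]
      exact mul_le_mul hu hv (by positivity) hN.le) hΛD
  have hl₀0 : l₀ ≠ 0 := fun h => h0 (h ▸ hl₀)
  set Λ₁ : Finset F := Λ.filter fun l =>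
    N ^ 2 ≤ 2 * M ^ 4 * (((U l ∩ U l₀).card : ℝ) * (V l ∩ V l₀).card) with hΛ₁
  refine ⟨U l₀, Λ₁.image fun l => -(l / l₀), hU l₀ hl₀, hUc l₀ hl₀, ?_, ?_, ?_⟩
  · rw [card_image_of_injective]
    · exact hΛ₁c
    · intro a b hab
      have := neg_injective hab
      field_simp at this
      exact this
  · intro h
    obtain ⟨l, hl, hl'⟩ := mem_image.1 h
    have hlΛ : l ∈ Λ := (mem_filter.1 hl).1
    rw [neg_eq_zero, div_eq_zero_iff] at hl'
    rcases hl' with rfl | h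
    · exact h0 hlΛ
    · exact hl₀0 h
  · intro l' hl'
    obtain ⟨l, hl, rfl⟩ := mem_image.1 hl'
    have hlΛ : l ∈ Λ := (mem_filter.1 hl).1
    have hpop := (mem_filter.1 hl).2
    have hl0 : l ≠ 0 := fun h => h0 (h ▸ hlΛ)
    set B₁ := U l₀
    set B₂ := V l₀
    set U' := U l ∩ B₁
    set V' := V l ∩ B₂
    have hb1 : N ≤ M * (B₁.card : ℝ) := hUc l₀ hl₀
    have hb2 : N ≤ M * (B₂.card : ℝ) := hVc l₀ hl₀
    have hB : ((B₁ + sc l₀ B₂).card : ℝ) ≤ M * N := hs l₀ hl₀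
    have hU'N : (U'.card : ℝ) ≤ N := le_trans
      (by exact_mod_cast card_le_card (inter_subset_left.trans (hU l hlΛ))) h1
    have hV'N : (V'.card : ℝ) ≤ N := le_trans
      (by exact_mod_cast card_le_card (inter_subset_left.trans (hV l hlΛ))) h2
    have hUV : N ^ 2 ≤ 2 * M ^ 4 * ((U'.card : ℝ) * V'.card) := hpop
    have hu : N ≤ 2 * M ^ 4 * (U'.card : ℝ) := by
      refine le_of_mul_le_mul_right ?_ hN
      calc N * N = N ^ 2 := by ring
        _ ≤ _ := hUV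
        _ = (2 * M ^ 4 * (U'.card : ℝ)) * V'.card := by ring
        _ ≤ _ := mul_le_mul_of_nonneg_left hV'N (by positivity)
    have hv : N ≤ 2 * M ^ 4 * (V'.card : ℝ) := by
      refine le_of_mul_le_mul_right ?_ hN
      calc N * N = N ^ 2 := by ring
        _ ≤ _ := hUV
        _ = (2 * M ^ 4 * (V'.card : ℝ)) * U'.card := by ring
        _ ≤ _ := mul_le_mul_of_nonneg_left hU'N (by positivity)
    -- (i)
    have r1 : ((B₁ - B₁).card : ℝ) ≤ M ^ 3 * N := by
      have h3 := ruzsa_triangle_inequality_sub_add_add B₁ (sc l₀ B₂) B₁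
      rw [sc_card hl₀0] at h3
      have h4 : ((B₁ - B₁).card : ℝ) * B₂.card ≤ (M * N) * (M * N) := by
        refine le_trans (by exact_mod_cast h3) (mul_le_mul hB hB (by positivity) (by positivity))
      refine le_of_mul_le_mul_right ?_ hN
      calc ((B₁ - B₁).card : ℝ) * N ≤ ((B₁ - B₁).card : ℝ) * (M * (B₂.card : ℝ)) :=
            mul_le_mul_of_nonneg_left hb2 (by positivity)
        _ = M * (((B₁ - B₁).card : ℝ) * B₂.card) := by ring
        _ ≤ M * ((M * N) * (M * N)) := mul_le_mul_of_nonneg_left h4 hM0.le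
        _ = _ := by ring
    -- (ii)
    have r2 : ((B₂ - B₂).card : ℝ) ≤ M ^ 3 * N := by
      have h3 := ruzsa_triangle_inequality_sub_add_add (sc l₀ B₂) B₁ (sc l₀ B₂)
      rw [← sc_sub, sc_card hl₀0, add_comm (sc l₀ B₂) B₁] at h3
      have h4 : ((B₂ - B₂).card : ℝ) * B₁.card ≤ (M * N) * (M * N) := by
        refine le_trans (by exact_mod_cast h3) (mul_le_mul hB hB (by positivity) (by positivity))
      refine le_of_mul_le_mul_right ?_ hN
      calc ((B₂ - B₂).card : ℝ) * N ≤ ((B₂ - B₂).card : ℝ) * (M * (B₁.card : ℝ)) :=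
            mul_le_mul_of_nonneg_left hb1 (by positivity)
        _ = M * (((B₂ - B₂).card : ℝ) * B₁.card) := by ring
        _ ≤ M * ((M * N) * (M * N)) := mul_le_mul_of_nonneg_left h4 hM0.le
        _ = _ := by ring
    -- (iii)
    have r3 : ((U' + sc l B₂).card : ℝ) ≤ 2 * M ^ 8 * N := by
      have h3 := ruzsa_triangle_inequality_add_sub_add (sc l B₂) (sc l V') U'
      rw [← sc_sub, sc_card hl0, sc_card hl0, add_comm _ U', add_comm _ U'] at h3
      have h5 : ((V' - B₂).card : ℝ) ≤ M ^ 3 * N := le_trans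
        (by exact_mod_cast card_le_card (sub_subset_sub inter_subset_right (Subset.refl _))) r2
      have h6 : ((U' + sc l V').card : ℝ) ≤ M * N := le_trans
        (by exact_mod_cast card_le_card (add_subset_add inter_subset_left
          (sc_mono inter_subset_left))) (hs l hlΛ)
      have h4 : (V'.card : ℝ) * (U' + sc l B₂).card ≤ (M ^ 3 * N) * (M * N) := by
        refine le_trans (by exact_mod_cast h3) (mul_le_mul h5 h6 (by positivity) (by positivity))
      refine le_of_mul_le_mul_right ?_ hN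
      calc ((U' + sc l B₂).card : ℝ) * N ≤ ((U' + sc l B₂).card : ℝ) * (2 * M ^ 4 * (V'.card : ℝ)) :=
            mul_le_mul_of_nonneg_left hv (by positivity)
        _ = 2 * M ^ 4 * ((V'.card : ℝ) * (U' + sc l B₂).card) := by ring
        _ ≤ 2 * M ^ 4 * ((M ^ 3 * N) * (M * N)) := mul_le_mul_of_nonneg_left h4 (by positivity)
        _ = _ := by ring
    -- (iv)
    have r4 : ((B₁ + sc l B₂).card : ℝ) ≤ 4 * M ^ 15 * N := by
      have h3 := ruzsa_triangle_inequality_add_sub_add B₁ U' (sc l B₂)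
      have h5 : ((U' - B₁).card : ℝ) ≤ M ^ 3 * N := le_trans
        (by exact_mod_cast card_le_card (sub_subset_sub inter_subset_right (Subset.refl _))) r1
      have h4 : (U'.card : ℝ) * (B₁ + sc l B₂).card ≤ (M ^ 3 * N) * (2 * M ^ 8 * N) := by
        refine le_trans (by exact_mod_cast h3) (mul_le_mul h5 r3 (by positivity) (by positivity))
      refine le_of_mul_le_mul_right ?_ hN
      calc ((B₁ + sc l B₂).card : ℝ) * N ≤ ((B₁ + sc l B₂).card : ℝ) * (2 * M ^ 4 * (U'.card : ℝ)) :=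
            mul_le_mul_of_nonneg_left hu (by positivity)
        _ = 2 * M ^ 4 * ((U'.card : ℝ) * (B₁ + sc l B₂).card) := by ring
        _ ≤ 2 * M ^ 4 * ((M ^ 3 * N) * (2 * M ^ 8 * N)) :=
            mul_le_mul_of_nonneg_left h4 (by positivity)
        _ = _ := by ring
    -- (v)
    have r5 : ((B₁ - sc (l / l₀) B₁).card : ℝ) ≤ 4 * M ^ 17 * N := by
      have h3 := ruzsa_triangle_inequality_sub_add_add B₁ (sc l B₂) (sc (l / l₀) B₁)
      have h6 : sc (l / l₀) B₁ + sc l B₂ = sc (l / l₀) (B₁ + sc l₀ B₂) := by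
        rw [sc_add, sc_sc, div_mul_cancel₀ l hl₀0]
      rw [h6, sc_card hl0, sc_card (div_ne_zero hl0 hl₀0)] at h3
      have h4 : ((B₁ - sc (l / l₀) B₁).card : ℝ) * B₂.card ≤ (4 * M ^ 15 * N) * (M * N) := by
        refine le_trans (by exact_mod_cast h3) (mul_le_mul r4 hB (by positivity) (by positivity))
      refine le_of_mul_le_mul_right ?_ hN
      calc ((B₁ - sc (l / l₀) B₁).card : ℝ) * N ≤
            ((B₁ - sc (l / l₀) B₁).card : ℝ) * (M * (B₂.card : ℝ)) :=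
            mul_le_mul_of_nonneg_left hb2 (by positivity)
        _ = M * (((B₁ - sc (l / l₀) B₁).card : ℝ) * B₂.card) := by ring
        _ ≤ M * ((4 * M ^ 15 * N) * (M * N)) := mul_le_mul_of_nonneg_left h4 hM0.le
        _ = _ := by ring
    have h7 : B₁ + sc (-(l / l₀)) B₁ = B₁ - sc (l / l₀) B₁ := by
      rw [sub_eq_add_neg]
      congr 1
      unfold sc
      ext x
      simp only [mem_image, mem_neg]
      constructor
      · rintro ⟨b, hb, rfl⟩
        exact ⟨_, ⟨b, hb, rfl⟩, by ring⟩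
      · rintro ⟨_, ⟨b, hb, rfl⟩, rfl⟩
        exact ⟨b, hb, by ring⟩
    rw [h7]
    calc _ ≤ _ := r5
      _ ≤ 4 * M ^ 17 * (M * (B₁.card : ℝ)) := mul_le_mul_of_nonneg_left hb1 (by positivity)
      _ = _ := by ring

end I3

open I3

theorem commonSet_of (h : BSG) : CommonSet := by
  obtain ⟨C, hC, hB⟩ := h
  intro ε' hε'
  have hC1 : (1 : ℝ) ≤ C := by exact_mod_cast hC
  have hC0 : (0 : ℝ) < C := by linarith
  set ε : ℝ := ε' / (200 * C) with hε
  have hε0 : 0 < ε := by positivity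
  have hεC : ε * C = ε' / 200 := by rw [hε]; field_simp
  have hεε' : 200 * ε ≤ ε' := by nlinarith
  obtain ⟨q₀, hq₀⟩ : ∃ q₀ : ℕ, ∀ n : ℕ, q₀ ≤ n → 4 * (C : ℝ) ^ 18 ≤ (n : ℝ) ^ (ε' / 2) := by
    have h1 := (tendsto_rpow_atTop (by positivity : 0 < ε' / 2)).comp
      (tendsto_natCast_atTop_atTop (R := ℝ))
    exact Filter.eventually_atTop.1 (h1.eventually_ge_atTop (4 * (C : ℝ) ^ 18))
  refine ⟨ε, hε0, q₀, ?_⟩
  intro F _ _ hq A₁ A₂ Λ h1 h2 h3 h0 hE
  have hcard : 1 ≤ Fintype.card F := Fintype.card_pos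
  have hqk := hq₀ _ hq
  set q : ℝ := (Fintype.card F : ℝ) with hqdef
  have hq1 : 1 ≤ q := by rw [hqdef]; exact_mod_cast hcard
  have hqpos : 0 < q := by linarith
  set N : ℝ := q ^ (1 / 2 + ε) with hN
  set K : ℝ := q ^ (3 * ε) with hK
  set M : ℝ := C * K ^ C with hM
  have hN0 : 0 < N := by positivity
  have hK1 : 1 ≤ K := Real.one_le_rpow hq1 (by positivity)
  have hKC : 1 ≤ K ^ C := one_le_pow₀ hK1
  have hM1 : 1 ≤ M := by
    rw [hM]; nlinarith
  have hM0 : 0 < M := by linarith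
  have hqε : 1 ≤ q ^ ε := Real.one_le_rpow hq1 hε0.le
  -- the key inequality
  have hkey : 4 * M ^ 18 * q ^ ε ≤ q ^ ε' := by
    have e1 : (K ^ C) ^ 18 * q ^ ε = q ^ (3 * ε * C * 18 + ε) := by
      rw [← pow_mul, hK, ← Real.rpow_natCast, ← Real.rpow_mul hqpos.le, ← Real.rpow_add hqpos]
      congr 1
      push_cast
      ring
    have e2 : q ^ (3 * ε * C * 18 + ε) ≤ q ^ (ε' / 2) := by
      refine Real.rpow_le_rpow_of_exponent_le hq1 ?_
      have : 3 * ε * C * 18 = 54 * (ε * C) := by ring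
      rw [this, hεC]
      linarith
    have e3 : q ^ ε' = q ^ (ε' / 2) * q ^ (ε' / 2) := by
      rw [← Real.rpow_add hqpos]; congr 1; ring
    calc 4 * M ^ 18 * q ^ ε = (4 * (C : ℝ) ^ 18) * ((K ^ C) ^ 18 * q ^ ε) := by rw [hM]; ring
      _ ≤ q ^ (ε' / 2) * q ^ (ε' / 2) := by
          rw [e1]
          exact mul_le_mul hqk e2 (by positivity) (by positivity)
      _ = _ := e3.symm
  have hM2 : M ≤ q ^ ε' := by
    refine le_trans ?_ hkey
    have : M ≤ M ^ 18 := le_self_pow₀ hM1 (by norm_num)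
    nlinarith [mul_le_mul_of_nonneg_left hqε (by positivity : 0 ≤ 4 * M ^ 18)]
  have hM4 : 2 * M ^ 4 * q ^ ε ≤ q ^ ε' := by
    refine le_trans ?_ hkey
    have : M ^ 4 ≤ M ^ 18 := pow_le_pow_right₀ hM1 (by norm_num)
    refine mul_le_mul_of_nonneg_right ?_ (by positivity)
    nlinarith [pow_pos hM0 18]
  have hM18 : 4 * M ^ 18 ≤ q ^ ε' := by
    refine le_trans ?_ hkey
    nlinarith [mul_le_mul_of_nonneg_left hqε (by positivity : 0 ≤ 4 * M ^ 18)]
  -- apply BSG for every `l`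
  have hbsg : ∀ l : F, ∃ U V : Finset F, l ∈ Λ → (U ⊆ A₁ ∧ V ⊆ A₂ ∧ N ≤ M * U.card ∧
      N ≤ M * V.card ∧ ((U + sc l V).card : ℝ) ≤ M * N) := by
    intro l
    by_cases hl : l ∈ Λ
    · have hl0 : l ≠ 0 := fun h => h0 (h ▸ hl)
      obtain ⟨E, hE1, hE2, hE3⟩ := hE l hl
      set E' : Finset (F × F) := E.image fun e => (e.1, l * e.2) with hE'
      have hinj : Function.Injective fun e : F × F => (e.1, l * e.2) := by
        intro a b hab
        simp only [Prod.mk.injEq] at hab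
        exact Prod.ext hab.1 (mul_left_cancel₀ hl0 hab.2)
      have hcE : E'.card = E.card := card_image_of_injective _ hinj
      have hsub : E' ⊆ A₁ ×ˢ sc l A₂ := by
        intro x hx
        obtain ⟨e, he, rfl⟩ := mem_image.1 hx
        have := mem_product.1 (hE1 he)
        exact mem_product.2 ⟨this.1, mem_image_of_mem _ this.2⟩
      have himg : E'.image (fun e => e.1 + e.2) = E.image (fun e => e.1 + l * e.2) := by
        rw [hE', image_image]
        rfl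
      obtain ⟨A', B', hA', hB', hA'c, hB'c, hAB⟩ := hB F A₁ (sc l A₂) E' N K hK1 hN0 hsub h1
        (by rw [sc_card hl0]; exact h2)
        (by
          rw [hcE]
          calc N ^ 2 = K * q ^ (1 - ε) := by
                rw [hN, hK, ← Real.rpow_natCast, ← Real.rpow_mul hqpos.le, ← Real.rpow_add hqpos]
                congr 1; push_cast; ring
            _ ≤ K * (E.card : ℝ) := mul_le_mul_of_nonneg_left hE2 (by positivity))
        (by
          rw [himg]
          refine hE3.trans ?_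
          nlinarith)
      have hV : sc l (A₂.filter fun b => l * b ∈ B') = B' := by
        ext x
        simp only [sc, mem_image, mem_filter]
        constructor
        · rintro ⟨b, ⟨_, hb⟩, rfl⟩; exact hb
        · intro hx
          obtain ⟨b, hb, rfl⟩ := mem_image.1 (hB' hx)
          exact ⟨b, ⟨hb, hx⟩, rfl⟩
      refine ⟨A', A₂.filter fun b => l * b ∈ B', fun _ => ⟨hA', filter_subset _ _, hA'c, ?_, ?_⟩⟩
      · rw [← sc_card hl0, hV]
        exact hB'c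
      · rw [hV, ← I3.prod_image']
        exact hAB
    · exact ⟨∅, ∅, fun h => absurd h hl⟩
  choose U V hUV using hbsg
  have hΛne : Λ.Nonempty := by
    rw [← card_pos]
    have : (0 : ℝ) < Λ.card := lt_of_lt_of_le (by positivity) h3
    exact_mod_cast this
  obtain ⟨A, Λ', hA, hAc, hΛ', h0', hfin⟩ := core A₁ A₂ Λ N M hM1 hN0 h1 h2 hΛne h0 U V
    (fun l hl => (hUV l hl).1) (fun l hl => (hUV l hl).2.1) (fun l hl => (hUV l hl).2.2.1)
    (fun l hl => (hUV l hl).2.2.2.1) (fun l hl => (hUV l hl).2.2.2.2)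
  refine ⟨A, Λ', ?_, ?_, ?_, h0', ?_⟩
  · refine le_of_mul_le_mul_right ?_ hM0
    calc q ^ (1 / 2 - ε') * M ≤ q ^ (1 / 2 - ε') * q ^ ε' :=
          mul_le_mul_of_nonneg_left hM2 (by positivity)
      _ = q ^ (1 / 2 : ℝ) := by rw [← Real.rpow_add hqpos]; congr 1; ring
      _ ≤ N := Real.rpow_le_rpow_of_exponent_le hq1 (by linarith)
      _ ≤ M * A.card := hAc
      _ = _ := mul_comm _ _
  · have : (A.card : ℝ) ≤ A₁.card := by exact_mod_cast card_le_card hA
    refine (this.trans h1).trans (Real.rpow_le_rpow_of_exponent_le hq1 ?_)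
    linarith
  · have hM40 : 0 < 2 * M ^ 4 := by positivity
    refine le_of_mul_le_mul_right ?_ (mul_pos hM40 (by positivity : 0 < q ^ ε))
    calc q ^ (1 / 2 - ε') * (2 * M ^ 4 * q ^ ε) ≤ q ^ (1 / 2 - ε') * q ^ ε' :=
          mul_le_mul_of_nonneg_left hM4 (by positivity)
      _ = q ^ (1 / 2 - ε) * q ^ ε := by
          rw [← Real.rpow_add hqpos, ← Real.rpow_add hqpos]; congr 1; ring
      _ ≤ (2 * M ^ 4 * Λ'.card) * q ^ ε :=
          mul_le_mul_of_nonneg_right (h3.trans hΛ') (by positivity)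
      _ = _ := by ring
  · intro l hl
    rw [I3.prod_image]
    exact (hfin l hl).trans (mul_le_mul_of_nonneg_right hM18 (by positivity))

theorem noConfig_of (h1 : CommonSet) (h2 : FieldPart) : NoConfig := by
  obtain ⟨ε', hε', q₀', hF⟩ := h2
  obtain ⟨ε, hε, q₀, hS⟩ := h1 ε' hε'
  refine ⟨ε, hε, max q₀ q₀', ?_⟩
  intro F _ _ p k hp hk hpk hq A₁ A₂ Λ a1 a2 a3 a0 aE
  obtain ⟨A, Λ', b1, b2, b3, b0, b4⟩ := hS F (le_trans (le_max_left _ _) hq) A₁ A₂ Λ a1 a2 a3 a0 aE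
  exact hF F p k hp hk hpk (le_trans (le_max_right _ _) hq) A Λ' b1 b2 b3 b0 b4

end Crest.Agent.R34
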