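import Crest.Agent.R34.Defs

/-!
# Row 34, task I4: the incidence theorem `INC` from `NoConfig`.
-/

set_option autoImplicit false
set_option linter.unusedSectionVars false

open Finset Classical

namespace Crest.Agent.R34

namespace I4aux

section
variable {F : Type} [Field F]

/-- points of `S` on `L` -/
noncomputable def sl (S : Finset (Pt F)) (L : Ln F) : Finset (Pt F) := S.filter (fun z => On z L)

/-- lines of `𝓛` through `x` -/
noncomputable def lx (𝓛 : Finset (Ln F)) (x : Pt F) : Finset (Ln F) := 𝓛.filter (fun L => On x L)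

theorem star {w x : Pt F} {L L' : Ln F} (hw : On w L) (hw' : On w L') (hx : On x L)
    (hx' : On x L') (hxw : x ≠ w) : L = L' := by
  have h : x.1 ≠ w.1 := fun h => hxw (On_inj hx hw h)
  exact On_unique h hx hw hx' hw'

theorem star_sum (S : Finset (Pt F)) (𝓜 : Finset (Ln F)) (w : Pt F) (h : ∀ L ∈ 𝓜, On w L) :
    (𝓜.biUnion (fun L => (sl S L).erase w)).card = ∑ L ∈ 𝓜, ((sl S L).erase w).card := by
  apply card_biUnion
  intro L hL L' hL' hne
  rw [Function.onFun, Finset.disjoint_left]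
  intro x hx hx'
  simp only [sl, mem_erase, mem_filter] at hx hx'
  exact hne (star (h L hL) (h L' hL') hx.2.2 hx'.2.2 hx.1)

theorem erase_ge (S : Finset (Pt F)) (L : Ln F) (w : Pt F) :
    ((sl S L).card : ℝ) - 1 ≤ (((sl S L).erase w).card : ℝ) := by
  have h := Finset.pred_card_le_card_erase (s := sl S L) (a := w)
  have h2 : (sl S L).card ≤ ((sl S L).erase w).card + 1 := by omega
  have h3 : ((sl S L).card : ℝ) ≤ (((sl S L).erase w).card : ℝ) + 1 := by exact_mod_cast h2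
  linarith

theorem m_bound (S : Finset (Pt F)) (𝓜 : Finset (Ln F)) (w : Pt F) (h : ∀ L ∈ 𝓜, On w L)
    (s x : ℝ) (hx : 100 ≤ x) (hs : 2 * x ≤ s) (hS : (S.card : ℝ) ≤ s ^ 2)
    (hr : ∀ L ∈ 𝓜, s / x ≤ ((sl S L).card : ℝ)) : (𝓜.card : ℝ) ≤ 2 * s * x := by
  have hx0 : 0 < x := by linarith
  have hs0 : 0 < s := by linarith
  have h1 : (𝓜.card : ℝ) * (s / (2 * x)) ≤ s ^ 2 := by
    calc (𝓜.card : ℝ) * (s / (2 * x)) = ∑ L ∈ 𝓜, (s / (2 * x)) := by
          rw [Finset.sum_const, nsmul_eq_mul]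
      _ ≤ ∑ L ∈ 𝓜, (((sl S L).erase w).card : ℝ) := by
          apply Finset.sum_le_sum
          intro L hL
          have h2 := erase_ge S L w
          have h3 := hr L hL
          have h4 : s / (2 * x) = s / x / 2 := by field_simp
          have h5 : 2 ≤ s / x := by
            rw [le_div_iff₀ hx0]; linarith
          rw [h4]
          linarith
      _ = ((𝓜.biUnion (fun L => (sl S L).erase w)).card : ℝ) := by
          rw [star_sum S 𝓜 w h]; push_cast; rfl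
      _ ≤ (S.card : ℝ) := by
          norm_cast
          apply card_le_card
          intro z hz
          simp only [sl, mem_biUnion, mem_erase, mem_filter] at hz
          obtain ⟨L, _, _, hz, _⟩ := hz
          exact hz
      _ ≤ s ^ 2 := hS
  have h6 : 0 < s / (2 * x) := by positivity
  have h7 : (𝓜.card : ℝ) ≤ s ^ 2 / (s / (2 * x)) := by
    rw [le_div_iff₀ h6]; exact h1
  have h8 : s ^ 2 / (s / (2 * x)) = 2 * s * x := by
    field_simp
  rw [h8] at h7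
  exact h7

theorem dc (S : Finset (Pt F)) (𝓛 : Finset (Ln F)) (f : Ln F → ℝ) :
    ∑ x ∈ S, ∑ L ∈ lx 𝓛 x, f L = ∑ L ∈ 𝓛, ((sl S L).card : ℝ) * f L := by
  unfold lx sl
  simp_rw [Finset.sum_filter]
  rw [Finset.sum_comm]
  apply Finset.sum_congr rfl
  intro L _
  rw [← Finset.sum_filter, Finset.sum_const, nsmul_eq_mul]

/-- weighted degree -/
noncomputable def dd (S : Finset (Pt F)) (𝓛 : Finset (Ln F)) (x : Pt F) : ℝ :=
  ∑ L ∈ lx 𝓛 x, ((sl S L).card : ℝ)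

theorem exists_line (S : Finset (Pt F)) (𝓛 : Finset (Ln F)) (s x : ℝ) (hx : 100 ≤ x)
    (hs : 2 * x ≤ s) (hS : (S.card : ℝ) ≤ s ^ 2)
    (hr : ∀ L ∈ 𝓛, s / x ≤ ((sl S L).card : ℝ))
    (hbig : s ^ 4 / x < ∑ L ∈ 𝓛, ((sl S L).card : ℝ) ^ 2) :
    ∃ L₀ ∈ 𝓛, s / (4 * x ^ 2) ≤ ((sl (S.filter (fun z => s ^ 2 / (2 * x) ≤ dd S 𝓛 z)) L₀).card : ℝ) := by
  have hx0 : 0 < x := by linarith
  have hs0 : 0 < s := by linarith
  by_contra hcon
  push Not at hcon
  set S₁ := S.filter (fun z => s ^ 2 / (2 * x) ≤ dd S 𝓛 z) with hS₁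
  have h0 : ∑ z ∈ S, dd S 𝓛 z = ∑ L ∈ 𝓛, ((sl S L).card : ℝ) ^ 2 := by
    unfold dd
    rw [dc S 𝓛 (fun L => ((sl S L).card : ℝ))]
    apply Finset.sum_congr rfl
    intro L _
    ring
  have h1 : ∑ z ∈ S₁, dd S 𝓛 z = ∑ L ∈ 𝓛, ((sl S₁ L).card : ℝ) * ((sl S L).card : ℝ) := by
    unfold dd
    rw [dc S₁ 𝓛 (fun L => ((sl S L).card : ℝ))]
  have h2 : ∑ L ∈ 𝓛, ((sl S L).card : ℝ) ≤ s ^ 2 * (2 * s * x) := by
    have h3 := dc S 𝓛 (fun _ => (1 : ℝ))
    simp only [mul_one] at h3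
    rw [← h3]
    calc ∑ z ∈ S, ∑ L ∈ lx 𝓛 z, (1 : ℝ) ≤ ∑ z ∈ S, (2 * s * x) := by
          apply Finset.sum_le_sum
          intro z _
          rw [Finset.sum_const, nsmul_eq_mul, mul_one]
          apply m_bound S (lx 𝓛 z) z _ s x hx hs hS
          · intro L hL
            exact hr L (mem_filter.mp hL).1
          · intro L hL
            exact (mem_filter.mp hL).2
      _ = (S.card : ℝ) * (2 * s * x) := by rw [Finset.sum_const, nsmul_eq_mul]
      _ ≤ s ^ 2 * (2 * s * x) := by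
          apply mul_le_mul_of_nonneg_right hS
          positivity
  have h4 : ∑ z ∈ S₁, dd S 𝓛 z ≤ s ^ 4 / (2 * x) := by
    rw [h1]
    calc ∑ L ∈ 𝓛, ((sl S₁ L).card : ℝ) * ((sl S L).card : ℝ)
        ≤ ∑ L ∈ 𝓛, (s / (4 * x ^ 2)) * ((sl S L).card : ℝ) := by
          apply Finset.sum_le_sum
          intro L hL
          apply mul_le_mul_of_nonneg_right (hcon L hL).le
          positivity
      _ = (s / (4 * x ^ 2)) * ∑ L ∈ 𝓛, ((sl S L).card : ℝ) := by rw [Finset.mul_sum]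
      _ ≤ (s / (4 * x ^ 2)) * (s ^ 2 * (2 * s * x)) := by
          apply mul_le_mul_of_nonneg_left h2
          positivity
      _ = s ^ 4 / (2 * x) := by
          field_simp
          ring
  have h5 : ∑ z ∈ S.filter (fun z => ¬ s ^ 2 / (2 * x) ≤ dd S 𝓛 z), dd S 𝓛 z ≤ s ^ 4 / (2 * x) := by
    calc ∑ z ∈ S.filter (fun z => ¬ s ^ 2 / (2 * x) ≤ dd S 𝓛 z), dd S 𝓛 z
        ≤ ∑ z ∈ S.filter (fun z => ¬ s ^ 2 / (2 * x) ≤ dd S 𝓛 z), s ^ 2 / (2 * x) := by
          apply Finset.sum_le_sum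
          intro z hz
          have := (mem_filter.mp hz).2
          push Not at this
          exact this.le
      _ = ((S.filter (fun z => ¬ s ^ 2 / (2 * x) ≤ dd S 𝓛 z)).card : ℝ) * (s ^ 2 / (2 * x)) := by
          rw [Finset.sum_const, nsmul_eq_mul]
      _ ≤ s ^ 2 * (s ^ 2 / (2 * x)) := by
          apply mul_le_mul_of_nonneg_right _ (by positivity)
          refine le_trans ?_ hS
          exact_mod_cast card_le_card (filter_subset _ _)
      _ = s ^ 4 / (2 * x) := by ring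
  have h6 : ∑ z ∈ S, dd S 𝓛 z = ∑ z ∈ S₁, dd S 𝓛 z +
      ∑ z ∈ S.filter (fun z => ¬ s ^ 2 / (2 * x) ≤ dd S 𝓛 z), dd S 𝓛 z := by
    rw [hS₁, Finset.sum_filter_add_sum_filter_not]
  have h7 : s ^ 4 / x = s ^ 4 / (2 * x) + s ^ 4 / (2 * x) := by
    field_simp
    ring
  linarith

/-- the point of `L₀` in part `some t` -/
def wt (L₀ : Ln F) (t : F) : Pt F := (some t, ev L₀ (some t))

theorem wt_on (L₀ : Ln F) (t : F) : On (wt L₀ t) L₀ := rfl

/-- vertical distance from `L₀` -/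
def yy (L₀ : Ln F) (z : Pt F) : F := z.2 - ev L₀ z.1

noncomputable def UU (L₀ : Ln F) (z : Pt F) : F :=
  match z.1 with
  | none => 1 / yy L₀ z
  | some t => t / yy L₀ z

noncomputable def VV (L₀ : Ln F) (z : Pt F) : F :=
  match z.1 with
  | none => 0
  | some _ => 1 / yy L₀ z

theorem yy_ne {L₀ : Ln F} {z : Pt F} (h : ¬ On z L₀) : yy L₀ z ≠ 0 := by
  intro h2
  exact h (sub_eq_zero.mp h2).symm

theorem UV_inj {L₀ : Ln F} {z z' : Pt F} (h : ¬ On z L₀) (h' : ¬ On z' L₀)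
    (hU : UU L₀ z = UU L₀ z') (hV : VV L₀ z = VV L₀ z') : z = z' := by
  have hy := yy_ne h
  have hy' := yy_ne h'
  rcases z with ⟨i, y⟩
  rcases z' with ⟨i', y'⟩
  cases i with
  | none =>
    cases i' with
    | none =>
      simp only [UU] at hU
      have h3 : yy L₀ (none, y) = yy L₀ (none, y') := by
        field_simp at hU
        exact hU.symm
      simp only [yy] at h3
      have h4 : y = y' := by
        have := congrArg (fun a => a + ev L₀ none) h3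
        simpa using this
      rw [h4]
    | some t' =>
      simp only [VV] at hV
      exfalso
      have : (1 : F) / yy L₀ (some t', y') ≠ 0 := one_div_ne_zero hy'
      exact this hV.symm
  | some t =>
    cases i' with
    | none =>
      simp only [VV] at hV
      exfalso
      have : (1 : F) / yy L₀ (some t, y) ≠ 0 := one_div_ne_zero hy
      exact this hV
    | some t' =>
      simp only [VV] at hV
      simp only [UU] at hU
      have h3 : yy L₀ (some t, y) = yy L₀ (some t', y') := by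
        have := hV
        field_simp at this
        exact this.symm
      rw [h3] at hU
      have h5 : t = t' := by
        have h6 := hU
        field_simp at h6
        exact h6
      subst h5
      simp only [yy] at h3
      have h4 : y = y' := by
        have := congrArg (fun a => a + ev L₀ (some t)) h3
        simpa using this
      rw [h4]

theorem UV_line {L₀ L : Ln F} {z : Pt F} {t : F} (h : ¬ On z L₀) (hw : On (wt L₀ t) L)
    (hz : On z L) : UU L₀ z - t * VV L₀ z = 1 / (L.1 - L₀.1) := by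
  have hy := yy_ne h
  have hne : L ≠ L₀ := by
    rintro rfl
    exact h hz
  have hw' : L.1 * t + L.2 = L₀.1 * t + L₀.2 := hw
  have h1 : L.1 - L₀.1 ≠ 0 := by
    intro h2
    have h3 : L.1 = L₀.1 := sub_eq_zero.mp h2
    apply hne
    have h4 : L.2 = L₀.2 := by
      rw [h3] at hw'
      exact add_left_cancel hw'
    exact Prod.ext h3 h4
  rcases z with ⟨i, y⟩
  cases i with
  | none =>
    have hz' : L.1 = y := hz
    have e : yy L₀ (none, y) = L.1 - L₀.1 := by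
      simp only [yy, ev]
      rw [hz']
    simp only [UU, VV]
    rw [e]
    ring
  | some t' =>
    have hz' : L.1 * t' + L.2 = y := hz
    have e : yy L₀ (some t', y) = (L.1 - L₀.1) * (t' - t) := by
      simp only [yy, ev]
      rw [← hz']
      linear_combination hw'
    have h5 : t' - t ≠ 0 := by
      intro h6
      rw [e, h6, mul_zero] at hy
      exact hy rfl
    simp only [UU, VV]
    rw [e]
    field_simp

end

section
variable {F : Type} [Field F]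

/-- the star of `wt L₀ t` in `S`, minus `L₀` -/
noncomputable def St (S : Finset (Pt F)) (𝓛 : Finset (Ln F)) (L₀ : Ln F) (t : F) :
    Finset (Pt F) :=
  S.filter (fun z => ¬ On z L₀ ∧ ∃ L ∈ 𝓛, On (wt L₀ t) L ∧ On z L)

theorem St_subset (S : Finset (Pt F)) (𝓛 : Finset (Ln F)) (L₀ : Ln F) (t : F) :
    St S 𝓛 L₀ t ⊆ S := filter_subset _ _

theorem St_card (S : Finset (Pt F)) (𝓛 : Finset (Ln F)) (L₀ : Ln F) (t : F) (s x : ℝ)
    (hx : 100 ≤ x) (hs : x ^ 20 ≤ s) (hS : (S.card : ℝ) ≤ s ^ 2)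
    (hline : ∀ L : Ln F, ((sl S L).card : ℝ) ≤ s ^ 2 / x ^ 10)
    (hr : ∀ L ∈ 𝓛, s / x ≤ ((sl S L).card : ℝ))
    (ht : s ^ 2 / (2 * x) ≤ dd S 𝓛 (wt L₀ t)) :
    s ^ 2 / x ^ 2 ≤ ((St S 𝓛 L₀ t).card : ℝ) := by
  have hx0 : 0 < x := by linarith
  have hx20 : 2 * x ≤ x ^ 20 := by
    have h1 : (2 : ℝ) ≤ x ^ 19 := by
      calc (2 : ℝ) ≤ 100 := by norm_num
        _ ≤ x := hx
        _ = x ^ 1 := by ring
        _ ≤ x ^ 19 := pow_le_pow_right₀ (by linarith) (by norm_num)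
    calc 2 * x ≤ x ^ 19 * x := mul_le_mul_of_nonneg_right h1 hx0.le
      _ = x ^ 20 := by ring
  have hs2 : 2 * x ≤ s := hx20.trans hs
  have hs0 : 0 < s := by linarith
  set w := wt L₀ t with hw
  have hsub : (((lx 𝓛 w).erase L₀).biUnion (fun L => (sl S L).erase w)) ⊆ St S 𝓛 L₀ t := by
    intro z hz
    simp only [mem_biUnion, mem_erase, lx, sl, mem_filter] at hz
    obtain ⟨L, ⟨hL1, hL2, hL3⟩, hz1, hz2, hz3⟩ := hz
    refine mem_filter.mpr ⟨hz2, ?_, L, hL2, hL3, hz3⟩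
    intro hz4
    exact hL1 (star hL3 (wt_on L₀ t) hz3 hz4 hz1)
  have h1 : ((((lx 𝓛 w).erase L₀).biUnion (fun L => (sl S L).erase w)).card : ℝ) =
      ∑ L ∈ (lx 𝓛 w).erase L₀, (((sl S L).erase w).card : ℝ) := by
    rw [star_sum]
    · push_cast; rfl
    · intro L hL
      exact (mem_filter.mp (mem_of_mem_erase hL)).2
  have h2 : ∑ L ∈ (lx 𝓛 w).erase L₀, (((sl S L).card : ℝ) - 1) ≤
      ∑ L ∈ (lx 𝓛 w).erase L₀, (((sl S L).erase w).card : ℝ) := by
    apply Finset.sum_le_sum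
    intro L _
    exact erase_ge S L w
  have h3 : dd S 𝓛 w ≤ ∑ L ∈ (lx 𝓛 w).erase L₀, ((sl S L).card : ℝ) + ((sl S L₀).card : ℝ) := by
    unfold dd
    by_cases hm : L₀ ∈ lx 𝓛 w
    · rw [← Finset.sum_erase_add _ _ hm]
    · rw [Finset.erase_eq_of_notMem hm]
      have : (0 : ℝ) ≤ ((sl S L₀).card : ℝ) := by positivity
      linarith
  have h4 : (((lx 𝓛 w).erase L₀).card : ℝ) ≤ 2 * s * x := by
    apply m_bound S ((lx 𝓛 w).erase L₀) w _ s x hx hs2 hS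
    · intro L hL
      exact hr L (mem_filter.mp (mem_of_mem_erase hL)).1
    · intro L hL
      exact (mem_filter.mp (mem_of_mem_erase hL)).2
  have h5 : ∑ L ∈ (lx 𝓛 w).erase L₀, (((sl S L).card : ℝ) - 1) =
      ∑ L ∈ (lx 𝓛 w).erase L₀, ((sl S L).card : ℝ) - (((lx 𝓛 w).erase L₀).card : ℝ) := by
    rw [Finset.sum_sub_distrib, Finset.sum_const, nsmul_eq_mul, mul_one]
  have h6 : ((((lx 𝓛 w).erase L₀).biUnion (fun L => (sl S L).erase w)).card : ℝ) ≤
      ((St S 𝓛 L₀ t).card : ℝ) := by exact_mod_cast card_le_card hsub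
  have h7 := hline L₀
  -- s²/(2x) - s²/x^10 - 2 s x ≥ s²/x²
  have hx2 : (100 : ℝ) ≤ x := hx
  have e1 : s ^ 2 / x ^ 10 ≤ s ^ 2 / x ^ 2 := by
    apply div_le_div_of_nonneg_left (by positivity) (by positivity)
    exact pow_le_pow_right₀ (by linarith) (by norm_num)
  have e2 : 2 * s * x ≤ s ^ 2 / x ^ 2 := by
    rw [le_div_iff₀ (by positivity)]
    have : 2 * x ^ 3 ≤ s := by
      have h1 : (2 : ℝ) ≤ x ^ 17 := by
        calc (2 : ℝ) ≤ 100 := by norm_num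
          _ ≤ x := hx
          _ = x ^ 1 := by ring
          _ ≤ x ^ 17 := pow_le_pow_right₀ (by linarith) (by norm_num)
      calc 2 * x ^ 3 ≤ x ^ 17 * x ^ 3 := mul_le_mul_of_nonneg_right h1 (by positivity)
        _ = x ^ 20 := by ring
        _ ≤ s := hs
    nlinarith
  have e3 : 3 * (s ^ 2 / x ^ 2) ≤ s ^ 2 / (2 * x) := by
    rw [le_div_iff₀ (by positivity)]
    have : 3 * (s ^ 2 / x ^ 2) * (2 * x) = 6 * s ^ 2 / x := by
      field_simp
      ring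
    rw [this, div_le_iff₀ hx0]
    nlinarith [sq_nonneg s]
  linarith

theorem St_image (S : Finset (Pt F)) (𝓛 : Finset (Ln F)) (L₀ : Ln F) (t : F) (s x : ℝ)
    (hx : 100 ≤ x) (hs : 2 * x ≤ s) (hS : (S.card : ℝ) ≤ s ^ 2)
    (hr : ∀ L ∈ 𝓛, s / x ≤ ((sl S L).card : ℝ)) :
    (((St S 𝓛 L₀ t).image (fun z => UU L₀ z - t * VV L₀ z)).card : ℝ) ≤ s * x ^ 2 := by
  have hx0 : 0 < x := by linarith
  have hs0 : 0 < s := by linarith
  have hsub : (St S 𝓛 L₀ t).image (fun z => UU L₀ z - t * VV L₀ z) ⊆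
      (lx 𝓛 (wt L₀ t)).image (fun L => 1 / (L.1 - L₀.1)) := by
    intro a ha
    rw [mem_image] at ha
    obtain ⟨z, hz, rfl⟩ := ha
    obtain ⟨_, hz2, L, hL, hw, hz3⟩ := mem_filter.mp hz
    rw [mem_image]
    exact ⟨L, mem_filter.mpr ⟨hL, hw⟩, (UV_line hz2 hw hz3).symm⟩
  have h4 : ((lx 𝓛 (wt L₀ t)).card : ℝ) ≤ 2 * s * x := by
    apply m_bound S (lx 𝓛 (wt L₀ t)) (wt L₀ t) _ s x hx hs hS
    · intro L hL
      exact hr L (mem_filter.mp hL).1
    · intro L hL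
      exact (mem_filter.mp hL).2
  have h5 : (((St S 𝓛 L₀ t).image (fun z => UU L₀ z - t * VV L₀ z)).card : ℝ) ≤
      ((lx 𝓛 (wt L₀ t)).card : ℝ) := by
    exact_mod_cast (card_le_card hsub).trans card_image_le
  have h6 : 2 * s * x ≤ s * x ^ 2 := by nlinarith [mul_pos hs0 hx0]
  linarith

end

section
variable {F : Type} [Field F] [Fintype F]

/-- triple intersections -/
noncomputable def cc (S : Finset (Pt F)) (𝓛 : Finset (Ln F)) (L₀ : Ln F) (t₁ t₂ t : F) : ℝ :=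
  ((St S 𝓛 L₀ t₁ ∩ St S 𝓛 L₀ t₂ ∩ St S 𝓛 L₀ t).card : ℝ)

theorem cc_le (S : Finset (Pt F)) (𝓛 : Finset (Ln F)) (L₀ : Ln F) (t₁ t₂ t : F) :
    cc S 𝓛 L₀ t₁ t₂ t ≤ (S.card : ℝ) := by
  unfold cc
  norm_cast
  apply card_le_card
  exact inter_subset_right.trans (St_subset _ _ _ _)

theorem cc_nonneg (S : Finset (Pt F)) (𝓛 : Finset (Ln F)) (L₀ : Ln F) (t₁ t₂ t : F) :
    0 ≤ cc S 𝓛 L₀ t₁ t₂ t := by
  unfold cc
  positivity

/-- indicator -/
noncomputable def chi (S : Finset (Pt F)) (𝓛 : Finset (Ln F)) (L₀ : Ln F) (t : F) (z : Pt F) : ℝ :=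
  if z ∈ St S 𝓛 L₀ t then 1 else 0

theorem cc_eq (S : Finset (Pt F)) (𝓛 : Finset (Ln F)) (L₀ : Ln F) (t₁ t₂ t : F) :
    cc S 𝓛 L₀ t₁ t₂ t = ∑ z ∈ S, chi S 𝓛 L₀ t₁ z * chi S 𝓛 L₀ t₂ z * chi S 𝓛 L₀ t z := by
  have h1 : ∀ z, chi S 𝓛 L₀ t₁ z * chi S 𝓛 L₀ t₂ z * chi S 𝓛 L₀ t z =
      if z ∈ St S 𝓛 L₀ t₁ ∩ St S 𝓛 L₀ t₂ ∩ St S 𝓛 L₀ t then (1 : ℝ) else 0 := by
    intro z
    unfold chi
    by_cases a : z ∈ St S 𝓛 L₀ t₁ <;> by_cases b : z ∈ St S 𝓛 L₀ t₂ <;>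
      by_cases c : z ∈ St S 𝓛 L₀ t <;> simp [a, b, c]
  simp_rw [h1]
  rw [← Finset.sum_filter, Finset.sum_const, nsmul_eq_mul, mul_one]
  unfold cc
  congr 2
  ext z
  rw [mem_filter]
  constructor
  · intro h
    exact ⟨St_subset _ _ _ _ (mem_of_mem_inter_right h), h⟩
  · intro h
    exact h.2

theorem triple (S : Finset (Pt F)) (𝓛 : Finset (Ln F)) (L₀ : Ln F) (W : Finset F) (s x : ℝ)
    (hx : 100 ≤ x) (hs : x ^ 20 ≤ s) (hS : (S.card : ℝ) ≤ s ^ 2)
    (hW : s / x ^ 3 ≤ (W.card : ℝ))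
    (hSt : ∀ t ∈ W, s ^ 2 / x ^ 2 ≤ ((St S 𝓛 L₀ t).card : ℝ)) :
    ∃ t₁ ∈ W, ∃ t₂ ∈ W, t₁ ≠ t₂ ∧
      (W.card : ℝ) * (s ^ 2 / (2 * x ^ 6)) ≤
        ∑ t ∈ W.filter (fun t => t ≠ t₁ ∧ t ≠ t₂), cc S 𝓛 L₀ t₁ t₂ t := by
  have hx0 : 0 < x := by linarith
  have hx20 : (0 : ℝ) < x ^ 20 := by positivity
  have hs0 : 0 < s := by linarith
  by_contra hcon
  push Not at hcon
  set n : Pt F → ℝ := fun z => ∑ t ∈ W, chi S 𝓛 L₀ t z with hn
  have hn0 : ∀ z ∈ S, 0 ≤ n z := by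
    intro z _
    apply Finset.sum_nonneg
    intro t _
    unfold chi
    split_ifs <;> norm_num
  have h1 : ∑ z ∈ S, n z = ∑ t ∈ W, ((St S 𝓛 L₀ t).card : ℝ) := by
    rw [hn, Finset.sum_comm]
    apply Finset.sum_congr rfl
    intro t _
    unfold chi
    rw [← Finset.sum_filter, Finset.sum_const, nsmul_eq_mul, mul_one]
    congr 2
    ext z
    rw [mem_filter]
    exact ⟨fun h => h.2, fun h => ⟨St_subset _ _ _ _ h, h⟩⟩
  have h2 : (W.card : ℝ) * (s ^ 2 / x ^ 2) ≤ ∑ z ∈ S, n z := by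
    rw [h1]
    calc (W.card : ℝ) * (s ^ 2 / x ^ 2) = ∑ t ∈ W, (s ^ 2 / x ^ 2) := by
          rw [Finset.sum_const, nsmul_eq_mul]
      _ ≤ _ := Finset.sum_le_sum hSt
  have hWpos : 0 < (W.card : ℝ) := lt_of_lt_of_le (by positivity) hW
  have hSpos : 0 < (S.card : ℝ) := by
    by_contra h
    have h0 : S.card = 0 := by
      have : (S.card : ℝ) = 0 := le_antisymm (not_lt.mp h) (by positivity)
      exact_mod_cast this
    rw [card_eq_zero] at h0
    rw [h0, Finset.sum_empty] at h2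
    have : 0 < (W.card : ℝ) * (s ^ 2 / x ^ 2) := by positivity
    linarith
  have h3 : (∑ z ∈ S, n z) ^ 3 / (S.card : ℝ) ^ 2 ≤ ∑ z ∈ S, n z ^ 3 :=
    pow_sum_div_card_le_sum_pow hn0 2
  have h4 : (W.card : ℝ) ^ 3 * (s ^ 2 / x ^ 6) ≤ ∑ z ∈ S, n z ^ 3 := by
    refine le_trans ?_ h3
    rw [le_div_iff₀ (by positivity)]
    calc (W.card : ℝ) ^ 3 * (s ^ 2 / x ^ 6) * (S.card : ℝ) ^ 2
        ≤ (W.card : ℝ) ^ 3 * (s ^ 2 / x ^ 6) * (s ^ 2) ^ 2 := by
          apply mul_le_mul_of_nonneg_left _ (by positivity)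
          exact pow_le_pow_left₀ hSpos.le hS 2
      _ = ((W.card : ℝ) * (s ^ 2 / x ^ 2)) ^ 3 := by
          field_simp
      _ ≤ (∑ z ∈ S, n z) ^ 3 := pow_le_pow_left₀ (by positivity) h2 3
  have h5 : ∑ z ∈ S, n z ^ 3 = ∑ t₁ ∈ W, ∑ t₂ ∈ W, ∑ t ∈ W, cc S 𝓛 L₀ t₁ t₂ t := by
    simp_rw [cc_eq]
    have e1 : ∀ z, n z ^ 3 = ∑ t₁ ∈ W, ∑ t₂ ∈ W, ∑ t ∈ W,
        chi S 𝓛 L₀ t₁ z * chi S 𝓛 L₀ t₂ z * chi S 𝓛 L₀ t z := by
      intro z
      rw [hn]
      simp only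
      rw [pow_succ, pow_two, Finset.sum_mul_sum, Finset.sum_mul]
      apply Finset.sum_congr rfl
      intro t₁ _
      rw [Finset.sum_mul_sum]
    simp_rw [e1]
    rw [Finset.sum_comm]
    apply Finset.sum_congr rfl
    intro t₁ _
    rw [Finset.sum_comm]
    apply Finset.sum_congr rfl
    intro t₂ _
    rw [Finset.sum_comm]
  have h6 : ∀ t₁ ∈ W, ∀ t₂ ∈ W, ∑ t ∈ W, cc S 𝓛 L₀ t₁ t₂ t ≤
      (if t₁ = t₂ then (W.card : ℝ) * s ^ 2 else 0) + (2 * s ^ 2 + (W.card : ℝ) * (s ^ 2 / (2 * x ^ 6))) := by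
    intro t₁ ht₁ t₂ ht₂
    by_cases he : t₁ = t₂
    · rw [if_pos he]
      have : ∑ t ∈ W, cc S 𝓛 L₀ t₁ t₂ t ≤ (W.card : ℝ) * s ^ 2 := by
        calc ∑ t ∈ W, cc S 𝓛 L₀ t₁ t₂ t ≤ ∑ t ∈ W, s ^ 2 := by
              apply Finset.sum_le_sum
              intro t _
              exact (cc_le _ _ _ _ _ _).trans hS
          _ = _ := by rw [Finset.sum_const, nsmul_eq_mul]
      have h7 : 0 ≤ 2 * s ^ 2 + (W.card : ℝ) * (s ^ 2 / (2 * x ^ 6)) := by positivity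
      linarith
    · rw [if_neg he, zero_add]
      have h7 := hcon t₁ ht₁ t₂ ht₂ he
      have h8 : ∑ t ∈ W, cc S 𝓛 L₀ t₁ t₂ t =
          ∑ t ∈ W.filter (fun t => t ≠ t₁ ∧ t ≠ t₂), cc S 𝓛 L₀ t₁ t₂ t +
          ∑ t ∈ W.filter (fun t => ¬ (t ≠ t₁ ∧ t ≠ t₂)), cc S 𝓛 L₀ t₁ t₂ t := by
        rw [Finset.sum_filter_add_sum_filter_not]
      have h9 : ∑ t ∈ W.filter (fun t => ¬ (t ≠ t₁ ∧ t ≠ t₂)), cc S 𝓛 L₀ t₁ t₂ t ≤ 2 * s ^ 2 := by
        have hsub : W.filter (fun t => ¬ (t ≠ t₁ ∧ t ≠ t₂)) ⊆ {t₁, t₂} := by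
          intro t ht
          have := (mem_filter.mp ht).2
          rw [mem_insert, mem_singleton]
          tauto
        calc ∑ t ∈ W.filter (fun t => ¬ (t ≠ t₁ ∧ t ≠ t₂)), cc S 𝓛 L₀ t₁ t₂ t
            ≤ ∑ t ∈ ({t₁, t₂} : Finset F), cc S 𝓛 L₀ t₁ t₂ t :=
              Finset.sum_le_sum_of_subset_of_nonneg hsub (fun t _ _ => cc_nonneg _ _ _ _ _ _)
          _ = cc S 𝓛 L₀ t₁ t₂ t₁ + cc S 𝓛 L₀ t₁ t₂ t₂ := Finset.sum_pair he
          _ ≤ 2 * s ^ 2 := by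
              have a := (cc_le S 𝓛 L₀ t₁ t₂ t₁).trans hS
              have b := (cc_le S 𝓛 L₀ t₁ t₂ t₂).trans hS
              linarith
      linarith
  have h7 : ∑ z ∈ S, n z ^ 3 ≤ (W.card : ℝ) * ((W.card : ℝ) * s ^ 2) +
      (W.card : ℝ) * ((W.card : ℝ) * (2 * s ^ 2 + (W.card : ℝ) * (s ^ 2 / (2 * x ^ 6)))) := by
    rw [h5]
    calc ∑ t₁ ∈ W, ∑ t₂ ∈ W, ∑ t ∈ W, cc S 𝓛 L₀ t₁ t₂ t
        ≤ ∑ t₁ ∈ W, ∑ t₂ ∈ W, ((if t₁ = t₂ then (W.card : ℝ) * s ^ 2 else 0) +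
          (2 * s ^ 2 + (W.card : ℝ) * (s ^ 2 / (2 * x ^ 6)))) := by
          apply Finset.sum_le_sum
          intro t₁ ht₁
          apply Finset.sum_le_sum
          intro t₂ ht₂
          exact h6 t₁ ht₁ t₂ ht₂
      _ = ∑ t₁ ∈ W, ((W.card : ℝ) * s ^ 2 +
          (W.card : ℝ) * (2 * s ^ 2 + (W.card : ℝ) * (s ^ 2 / (2 * x ^ 6)))) := by
          apply Finset.sum_congr rfl
          intro t₁ ht₁
          rw [Finset.sum_add_distrib, Finset.sum_ite_eq, if_pos ht₁, Finset.sum_const, nsmul_eq_mul]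
      _ = _ := by
          rw [Finset.sum_const, nsmul_eq_mul]
          ring
  -- contradiction
  have h8 : (W.card : ℝ) ^ 3 * (s ^ 2 / x ^ 6) ≤ 3 * (W.card : ℝ) ^ 2 * s ^ 2 +
      (W.card : ℝ) ^ 3 * (s ^ 2 / (2 * x ^ 6)) := by
    calc _ ≤ _ := h4
      _ ≤ _ := h7
      _ = _ := by ring
  have h9 : (W.card : ℝ) ≤ 6 * x ^ 6 := by
    have e1 : s ^ 2 / x ^ 6 = s ^ 2 / (2 * x ^ 6) + s ^ 2 / (2 * x ^ 6) := by
      field_simp
      ring
    have e2 : (W.card : ℝ) ^ 3 * (s ^ 2 / (2 * x ^ 6)) ≤ 3 * (W.card : ℝ) ^ 2 * s ^ 2 := by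
      rw [e1] at h8
      linarith
    have e3 : (W.card : ℝ) ^ 2 * s ^ 2 * (W.card : ℝ) ≤ (W.card : ℝ) ^ 2 * s ^ 2 * (6 * x ^ 6) := by
      have : (W.card : ℝ) ^ 3 * (s ^ 2 / (2 * x ^ 6)) = (W.card : ℝ) ^ 3 * s ^ 2 / (2 * x ^ 6) := by
        ring
      rw [this, div_le_iff₀ (by positivity)] at e2
      calc _ = (W.card : ℝ) ^ 3 * s ^ 2 := by ring
        _ ≤ _ := e2
        _ = _ := by ring
    exact le_of_mul_le_mul_left e3 (by positivity)
  have h10 : 6 * x ^ 6 < s / x ^ 3 := by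
    rw [lt_div_iff₀ (by positivity)]
    calc 6 * x ^ 6 * x ^ 3 = 6 * x ^ 9 := by ring
      _ < x * x ^ 9 := by
          apply mul_lt_mul_of_pos_right (by linarith) (by positivity)
      _ = x ^ 10 := by ring
      _ ≤ x ^ 20 := pow_le_pow_right₀ (by linarith) (by norm_num)
      _ ≤ s := hs
  linarith

theorem core (S : Finset (Pt F)) (𝓛 : Finset (Ln F)) (s x : ℝ) (hx : 100 ≤ x) (hs : x ^ 20 ≤ s)
    (hS : (S.card : ℝ) ≤ s ^ 2)
    (hline : ∀ L : Ln F, ((sl S L).card : ℝ) ≤ s ^ 2 / x ^ 10)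
    (hr : ∀ L ∈ 𝓛, s / x ≤ ((sl S L).card : ℝ))
    (hbig : s ^ 4 / x < ∑ L ∈ 𝓛, ((sl S L).card : ℝ) ^ 2) :
    ∃ A₁ A₂ Λ : Finset F, (A₁.card : ℝ) ≤ s * x ^ 2 ∧ (A₂.card : ℝ) ≤ s * x ^ 2 ∧
      s / x ^ 10 ≤ (Λ.card : ℝ) ∧ (0 : F) ∉ Λ ∧
      ∀ l ∈ Λ, ∃ E : Finset (F × F), E ⊆ A₁ ×ˢ A₂ ∧ s ^ 2 / x ^ 7 ≤ (E.card : ℝ) ∧
        ((E.image (fun e => e.1 + l * e.2)).card : ℝ) ≤ s * x ^ 2 := by
  have hx0 : 0 < x := by linarith
  have hxs : ∀ k : ℕ, k ≤ 19 → 100 * x ^ k ≤ s := by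
    intro k hk
    calc 100 * x ^ k ≤ x * x ^ k := mul_le_mul_of_nonneg_right hx (by positivity)
      _ = x ^ (k + 1) := by ring
      _ ≤ x ^ 20 := pow_le_pow_right₀ (by linarith) (by omega)
      _ ≤ s := hs
  have hs2 : 2 * x ≤ s := by
    have := hxs 1 (by norm_num)
    rw [pow_one] at this
    linarith
  have hs0 : 0 < s := by linarith
  obtain ⟨L₀, hL₀, hL₀'⟩ := exists_line S 𝓛 s x hx hs2 hS hr hbig
  set S₁ := S.filter (fun z => s ^ 2 / (2 * x) ≤ dd S 𝓛 z) with hS₁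
  set W : Finset F := Finset.univ.filter (fun t : F => wt L₀ t ∈ S₁) with hWdef
  have hW : s / x ^ 3 ≤ (W.card : ℝ) := by
    have hsub : sl S₁ L₀ ⊆ insert ((none, ev L₀ none) : Pt F) (W.image (wt L₀)) := by
      intro z hz
      obtain ⟨hz1, hz2⟩ := mem_filter.mp hz
      rcases z with ⟨i, y⟩
      have hz3 : ev L₀ i = y := hz2
      subst hz3
      cases i with
      | none => exact mem_insert_self _ _
      | some t =>
        apply mem_insert_of_mem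
        rw [mem_image]
        exact ⟨t, mem_filter.mpr ⟨mem_univ _, hz1⟩, rfl⟩
    have h1 : (sl S₁ L₀).card ≤ W.card + 1 := by
      calc (sl S₁ L₀).card ≤ _ := card_le_card hsub
        _ ≤ (W.image (wt L₀)).card + 1 := card_insert_le _ _
        _ ≤ W.card + 1 := by
            have := card_image_le (s := W) (f := wt L₀)
            omega
    have h2 : ((sl S₁ L₀).card : ℝ) ≤ (W.card : ℝ) + 1 := by exact_mod_cast h1
    have h3 : s / x ^ 3 + 1 ≤ s / (4 * x ^ 2) := by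
      have e1 : s / (4 * x ^ 2) = (s / x ^ 3) * (x / 4) := by
        field_simp
      have e2 : 1 ≤ s / x ^ 3 := by
        rw [le_div_iff₀ (by positivity)]
        have := hxs 3 (by norm_num)
        have h3 : 0 < x ^ 3 := by positivity
        linarith
      rw [e1]
      nlinarith
    linarith
  have hSt : ∀ t ∈ W, s ^ 2 / x ^ 2 ≤ ((St S 𝓛 L₀ t).card : ℝ) := by
    intro t ht
    apply St_card S 𝓛 L₀ t s x hx hs hS hline hr
    exact (mem_filter.mp (mem_filter.mp ht).2).2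
  obtain ⟨t₁, ht₁, t₂, ht₂, hne, htri⟩ := triple S 𝓛 L₀ W s x hx hs hS hW hSt
  have hWpos : 0 < (W.card : ℝ) := lt_of_lt_of_le (by positivity) hW
  set V := W.filter (fun t => t ≠ t₁ ∧ t ≠ t₂) with hVdef
  set T := V.filter (fun t => s ^ 2 / (4 * x ^ 6) ≤ cc S 𝓛 L₀ t₁ t₂ t) with hTdef
  have hT : s / x ^ 10 ≤ (T.card : ℝ) := by
    have h1 : ∑ t ∈ V, cc S 𝓛 L₀ t₁ t₂ t = ∑ t ∈ T, cc S 𝓛 L₀ t₁ t₂ t +
        ∑ t ∈ V.filter (fun t => ¬ s ^ 2 / (4 * x ^ 6) ≤ cc S 𝓛 L₀ t₁ t₂ t), cc S 𝓛 L₀ t₁ t₂ t := by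
      rw [hTdef, Finset.sum_filter_add_sum_filter_not]
    have h2 : ∑ t ∈ T, cc S 𝓛 L₀ t₁ t₂ t ≤ (T.card : ℝ) * s ^ 2 := by
      calc ∑ t ∈ T, cc S 𝓛 L₀ t₁ t₂ t ≤ ∑ t ∈ T, s ^ 2 := by
            apply Finset.sum_le_sum
            intro t _
            exact (cc_le _ _ _ _ _ _).trans hS
        _ = _ := by rw [Finset.sum_const, nsmul_eq_mul]
    have h3 : ∑ t ∈ V.filter (fun t => ¬ s ^ 2 / (4 * x ^ 6) ≤ cc S 𝓛 L₀ t₁ t₂ t),
        cc S 𝓛 L₀ t₁ t₂ t ≤ (W.card : ℝ) * (s ^ 2 / (4 * x ^ 6)) := by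
      calc ∑ t ∈ V.filter (fun t => ¬ s ^ 2 / (4 * x ^ 6) ≤ cc S 𝓛 L₀ t₁ t₂ t),
            cc S 𝓛 L₀ t₁ t₂ t
          ≤ ∑ t ∈ V.filter (fun t => ¬ s ^ 2 / (4 * x ^ 6) ≤ cc S 𝓛 L₀ t₁ t₂ t),
            s ^ 2 / (4 * x ^ 6) := by
            apply Finset.sum_le_sum
            intro t ht
            have := (mem_filter.mp ht).2
            push Not at this
            exact this.le
        _ = ((V.filter (fun t => ¬ s ^ 2 / (4 * x ^ 6) ≤ cc S 𝓛 L₀ t₁ t₂ t)).card : ℝ) *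
            (s ^ 2 / (4 * x ^ 6)) := by rw [Finset.sum_const, nsmul_eq_mul]
        _ ≤ (W.card : ℝ) * (s ^ 2 / (4 * x ^ 6)) := by
            apply mul_le_mul_of_nonneg_right _ (by positivity)
            exact_mod_cast card_le_card ((filter_subset _ _).trans (filter_subset _ _))
    have e1 : s ^ 2 / (2 * x ^ 6) = s ^ 2 / (4 * x ^ 6) + s ^ 2 / (4 * x ^ 6) := by
      field_simp
      ring
    have h4 : (W.card : ℝ) * (s ^ 2 / (4 * x ^ 6)) ≤ (T.card : ℝ) * s ^ 2 := by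
      rw [e1] at htri
      linarith
    have h5 : s ^ 2 * ((W.card : ℝ) / (4 * x ^ 6)) ≤ s ^ 2 * (T.card : ℝ) := by
      calc _ = (W.card : ℝ) * (s ^ 2 / (4 * x ^ 6)) := by ring
        _ ≤ _ := h4
        _ = _ := by ring
    have h6 : (W.card : ℝ) / (4 * x ^ 6) ≤ (T.card : ℝ) := le_of_mul_le_mul_left h5 (by positivity)
    refine le_trans ?_ h6
    rw [le_div_iff₀ (by positivity)]
    calc s / x ^ 10 * (4 * x ^ 6) = s / x ^ 3 * (4 / x) := by
          field_simp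
      _ ≤ s / x ^ 3 * 1 := by
          apply mul_le_mul_of_nonneg_left _ (by positivity)
          rw [div_le_iff₀ hx0]
          linarith
      _ ≤ (W.card : ℝ) := by rw [mul_one]; exact hW
  have ht12 : t₂ - t₁ ≠ 0 := sub_ne_zero.mpr (Ne.symm hne)
  refine ⟨(St S 𝓛 L₀ t₁).image (fun z => UU L₀ z - t₁ * VV L₀ z),
    (St S 𝓛 L₀ t₂).image (fun z => UU L₀ z - t₂ * VV L₀ z),
    T.image (fun t => (t - t₁) / (t₂ - t)), ?_, ?_, ?_, ?_, ?_⟩
  · exact St_image S 𝓛 L₀ t₁ s x hx hs2 hS hr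
  · exact St_image S 𝓛 L₀ t₂ s x hx hs2 hS hr
  · rw [card_image_of_injOn]
    · exact hT
    · intro t ht t' ht' he
      have h1 := (mem_filter.mp (mem_filter.mp ht).1).2
      have h2 := (mem_filter.mp (mem_filter.mp ht').1).2
      have h3 : t₂ - t ≠ 0 := sub_ne_zero.mpr (Ne.symm h1.2)
      have h4 : t₂ - t' ≠ 0 := sub_ne_zero.mpr (Ne.symm h2.2)
      simp only at he
      rw [div_eq_div_iff h3 h4] at he
      have h5 : (t₂ - t₁) * (t - t') = 0 := by linear_combination he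
      rcases mul_eq_zero.mp h5 with h6 | h6
      · exact absurd h6 ht12
      · exact sub_eq_zero.mp h6
  · intro h0
    rw [mem_image] at h0
    obtain ⟨t, ht, he⟩ := h0
    have h1 := (mem_filter.mp (mem_filter.mp ht).1).2
    have h3 : t₂ - t ≠ 0 := sub_ne_zero.mpr (Ne.symm h1.2)
    have h4 : t - t₁ ≠ 0 := sub_ne_zero.mpr h1.1
    exact (div_ne_zero h4 h3) he
  · intro l hl
    rw [mem_image] at hl
    obtain ⟨t, ht, rfl⟩ := hl
    have h1 := (mem_filter.mp (mem_filter.mp ht).1).2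
    have hcc := (mem_filter.mp ht).2
    have h3 : t₂ - t ≠ 0 := sub_ne_zero.mpr (Ne.symm h1.2)
    refine ⟨(St S 𝓛 L₀ t₁ ∩ St S 𝓛 L₀ t₂ ∩ St S 𝓛 L₀ t).image
      (fun z => (UU L₀ z - t₁ * VV L₀ z, UU L₀ z - t₂ * VV L₀ z)), ?_, ?_, ?_⟩
    · intro e he
      rw [mem_image] at he
      obtain ⟨z, hz, rfl⟩ := he
      rw [mem_product]
      rw [mem_inter, mem_inter] at hz
      exact ⟨mem_image.mpr ⟨z, hz.1.1, rfl⟩, mem_image.mpr ⟨z, hz.1.2, rfl⟩⟩
    · rw [card_image_of_injOn]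
      · have e1 : s ^ 2 / x ^ 7 ≤ s ^ 2 / (4 * x ^ 6) := by
          apply div_le_div_of_nonneg_left (by positivity) (by positivity)
          calc 4 * x ^ 6 ≤ x * x ^ 6 := mul_le_mul_of_nonneg_right (by linarith) (by positivity)
            _ = x ^ 7 := by ring
        exact e1.trans hcc
      · intro z hz z' hz' he
        have hz1 := (mem_inter.mp hz).2
        have hz2 := (mem_inter.mp hz').2
        have hz3 := (mem_filter.mp hz1).2.1
        have hz4 := (mem_filter.mp hz2).2.1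
        simp only [Prod.mk.injEq] at he
        obtain ⟨he1, he2⟩ := he
        have hV : VV L₀ z = VV L₀ z' := by
          have : (t₂ - t₁) * (VV L₀ z - VV L₀ z') = 0 := by linear_combination he1 - he2
          rcases mul_eq_zero.mp this with h6 | h6
          · exact absurd h6 ht12
          · exact sub_eq_zero.mp h6
        have hU : UU L₀ z = UU L₀ z' := by
          rw [hV] at he1
          linear_combination he1
        exact UV_inj hz3 hz4 hU hV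
    · have hsub : (((St S 𝓛 L₀ t₁ ∩ St S 𝓛 L₀ t₂ ∩ St S 𝓛 L₀ t).image
          (fun z => (UU L₀ z - t₁ * VV L₀ z, UU L₀ z - t₂ * VV L₀ z))).image
          (fun e => e.1 + (t - t₁) / (t₂ - t) * e.2)) ⊆
          ((St S 𝓛 L₀ t).image (fun z => UU L₀ z - t * VV L₀ z)).image
            (fun a => (t₂ - t₁) / (t₂ - t) * a) := by
        intro a ha
        rw [mem_image] at ha
        obtain ⟨e, he, rfl⟩ := ha
        rw [mem_image] at he
        obtain ⟨z, hz, rfl⟩ := he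
        rw [mem_image]
        refine ⟨UU L₀ z - t * VV L₀ z, mem_image.mpr ⟨z, (mem_inter.mp hz).2, rfl⟩, ?_⟩
        simp only
        field_simp
        ring
      have h5 := St_image S 𝓛 L₀ t s x hx hs2 hS hr
      refine le_trans ?_ h5
      exact_mod_cast (card_le_card hsub).trans card_image_le

end

end I4aux

open I4aux in
theorem inc_of (h : NoConfig) : INC := by
  obtain ⟨ε₀, hε₀, q₀, hq₀⟩ := h
  set ε : ℝ := min (ε₀ / 10) (1 / 100) with hε
  have hεpos : 0 < ε := lt_min (by linarith) (by norm_num)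
  have hε1 : 10 * ε ≤ ε₀ := by
    have := min_le_left (ε₀ / 10) (1 / 100 : ℝ)
    rw [← hε] at this
    linarith
  have hε2 : ε ≤ 1 / 100 := min_le_right _ _
  refine ⟨ε, hεpos, max q₀ (max 2 ⌈(100 : ℝ) ^ (1 / ε)⌉₊), ?_⟩
  intro F _ _ p k hp hk hcard hq S 𝓛 hS hline hpart hr
  by_contra hcon
  push Not at hcon
  set q : ℝ := (Fintype.card F : ℝ) with hqdef
  have hq1 : q₀ ≤ Fintype.card F := (le_max_left _ _).trans hq
  have hq2 : 2 ≤ Fintype.card F := (le_max_left _ _).trans ((le_max_right _ _).trans hq)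
  have hq3 : (100 : ℝ) ^ (1 / ε) ≤ q := by
    have h1 : ⌈(100 : ℝ) ^ (1 / ε)⌉₊ ≤ Fintype.card F :=
      (le_max_right _ _).trans ((le_max_right _ _).trans hq)
    exact (Nat.le_ceil _).trans (by rw [hqdef]; exact_mod_cast h1)
  have hq4 : (2 : ℝ) ≤ q := by rw [hqdef]; exact_mod_cast hq2
  have hqpos : 0 < q := by linarith
  have hq5 : (1 : ℝ) ≤ q := by linarith
  set s : ℝ := q ^ (1 / 2 : ℝ) with hsdef
  set x : ℝ := q ^ ε with hxdef
  have hxpow : ∀ n : ℕ, x ^ n = q ^ (n * ε : ℝ) := by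
    intro n
    rw [hxdef, ← Real.rpow_natCast, ← Real.rpow_mul hqpos.le]
    ring_nf
  have hspow : ∀ n : ℕ, s ^ n = q ^ (n / 2 : ℝ) := by
    intro n
    rw [hsdef, ← Real.rpow_natCast, ← Real.rpow_mul hqpos.le]
    ring_nf
  have hx : 100 ≤ x := by
    have h1 : ((100 : ℝ) ^ (1 / ε)) ^ ε ≤ q ^ ε :=
      Real.rpow_le_rpow (by positivity) hq3 hεpos.le
    rw [← Real.rpow_mul (by norm_num)] at h1
    rw [one_div_mul_cancel hεpos.ne', Real.rpow_one] at h1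
    exact h1
  have hx0 : 0 < x := by linarith
  have hs : x ^ 20 ≤ s := by
    rw [hxpow 20, hsdef]
    apply Real.rpow_le_rpow_of_exponent_le hq5
    push_cast
    linarith
  have hs2 : s ^ 2 = q := by
    rw [hspow 2]
    norm_num
  have hsx : ∀ (m n : ℕ), s ^ m / x ^ n = q ^ ((m : ℝ) / 2 - n * ε) := by
    intro m n
    rw [hspow, hxpow, ← Real.rpow_sub hqpos]
  obtain ⟨A₁, A₂, Λ, hA₁, hA₂, hΛ, h0, hE⟩ := core S 𝓛 s x hx hs
    (by rw [hs2, hqdef]; exact_mod_cast hS)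
    (by
      intro L
      refine (hline L).trans ?_
      rw [hsx 2 10]
      apply Real.rpow_le_rpow_of_exponent_le hq5
      push_cast
      linarith)
    (by
      intro L hL
      have := hr L hL
      have e1 : s / x = q ^ (1 / 2 - ε) := by
        have := hsx 1 1
        simp only [pow_one, Nat.cast_one, one_mul] at this
        exact this
      rw [e1]
      exact this)
    (by
      have e1 : s ^ 4 / x = q ^ (2 - ε) := by
        have := hsx 4 1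
        simp only [pow_one, Nat.cast_one, one_mul] at this
        rw [this]
        norm_num
      rw [e1]
      exact hcon)
  have hsx2 : s * x ^ 2 ≤ q ^ (1 / 2 + ε₀) := by
    rw [hxpow 2, hsdef, ← Real.rpow_add hqpos]
    apply Real.rpow_le_rpow_of_exponent_le hq5
    push_cast
    linarith
  apply hq₀ F p k hp hk hcard hq1 A₁ A₂ Λ (hA₁.trans hsx2) (hA₂.trans hsx2) _ h0
  · intro l hl
    obtain ⟨E, hE1, hE2, hE3⟩ := hE l hl
    refine ⟨E, hE1, ?_, hE3.trans hsx2⟩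
    refine le_trans ?_ hE2
    rw [hsx 2 7]
    apply Real.rpow_le_rpow_of_exponent_le hq5
    push_cast
    linarith
  · refine le_trans ?_ hΛ
    have := hsx 1 10
    rw [pow_one] at this
    rw [this]
    apply Real.rpow_le_rpow_of_exponent_le hq5
    push_cast
    linarith

end Crest.Agent.R34
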