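import Crest.Agent.R34.Defs2

/-!
# (P1) McDiarmid's inequality
-/

set_option autoImplicit false

open Finset Classical

namespace Crest.Agent.R34

namespace P1

/-- one variable -/
lemma one_var {β : Type} (s : Finset β) (hs : s.Nonempty) (g : β → ℝ) (c : ℝ)
    (hg : ∀ x ∈ s, ∀ y ∈ s, |g x - g y| ≤ c) (r : ℝ) :
    ∑ x ∈ s, Real.exp (r * g x) ≤
      s.card * (Real.exp (r ^ 2 * c ^ 2 / 2) * Real.exp (r * ((∑ x ∈ s, g x) / s.card))) := by
  have hc : (0 : ℝ) < s.card := by exact_mod_cast card_pos.2 hs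
  set e : ℝ := (∑ x ∈ s, g x) / s.card with he
  have he' : ∑ x ∈ s, g x = s.card * e := by rw [he]; field_simp
  -- Jensen
  have h1 : (s.card : ℝ) ≤ ∑ y ∈ s, Real.exp (r * e - r * g y) := by
    calc (s.card : ℝ) = ∑ y ∈ s, ((r * e - r * g y) + 1) := by
          have : ∑ y ∈ s, r * g y = r * (s.card * e) := by rw [← he', mul_sum]
          rw [sum_add_distrib, sum_sub_distrib, this]
          simp only [sum_const, nsmul_eq_mul]
          ring
      _ ≤ _ := sum_le_sum fun y _ => Real.add_one_le_exp _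
  have h2 : ∑ x ∈ s, ∑ y ∈ s, Real.exp (r * g x - r * g y) ≤
      (s.card : ℝ) * (s.card * Real.exp (r ^ 2 * c ^ 2 / 2)) := by
    have h3 : ∑ x ∈ s, ∑ y ∈ s, Real.exp (r * g x - r * g y) =
        ∑ x ∈ s, ∑ y ∈ s, Real.cosh (r * g x - r * g y) := by
      have h4 : ∑ x ∈ s, ∑ y ∈ s, Real.exp (r * g x - r * g y) =
          ∑ x ∈ s, ∑ y ∈ s, Real.exp (-(r * g x - r * g y)) := by
        rw [sum_comm]
        exact sum_congr rfl fun x _ => sum_congr rfl fun y _ => by congr 1; ring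
      have h5 : ∑ x ∈ s, ∑ y ∈ s, Real.cosh (r * g x - r * g y) =
          (∑ x ∈ s, ∑ y ∈ s, Real.exp (r * g x - r * g y) +
            ∑ x ∈ s, ∑ y ∈ s, Real.exp (-(r * g x - r * g y))) / 2 := by
        simp_rw [Real.cosh_eq, ← sum_div, sum_add_distrib]
      rw [h5, ← h4]; ring
    rw [h3]
    have h6 : ∀ x ∈ s, ∀ y ∈ s, Real.cosh (r * g x - r * g y) ≤ Real.exp (r ^ 2 * c ^ 2 / 2) := by
      intro x hx y hy
      refine (Real.cosh_le_exp_half_sq _).trans (Real.exp_le_exp.2 ?_)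
      have h7 := hg x hx y hy
      have h8 : (g x - g y) ^ 2 ≤ c ^ 2 := by
        rw [← sq_abs]; exact pow_le_pow_left₀ (abs_nonneg _) h7 2
      have h9 : (r * g x - r * g y) ^ 2 = r ^ 2 * (g x - g y) ^ 2 := by ring
      rw [h9]
      have := mul_le_mul_of_nonneg_left h8 (sq_nonneg r)
      linarith
    calc _ ≤ ∑ x ∈ s, ∑ y ∈ s, Real.exp (r ^ 2 * c ^ 2 / 2) :=
          sum_le_sum fun x hx => sum_le_sum fun y hy => h6 x hx y hy
      _ = _ := by simp [sum_const, nsmul_eq_mul]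
  have h10 : (∑ x ∈ s, Real.exp (r * g x)) * s.card ≤
      Real.exp (r * e) * ∑ x ∈ s, ∑ y ∈ s, Real.exp (r * g x - r * g y) := by
    calc _ ≤ (∑ x ∈ s, Real.exp (r * g x)) * ∑ y ∈ s, Real.exp (r * e - r * g y) :=
          mul_le_mul_of_nonneg_left h1 (sum_nonneg fun _ _ => (Real.exp_pos _).le)
      _ = _ := by
          rw [sum_mul_sum, mul_sum]
          refine sum_congr rfl fun x _ => ?_
          rw [mul_sum]
          refine sum_congr rfl fun y _ => ?_
          rw [← Real.exp_add, ← Real.exp_add]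
          congr 1; ring
  refine le_of_mul_le_mul_right ?_ hc
  calc _ ≤ _ := h10
    _ ≤ Real.exp (r * e) * ((s.card : ℝ) * (s.card * Real.exp (r ^ 2 * c ^ 2 / 2))) :=
        mul_le_mul_of_nonneg_left h2 (Real.exp_pos _).le
    _ = _ := by ring

section
variable {M β : Type} [Fintype M]

/-- averaging one coordinate -/
noncomputable def av (Φ : M → Finset β) (m : M) (f : (M → β) → ℝ) : (M → β) → ℝ :=
  fun ω => (∑ x ∈ Φ m, f (Function.update ω m x)) / (Φ m).card

/-- bounded differences -/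
def Osc (Φ : M → Finset β) (f : (M → β) → ℝ) (c : M → ℝ) : Prop :=
  ∀ (ω ω' : M → β), (∀ m, ω m ∈ Φ m) → (∀ m, ω' m ∈ Φ m) → ∀ m, (∀ m', m' ≠ m → ω m' = ω' m') →
    |f ω - f ω'| ≤ c m

lemma update_mem {Φ : M → Finset β} {ω : M → β} (h : ∀ m, ω m ∈ Φ m) {m : M} {x : β}
    (hx : x ∈ Φ m) : ∀ m', Function.update ω m x m' ∈ Φ m' := by
  intro m'
  by_cases hm : m' = m
  · subst hm; rw [Function.update_self]; exact hx
  · rw [Function.update_of_ne hm]; exact h m'

lemma card_sp_pos {Φ : M → Finset β} (hne : ∀ m, (Φ m).Nonempty) : (0 : ℝ) < (sp Φ).card := by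
  rw [card_sp]
  exact_mod_cast Finset.prod_pos (fun m _ => Finset.card_pos.mpr (hne m))

lemma ex_mono {Φ : M → Finset β} {f g : (M → β) → ℝ} (h : ∀ ω, (∀ m, ω m ∈ Φ m) → f ω ≤ g ω) :
    ex Φ f ≤ ex Φ g := by
  unfold ex
  exact div_le_div_of_nonneg_right (sum_le_sum fun ω hω => h ω (mem_sp.1 hω)) (Nat.cast_nonneg _)

lemma ex_mul (Φ : M → Finset β) (a : ℝ) (f : (M → β) → ℝ) :
    ex Φ (fun ω => a * f ω) = a * ex Φ f := by
  unfold ex
  rw [← mul_sum, mul_div_assoc]

lemma ex_av {Φ : M → Finset β} (hne : ∀ m, (Φ m).Nonempty) (m : M) (f : (M → β) → ℝ) :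
    ex Φ (av Φ m f) = ex Φ f := by
  have hm : (0 : ℝ) < (Φ m).card := by exact_mod_cast card_pos.2 (hne m)
  unfold ex av
  congr 1
  rw [← sum_div, div_eq_iff hm.ne']
  have h1 : ∑ ω ∈ sp Φ, ∑ x ∈ Φ m, f (Function.update ω m x) = ∑ ω ∈ sp Φ, ∑ x ∈ Φ m, f ω := by
    rw [← sum_product', ← sum_product']
    refine sum_bij' (fun p _ => (Function.update p.1 m p.2, p.1 m))
      (fun p _ => (Function.update p.1 m p.2, p.1 m)) ?_ ?_ ?_ ?_ ?_
    · intro p hp
      rw [mem_product, mem_sp] at hp ⊢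
      exact ⟨update_mem hp.1 hp.2, hp.1 m⟩
    · intro p hp
      rw [mem_product, mem_sp] at hp ⊢
      exact ⟨update_mem hp.1 hp.2, hp.1 m⟩
    · intro p _
      simp
    · intro p _
      simp
    · intro p _
      rfl
  rw [h1]
  simp only [sum_const, nsmul_eq_mul]
  rw [← mul_sum, mul_comm]

lemma osc_av {Φ : M → Finset β} (hne : ∀ m, (Φ m).Nonempty) {f : (M → β) → ℝ} {c : M → ℝ}
    (h : Osc Φ f c) (m : M) : Osc Φ (av Φ m f) c := by
  intro ω ω' hω hω' m₁ hag
  have hm : (0 : ℝ) < (Φ m).card := by exact_mod_cast card_pos.2 (hne m)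
  unfold av
  rw [← sub_div, ← sum_sub_distrib, abs_div, abs_of_pos hm, div_le_iff₀ hm]
  refine (abs_sum_le_sum_abs _ _).trans ?_
  have : ∀ x ∈ Φ m, |f (Function.update ω m x) - f (Function.update ω' m x)| ≤ c m₁ := by
    intro x hx
    refine h _ _ (update_mem hω hx) (update_mem hω' hx) m₁ fun m' hm' => ?_
    by_cases hmm : m' = m
    · subst hmm; simp
    · rw [Function.update_of_ne hmm, Function.update_of_ne hmm]; exact hag m' hm'
  refine (sum_le_sum this).trans (le_of_eq ?_)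
  rw [sum_const, nsmul_eq_mul, mul_comm]

lemma step {Φ : M → Finset β} (hne : ∀ m, (Φ m).Nonempty) {f : (M → β) → ℝ} {c : M → ℝ}
    (h : Osc Φ f c) (m : M) (r : ℝ) :
    ex Φ (fun ω => Real.exp (r * f ω)) ≤
      Real.exp (r ^ 2 * c m ^ 2 / 2) * ex Φ (fun ω => Real.exp (r * av Φ m f ω)) := by
  rw [← ex_av hne m, ← ex_mul]
  refine ex_mono fun ω hω => ?_
  have hm : (0 : ℝ) < (Φ m).card := by exact_mod_cast card_pos.2 (hne m)
  have h1 := one_var (Φ m) (hne m) (fun x => f (Function.update ω m x)) (c m) (by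
    intro x hx y hy
    refine h _ _ (update_mem hω hx) (update_mem hω hy) m fun m' hm' => ?_
    rw [Function.update_of_ne hm', Function.update_of_ne hm']) r
  unfold av
  rw [div_le_iff₀ hm]
  refine h1.trans (le_of_eq ?_)
  ring

lemma iter {Φ : M → Finset β} (hne : ∀ m, (Φ m).Nonempty) {f : (M → β) → ℝ} {c : M → ℝ}
    (h : Osc Φ f c) (r : ℝ) (S : Finset M) : ∃ g : (M → β) → ℝ, Osc Φ g c ∧ ex Φ g = ex Φ f ∧
      (∀ (ω ω' : M → β), (∀ m, ω m ∈ Φ m) → (∀ m, ω' m ∈ Φ m) → (∀ m, m ∉ S → ω m = ω' m) →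
        g ω = g ω') ∧
      ex Φ (fun ω => Real.exp (r * f ω)) ≤
        Real.exp (r ^ 2 * (∑ m ∈ S, c m ^ 2) / 2) * ex Φ (fun ω => Real.exp (r * g ω)) := by
  induction S using Finset.induction_on with
  | empty =>
    refine ⟨f, h, rfl, fun ω ω' _ _ hag => ?_, ?_⟩
    · congr 1
      funext m
      exact hag m (by simp)
    · simp
  | insert m S hm ih =>
    obtain ⟨g, hg, hex, hdep, hle⟩ := ih
    refine ⟨av Φ m g, osc_av hne hg m, by rw [ex_av hne, hex], ?_, ?_⟩
    · intro ω ω' hω hω' hag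
      unfold av
      congr 1
      refine sum_congr rfl fun x hx => ?_
      refine hdep _ _ (update_mem hω hx) (update_mem hω' hx) fun m' hm' => ?_
      by_cases hmm : m' = m
      · subst hmm; simp
      · rw [Function.update_of_ne hmm, Function.update_of_ne hmm]
        exact hag m' (by simp [hmm, hm'])
    · refine hle.trans ?_
      rw [sum_insert hm]
      have h1 := step hne hg m r
      calc _ ≤ Real.exp (r ^ 2 * (∑ m ∈ S, c m ^ 2) / 2) * (Real.exp (r ^ 2 * c m ^ 2 / 2) *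
            ex Φ (fun ω => Real.exp (r * av Φ m g ω))) :=
            mul_le_mul_of_nonneg_left h1 (Real.exp_pos _).le
        _ = _ := by
            rw [← mul_assoc, ← Real.exp_add]
            congr 2
            ring

lemma mgf {Φ : M → Finset β} (hne : ∀ m, (Φ m).Nonempty) {f : (M → β) → ℝ} {c : M → ℝ}
    (h : Osc Φ f c) (r V : ℝ) (hV : ∑ m, c m ^ 2 ≤ V) :
    ex Φ (fun ω => Real.exp (r * (f ω - ex Φ f))) ≤ Real.exp (r ^ 2 * V / 2) := by
  obtain ⟨g, _, hex, hdep, hle⟩ := iter hne h r univ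
  have hpos := card_sp_pos hne
  obtain ⟨ω₀, hω₀⟩ : ∃ ω₀ : M → β, ∀ m, ω₀ m ∈ Φ m :=
    ⟨fun m => (hne m).choose, fun m => (hne m).choose_spec⟩
  have hconst : ∀ a : ℝ, ∀ f' : (M → β) → ℝ, (∀ ω, (∀ m, ω m ∈ Φ m) → f' ω = a) → ex Φ f' = a := by
    intro a f' hf'
    unfold ex
    rw [sum_congr rfl fun ω hω => hf' ω (mem_sp.1 hω), sum_const, nsmul_eq_mul,
      mul_div_cancel_left₀ _ hpos.ne']
  have hg : ∀ ω, (∀ m, ω m ∈ Φ m) → g ω = g ω₀ := fun ω hω =>
    hdep ω ω₀ hω hω₀ fun m hm => absurd (mem_univ m) hm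
  have hg0 : g ω₀ = ex Φ f := by rw [← hex, hconst (g ω₀) g hg]
  rw [hconst (Real.exp (r * ex Φ f)) (fun ω => Real.exp (r * g ω))
    (fun ω hω => by rw [hg ω hω, hg0])] at hle
  have e1 : ex Φ (fun ω => Real.exp (r * (f ω - ex Φ f))) =
      Real.exp (-(r * ex Φ f)) * ex Φ (fun ω => Real.exp (r * f ω)) := by
    rw [← ex_mul]
    congr 1
    funext ω
    rw [← Real.exp_add]
    congr 1; ring
  rw [e1]
  calc _ ≤ Real.exp (-(r * ex Φ f)) *
        (Real.exp (r ^ 2 * (∑ m, c m ^ 2) / 2) * Real.exp (r * ex Φ f)) :=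
        mul_le_mul_of_nonneg_left hle (Real.exp_pos _).le
    _ = Real.exp (r ^ 2 * (∑ m, c m ^ 2) / 2) := by
        rw [← Real.exp_add, ← Real.exp_add]
        congr 1; ring
    _ ≤ _ := by
        refine Real.exp_le_exp.2 ?_
        have := mul_le_mul_of_nonneg_left hV (sq_nonneg r)
        linarith

lemma markov (Φ : M → Finset β) (h : (M → β) → ℝ) (a : ℝ) :
    pr Φ (fun ω => a ≤ h ω) ≤ ex Φ (fun ω => Real.exp (h ω - a)) := by
  unfold pr ex
  refine div_le_div_of_nonneg_right ?_ (Nat.cast_nonneg _)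
  rw [← nsmul_one, ← sum_const, sum_filter]
  refine sum_le_sum fun ω _ => ?_
  split_ifs with h1
  · exact Real.one_le_exp (by linarith)
  · exact (Real.exp_pos _).le

end

end P1

open P1

theorem mcdiarmid : McDiarmid := by
  intro M β _ Φ hne f c hosc t V ht hV hc
  have tail : ∀ σ : ℝ, σ ^ 2 = 1 → pr Φ (fun ω => t ≤ σ * (f ω - ex Φ f)) ≤
      Real.exp (- t ^ 2 / (2 * V)) := by
    intro σ hσ
    have h1 : pr Φ (fun ω => t ≤ σ * (f ω - ex Φ f)) ≤
        pr Φ (fun ω => t ^ 2 / V ≤ (t / V * σ) * (f ω - ex Φ f)) := by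
      refine pr_mono fun ω _ h => ?_
      have : t ^ 2 / V = t / V * t := by ring
      rw [this, mul_assoc]
      exact mul_le_mul_of_nonneg_left h (by positivity)
    refine h1.trans ((markov _ _ _).trans ?_)
    have h2 := mgf hne hosc (t / V * σ) V hc
    have e1 : ex Φ (fun ω => Real.exp ((t / V * σ) * (f ω - ex Φ f) - t ^ 2 / V)) =
        Real.exp (-(t ^ 2 / V)) * ex Φ (fun ω => Real.exp ((t / V * σ) * (f ω - ex Φ f))) := by
      rw [← ex_mul]
      congr 1
      funext ω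
      rw [← Real.exp_add]
      congr 1; ring
    rw [e1]
    calc _ ≤ Real.exp (-(t ^ 2 / V)) * Real.exp ((t / V * σ) ^ 2 * V / 2) :=
          mul_le_mul_of_nonneg_left h2 (Real.exp_pos _).le
      _ = _ := by
          rw [← Real.exp_add]
          congr 1
          rw [mul_pow, hσ]
          field_simp
          ring
  have h1 := tail 1 (by norm_num)
  have h2 := tail (-1) (by norm_num)
  refine le_trans (pr_mono (E' := fun ω => t ≤ 1 * (f ω - ex Φ f) ∨ t ≤ -1 * (f ω - ex Φ f))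
    fun ω _ h => ?_) ((pr_or_le _ _ _).trans ?_)
  · rcases le_abs.1 h with h | h
    · left; linarith
    · right; linarith
  · linarith

end Crest.Agent.R34
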