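import Crest.Agent.R34.Defs2

/-!
# (P2) A linear number of tests survives linearly many independent random objects.
-/

set_option autoImplicit false

open Finset Classical

namespace Crest.Agent.R34

namespace P2

lemma exp_le_one_sub {x : ℝ} (h0 : 0 ≤ x) (h1 : x ≤ 1 / 2) : Real.exp (-(2 * x)) ≤ 1 - x := by
  have h2 : 1 + 2 * x ≤ Real.exp (2 * x) := by linarith [Real.add_one_le_exp (2 * x)]
  have h3 : 0 < 1 + 2 * x := by linarith
  rw [Real.exp_neg]
  have h4 : (Real.exp (2 * x))⁻¹ ≤ (1 + 2 * x)⁻¹ := inv_anti₀ h3 h2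
  refine h4.trans ?_
  rw [inv_le_iff_one_le_mul₀ h3]
  nlinarith

lemma card_sub_le {M β Θ : Type} [Fintype M] (T : Finset Θ) (bad : M → Θ → β → Prop) (D : ℕ)
    (ω ω' : M → β) (m : M) (hag : ∀ m', m' ≠ m → ω m' = ω' m')
    (hD : (T.filter (fun θ => bad m θ (ω' m))).card ≤ D) :
    ((T.filter (fun θ => ∀ m, ¬ bad m θ (ω m))).card : ℝ) -
      ((T.filter (fun θ => ∀ m, ¬ bad m θ (ω' m))).card : ℝ) ≤ D := by
  have h1 : T.filter (fun θ => ∀ m, ¬ bad m θ (ω m)) ⊆
      T.filter (fun θ => ∀ m, ¬ bad m θ (ω' m)) ∪ T.filter (fun θ => bad m θ (ω' m)) := by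
    intro θ hθ
    rw [Finset.mem_filter] at hθ
    rw [Finset.mem_union, Finset.mem_filter, Finset.mem_filter]
    by_cases hb : bad m θ (ω' m)
    · right; exact ⟨hθ.1, hb⟩
    · left
      refine ⟨hθ.1, fun m' => ?_⟩
      by_cases hm : m' = m
      · subst hm; exact hb
      · rw [← hag m' hm]; exact hθ.2 m'
  have h2 := (Finset.card_le_card h1).trans (Finset.card_union_le _ _)
  have h3 : ((T.filter (fun θ => ∀ m, ¬ bad m θ (ω m))).card : ℝ) ≤
      (T.filter (fun θ => ∀ m, ¬ bad m θ (ω' m))).card + (D : ℝ) := by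
    exact_mod_cast h2.trans (Nat.add_le_add_left hD _)
  linarith

lemma ex_count {M β Θ : Type} [Fintype M] (Φ : M → Finset β) (T : Finset Θ)
    (E : Θ → (M → β) → Prop) :
    ex Φ (fun ω => ((T.filter (fun θ => E θ ω)).card : ℝ)) = ∑ θ ∈ T, pr Φ (E θ) := by
  unfold ex pr
  rw [← Finset.sum_div]
  congr 1
  have h1 : ∀ ω ∈ sp Φ, ((T.filter (fun θ => E θ ω)).card : ℝ) =
      ∑ θ ∈ T, (if E θ ω then (1 : ℝ) else 0) := by
    intro ω _
    rw [Finset.card_filter]
    push_cast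
    rfl
  rw [Finset.sum_congr rfl h1, Finset.sum_comm]
  refine Finset.sum_congr rfl fun θ _ => ?_
  rw [Finset.card_filter]
  push_cast
  rfl

end P2

open P2

theorem goodLower_of (hMc : McDiarmid) : GoodLower := by
  intro D c C hc hC
  set e₀ : ℝ := Real.exp (-(2 * D * C / c)) with he₀
  have he₀p : 0 < e₀ := Real.exp_pos _
  set a : ℝ := c * e₀ with ha
  have hap : 0 < a := mul_pos hc he₀p
  set κ : ℝ := a ^ 2 / (8 * C * (D + 1) ^ 2) with hκ
  have hDp : (0 : ℝ) < (D : ℝ) + 1 := by positivity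
  have hκp : 0 < κ := by positivity
  refine ⟨min (a / 2) (κ / 2), by positivity, ⌈max (2 / κ) (2 * D / c)⌉₊ + 1, ?_⟩
  intro q hq M β Θ _ Φ T bad hM hΦ hT _ hbad1 hbad2
  set c₁ : ℝ := min (a / 2) (κ / 2) with hc₁
  have hq1 : (1 : ℝ) ≤ q := by
    have : 1 ≤ q := by omega
    exact_mod_cast this
  have hq0 : (0 : ℝ) < q := by linarith
  have hqm : max (2 / κ) (2 * D / c) ≤ q := by
    have h1 := Nat.le_ceil (max (2 / κ) (2 * D / c))
    have h2 : ((⌈max (2 / κ) (2 * D / c)⌉₊ : ℕ) : ℝ) ≤ q := by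
      have : ⌈max (2 / κ) (2 * D / c)⌉₊ ≤ q := by omega
      exact_mod_cast this
    exact h1.trans h2
  have hqκ : 2 / κ ≤ q := (le_max_left _ _).trans hqm
  have hqD : 2 * D / c ≤ q := (le_max_right _ _).trans hqm
  have hΦpos : ∀ m, (0 : ℝ) < (Φ m).card := fun m => lt_of_lt_of_le (mul_pos hc hq0) (hΦ m)
  have hne : ∀ m, (Φ m).Nonempty := fun m => Finset.card_pos.1 (by exact_mod_cast hΦpos m)
  set f : (M → β) → ℝ := fun ω => ((T.filter (fun θ => ∀ m, ¬ bad m θ (ω m))).card : ℝ) with hf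
  -- lower bound for the expectation
  have hD2 : (D : ℝ) / (c * q) ≤ 1 / 2 := by
    rw [div_le_iff₀ (mul_pos hc hq0)]
    rw [div_le_iff₀ hc] at hqD
    linarith
  have hfac : ∀ m, ∀ θ ∈ T, Real.exp (-(2 * (D / (c * q)))) ≤
      ((((Φ m).filter (fun w => ¬ bad m θ w)).card : ℝ) / (Φ m).card) := by
    intro m θ hθ
    have h1 : (((Φ m).filter (fun w => bad m θ w)).card : ℝ) +
        ((Φ m).filter (fun w => ¬ bad m θ w)).card = (Φ m).card := by
      exact_mod_cast Finset.card_filter_add_card_filter_not (s := Φ m) (fun w => bad m θ w)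
    have h2 : (((Φ m).filter (fun w => bad m θ w)).card : ℝ) ≤ D := by
      exact_mod_cast hbad1 m θ hθ
    have h3 : 1 - (D : ℝ) / (c * q) ≤
        ((((Φ m).filter (fun w => ¬ bad m θ w)).card : ℝ) / (Φ m).card) := by
      have h4 : (((Φ m).filter (fun w => ¬ bad m θ w)).card : ℝ) =
          (Φ m).card - ((Φ m).filter (fun w => bad m θ w)).card := by linarith
      rw [h4, sub_div, div_self (hΦpos m).ne']
      have h5 : (((Φ m).filter (fun w => bad m θ w)).card : ℝ) / (Φ m).card ≤ D / (c * q) :=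
        div_le_div₀ (Nat.cast_nonneg _) h2 (mul_pos hc hq0) (hΦ m)
      linarith
    exact (exp_le_one_sub (by positivity) hD2).trans h3
  have hprob : ∀ θ ∈ T, e₀ ≤ pr Φ (fun ω => ∀ m, ¬ bad m θ (ω m)) := by
    intro θ hθ
    rw [pr_pi Φ (fun m w => ¬ bad m θ w)]
    have h1 : ∏ m : M, Real.exp (-(2 * (D / (c * q)))) ≤
        ∏ m, ((((Φ m).filter (fun w => ¬ bad m θ w)).card : ℝ) / (Φ m).card) :=
      Finset.prod_le_prod (fun _ _ => (Real.exp_pos _).le) (fun m _ => hfac m θ hθ)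
    refine le_trans ?_ (h1.trans (le_of_eq (Finset.prod_congr rfl fun m _ => by congr!)))
    rw [Finset.prod_const, ← Real.exp_nat_mul, he₀, Finset.card_univ]
    refine Real.exp_le_exp.2 ?_
    have h2 : (Fintype.card M : ℝ) * (2 * (D / (c * q))) ≤ C * q * (2 * (D / (c * q))) :=
      mul_le_mul_of_nonneg_right hM (by positivity)
    have h3 : C * q * (2 * (D / (c * q))) = 2 * D * C / c := by field_simp
    nlinarith
  have hex : a * q ≤ ex Φ f := by
    have hexeq : ex Φ f = ∑ θ ∈ T, pr Φ (fun ω => ∀ m, ¬ bad m θ (ω m)) := by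
      rw [← ex_count Φ T (fun θ ω => ∀ m, ¬ bad m θ (ω m)), hf]
      congr!
    rw [hexeq]
    calc a * q = c * q * e₀ := by rw [ha]; ring
      _ ≤ T.card * e₀ := mul_le_mul_of_nonneg_right hT he₀p.le
      _ = ∑ θ ∈ T, e₀ := by rw [Finset.sum_const, nsmul_eq_mul]
      _ ≤ _ := Finset.sum_le_sum hprob
  -- bounded differences
  have hosc : ∀ (ω ω' : M → β), (∀ m, ω m ∈ Φ m) → (∀ m, ω' m ∈ Φ m) → ∀ m,
      (∀ m', m' ≠ m → ω m' = ω' m') → |f ω - f ω'| ≤ (fun _ : M => (D : ℝ)) m := by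
    intro ω ω' hω hω' m hag
    rw [abs_le]
    constructor
    · have := card_sub_le T bad D ω' ω m (fun m' hm' => (hag m' hm').symm) (hbad2 m _ (hω m))
      simp only [hf]
      linarith
    · exact card_sub_le T bad D ω ω' m hag (hbad2 m _ (hω' m))
  have hVp : 0 < C * q * ((D : ℝ) + 1) ^ 2 := by positivity
  have hsum : (∑ m : M, (fun _ : M => (D : ℝ)) m ^ 2) ≤ C * q * ((D : ℝ) + 1) ^ 2 := by
    rw [Finset.sum_const, nsmul_eq_mul, Finset.card_univ]
    refine mul_le_mul hM ?_ (by positivity) (by positivity)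
    nlinarith [(Nat.cast_nonneg D : (0 : ℝ) ≤ D)]
  have hmc := hMc M β Φ hne f (fun _ => (D : ℝ)) hosc (a / 2 * q) (C * q * ((D : ℝ) + 1) ^ 2)
    (by positivity) hVp hsum
  have hstep : pr Φ (fun ω => f ω < c₁ * q) ≤
      pr Φ (fun ω => a / 2 * q ≤ |f ω - ex Φ f|) := by
    refine pr_mono fun ω _ hlt => ?_
    have h1 : c₁ * q ≤ a / 2 * q := mul_le_mul_of_nonneg_right (min_le_left _ _) hq0.le
    rw [abs_sub_comm]
    refine le_trans ?_ (le_abs_self _)
    nlinarith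
  refine hstep.trans (hmc.trans ?_)
  have hexp : - (a / 2 * q) ^ 2 / (2 * (C * q * ((D : ℝ) + 1) ^ 2)) = - (κ * q) := by
    rw [hκ]
    field_simp
    ring
  rw [hexp]
  have h2 : (2 : ℝ) ≤ Real.exp (κ / 2 * q) := by
    have h3 : 1 ≤ κ / 2 * q := by
      rw [div_le_iff₀ hκp] at hqκ
      nlinarith
    linarith [Real.add_one_le_exp (κ / 2 * q)]
  calc 2 * Real.exp (-(κ * q)) ≤ Real.exp (κ / 2 * q) * Real.exp (-(κ * q)) :=
        mul_le_mul_of_nonneg_right h2 (Real.exp_pos _).le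
    _ = Real.exp (-(κ / 2 * q)) := by rw [← Real.exp_add]; congr 1; ring
    _ ≤ Real.exp (- c₁ * q) := by
        refine Real.exp_le_exp.2 ?_
        have h4 : c₁ * q ≤ κ / 2 * q := mul_le_mul_of_nonneg_right (min_le_right _ _) hq0.le
        linarith

end Crest.Agent.R34
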