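import Crest.Agent.R34.Defs2

/-!
# (P3) Few hits; events with five independent conditions.
-/

set_option autoImplicit false

open Finset Classical

namespace Crest.Agent.R34

namespace P3

lemma pow_add_ge {a b : ℝ} (ha : 0 ≤ a) (hb : 0 ≤ b) (n : ℕ) :
    a ^ (n + 1) + (n + 1) * a ^ n * b ≤ (a + b) ^ (n + 1) := by
  induction n with
  | zero => simp
  | succ n ih =>
    have h1 : (a ^ (n + 1) + (n + 1) * a ^ n * b) * (a + b) ≤ (a + b) ^ (n + 1) * (a + b) :=
      mul_le_mul_of_nonneg_right ih (by positivity)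
    have h2 : 0 ≤ ((n : ℝ) + 1) * a ^ n * b * b := by positivity
    calc a ^ (n + 1 + 1) + ((n + 1 : ℕ) + 1) * a ^ (n + 1) * b
        ≤ a ^ (n + 1 + 1) + ((n + 1 : ℕ) + 1) * a ^ (n + 1) * b + ((n : ℝ) + 1) * a ^ n * b * b := by
          linarith
      _ = (a ^ (n + 1) + (n + 1) * a ^ n * b) * (a + b) := by push_cast; ring
      _ ≤ (a + b) ^ (n + 1) * (a + b) := h1
      _ = (a + b) ^ (n + 1 + 1) := by ring

/-- elementary symmetric polynomials -/
lemma esymm_le {M : Type} (p : M → ℝ) (hp : ∀ m, 0 ≤ p m) (U : Finset M) :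
    ∀ s : ℕ, (s.factorial : ℝ) * ∑ A ∈ powersetCard s U, ∏ m ∈ A, p m ≤ (∑ m ∈ U, p m) ^ s := by
  induction U using Finset.induction_on with
  | empty =>
    intro s
    cases s with
    | zero => simp
    | succ s =>
      rw [Finset.powersetCard_eq_empty.2 (by simp)]
      simp
  | insert x U hx ih =>
    intro s
    cases s with
    | zero => simp
    | succ s =>
      have hdisj : Disjoint (powersetCard (s + 1) U) ((powersetCard s U).image (insert x)) := by
        rw [Finset.disjoint_left]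
        intro A hA hA'
        rw [Finset.mem_image] at hA'
        obtain ⟨A', _, rfl⟩ := hA'
        exact hx ((Finset.mem_powersetCard.1 hA).1 (Finset.mem_insert_self _ _))
      rw [Finset.powersetCard_succ_insert hx, Finset.sum_union hdisj, Finset.sum_insert hx]
      have hinj : Set.InjOn (insert x) (powersetCard s U : Set (Finset M)) := by
        intro A hA A' hA' h
        have h1 : x ∉ A := fun h' => hx ((Finset.mem_powersetCard.1 (Finset.mem_coe.1 hA)).1 h')
        have h2 : x ∉ A' := fun h' => hx ((Finset.mem_powersetCard.1 (Finset.mem_coe.1 hA')).1 h')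
        have h3 : (insert x A).erase x = (insert x A').erase x := by
          change insert x A = insert x A' at h
          rw [h]
        rwa [Finset.erase_insert h1, Finset.erase_insert h2] at h3
      rw [Finset.sum_image hinj]
      have h4 : ∑ A ∈ powersetCard s U, ∏ m ∈ insert x A, p m =
          p x * ∑ A ∈ powersetCard s U, ∏ m ∈ A, p m := by
        rw [Finset.mul_sum]
        refine Finset.sum_congr rfl fun A hA => ?_
        rw [Finset.prod_insert (fun h' => hx ((Finset.mem_powersetCard.1 hA).1 h'))]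
      rw [h4]
      have h5 := ih (s + 1)
      have h6 := ih s
      have hσ : 0 ≤ ∑ m ∈ U, p m := Finset.sum_nonneg fun m _ => hp m
      have h7 := pow_add_ge hσ (hp x) s
      rw [Nat.factorial_succ] at h5 ⊢
      push_cast at h5 ⊢
      have h8 : ((s : ℝ) + 1) * p x * ((s.factorial : ℝ) * ∑ A ∈ powersetCard s U, ∏ m ∈ A, p m) ≤
          ((s : ℝ) + 1) * p x * (∑ m ∈ U, p m) ^ s :=
        mul_le_mul_of_nonneg_left h6 (mul_nonneg (by positivity) (hp x))
      calc ((s : ℝ) + 1) * s.factorial * (∑ A ∈ powersetCard (s + 1) U, ∏ m ∈ A, p m +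
              p x * ∑ A ∈ powersetCard s U, ∏ m ∈ A, p m)
          = ((s : ℝ) + 1) * s.factorial * (∑ A ∈ powersetCard (s + 1) U, ∏ m ∈ A, p m) +
            ((s : ℝ) + 1) * p x * ((s.factorial : ℝ) * ∑ A ∈ powersetCard s U, ∏ m ∈ A, p m) := by
            ring
        _ ≤ (∑ m ∈ U, p m) ^ (s + 1) + ((s : ℝ) + 1) * p x * (∑ m ∈ U, p m) ^ s := by
            linarith
        _ = (∑ m ∈ U, p m) ^ (s + 1) + ((s : ℝ) + 1) * (∑ m ∈ U, p m) ^ s * p x := by ring
        _ ≤ (∑ m ∈ U, p m + p x) ^ (s + 1) := h7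
        _ = (p x + ∑ m ∈ U, p m) ^ (s + 1) := by rw [add_comm]

lemma ratio_le_one {β : Type} (s : Finset β) (P : β → Prop) :
    (((s.filter P).card : ℝ) / s.card) ≤ 1 := by
  refine div_le_one_of_le₀ ?_ (Nat.cast_nonneg _)
  exact_mod_cast Finset.card_filter_le s P

end P3

open P3

theorem fewHits : FewHits := by
  intro M β _ Φ I s
  set p : M → ℝ := fun m => (((Φ m).filter (I m)).card : ℝ) / (Φ m).card with hp
  have hp0 : ∀ m, 0 ≤ p m := fun m => by rw [hp]; positivity
  have h1 : pr Φ (fun ω => s ≤ (univ.filter (fun m => I m (ω m))).card) ≤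
      pr Φ (fun ω => ∃ A ∈ powersetCard s (univ : Finset M), ∀ m, m ∈ A → I m (ω m)) := by
    refine pr_mono fun ω _ h => ?_
    obtain ⟨A, hA, hAc⟩ := Finset.exists_subset_card_eq h
    refine ⟨A, Finset.mem_powersetCard.2 ⟨Finset.subset_univ _, hAc⟩, fun m hm => ?_⟩
    exact (Finset.mem_filter.1 (hA hm)).2
  have h2 : ∀ A : Finset M, pr Φ (fun ω => ∀ m, m ∈ A → I m (ω m)) ≤ ∏ m ∈ A, p m := by
    intro A
    rw [pr_pi Φ (fun m w => m ∈ A → I m w)]
    have h3 : ∏ m ∈ A, p m = ∏ m : M, (if m ∈ A then p m else 1) := by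
      rw [Finset.prod_ite_mem, Finset.univ_inter]
    rw [h3]
    refine Finset.prod_le_prod (fun _ _ => by positivity) fun m _ => ?_
    by_cases hm : m ∈ A
    · rw [if_pos hm]
      simp only [hm, true_imp_iff, hp]
      exact le_rfl
    · rw [if_neg hm]
      exact ratio_le_one _ _
  refine h1.trans ((pr_exists_le Φ _ _).trans ((Finset.sum_le_sum fun A _ => h2 A).trans ?_))
  have hf : (0 : ℝ) < s.factorial := by exact_mod_cast Nat.factorial_pos s
  rw [le_div_iff₀ hf, mul_comm]
  exact esymm_le p hp0 univ s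

theorem fiveEvents : FiveEvents := by
  intro M β κ _ _ Ω δ hne hδ hlt s hs B hB
  have h1 : ∀ a, pr Ω (fun ω => ∀ r, B a r (ω (s a r))) ≤ δ ^ 5 := by
    intro a
    obtain ⟨Q, hQ⟩ : ∃ Q : M → β → Prop, ∀ m w, Q m w ↔ ∀ r, s a r = m → B a r w :=
      ⟨_, fun _ _ => Iff.rfl⟩
    have h2 : pr Ω (fun ω => ∀ r, B a r (ω (s a r))) ≤ pr Ω (fun ω => ∀ m, Q m (ω m)) := by
      refine pr_mono fun ω _ h m => (hQ m _).2 fun r hr => ?_
      rw [← hr]; exact h r
    refine h2.trans ?_
    rw [pr_pi Ω Q]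
    have h3 : δ ^ 5 = ∏ m : M, (if m ∈ univ.image (s a) then δ else 1) := by
      rw [Finset.prod_ite_mem, Finset.univ_inter, Finset.prod_const,
        Finset.card_image_of_injective _ (hs a), Finset.card_univ, Fintype.card_fin]
    rw [h3]
    refine Finset.prod_le_prod (fun _ _ => by positivity) fun m _ => ?_
    by_cases hm : m ∈ univ.image (s a)
    · rw [if_pos hm]
      obtain ⟨r, _, rfl⟩ := Finset.mem_image.1 hm
      have hpos : (0 : ℝ) < (Ω (s a r)).card := by exact_mod_cast Finset.card_pos.2 (hne _)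
      rw [div_le_iff₀ hpos]
      refine le_trans ?_ (hB a r)
      refine Nat.cast_le.2 (Finset.card_le_card ?_)
      intro w hw
      rw [Finset.mem_filter] at hw ⊢
      exact ⟨hw.1, (hQ _ _).1 hw.2 r rfl⟩
    · rw [if_neg hm]
      exact ratio_le_one _ _
  have h4 : pr Ω (fun ω => ∃ a ∈ (univ : Finset κ), ∀ r, B a r (ω (s a r))) < 1 := by
    refine lt_of_le_of_lt ((pr_exists_le Ω _ _).trans (Finset.sum_le_sum fun a _ => h1 a)) ?_
    rw [Finset.sum_const, nsmul_eq_mul, Finset.card_univ]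
    exact hlt
  obtain ⟨ω, hω, hE⟩ := exists_of_pr_lt hne h4
  refine ⟨ω, hω, fun a => ?_⟩
  by_contra hcon
  push Not at hcon
  exact hE ⟨a, Finset.mem_univ _, hcon⟩

end Crest.Agent.R34
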