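import Crest.Agent.R34.P1

/-!
# (P4) balls in bins and the abstract witness lemma
-/

set_option autoImplicit false

open Finset Classical

namespace Crest.Agent.R34

namespace P4

lemma ite_eq' {P Q : Prop} (h : P ↔ Q) (i₁ : Decidable P) (i₂ : Decidable Q) :
    (@ite ℝ P i₁ 1 0) = @ite ℝ Q i₂ 1 0 := by
  by_cases hP : P
  · rw [if_pos hP, if_pos (h.1 hP)]
  · rw [if_neg hP, if_neg (fun hQ => hP (h.2 hQ))]

/-- negative correlation for one ball -/
lemma neg {β τ : Type} (s : Finset β) (hs : s.Nonempty) (hit : β → τ → Prop) (a : τ → ℝ)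
    (ha0 : ∀ e, 0 ≤ a e) (ha1 : ∀ e, a e ≤ 1) (J : Finset τ)
    (hone : ∀ w ∈ s, ∀ e ∈ J, ∀ e' ∈ J, hit w e → hit w e' → e = e') :
    (∑ x ∈ s, ∏ e ∈ J, (if hit x e then (1 : ℝ) else a e)) ≤
      s.card * ∏ e ∈ J, (1 - (1 - a e) * (1 - ((s.filter fun w => hit w e).card : ℝ) / s.card)) := by
  have hc : (0 : ℝ) < s.card := by exact_mod_cast card_pos.2 hs
  have hp0 : ∀ e, 0 ≤ ((s.filter fun w => hit w e).card : ℝ) / s.card := fun e => by positivity
  have hp1 : ∀ e, ((s.filter fun w => hit w e).card : ℝ) / s.card ≤ 1 := by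
    intro e
    rw [div_le_one hc]
    exact_mod_cast card_le_card (filter_subset _ _)
  have hfac : ∀ e, a e ≤ 1 - (1 - a e) * (1 - ((s.filter fun w => hit w e).card : ℝ) / s.card) := by
    intro e
    nlinarith [ha1 e, hp0 e, hp1 e]
  induction J using Finset.induction_on with
  | empty => simp
  | insert e₀ J he₀ ih =>
    have ih' := ih fun w hw e he e' he' =>
      hone w hw e (mem_insert_of_mem he) e' (mem_insert_of_mem he')
    simp_rw [prod_insert he₀]
    set P : ℝ := ∏ e ∈ J, (1 - (1 - a e) * (1 - ((s.filter fun w => hit w e).card : ℝ) / s.card))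
      with hP
    have hPa : ∏ e ∈ J, a e ≤ P := prod_le_prod (fun e _ => ha0 e) fun e _ => hfac e
    have h1 : ∀ x ∈ s, (if hit x e₀ then (1 : ℝ) else a e₀) *
        ∏ e ∈ J, (if hit x e then (1 : ℝ) else a e) ≤
        a e₀ * ∏ e ∈ J, (if hit x e then (1 : ℝ) else a e) +
          (if hit x e₀ then (1 - a e₀) * P else 0) := by
      intro x hx
      by_cases h : hit x e₀
      · rw [if_pos h, if_pos h]
        have h2 : ∏ e ∈ J, (if hit x e then (1 : ℝ) else a e) = ∏ e ∈ J, a e := by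
          refine prod_congr rfl fun e he => ?_
          rw [if_neg]
          intro h3
          have := hone x hx e₀ (mem_insert_self _ _) e (mem_insert_of_mem he) h h3
          exact he₀ (this ▸ he)
        rw [h2]
        have := mul_le_mul_of_nonneg_left hPa (by linarith [ha1 e₀] : 0 ≤ 1 - a e₀)
        linarith
      · rw [if_neg h, if_neg h, add_zero]
    calc _ ≤ ∑ x ∈ s, (a e₀ * ∏ e ∈ J, (if hit x e then (1 : ℝ) else a e) +
          (if hit x e₀ then (1 - a e₀) * P else 0)) := sum_le_sum h1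
      _ = a e₀ * (∑ x ∈ s, ∏ e ∈ J, (if hit x e then (1 : ℝ) else a e)) +
          ((s.filter fun w => hit w e₀).card : ℝ) * ((1 - a e₀) * P) := by
          rw [sum_add_distrib, ← mul_sum, ← sum_filter, sum_const, nsmul_eq_mul]
      _ ≤ a e₀ * (s.card * P) + ((s.filter fun w => hit w e₀).card : ℝ) * ((1 - a e₀) * P) := by
          have := mul_le_mul_of_nonneg_left ih' (ha0 e₀)
          linarith
      _ = _ := by
          field_simp
          ring

section
variable {M β : Type} [Fintype M]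

lemma pr_eq_ex (Φ : M → Finset β) (E : (M → β) → Prop) :
    pr Φ E = ex Φ (fun ω => if E ω then 1 else 0) := by
  unfold pr ex
  rw [← sum_filter, sum_const, nsmul_eq_mul, mul_one]

lemma pr_le_one (Φ : M → Finset β) (E : (M → β) → Prop) : pr Φ E ≤ 1 := by
  unfold pr
  refine div_le_one_of_le₀ ?_ (Nat.cast_nonneg _)
  exact_mod_cast card_le_card (filter_subset _ _)

lemma pr_congr {Φ : M → Finset β} {E E' : (M → β) → Prop}
    (h : ∀ ω, (∀ m, ω m ∈ Φ m) → (E ω ↔ E' ω)) : pr Φ E = pr Φ E' :=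
  le_antisymm (pr_mono fun ω hω h' => (h ω hω).1 h') (pr_mono fun ω hω h' => (h ω hω).2 h')

end

end P4

open P4 P1

theorem ballsBins : BallsBins := by
  intro M β τ _ Φ H hit hne hone
  set p : M → τ → ℝ := fun m e => (((Φ m).filter (fun w => hit m w e)).card : ℝ) / (Φ m).card with hp
  have hp0 : ∀ m e, 0 ≤ p m e := fun m e => by simp only [hp]; positivity
  have hp1 : ∀ m e, p m e ≤ 1 := by
    intro m e
    simp only [hp]
    refine div_le_one_of_le₀ ?_ (Nat.cast_nonneg _)
    exact_mod_cast card_le_card (filter_subset _ _)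
  have key : ∀ S : Finset M, ∀ J : Finset τ, J ⊆ H →
      pr Φ (fun ω => ∀ e ∈ J, ∃ m ∈ S, hit m (ω m) e) ≤
        ∏ e ∈ J, (1 - ∏ m ∈ S, (1 - p m e)) := by
    intro S
    induction S using Finset.induction_on with
    | empty =>
      intro J _
      rcases J.eq_empty_or_nonempty with rfl | ⟨e, he⟩
      · simp only [prod_empty]
        exact pr_le_one _ _
      · have h0 : pr Φ (fun ω => ∀ e ∈ J, ∃ m ∈ (∅ : Finset M), hit m (ω m) e) ≤
            pr Φ (fun _ => False) := pr_mono fun ω _ h => by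
              obtain ⟨m, hm, _⟩ := h e he
              exact absurd hm (by simp)
        have h00 : pr Φ (fun _ => False) = 0 := by unfold pr; simp
        rw [h00] at h0
        exact h0.trans (prod_nonneg fun e _ => by simp)
    | insert m S hm ih =>
      intro J hJ
      have hmc : (0 : ℝ) < (Φ m).card := by exact_mod_cast card_pos.2 (hne m)
      set a : τ → ℝ := fun e => 1 - ∏ m ∈ S, (1 - p m e) with ha
      have hprod : ∀ e, 0 ≤ ∏ m ∈ S, (1 - p m e) ∧ ∏ m ∈ S, (1 - p m e) ≤ 1 := fun e =>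
        ⟨prod_nonneg fun m _ => by linarith [hp1 m e],
          prod_le_one (fun m _ => by linarith [hp1 m e]) fun m _ => by linarith [hp0 m e]⟩
      have h1 : pr Φ (fun ω => ∀ e ∈ J, ∃ m' ∈ insert m S, hit m' (ω m') e) =
          (∑ x ∈ Φ m, pr Φ (fun ω => ∀ e ∈ J.filter (fun e => ¬ hit m x e),
            ∃ m' ∈ S, hit m' (ω m') e)) / (Φ m).card := by
        rw [pr_eq_ex, ← ex_av hne m]
        simp_rw [pr_eq_ex]
        unfold ex
        rw [← sum_div, sum_comm, div_div, mul_comm ((sp Φ).card : ℝ), ← div_div]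
        congr 1
        unfold av
        rw [← sum_div]
        congr 1
        refine sum_congr rfl fun ω _ => sum_congr rfl fun x _ => ?_
        have hiff : (∀ e ∈ J, ∃ m' ∈ insert m S, hit m' (Function.update ω m x m') e) ↔
            (∀ e ∈ J.filter (fun e => ¬ hit m x e), ∃ m' ∈ S, hit m' (ω m') e) := by
          constructor
          · intro h e he
            rw [mem_filter] at he
            obtain ⟨m', hm', h'⟩ := h e he.1
            rcases mem_insert.1 hm' with rfl | hm'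
            · rw [Function.update_self] at h'
              exact absurd h' he.2
            · have hne' : m' ≠ m := fun h'' => hm (h'' ▸ hm')
              rw [Function.update_of_ne hne'] at h'
              exact ⟨m', hm', h'⟩
          · intro h e he
            by_cases hx : hit m x e
            · exact ⟨m, mem_insert_self _ _, by rw [Function.update_self]; exact hx⟩
            · obtain ⟨m', hm', h'⟩ := h e (mem_filter.2 ⟨he, hx⟩)
              have hne' : m' ≠ m := fun h'' => hm (h'' ▸ hm')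
              exact ⟨m', mem_insert_of_mem hm', by rw [Function.update_of_ne hne']; exact h'⟩
        exact ite_eq' hiff _ _
      rw [h1, div_le_iff₀ hmc]
      have h2 : ∀ x ∈ Φ m, pr Φ (fun ω => ∀ e ∈ J.filter (fun e => ¬ hit m x e),
            ∃ m' ∈ S, hit m' (ω m') e) ≤ ∏ e ∈ J, (if hit m x e then (1 : ℝ) else a e) := by
        intro x _
        refine (ih _ ((filter_subset _ _).trans hJ)).trans (le_of_eq ?_)
        rw [prod_filter]
        refine prod_congr rfl fun e _ => ?_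
        by_cases h : hit m x e <;> simp [h, ha]
      refine (sum_le_sum h2).trans ((neg (Φ m) (hne m) (hit m) a ?_ ?_ J ?_).trans (le_of_eq ?_))
      · intro e; simp only [ha]; linarith [(hprod e).2]
      · intro e; simp only [ha]; linarith [(hprod e).1]
      · intro w hw e he e' he'
        exact hone m w hw e (hJ he) e' (hJ he')
      · rw [mul_comm]
        congr 1
        refine prod_congr rfl fun e _ => ?_
        rw [prod_insert hm]
        simp only [ha, hp]
        ring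
  have := key univ H (Subset.refl _)
  simpa using this

namespace P4

lemma lg_ge (q : ℕ) (hq : 1 ≤ q) : Real.log q ≤ Nat.log 2 q + 1 := by
  have h1 : q < 2 ^ (Nat.log 2 q + 1) := Nat.lt_pow_succ_log_self (by norm_num) q
  have hq' : (0 : ℝ) < q := by exact_mod_cast hq
  have h2 : Real.log q ≤ Real.log ((2 : ℝ) ^ (Nat.log 2 q + 1)) :=
    Real.log_le_log hq' (by exact_mod_cast h1.le)
  rw [Real.log_pow] at h2
  have h3 : Real.log 2 ≤ 1 := by
    have := Real.log_two_lt_d9; linarith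
  push_cast at h2
  have h4 : (0 : ℝ) ≤ (Nat.log 2 q : ℝ) + 1 := by positivity
  nlinarith

lemma large_lg (A B : ℝ) (hA : 0 ≤ A) (hB : 0 < B) :
    ∃ q₀ : ℕ, ∀ q : ℕ, q₀ ≤ q → A + 6 * Real.log q ≤ B * lg q := by
  obtain ⟨N, hN⟩ := exists_nat_ge ((A + 12) / B + 1)
  refine ⟨2 ^ N, fun q hq => ?_⟩
  have hq1 : 1 ≤ q := le_trans Nat.one_le_two_pow hq
  have h1 : N ≤ Nat.log 2 q := Nat.le_log_of_pow_le (by norm_num) hq
  have h2 := lg_ge q hq1
  have h3 : (N : ℝ) ≤ Nat.log 2 q := by exact_mod_cast h1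
  unfold lg
  push_cast
  set l : ℝ := (Nat.log 2 q : ℝ)
  have h4 : (A + 12) / B + 1 ≤ l := hN.trans h3
  have h5 : (0 : ℝ) ≤ (A + 12) / B := by positivity
  have h6 : 1 ≤ l := by linarith
  have h7 : A + 12 ≤ B * l := by
    have : (A + 12) / B ≤ l := by linarith
    rw [div_le_iff₀ hB] at this
    linarith
  nlinarith

lemma large_pow (c : ℝ) (hc : 0 < c) :
    ∃ q₀ : ℕ, ∀ q : ℕ, q₀ ≤ q → (lg q : ℝ) ^ 4 ≤ c * √q := by
  have h1 : (1 : ℝ) < √2 := by
    rw [Real.lt_sqrt (by norm_num)]; norm_num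
  have h2 := tendsto_pow_const_div_const_pow_of_one_lt 8 h1
  have h3 := (h2.eventually (gt_mem_nhds hc : ∀ᶠ x in nhds (0 : ℝ), x < c))
  obtain ⟨N, hN⟩ := Filter.eventually_atTop.1 h3
  refine ⟨2 ^ N, fun q hq => ?_⟩
  have hq1 : 1 ≤ q := le_trans Nat.one_le_two_pow hq
  have h4 : N ≤ Nat.log 2 q := Nat.le_log_of_pow_le (by norm_num) hq
  have h5 := hN _ h4
  have h6 : 2 ^ Nat.log 2 q ≤ q := Nat.pow_log_le_self 2 (by omega)
  have h7 : (√2 : ℝ) ^ Nat.log 2 q ≤ √q := by
    refine Real.le_sqrt_of_sq_le ?_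
    rw [← pow_mul, mul_comm, pow_mul, Real.sq_sqrt (by norm_num)]
    exact_mod_cast h6
  rw [div_lt_iff₀ (by positivity)] at h5
  unfold lg
  push_cast
  rw [← pow_mul]
  norm_num
  refine h5.le.trans ?_
  exact mul_le_mul_of_nonneg_left h7 hc.le

lemma count {τ : Type} (H : Finset τ) (δ k : ℝ) (hδ : 0 < δ) (hδ1 : δ < 1) :
    ∑ t ∈ H.powerset.filter (fun t => (H.card : ℝ) - t.card ≤ k), (1 - δ) ^ t.card ≤
      Real.exp (k * Real.log (2 / δ) - δ / 2 * H.card) := by
  set L : ℝ := Real.log (2 / δ) with hL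
  have hL0 : 0 < L := Real.log_pos (by rw [lt_div_iff₀ hδ]; linarith)
  have hy : Real.exp (-L) = δ / 2 := by
    rw [Real.exp_neg, hL, Real.exp_log (by positivity), inv_div]
  have h1 : ∀ t ∈ H.powerset.filter (fun t => (H.card : ℝ) - t.card ≤ k), (1 - δ) ^ t.card ≤
      Real.exp (k * L) * ((1 - δ) ^ t.card * (δ / 2) ^ (H.card - t.card)) := by
    intro t ht
    rw [mem_filter, mem_powerset] at ht
    have hle : t.card ≤ H.card := card_le_card ht.1
    have h2 : Real.exp (-(k * L)) ≤ (δ / 2) ^ (H.card - t.card) := by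
      rw [← hy, ← Real.exp_nat_mul, Nat.cast_sub hle]
      refine Real.exp_le_exp.2 ?_
      have := mul_le_mul_of_nonneg_right ht.2 hL0.le
      linarith
    have h3 : 0 ≤ (1 - δ) ^ t.card := pow_nonneg (by linarith) _
    have h4 : 1 ≤ Real.exp (k * L) * (δ / 2) ^ (H.card - t.card) := by
      calc (1 : ℝ) = Real.exp (k * L) * Real.exp (-(k * L)) := by
            rw [← Real.exp_add]; simp
        _ ≤ _ := mul_le_mul_of_nonneg_left h2 (Real.exp_pos _).le
    calc (1 - δ) ^ t.card = (1 - δ) ^ t.card * 1 := by ring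
      _ ≤ (1 - δ) ^ t.card * (Real.exp (k * L) * (δ / 2) ^ (H.card - t.card)) :=
          mul_le_mul_of_nonneg_left h4 h3
      _ = _ := by ring
  calc _ ≤ ∑ t ∈ H.powerset.filter (fun t => (H.card : ℝ) - t.card ≤ k),
        Real.exp (k * L) * ((1 - δ) ^ t.card * (δ / 2) ^ (H.card - t.card)) := sum_le_sum h1
    _ ≤ ∑ t ∈ H.powerset, Real.exp (k * L) * ((1 - δ) ^ t.card * (δ / 2) ^ (H.card - t.card)) := by
        refine sum_le_sum_of_subset_of_nonneg (filter_subset _ _) fun t _ _ => ?_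
        have : 0 ≤ (1 - δ) ^ t.card := pow_nonneg (by linarith) _
        positivity
    _ = Real.exp (k * L) * ((1 - δ) + δ / 2) ^ H.card := by
        rw [← mul_sum, sum_pow_mul_eq_add_pow]
    _ ≤ Real.exp (k * L) * Real.exp (-(δ / 2) * H.card) := by
        refine mul_le_mul_of_nonneg_left ?_ (Real.exp_pos _).le
        rw [mul_comm (-(δ / 2)), Real.exp_nat_mul]
        refine pow_le_pow_left₀ (by linarith) ?_ _
        have := Real.add_one_le_exp (-(δ / 2))
        linarith
    _ = _ := by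
        rw [← Real.exp_add]
        congr 1; ring

/-- few multiple hits -/
lemma bound1 (hF : FewHits) {M β : Type} [Fintype M] (Φ : M → Finset β) (I : M → β → Prop)
    (c : ℝ) (q n : ℕ) (hc : 0 < c) (hq2 : (2 : ℝ) ≤ q) (hcq0 : 0 < c * q) (hnR : (1 : ℝ) ≤ n)
    (hΦ : ∀ m, c * q ≤ (Φ m).card) (hb2 : (n : ℝ) ^ 4 ≤ c * √q)
    (hmult : (∑ m, ((Φ m).filter (I m)).card) ≤ n ^ 4) :
    pr Φ (fun ω => 20 * n ≤ (univ.filter (fun m => I m (ω m))).card) ≤
      (q : ℝ) ^ (-(6 * n : ℝ)) / 2 := by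
  have hq0 : (0 : ℝ) < q := by linarith
  refine (hF M β Φ I (20 * n)).trans ?_
  have h1 : (∑ m, (((Φ m).filter (I m)).card : ℝ) / (Φ m).card) ≤ (q : ℝ) ^ (-(1 / 2 : ℝ)) := by
    calc (∑ m, (((Φ m).filter (I m)).card : ℝ) / (Φ m).card)
        ≤ ∑ m, (((Φ m).filter (I m)).card : ℝ) / (c * q) :=
          sum_le_sum fun m _ => div_le_div_of_nonneg_left (Nat.cast_nonneg _) hcq0 (hΦ m)
      _ = ((∑ m, ((Φ m).filter (I m)).card : ℕ) : ℝ) / (c * q) := by
          rw [← sum_div]; push_cast; rfl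
      _ ≤ ((n ^ 4 : ℕ) : ℝ) / (c * q) := by
          refine div_le_div_of_nonneg_right ?_ hcq0.le
          exact_mod_cast hmult
      _ ≤ (c * √q) / (c * q) := by
          refine div_le_div_of_nonneg_right ?_ hcq0.le
          push_cast
          exact hb2
      _ = (q : ℝ) ^ (-(1 / 2 : ℝ)) := by
          rw [mul_div_mul_left _ _ hc.ne', Real.sqrt_eq_rpow, Real.rpow_neg hq0.le]
          rw [div_eq_iff hq0.ne', eq_comm, inv_mul_eq_iff_eq_mul₀ (by positivity),
            ← Real.rpow_add hq0]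
          norm_num
  have h0 : (0 : ℝ) ≤ ∑ m, (((Φ m).filter (I m)).card : ℝ) / (Φ m).card := by positivity
  generalize (∑ m, (((Φ m).filter (I m)).card : ℝ) / (Φ m).card) = x at h1 h0 ⊢
  have hfac : (1 : ℝ) ≤ ((20 * n).factorial : ℝ) := by
    exact_mod_cast Nat.one_le_iff_ne_zero.2 (Nat.factorial_ne_zero _)
  generalize ((20 * n).factorial : ℝ) = y at hfac ⊢
  calc x ^ (20 * n) / y ≤ x ^ (20 * n) := div_le_self (by positivity) hfac
    _ ≤ ((q : ℝ) ^ (-(1 / 2 : ℝ))) ^ (20 * n) := pow_le_pow_left₀ h0 h1 _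
    _ = (q : ℝ) ^ (-(6 * n : ℝ)) * (q : ℝ) ^ (-(4 * n : ℝ)) := by
        rw [← Real.rpow_natCast, ← Real.rpow_mul hq0.le, ← Real.rpow_add hq0]
        congr 1
        push_cast
        ring
    _ ≤ (q : ℝ) ^ (-(6 * n : ℝ)) * (1 / 2) := by
        refine mul_le_mul_of_nonneg_left ?_ (by positivity)
        calc (q : ℝ) ^ (-(4 * n : ℝ)) ≤ (q : ℝ) ^ (-1 : ℝ) :=
              Real.rpow_le_rpow_of_exponent_le (by linarith) (by linarith)
          _ = 1 / q := by rw [Real.rpow_neg_one, one_div]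
          _ ≤ 1 / 2 := one_div_le_one_div_of_le (by norm_num) hq2
    _ = _ := by ring

/-- one target set -/
lemma bound2 {M β τ : Type} [Fintype M] (Φ : M → Finset β) (hit : M → β → τ → Prop)
    (c C : ℝ) (q : ℕ) (hc : 0 < c) (hcq : 2 ≤ c * q)
    (hM : (Fintype.card M : ℝ) ≤ C * q)
    (hΦ : ∀ m, c * q ≤ (Φ m).card) (t : Finset τ)
    (hone : ∀ m, ∀ e ∈ t, ((Φ m).filter (fun w => hit m w e)).card ≤ 1)
    (hdis : ∀ m, ∀ w ∈ Φ m, ∀ e ∈ t, ∀ e' ∈ t, hit m w e → hit m w e' → e = e') :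
    pr Φ (fun ω => ∀ e ∈ t, ∃ m, hit m (ω m) e) ≤ (1 - Real.exp (-(2 * C / c))) ^ t.card := by
  have hcq0 : 0 < c * q := by linarith
  have hq0 : (0 : ℝ) < q := by
    by_contra h
    push Not at h
    nlinarith
  have hΦ0 : ∀ m, (0 : ℝ) < (Φ m).card := fun m => lt_of_lt_of_le hcq0 (hΦ m)
  have hne : ∀ m, (Φ m).Nonempty := fun m => card_pos.1 (by exact_mod_cast hΦ0 m)
  refine (ballsBins M β τ Φ t hit hne hdis).trans ?_
  rw [← prod_const]
  have hx : 1 / (c * q) ≤ 1 / 2 := one_div_le_one_div_of_le (by norm_num) hcq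
  have hx0 : 0 < 1 / (c * q) := by positivity
  have hδle : ∀ e ∈ t, Real.exp (-(2 * C / c)) ≤
      ∏ m, (1 - (((Φ m).filter (fun w => hit m w e)).card : ℝ) /
      (Φ m).card) ∧ ∏ m, (1 - (((Φ m).filter (fun w => hit m w e)).card : ℝ) /
      (Φ m).card) ≤ 1 := by
    intro e he
    have hp : ∀ m, (((Φ m).filter (fun w => hit m w e)).card : ℝ) / (Φ m).card ≤
        1 / (c * q) := by
      intro m
      have h1 : (((Φ m).filter (fun w => hit m w e)).card : ℝ) ≤ 1 := by
        exact_mod_cast hone m e he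
      calc _ ≤ (((Φ m).filter (fun w => hit m w e)).card : ℝ) / (c * q) :=
            div_le_div_of_nonneg_left (Nat.cast_nonneg _) hcq0 (hΦ m)
        _ ≤ _ := div_le_div_of_nonneg_right h1 hcq0.le
    have hp0 : ∀ m, (0 : ℝ) ≤ (((Φ m).filter (fun w => hit m w e)).card : ℝ) / (Φ m).card :=
      fun m => by positivity
    constructor
    · calc Real.exp (-(2 * C / c)) ≤ Real.exp (-(2 / (c * q))) ^ Fintype.card M := by
            rw [← Real.exp_nat_mul]
            refine Real.exp_le_exp.2 ?_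
            have h2 : (Fintype.card M : ℝ) * (2 / (c * q)) ≤ 2 * C / c := by
              calc (Fintype.card M : ℝ) * (2 / (c * q)) ≤ (C * q) * (2 / (c * q)) :=
                    mul_le_mul_of_nonneg_right hM (by positivity)
                _ = _ := by field_simp
            linarith
        _ ≤ (1 - 1 / (c * q)) ^ Fintype.card M := by
            refine pow_le_pow_left₀ (Real.exp_pos _).le ?_ _
            have h3 : Real.exp (-(2 / (c * q))) * (1 + 2 / (c * q)) ≤ 1 := by
              have h4 := Real.add_one_le_exp (2 / (c * q))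
              calc _ ≤ Real.exp (-(2 / (c * q))) * Real.exp (2 / (c * q)) :=
                    mul_le_mul_of_nonneg_left (by linarith) (Real.exp_pos _).le
                _ = 1 := by rw [← Real.exp_add]; simp
            have h5 : 2 / (c * q) = 2 * (1 / (c * q)) := by ring
            rw [h5] at h3 ⊢
            generalize 1 / (c * q) = x at *
            have h6 : 1 ≤ (1 - x) * (1 + 2 * x) := by nlinarith
            have h7 : 0 < 1 + 2 * x := by linarith
            refine le_of_mul_le_mul_right ?_ h7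
            linarith
        _ = ∏ _m : M, (1 - 1 / (c * q)) := by rw [prod_const, card_univ]
        _ ≤ _ := prod_le_prod (fun m _ => by linarith) fun m _ => by linarith [hp m]
    · exact prod_le_one (fun m _ => by linarith [hp m]) fun m _ => by linarith [hp0 m]
  exact prod_le_prod (fun e he => by linarith [(hδle e he).2])
    fun e he => by linarith [(hδle e he).1]

/-- numerics for the second event -/
lemma bound3 (c δ c₁ L : ℝ) (q n h : ℕ) (hδ : 0 < δ) (hL : 0 < L) (hq0 : (0 : ℝ) < q)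
    (hnR : (1 : ℝ) ≤ n) (hc₁L : c₁ * L ≤ δ / 4) (hH1 : c * (n : ℝ) ^ 2 ≤ h)
    (hb1 : 20 * L + Real.log 2 + 6 * Real.log q ≤ δ / 4 * c * n) :
    Real.exp ((c₁ * h + 20 * n) * L - δ / 2 * h) ≤ (q : ℝ) ^ (-(6 * n : ℝ)) / 2 := by
  have e1 : (q : ℝ) ^ (-(6 * n : ℝ)) / 2 = Real.exp (-(6 * n) * Real.log q - Real.log 2) := by
    rw [Real.exp_sub, Real.exp_log (by norm_num : (0 : ℝ) < 2), Real.rpow_def_of_pos hq0]
    congr 2
    ring
  rw [e1]
  refine Real.exp_le_exp.2 ?_
  have h1 : (c₁ * h + 20 * n) * L ≤ δ / 4 * h + 20 * n * L := by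
    rw [add_mul]
    have e2 : c₁ * h * L = (c₁ * L) * h := by ring
    rw [e2]
    have := mul_le_mul_of_nonneg_right hc₁L (Nat.cast_nonneg h : (0 : ℝ) ≤ h)
    linarith
  have h2 : δ / 4 * (c * (n : ℝ) ^ 2) ≤ δ / 4 * h :=
    mul_le_mul_of_nonneg_left hH1 (by positivity)
  have h3 : (n : ℝ) * (20 * L + Real.log 2 + 6 * Real.log q) ≤ n * (δ / 4 * c * n) :=
    mul_le_mul_of_nonneg_left hb1 (by positivity)
  have h4 : Real.log 2 ≤ n * Real.log 2 := by
    have := Real.log_pos (by norm_num : (1 : ℝ) < 2)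
    nlinarith
  have h5 : n * (δ / 4 * c * n) = δ / 4 * (c * (n : ℝ) ^ 2) := by ring
  linarith

end P4

theorem witnessAbs_of (hF : FewHits) : WitnessAbs := by
  intro c C hc hC
  obtain ⟨δ, hδdef⟩ : ∃ δ : ℝ, δ = Real.exp (-(2 * C / c)) := ⟨_, rfl⟩
  have hδ : 0 < δ := hδdef ▸ Real.exp_pos _
  have hδ1 : δ < 1 := by
    rw [hδdef, Real.exp_lt_one_iff]
    have : 0 < 2 * C / c := by positivity
    linarith
  obtain ⟨L, hL⟩ : ∃ L : ℝ, L = Real.log (2 / δ) := ⟨_, rfl⟩
  have hL0 : 0 < L := hL ▸ Real.log_pos (by rw [lt_div_iff₀ hδ]; linarith)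
  obtain ⟨c₁, hc₁⟩ : ∃ c₁ : ℝ, c₁ = min (1 / 2) (δ / 4 / L) := ⟨_, rfl⟩
  have hc₁0 : 0 < c₁ := hc₁ ▸ lt_min (by norm_num) (by positivity)
  have hc₁1 : c₁ < 1 := hc₁ ▸ lt_of_le_of_lt (min_le_left _ _) (by norm_num)
  have hc₁L : c₁ * L ≤ δ / 4 := by
    calc c₁ * L ≤ δ / 4 / L * L :=
          mul_le_mul_of_nonneg_right (hc₁ ▸ min_le_right _ _) hL0.le
      _ = _ := by field_simp
  refine ⟨c₁, hc₁0, hc₁1, ?_⟩
  obtain ⟨q₁, hq₁⟩ := large_lg (20 * L + Real.log 2) (δ / 4 * c)
    (by have := Real.log_pos (by norm_num : (1 : ℝ) < 2); positivity) (by positivity)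
  obtain ⟨q₂, hq₂⟩ := large_pow c hc
  obtain ⟨q₃, hq₃⟩ := exists_nat_ge (2 / c)
  refine ⟨max (max q₁ q₂) (max q₃ 2), ?_⟩
  intro q hq M β τ _ Φ H hit hM hΦ hH1 hH2 hone hmult
  have hqA : q₁ ≤ q := le_trans ((le_max_left _ _).trans (le_max_left _ _)) hq
  have hqB : q₂ ≤ q := le_trans ((le_max_right _ _).trans (le_max_left _ _)) hq
  have hqC : q₃ ≤ q := le_trans ((le_max_left _ _).trans (le_max_right _ _)) hq
  have hqD : 2 ≤ q := le_trans ((le_max_right _ _).trans (le_max_right _ _)) hq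
  have hb1 := hq₁ q hqA
  have hb2 := hq₂ q hqB
  have hq0 : (0 : ℝ) < q := by exact_mod_cast (by omega : 0 < q)
  have hq2 : (2 : ℝ) ≤ q := by exact_mod_cast hqD
  have hcq : 2 ≤ c * q := by
    have : 2 / c ≤ q := hq₃.trans (by exact_mod_cast hqC)
    rw [div_le_iff₀ hc] at this
    linarith
  have hcq0 : 0 < c * q := by linarith
  have hn1 : 1 ≤ lg q := by
    unfold lg
    exact Nat.one_le_pow _ _ (Nat.log_pos (by norm_num) hqD)
  generalize lg q = n at *
  have hnR : (1 : ℝ) ≤ n := by exact_mod_cast hn1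
  obtain ⟨I, hI⟩ : ∃ I : M → β → Prop,
      I = fun m w => ∃ e ∈ H, ∃ e' ∈ H, e ≠ e' ∧ hit m w e ∧ hit m w e' := ⟨_, rfl⟩
  have hI' : ∀ m w, I m w ↔ ∃ e ∈ H, ∃ e' ∈ H, e ≠ e' ∧ hit m w e ∧ hit m w e' := by
    intro m w; rw [hI]
  have hmult' : (∑ m, ((Φ m).filter (I m)).card) ≤ n ^ 4 := by
    refine le_trans (le_of_eq ?_) hmult
    refine sum_congr rfl fun m _ => ?_
    congr 1
    ext w
    simp only [mem_filter, hI']
  clear hI hmult
  obtain ⟨hit', hhit'⟩ : ∃ hit' : M → β → τ → Prop, ∀ m w e, hit' m w e ↔ hit m w e ∧ ¬ I m w :=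
    ⟨fun m w e => hit m w e ∧ ¬ I m w, fun _ _ _ => Iff.rfl⟩
  -- the two bad events
  have hE1 := bound1 hF Φ I c q n hc hq2 hcq0 hnR hΦ hb2 hmult'
  have hE2 : pr Φ (fun ω => ∃ t ∈ H.powerset.filter (fun t => (H.card : ℝ) - t.card ≤
      c₁ * H.card + 20 * n), ∀ e ∈ t, ∃ m, hit' m (ω m) e) ≤
      (q : ℝ) ^ (-(6 * n : ℝ)) / 2 := by
    refine (pr_exists_le Φ _ _).trans ?_
    have hBB : ∀ t ∈ H.powerset.filter (fun t => (H.card : ℝ) - t.card ≤
        c₁ * H.card + 20 * n), pr Φ (fun ω => ∀ e ∈ t, ∃ m, hit' m (ω m) e) ≤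
        (1 - δ) ^ t.card := by
      intro t ht
      have htH : t ⊆ H := mem_powerset.1 (mem_filter.1 ht).1
      rw [hδdef]
      refine bound2 Φ hit' c C q hc hcq hM hΦ t ?_ ?_
      · intro m e he
        refine le_trans (card_le_card fun w hw => ?_) (hone m e (htH he))
        rw [mem_filter] at hw ⊢
        exact ⟨hw.1, ((hhit' _ _ _).1 hw.2).1⟩
      · intro m w _ e he e' he' h1 h2
        rw [hhit'] at h1 h2
        by_contra hcon
        exact h1.2 ((hI' _ _).2 ⟨e, htH he, e', htH he', hcon, h1.1, h2.1⟩)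
    refine (sum_le_sum hBB).trans ((count H δ _ hδ hδ1).trans ?_)
    rw [← hL]
    exact bound3 c δ c₁ L q n H.card hδ hL0 hq0 hnR hc₁L hH1 hb1
  -- inclusion
  have hincl : pr Φ (fun ω => ∃ H' ⊆ H, (1 - c₁) * H.card ≤ (H'.card : ℝ) ∧
        ∃ ψ : τ → M, Set.InjOn ψ H' ∧ ∀ e ∈ H', hit (ψ e) (ω (ψ e)) e) ≤
      pr Φ (fun ω => 20 * n ≤ (univ.filter (fun m => I m (ω m))).card ∨
        ∃ t ∈ H.powerset.filter (fun t => (H.card : ℝ) - t.card ≤
          c₁ * H.card + 20 * n), ∀ e ∈ t, ∃ m, hit' m (ω m) e) := by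
    refine pr_mono fun ω _ h => ?_
    obtain ⟨H', hH', hcard, ψ, hψ, hhit⟩ := h
    by_cases hfew : 20 * n ≤ (univ.filter (fun m => I m (ω m))).card
    · exact Or.inl hfew
    · right
      push Not at hfew
      refine ⟨H'.filter fun e => ¬ I (ψ e) (ω (ψ e)), ?_, ?_⟩
      · rw [mem_filter, mem_powerset]
        refine ⟨(filter_subset _ _).trans hH', ?_⟩
        have h1 : (H'.filter fun e => I (ψ e) (ω (ψ e))).card ≤
            (univ.filter (fun m => I m (ω m))).card := by
          refine card_le_card_of_injOn ψ ?_ ?_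
          · intro e he
            have := (mem_filter.1 he).2
            exact mem_filter.2 ⟨mem_univ _, this⟩
          · exact hψ.mono (filter_subset _ _)
        have h2 := card_filter_add_card_filter_not (s := H') (fun e => I (ψ e) (ω (ψ e)))
        have h3 : (H'.card : ℝ) ≤ 20 * n + (H'.filter fun e => ¬ I (ψ e) (ω (ψ e))).card := by
          have : H'.card ≤ 20 * n + (H'.filter fun e => ¬ I (ψ e) (ω (ψ e))).card := by omega
          exact_mod_cast this
        linarith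
      · intro e he
        rw [mem_filter] at he
        exact ⟨ψ e, (hhit' _ _ _).2 ⟨hhit e he.1, he.2⟩⟩
  refine hincl.trans ((pr_or_le _ _ _).trans ?_)
  linarith

end Crest.Agent.R34
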