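import Crest.Agent.R34.Asm
import Crest.Agent.R34.A1
import Crest.Agent.R34.A2
import Crest.Agent.R34.A3
import Crest.Agent.R34.B1
import Crest.Agent.R34.C1
import Crest.Agent.R34.C2
import Crest.Agent.R34.C3
import Crest.Agent.R34.D1
import Crest.Agent.R34.E1
import Crest.Agent.R34.E2
import Crest.Agent.R34.E3
import Crest.Agent.R34.H1
import Crest.Agent.R34.H2
import Crest.Agent.R34.H3
import Crest.Agent.R34.H4
import Crest.Agent.R34.I1
import Crest.Agent.R34.I2
import Crest.Agent.R34.I3
import Crest.Agent.R34.I4
import Crest.Agent.R34.P1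
import Crest.Agent.R34.P2
import Crest.Agent.R34.P3
import Crest.Agent.R34.P4

set_option autoImplicit false

namespace Crest.Agent.R34

theorem mainThm : MainThm := by
  have hGL : GoodLower := goodLower_of mcdiarmid
  have hW : WitnessAbs := witnessAbs_of fewHits
  have hInc : INC := inc_of (noConfig_of (commonSet_of bsg) fieldPart)
  exact mainThm_of
    (stageA_of (taskAdeg mcdiarmid) (taskAfew fewHits) (taskAgood hGL) (taskAwit hW))
    (stageB_of hGL)
    (stageC_of (taskCfew fewHits) (taskCwts mcdiarmid) (taskCwit hW) (taskCgood hGL))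
    (stageD_of fiveEvents)
    (coverThm_of excessThm nonSpread (spreadThm_of hInc))
    (hyperThm_of edgesMeet casePart caseLine caseBase)

end Crest.Agent.R34
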